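import Crest.Agent.R113.Defs

set_option autoImplicit false
set_option linter.unusedSectionVars false
open Matrix
open scoped ComplexOrder

namespace Crest.Agent.R113
variable {ι : Type*} [Fintype ι] [DecidableEq ι]
variable {β : Type*} [Fintype β] [DecidableEq β] {N : ℕ}

theorem Blk.mem_K (B : Blk ι β N) (j : ι) : j ∈ B.K ↔ B.blk j ≠ none := by
  simp [Blk.K]
theorem Blk.mem_bl (B : Blk ι β N) (b : β) (j : ι) : j ∈ B.bl b ↔ B.blk j = some b := by
  simp [Blk.bl]
theorem Blk.sum_bl (B : Blk ι β N) (b : β) (F : ι → ℝ) :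
    ∑ j ∈ B.bl b, F j = ∑ l ∈ Finset.range N, F (B.site b l) := by
  refine Finset.sum_nbij' B.pos (B.site b) (fun j hj => ?_) (fun l hl => ?_) (fun j hj => ?_)
    (fun l hl => ?_) (fun j hj => ?_)
  · exact Finset.mem_range.2 (B.pos_lt j b ((B.mem_bl b j).1 hj))
  · exact (B.mem_bl b _).2 (B.blk_site b l (Finset.mem_range.1 hl))
  · exact B.site_pos j b ((B.mem_bl b j).1 hj)
  · exact B.pos_site b l (Finset.mem_range.1 hl)
  · rw [B.site_pos j b ((B.mem_bl b j).1 hj)]
theorem Blk.sum_K (B : Blk ι β N) (F : ι → ℝ) : ∑ j ∈ B.K, F j = ∑ b, ∑ j ∈ B.bl b, F j := by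
  simp only [Blk.K, Blk.bl, Finset.sum_filter]
  rw [Finset.sum_comm]
  refine Finset.sum_congr rfl fun j _ => ?_
  cases B.blk j with
  | none => simp
  | some b => simp
theorem Blk.card_bl (B : Blk ι β N) (b : β) : (B.bl b).card = N := by
  have := B.sum_bl b fun _ => 1
  simp only [Finset.sum_const, nsmul_eq_mul, mul_one, Finset.card_range] at this
  exact_mod_cast this
theorem Blk.card_K (B : Blk ι β N) : B.K.card = N * Fintype.card β := by
  have := B.sum_K fun _ => 1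
  simp only [Finset.sum_const, nsmul_eq_mul, mul_one, B.card_bl, Finset.card_univ] at this
  rw [mul_comm]
  exact_mod_cast this
theorem Blk.ht_site (B : Blk ι β N) (b : β) {l : ℕ} (hl : l < N) :
    B.ht (B.site b l) = (N : ℝ) - l := by
  simp [Blk.ht, B.blk_site b l hl, B.pos_site b l hl]
theorem Blk.mv_site (B : Blk ι β N) (m : β → ℝ) (b : β) {l : ℕ} (hl : l < N) :
    B.mv m (B.site b l) = m b := by
  simp [Blk.mv, B.blk_site b l hl]
theorem Blk.ht_bounds (B : Blk ι β N) (j : ι) : 0 ≤ B.ht j ∧ B.ht j ≤ N := by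
  unfold Blk.ht
  split_ifs with h
  · exact ⟨le_rfl, Nat.cast_nonneg N⟩
  · obtain ⟨b, hb⟩ := Option.ne_none_iff_exists'.1 h
    have h1 : (B.pos j : ℝ) < N := by exact_mod_cast B.pos_lt j b hb
    have h2 : (0 : ℝ) ≤ B.pos j := Nat.cast_nonneg _
    constructor <;> linarith
theorem Blk.mem_prs (B : Blk ι β N) (n : ℕ) (q : ι × ι) :
    q ∈ B.prs n ↔ ∃ b l, l + n < N ∧ q = (B.site b l, B.site b (l + n)) := by
  simp only [Blk.prs, Finset.mem_filter, Finset.mem_univ, true_and]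
  constructor
  · rintro ⟨h1, h2, h3⟩
    obtain ⟨b, hb⟩ := Option.ne_none_iff_exists'.1 h1
    have hb2 := h2.trans hb
    refine ⟨b, B.pos q.1, h3 ▸ B.pos_lt _ b hb2, ?_⟩
    rw [← h3, B.site_pos _ b hb, B.site_pos _ b hb2]
  · rintro ⟨b, l, h, rfl⟩
    have hl : l < N := by omega
    simp [B.blk_site b l hl, B.blk_site b _ h, B.pos_site b l hl, B.pos_site b _ h]
theorem Blk.sum_prs (B : Blk ι β N) (n : ℕ) (F : ι → ι → ℝ) :
    ∑ q ∈ B.prs n, F q.1 q.2
      = ∑ b, ∑ l ∈ Finset.range (N - n), F (B.site b l) (B.site b (l + n)) := by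
  have e : B.prs n = (Finset.univ ×ˢ Finset.range (N - n)).image
      fun p : β × ℕ => (B.site p.1 p.2, B.site p.1 (p.2 + n)) := by
    ext q
    rw [B.mem_prs, Finset.mem_image]
    constructor
    · rintro ⟨b, l, h, rfl⟩
      exact ⟨(b, l), by simp; omega, rfl⟩
    · rintro ⟨⟨b, l⟩, h, rfl⟩
      simp only [Finset.mem_product, Finset.mem_univ, Finset.mem_range, true_and] at h
      exact ⟨b, l, by omega, rfl⟩
  rw [e, Finset.sum_image, Finset.sum_product]
  rintro ⟨b, l⟩ h ⟨b', l'⟩ h' he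
  simp only [Finset.coe_product, Finset.coe_univ, Finset.coe_range, Set.mem_prod, Set.mem_univ,
    Set.mem_Iio, true_and] at h h'
  have h1 : B.site b l = B.site b' l' := congrArg Prod.fst he
  have h2 := congrArg B.blk h1
  have h3 := congrArg B.pos h1
  rw [B.blk_site b l (by omega), B.blk_site b' l' (by omega)] at h2
  rw [B.pos_site b l (by omega), B.pos_site b' l' (by omega)] at h3
  rw [Option.some.inj h2, h3]
/-- all ordered pairs inside blocks, sorted by distance -/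
theorem Blk.sum_pairs (B : Blk ι β N) (F : ι → ι → ℝ) :
    ∑ b, ∑ l' ∈ Finset.range N, ∑ l ∈ Finset.range l', F (B.site b l) (B.site b l')
      = ∑ n ∈ Finset.Ico 1 N, ∑ q ∈ B.prs n, F q.1 q.2 := by
  simp only [B.sum_prs]
  rw [Finset.sum_comm (s := Finset.Ico 1 N)]
  refine Finset.sum_congr rfl fun b _ => ?_
  rw [Finset.sum_sigma', Finset.sum_sigma']
  refine Finset.sum_nbij' (fun p => ⟨p.1 - p.2, p.2⟩) (fun p => ⟨p.2 + p.1, p.2⟩) ?_ ?_ ?_ ?_ ?_
  · rintro ⟨a, c⟩ h
    simp only [Finset.mem_sigma, Finset.mem_range, Finset.mem_Ico] at h ⊢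
    omega
  · rintro ⟨a, c⟩ h
    simp only [Finset.mem_sigma, Finset.mem_range, Finset.mem_Ico] at h ⊢
    omega
  · rintro ⟨a, c⟩ h
    simp only [Finset.mem_sigma, Finset.mem_range] at h
    simp only [Sigma.mk.injEq, heq_eq_eq, and_true]
    omega
  · rintro ⟨a, c⟩ _
    simp only [Sigma.mk.injEq, heq_eq_eq, and_true]
    omega
  · rintro ⟨a, c⟩ h
    simp only [Finset.mem_sigma, Finset.mem_range] at h
    simp only
    rw [show c + (a - c) = a by omega]

/-- the step lemma -/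
theorem stepD (x : ℕ → ℝ) (hx : ∀ l, 0 ≤ x l ∧ x l ≤ 1) {N m : ℕ} (hN : 1 ≤ N) (hm : m ≤ N)
    {ξ : ℝ} (hξ : 0 < ξ) :
    min (m : ℝ) (∑ l ∈ Finset.range N, x l) - ξ * N
        - (∑ l' ∈ Finset.range N, ∑ l ∈ Finset.range l', x l * (1 - x l')) / (ξ * N)
      ≤ ∑ l ∈ Finset.Ico (N - m) N, x l := by
  have hc : 0 < ξ * N := mul_pos hξ (by exact_mod_cast hN)
  have hp : ∀ l l', 0 ≤ x l * (1 - x l') := fun l l' => mul_nonneg (hx l).1 (sub_nonneg.2 (hx l').2)
  have h1 : ∑ l ∈ Finset.range (N - m), x l + ∑ l ∈ Finset.Ico (N - m) N, x l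
      = ∑ l ∈ Finset.range N, x l := Finset.sum_range_add_sum_Ico x (Nat.sub_le N m)
  have h2 : ∑ l ∈ Finset.Ico (N - m) N, (1 - x l) = m - ∑ l ∈ Finset.Ico (N - m) N, x l := by
    rw [Finset.sum_sub_distrib, Finset.sum_const, Nat.card_Ico, show N - (N - m) = m by omega]
    simp
  have h3 : (∑ l ∈ Finset.range (N - m), x l) * ∑ l ∈ Finset.Ico (N - m) N, (1 - x l)
      ≤ ∑ l' ∈ Finset.range N, ∑ l ∈ Finset.range l', x l * (1 - x l') := by
    rw [Finset.mul_sum]
    refine le_trans (Finset.sum_le_sum fun l' hl' => ?_) (Finset.sum_le_sum_of_subset_of_nonneg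
      (fun l hl => Finset.mem_range.2 (Finset.mem_Ico.1 hl).2)
      fun l' _ _ => Finset.sum_nonneg fun l _ => hp l l')
    rw [Finset.sum_mul]
    exact Finset.sum_le_sum_of_subset_of_nonneg
      (Finset.range_mono (Finset.mem_Ico.1 hl').1) fun l _ _ => hp l l'
  have h4 : 0 ≤ ∑ l ∈ Finset.Ico (N - m) N, (1 - x l) :=
    Finset.sum_nonneg fun l _ => sub_nonneg.2 (hx l).2
  have h5 : 0 ≤ ∑ l' ∈ Finset.range N, ∑ l ∈ Finset.range l', x l * (1 - x l') :=
    Finset.sum_nonneg fun l' _ => Finset.sum_nonneg fun l _ => hp l l'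
  have h6 := div_nonneg h5 hc.le
  rcases le_total (∑ l ∈ Finset.range (N - m), x l) (ξ * N) with h | h
  · have := min_le_right (m : ℝ) (∑ l ∈ Finset.range N, x l)
    linarith
  · have := min_le_left (m : ℝ) (∑ l ∈ Finset.range N, x l)
    have h7 := (le_div_iff₀' hc).2 ((mul_le_mul_of_nonneg_right h h4).trans h3)
    linarith

/-- segment sums through short averages -/
theorem stepE (π : ℤ → ℝ) (hπ : ∀ j, 0 ≤ π j ∧ π j ≤ 1) {t : ℝ} (ht : 0 ≤ t ∧ t ≤ 1) {n : ℕ}
    (hn : 1 ≤ n) (u : ℤ) (m : ℕ) :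
    |(∑ i ∈ Finset.range m, π (u + i)) - t * m|
      ≤ (∑ i ∈ Finset.range m, dev π t n (u + i)) + 2 * n := by
  have _ := ht
  have hn0 : (0 : ℝ) < n := by exact_mod_cast hn
  have h1 : ∀ k : ℕ, |∑ i ∈ Finset.range m, π (u + i) - ∑ i ∈ Finset.range m, π (u + i + k)| ≤ k := by
    intro k
    induction k with
    | zero => simp
    | succ k ih =>
      have e1 := Finset.sum_range_succ (fun i : ℕ => π (u + i + k)) m
      have e2 := Finset.sum_range_succ' (fun i : ℕ => π (u + i + k)) m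
      have e3 : ∑ i ∈ Finset.range m, π (u + ((i + 1 : ℕ) : ℤ) + k)
          = ∑ i ∈ Finset.range m, π (u + i + ((k + 1 : ℕ) : ℤ)) :=
        Finset.sum_congr rfl fun i _ => by congr 1; push_cast; ring
      rw [e3] at e2
      have a1 := hπ (u + m + k)
      have a2 := hπ (u + ((0 : ℕ) : ℤ) + k)
      rw [abs_le] at ih ⊢
      push_cast
      push_cast at e2 a2
      constructor <;> linarith [ih.1, ih.2, a1.1, a1.2, a2.1, a2.2]
  have h2 : |∑ i ∈ Finset.range m, π (u + i)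
      - ∑ i ∈ Finset.range m, (∑ k ∈ Finset.range n, π (u + i + k)) / n| ≤ n := by
    have e : ∑ i ∈ Finset.range m, π (u + i)
        - ∑ i ∈ Finset.range m, (∑ k ∈ Finset.range n, π (u + i + k)) / n
        = (∑ k ∈ Finset.range n, (∑ i ∈ Finset.range m, π (u + i)
          - ∑ i ∈ Finset.range m, π (u + i + k))) / n := by
      rw [← Finset.sum_div, Finset.sum_comm, Finset.sum_sub_distrib, Finset.sum_const,
        Finset.card_range, nsmul_eq_mul]
      field_simp
    rw [e, abs_div, abs_of_pos hn0, div_le_iff₀ hn0]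
    refine (Finset.abs_sum_le_sum_abs _ _).trans
      ((Finset.sum_le_card_nsmul _ _ (n : ℝ) fun k hk => (h1 k).trans ?_).trans ?_)
    · exact_mod_cast (Finset.mem_range.1 hk).le
    · rw [Finset.card_range, nsmul_eq_mul]
  have h3 : |∑ i ∈ Finset.range m, (∑ k ∈ Finset.range n, π (u + i + k)) / n - t * m|
      ≤ ∑ i ∈ Finset.range m, dev π t n (u + i) := by
    refine le_of_eq_of_le ?_ (Finset.abs_sum_le_sum_abs
      (fun i : ℕ => (∑ k ∈ Finset.range n, π (u + i + k)) / n - t) (Finset.range m))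
    rw [Finset.sum_sub_distrib, Finset.sum_const, Finset.card_range, nsmul_eq_mul, mul_comm t]
  have h4 := abs_sub_le (∑ i ∈ Finset.range m, π (u + i))
    (∑ i ∈ Finset.range m, (∑ k ∈ Finset.range n, π (u + i + k)) / n) (t * m)
  linarith

end Crest.Agent.R113
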