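import Crest.Agent.R113.Bal
import Crest.Agent.R113.BlkB

set_option autoImplicit false
open Matrix
open scoped ComplexOrder

namespace Crest.Agent.R113
variable {ι : Type*} [Fintype ι] [DecidableEq ι]
variable {β : Type*} [Fintype β] [DecidableEq β] {N : ℕ}
variable {T : Type*} [Fintype T]

theorem Om_ge {Q : ℝ} (hQ : 5 ≤ Q) : Q ≤ Om Q ∧ 2 ≤ Om Q := by
  have h1 := Real.add_one_le_exp (Q ^ 5)
  have h2 : Q ^ 1 ≤ Q ^ 5 := pow_le_pow_right₀ (by linarith) (by norm_num)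
  rw [pow_one] at h2
  unfold Om
  constructor <;> linarith

theorem Sit.OK.av_bounds {A : Sit ι β T N} {Q κm c : ℝ} (h : A.OK Q κm c) {s : ℝ} {m : β → ℝ}
    (hs0 : 0 ≤ s ∧ s ≤ 2 * Q ^ 3) (hm : ∀ b, 0 ≤ m b ∧ m b ≤ N) :
    (∀ j ∈ A.B.K, 1 ≤ A.B.av (A.base Q) s m j ∧ A.B.av (A.base Q) s m j ≤ Om Q) ∧
      ∀ j, j ∉ A.B.K → A.B.av (A.base Q) s m j = Om Q ^ 3 := by
  have hQ := h.Q_ge
  have hN := h.N_le
  constructor
  · intro j hj
    have hb := (A.B.mem_K j).1 hj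
    obtain ⟨b, hb'⟩ := Option.ne_none_iff_exists'.1 hb
    have e1 : A.B.mv m j = m b := by simp [Blk.mv, hb']
    have e2 := A.B.ht_bounds j
    have e3 := hm b
    have e4 : 0 ≤ Real.log (A.bw j) := Real.log_nonneg (h.bw_ge j)
    have e5 : Real.log (A.bw j) ≤ Q := by
      have := Real.log_le_sub_one_of_pos (show 0 < A.bw j by linarith [h.bw_ge j])
      linarith [h.bw_le j]
    have e6 : |s * (A.B.ht j - m b)| ≤ 2 * Q ^ 4 := by
      rw [abs_mul, abs_of_nonneg hs0.1]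
      have : |A.B.ht j - m b| ≤ Q := by
        rw [abs_le]; constructor <;> linarith [e2.1, e2.2, e3.1, e3.2]
      calc s * |A.B.ht j - m b| ≤ 2 * Q ^ 3 * Q :=
            mul_le_mul hs0.2 this (abs_nonneg _) (by positivity)
        _ = 2 * Q ^ 4 := by ring
    rw [abs_le] at e6
    have e7 : Q ^ 1 ≤ Q ^ 4 := pow_le_pow_right₀ (by linarith) (by norm_num)
    rw [pow_one] at e7
    have e8 : 5 * Q ^ 4 ≤ Q ^ 5 := by
      rw [pow_succ Q 4, mul_comm]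
      exact mul_le_mul_of_nonneg_left hQ (by positivity)
    unfold Blk.av Sit.base Om
    rw [if_neg hb, e1]
    exact ⟨Real.one_le_exp (by linarith [e6.1]), Real.exp_le_exp.2 (by linarith [e6.2])⟩
  · intro j hj
    have hb : A.B.blk j = none := by
      by_contra hb
      exact hj ((A.B.mem_K j).2 hb)
    unfold Blk.av Sit.base Om Blk.ht Blk.mv
    rw [if_pos hb, if_pos hb, hb, ← Real.exp_nat_mul]
    simp

theorem Sit.OK.absA {A : Sit ι β T N} {Q κm c : ℝ} (h : A.OK Q κm c) {ε : ℝ} (hε : 0 < ε)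
    {a : ι → ℝ} (h1 : ∀ j ∈ A.B.K, 1 ≤ a j ∧ a j ≤ Om Q) (h2 : ∀ j, j ∉ A.B.K → a j = Om Q ^ 3) :
    0 ≤ A.toTst.Γ κm (Om Q ^ 5) ε ∧
    dsum A.B.Kᶜ (Ra ε A.P a) - dsum A.B.Kᶜ A.P
      ≤ A.toTst.Γ κm (Om Q ^ 5) ε + 3 * (A.C \ A.B.K).card ∧
    crs A.B.K (Ra ε A.P a) ≤ 8 * (A.toTst.Γ κm (Om Q ^ 5) ε + 3 * (A.C \ A.B.K).card)
      + 2 * Fintype.card ι / Om Q ^ 4 ∧
    ∃ M₁ : Matrix ι ι ℂ,
      (M₁.rank : ℝ) ≤ 8 * (A.toTst.Γ κm (Om Q ^ 5) ε + 3 * (A.C \ A.B.K).card) ∧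
      hs (ind A.B.Kᶜ * Ra ε A.P a * ind A.B.K - M₁) ≤ 2 * Fintype.card ι / Om Q ^ 4 := by
  have hΩ := (Om_ge h.Q_ge).2
  have hΩ1 : 1 ≤ Om Q := by linarith
  have hp : ∀ {k l : ℕ}, k ≤ l → Om Q ^ k ≤ Om Q ^ l := fun hkl => pow_le_pow_right₀ hΩ1 hkl
  have h5 : 1 ≤ Om Q ^ 5 := one_le_pow₀ hΩ1
  have h15 : Om Q ≤ Om Q ^ 5 := by simpa using hp (show 1 ≤ 5 by norm_num)
  have h57 : Om Q ^ 5 ≤ Th Q := hp (by norm_num)
  have hL : 0 ≤ ε * Fintype.card ι := by positivity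
  have hP := h.tst.hP
  have hR := Ra_ctr hP.1 hε a
  have key : ∀ a' : ι → ℝ, (∀ j, 1 ≤ a' j ∧ a' j ≤ Om Q ^ 5) →
      dsum A.B.Kᶜ (Ra ε A.P a') - dsum A.B.Kᶜ A.P ≤ A.toTst.Γ κm (Om Q ^ 5) ε +
        3 * (A.C \ A.B.K).card - 2 * (ε * Fintype.card ι) := by
    intro a' ha'
    have e1 := h.tst.fwdB hε h57 ha' h5 A.B.Kᶜ (Finset.compl_subset_compl.2 h.K_sub)
    have e2 : A.C ∩ A.B.Kᶜ = A.C \ A.B.K := by
      ext j; simp
    have e3 : A.B.Kᶜ = A.Cᶜ ∪ (A.C \ A.B.K) := by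
      ext j
      have := @h.K_sub j
      simp only [Finset.mem_compl, Finset.mem_union, Finset.mem_sdiff]
      tauto
    have e4 : Disjoint A.Cᶜ (A.C \ A.B.K) :=
      Finset.disjoint_left.2 fun j hj hj' => Finset.mem_compl.1 hj (Finset.mem_sdiff.1 hj').1
    have e5 : ∀ M : Matrix ι ι ℂ, dsum A.B.Kᶜ M = dsum A.Cᶜ M + dsum (A.C \ A.B.K) M := fun M => by
      rw [e3, dsum, Finset.sum_union e4]; rfl
    have e6 : dsum (A.C \ A.B.K) A.Pp ≤ (A.C \ A.B.K).card := by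
      refine (Finset.sum_le_card_nsmul _ _ 1 fun j _ => h.tst.hPp.de_le_one j).trans ?_
      simp
    have e7 : 0 ≤ dsum (A.C \ A.B.K) A.P := Finset.sum_nonneg fun j _ => de_nonneg hP.1 j
    rw [e2, e5 A.Pp] at e1
    rw [e5 A.P, Tst.Γ, Tst.γ0]
    linarith
  have hc : 0 < (Om Q ^ 2)⁻¹ := by positivity
  have hc2 : (Om Q ^ 2)⁻¹ ≤ 1 / 2 := by
    rw [inv_le_comm₀ (by positivity) (by norm_num)]
    nlinarith
  obtain ⟨M₁, hM1, hM2⟩ := crossRank hP.1 hε hc hc2 a A.B.Kᶜ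
  have up := key (sc A.B.Kᶜ (Om Q ^ 2)⁻¹⁻¹ a) fun j => by
    unfold sc
    split_ifs with hj
    · rw [inv_inv, h2 j (Finset.mem_compl.1 hj), ← pow_add]
      exact ⟨h5, le_rfl⟩
    · have := h1 j (by simpa using hj)
      exact ⟨this.1, this.2.trans h15⟩
  have e8 : (Om Q ^ 2)⁻¹ * Om Q ^ 3 = Om Q := by field_simp
  have lo := lowB hP hε hΩ1 (a := sc A.B.Kᶜ (Om Q ^ 2)⁻¹ a) (fun j => by
      unfold sc
      split_ifs with hj
      · rw [h2 j (Finset.mem_compl.1 hj), e8]; linarith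
      · linarith [(h1 j (by simpa using hj)).1]) A.B.Kᶜ
    (fun j hj => by rw [sc, if_pos hj, h2 j (Finset.mem_compl.1 hj), e8])
    (fun j hj => by rw [sc, if_neg hj]; exact (h1 j (by simpa using hj)).2)
  have hrank : (M₁.rank : ℝ) ≤ 8 * (A.toTst.Γ κm (Om Q ^ 5) ε + 3 * (A.C \ A.B.K).card) := by
    linarith
  have e9 : 2 * (Om Q ^ 2)⁻¹ ^ 2 * Fintype.card ι = 2 * Fintype.card ι / Om Q ^ 4 := by
    field_simp
  rw [e9] at hM2
  refine ⟨?_, ?_, ?_, M₁, hrank, by simpa only [compl_compl] using hM2⟩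
  · exact (Finset.sum_nonneg fun j _ => abs_nonneg _).trans
      (h.tst.gam hε h57 h5 (a := fun _ => Om Q ^ 5) (fun _ => ⟨h5, le_rfl⟩) fun _ _ => rfl)
  · have := key a fun j => by
      by_cases hj : j ∈ A.B.K
      · exact ⟨(h1 j hj).1, (h1 j hj).2.trans h15⟩
      · rw [h2 j hj]
        exact ⟨one_le_pow₀ hΩ1, hp (by norm_num)⟩
    linarith
  · have e1 : crs A.B.K (Ra ε A.P a) = crs A.B.Kᶜ (Ra ε A.P a) := by
      rw [crs, crs, compl_compl, Finset.sum_comm]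
      exact Finset.sum_congr rfl fun j _ => Finset.sum_congr rfl fun k _ => by
        rw [hR.norm_symm]
    have e2 : Bd 1 (ind A.B.Kᶜ * Ra ε A.P a * ind A.B.Kᶜᶜ) := by
      simpa only [mul_one] using ((Bd_ind A.B.Kᶜ).mul hR.bd).mul (Bd_ind A.B.Kᶜᶜ)
    have e3 := hs_le_rank e2 M₁
    rw [hs_ind_mul_ind] at e3
    rw [e1]
    linarith

end Crest.Agent.R113
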