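import Crest.Agent.R113.AbsA

set_option autoImplicit false
open Matrix
open scoped ComplexOrder

namespace Crest.Agent.R113
variable {ι : Type*} [Fintype ι] [DecidableEq ι]
variable {β : Type*} [Fintype β] [DecidableEq β] {N : ℕ}
variable {T : Type*} [Fintype T]

namespace AbsDX

/-- the top `μ b` sites of each block -/
def top (B : Blk ι β N) (μ : β → ℕ) : Finset ι :=
  Finset.univ.filter fun j => ∃ b, B.blk j = some b ∧ N - μ b ≤ B.pos j

omit [DecidableEq ι] in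
theorem mem_top (B : Blk ι β N) (μ : β → ℕ) (b : β) {l : ℕ} (hl : l < N) :
    B.site b l ∈ top B μ ↔ N - μ b ≤ l := by
  simp only [top, Finset.mem_filter, Finset.mem_univ, true_and, B.blk_site b l hl, B.pos_site b l hl]
  constructor
  · rintro ⟨b', hb, h⟩
    rwa [← Option.some_injective _ hb] at h
  · exact fun h => ⟨b, rfl, h⟩

theorem sum_top (B : Blk ι β N) (μ : β → ℕ) (F : ι → ℝ) :
    ∑ j ∈ top B μ, F j = ∑ b, ∑ l ∈ Finset.Ico (N - μ b) N, F (B.site b l) := by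
  have hsub : top B μ ⊆ B.K := by
    intro j hj
    obtain ⟨b, hb, -⟩ := (Finset.mem_filter.1 hj).2
    rw [B.mem_K, hb]
    exact Option.some_ne_none b
  have h1 : ∑ j ∈ top B μ, F j = ∑ j ∈ B.K, if j ∈ top B μ then F j else 0 := by
    rw [← Finset.sum_filter, Finset.filter_mem_eq_inter, Finset.inter_eq_right.2 hsub]
  rw [h1, B.sum_K]
  refine Finset.sum_congr rfl fun b _ => ?_
  rw [B.sum_bl]
  have h2 : Finset.Ico (N - μ b) N = (Finset.range N).filter fun l => N - μ b ≤ l := by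
    ext l
    simp only [Finset.mem_Ico, Finset.mem_filter, Finset.mem_range]
    exact and_comm
  rw [h2, Finset.sum_filter]
  refine Finset.sum_congr rfl fun l hl => ?_
  simp only [mem_top B μ b (Finset.mem_range.1 hl)]

theorem av_site (A : Sit ι β T N) (Q s : ℝ) (m : β → ℝ) (b : β) {l : ℕ} (hl : l < N) :
    A.B.av (A.base Q) s m (A.B.site b l) =
      Real.exp (2 * Q ^ 4 + Real.log (A.bw (A.B.site b l)) + s * ((N : ℝ) - l - m b)) := by
  simp only [Blk.av, Sit.base, A.B.blk_site b l hl, A.B.ht_site b hl, A.B.mv_site m b hl]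
  simp

theorem exists_site (B : Blk ι β N) {j : ι} (hj : j ∈ B.K) : ∃ b l, l < N ∧ j = B.site b l := by
  rw [B.mem_K] at hj
  obtain ⟨b, hb⟩ := Option.ne_none_iff_exists'.1 hj
  exact ⟨b, B.pos j, B.pos_lt j b hb, (B.site_pos j b hb).symm⟩

end AbsDX

open AbsDX in
theorem Sit.OK.absD {A : Sit ι β T N} {Q κm c : ℝ} (h : A.OK Q κm c) {ε s t ξ Dv Er Γ₁ : ℝ}
    (hε : 0 < ε) {m : β → ℝ} (hs0 : Q ≤ s ∧ s ≤ 2 * Q ^ 3) (hm : ∀ b, 0 ≤ m b ∧ m b ≤ N)
    (ht : 0 ≤ t ∧ t ≤ 1) (hξ : 0 < ξ) (hDv : 0 ≤ Dv) (hEr : 0 ≤ Er) (hΓ : 0 ≤ Γ₁)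
    (htop : ∀ μ : β → ℕ, (∀ b, μ b ≤ N) →
      ∑ b, ∑ l ∈ Finset.Ico (N - μ b) N, de A.P (A.B.site b l) ≤ t * ∑ b, (μ b : ℝ) + Dv)
    (htot : t * A.B.K.card - Dv ≤ dsum A.B.K A.P)
    (hprs : ∀ n, 1 ≤ n → n < N → ∑ q ∈ A.B.prs n, de (Ra ε A.P (A.B.av (A.base Q) s m)) q.1
        * (1 - de (Ra ε A.P (A.B.av (A.base Q) s m)) q.2) ≤ Er)
    (hO : dsum A.B.Kᶜ (Ra ε A.P (A.B.av (A.base Q) s m)) - dsum A.B.Kᶜ A.P ≤ Γ₁) :
    t * (1 - t) * A.B.K.card ≤ ξ * A.B.K.card + Er / ξ + 3 * Fintype.card β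
      + 2 * (∑ b, |dsum (A.B.bl b) (Ra ε A.P (A.B.av (A.base Q) s m)) - m b|) + 2 * Dv + Γ₁
      + ε * Fintype.card ι + Om Q ^ 2 * dfc A.P / ε := by
  have hQ := h.Q_ge
  have hs1 : 0 ≤ s := by linarith [hs0.1]
  obtain ⟨ha1, ha2⟩ := h.av_bounds ⟨hs1, hs0.2⟩ hm
  obtain ⟨-, hΩ2⟩ := Om_ge hQ
  set a := A.B.av (A.base Q) s m with ha
  set R := Ra ε A.P a with hR
  have hP : Ctr A.P := h.tst.hP
  have hRc : Ctr R := Ra_ctr hP.1 hε a
  have hapos : ∀ j, 0 < a j := fun j => Real.exp_pos _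
  have haone : ∀ j, 1 ≤ a j := by
    intro j
    by_cases hj : j ∈ A.B.K
    · exact (ha1 j hj).1
    · rw [ha2 j hj]
      exact one_le_pow₀ (by linarith)
  set μ : β → ℕ := fun b => ⌊m b⌋₊ with hμ
  have hμ1 : ∀ b, (μ b : ℝ) ≤ m b := fun b => Nat.floor_le (hm b).1
  have hμ2 : ∀ b, m b < μ b + 1 := fun b => Nat.lt_floor_add_one _
  have hμN : ∀ b, μ b ≤ N := fun b => by exact_mod_cast (hμ1 b).trans (hm b).2
  have hN := h.N_pos
  have hN' : (0 : ℝ) < N := by exact_mod_cast hN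
  -- upper bound on the top sites
  set E : Finset ι := Finset.univ.image fun b => A.B.site b (N - μ b) with hE
  have hEc : (E.card : ℝ) ≤ Fintype.card β := by
    exact_mod_cast (Finset.card_image_le.trans (le_of_eq Finset.card_univ))
  have hup := upB hP hε (thr := Real.exp (2 * Q ^ 4)) (Real.exp_pos _) hapos (top A.B μ) E
    (by
      intro j hj hjE
      obtain ⟨b, hb, hle⟩ := (Finset.mem_filter.1 hj).2
      have hl := A.B.pos_lt j b hb
      have hj' := A.B.site_pos j b hb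
      have hne : N - μ b ≠ A.B.pos j := by
        intro e
        exact hjE (Finset.mem_image.2 ⟨b, Finset.mem_univ _, by rw [e, hj']⟩)
      have h1 : N + 1 ≤ A.B.pos j + μ b := by have := hμN b; omega
      have h2 : (N : ℝ) + 1 ≤ A.B.pos j + μ b := by exact_mod_cast h1
      rw [← hj', ha, av_site A Q s m b hl, hj', Real.exp_le_exp]
      have h3 : Real.log (A.bw j) ≤ Q := by
        have := Real.log_le_sub_one_of_pos (lt_of_lt_of_le one_pos (h.bw_ge j))
        linarith [h.bw_le j]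
      have h4 : s * ((N : ℝ) - A.B.pos j - m b) ≤ s * (-1) :=
        mul_le_mul_of_nonneg_left (by linarith [hμ1 b]) hs1
      linarith [hs0.1])
    (by
      intro j hj _
      by_cases hK : j ∈ A.B.K
      · obtain ⟨b, l, hl, rfl⟩ := exists_site A.B hK
        rw [mem_top A.B μ b hl] at hj
        have h1 : l + μ b + 1 ≤ N := by omega
        have h2 : (l : ℝ) + μ b + 1 ≤ N := by exact_mod_cast h1
        rw [ha, av_site A Q s m b hl, Real.exp_le_exp]
        have h3 := Real.log_nonneg (h.bw_ge (A.B.site b l))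
        have h4 : 0 ≤ s * ((N : ℝ) - l - m b) := mul_nonneg hs1 (by linarith [hμ2 b])
        linarith
      · rw [ha2 j hK, Om, ← Real.exp_nat_mul, Real.exp_le_exp]
        have : 0 ≤ Q ^ 4 := by positivity
        push_cast
        nlinarith)
  have hthr : Real.exp (2 * Q ^ 4) ^ 2 * dfc A.P / ε ≤ Om Q ^ 2 * dfc A.P / ε := by
    have h0 := hP.dfc_nonneg
    have : Real.exp (2 * Q ^ 4) ≤ Om Q := by
      rw [Om, Real.exp_le_exp]
      have : 0 ≤ Q ^ 4 := by positivity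
      nlinarith
    gcongr
  have htopP : dsum (top A.B μ) A.P ≤ t * ∑ b, (μ b : ℝ) + Dv := by
    rw [dsum, sum_top]
    exact htop μ hμN
  -- the step lemma in each block
  have hx : ∀ j, 0 ≤ de R j ∧ de R j ≤ 1 := fun j => ⟨de_nonneg hRc.1 j, hRc.de_le_one j⟩
  have hf : ∀ b, dsum (A.B.bl b) R = ∑ l ∈ Finset.range N, de R (A.B.site b l) := fun b => by
    rw [dsum, A.B.sum_bl]
  have hstep : ∀ b, (dsum (A.B.bl b) R - |dsum (A.B.bl b) R - m b| - 1) - ξ * N
      - (∑ l' ∈ Finset.range N, ∑ l ∈ Finset.range l',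
          de R (A.B.site b l) * (1 - de R (A.B.site b l'))) / (ξ * N)
      ≤ ∑ l ∈ Finset.Ico (N - μ b) N, de R (A.B.site b l) := by
    intro b
    have h1 := stepD (fun l => de R (A.B.site b l)) (fun l => hx _) hN (hμN b) hξ
    rw [← hf b] at h1
    have h2 : dsum (A.B.bl b) R - |dsum (A.B.bl b) R - m b| - 1 ≤ min (μ b : ℝ) (dsum (A.B.bl b) R) := by
      have := le_abs_self (dsum (A.B.bl b) R - m b)
      have := abs_nonneg (dsum (A.B.bl b) R - m b)
      exact le_min (by linarith [hμ2 b]) (by linarith)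
    linarith
  have hsum := Finset.sum_le_sum fun b (_ : b ∈ Finset.univ) => hstep b
  rw [← sum_top A.B μ (de R)] at hsum
  simp only [Finset.sum_sub_distrib, Finset.sum_const, Finset.card_univ, nsmul_eq_mul, mul_one,
    ← Finset.sum_div] at hsum
  rw [A.B.sum_pairs (fun j k => de R j * (1 - de R k))] at hsum
  have hpairs : (∑ n ∈ Finset.Ico 1 N, ∑ q ∈ A.B.prs n, de R q.1 * (1 - de R q.2)) / (ξ * N) ≤ Er / ξ := by
    have h1 : ∑ n ∈ Finset.Ico 1 N, ∑ q ∈ A.B.prs n, de R q.1 * (1 - de R q.2) ≤ N * Er := by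
      refine (Finset.sum_le_card_nsmul _ _ Er fun n hn =>
        hprs n (Finset.mem_Ico.1 hn).1 (Finset.mem_Ico.1 hn).2).trans ?_
      rw [nsmul_eq_mul, Nat.card_Ico]
      exact mul_le_mul_of_nonneg_right (by exact_mod_cast Nat.sub_le N 1) hEr
    rw [div_le_div_iff₀ (by positivity) hξ]
    nlinarith
  have hKc : (A.B.K.card : ℝ) = N * Fintype.card β := by exact_mod_cast A.B.card_K
  have hfK : ∑ b, dsum (A.B.bl b) R = dsum A.B.K R := by
    rw [dsum, A.B.sum_K]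
    rfl
  have hμs : ∑ b, (μ b : ℝ) ≤ dsum A.B.K R + ∑ b, |dsum (A.B.bl b) R - m b| := by
    rw [← hfK, ← Finset.sum_add_distrib]
    refine Finset.sum_le_sum fun b _ => ?_
    have := neg_abs_le (dsum (A.B.bl b) R - m b)
    linarith [hμ1 b]
  have hlow := lowB hP hε le_rfl hapos Finset.univ (fun j _ => haone j)
    (fun j hj => absurd (Finset.mem_univ j) hj)
  have hsplit : ∀ M : Matrix ι ι ℂ, dsum Finset.univ M = dsum A.B.K M + dsum A.B.Kᶜ M := fun M =>
    (Finset.sum_add_sum_compl _ _).symm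
  rw [hsplit, hsplit, ← hR] at hlow
  rw [hfK] at hsum
  have hδ : 0 ≤ ∑ b, |dsum (A.B.bl b) R - m b| := Finset.sum_nonneg fun b _ => abs_nonneg _
  have hεL : 0 ≤ ε * Fintype.card ι := by positivity
  rw [← hR] at hup
  change _ ≤ dsum (top A.B μ) R at hsum
  set δ := ∑ b, |dsum (A.B.bl b) R - m b|
  set f := dsum A.B.K R
  have e1 : t * ∑ b, (μ b : ℝ) ≤ t * (f + δ) := mul_le_mul_of_nonneg_left hμs ht.1
  have e2 : t * δ ≤ δ := by nlinarith [ht.2]
  have e3 : (1 - t) * (t * A.B.K.card - (Dv + ε * Fintype.card ι + Γ₁)) ≤ (1 - t) * f :=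
    mul_le_mul_of_nonneg_left (by linarith) (by linarith [ht.2])
  have e4 : 0 ≤ t * (Dv + ε * Fintype.card ι + Γ₁) := mul_nonneg ht.1 (by linarith)
  have e5 : (Fintype.card β : ℝ) * (ξ * N) = ξ * A.B.K.card := by rw [hKc]; ring
  nlinarith

end Crest.Agent.R113
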