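import Crest.Agent.R113.Basic2

set_option autoImplicit false
open Matrix
open scoped ComplexOrder

namespace Crest.Agent.R113
variable {ι : Type*} [Fintype ι] [DecidableEq ι]

namespace InvX

theorem herm_R {P : Matrix ι ι ℂ} (hP : Ctr P) {ε : ℝ} (hε : 0 < ε) (a : ι → ℝ) :
    (Ra ε P a)ᴴ = Ra ε P a := (Ra_ctr hP.1 hε a).1.1.eq

theorem herm_Ph {P : Matrix ι ι ℂ} (hP : Ctr P) {ε : ℝ} (hε : 0 < ε) (a : ι → ℝ) :
    (1 - Ra ε P a)ᴴ = 1 - Ra ε P a := (Ra_ctr hP.1 hε a).2.1.eq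

omit [DecidableEq ι] in
theorem hs_eq_trace' (M : Matrix ι ι ℂ) : hs M = (Matrix.trace (M * Mᴴ)).re := by
  classical
  rw [hs_eq_trace, trace_mul_comm]

theorem inv_mul_dg {σ : ℝ} {a : ι → ℝ} (ha : ∀ j, 1 ≤ a j ∧ a j ≤ σ) :
    (dg fun j => (a j)⁻¹) * dg a = 1 := by
  rw [dg_mul_dg, ← dg_one]
  congr 1
  funext j
  exact inv_mul_cancel₀ (by linarith [(ha j).1])

theorem dg_mul_inv {σ : ℝ} {a : ι → ℝ} (ha : ∀ j, 1 ≤ a j ∧ a j ≤ σ) :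
    dg a * (dg fun j => (a j)⁻¹) = 1 := by
  rw [dg_mul_dg, ← dg_one]
  congr 1
  funext j
  exact mul_inv_cancel₀ (by linarith [(ha j).1])

theorem bd_a {σ : ℝ} {a : ι → ℝ} (ha : ∀ j, 1 ≤ a j ∧ a j ≤ σ) : Bd σ (dg a) :=
  Bd_dg fun j => by rw [abs_of_nonneg (by linarith [(ha j).1])]; exact (ha j).2

theorem bd_ainv {σ : ℝ} {a : ι → ℝ} (ha : ∀ j, 1 ≤ a j ∧ a j ≤ σ) :
    Bd 1 (dg fun j => (a j)⁻¹) :=
  Bd_dg fun j => by
    have := (ha j).1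
    rw [abs_of_nonneg (by positivity)]
    exact inv_le_one_of_one_le₀ this

/-- `Re Tr (Φ K Φ) ≤ ε L` -/
theorem tr_PKP {P : Matrix ι ι ℂ} (hP : Ctr P) {ε : ℝ} (hε : 0 < ε) (a : ι → ℝ) :
    (Matrix.trace ((1 - Ra ε P a) * (dg a * P * dg a) * (1 - Ra ε P a))).re
      ≤ ε * Fintype.card ι := by
  have hK := dg_psd hP.1 a
  have hR := Ra_ctr hP.1 hε a
  have e1 : (1 - Ra ε P a) * (dg a * P * dg a) = (ε : ℂ) • Ra ε P a := by
    have : 1 - Ra ε P a = Ph ε (dg a * P * dg a) := by simp [Ra, Rs]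
    rw [this, Ra, Rs_eq' hK hε, Ph, Matrix.smul_mul]
  rw [e1, Matrix.smul_mul, trace_smul, smul_eq_mul, Complex.re_ofReal_mul]
  refine mul_le_mul_of_nonneg_left ?_ hε.le
  have h1 := trace_re_mono (A := Ra ε P a * (1 - Ra ε P a)) (B := 1) (by
    convert hR.2.add (posSemidef_conjTranspose_mul_self (Ra ε P a)) using 1
    rw [hR.1.1.eq, Matrix.mul_sub, Matrix.mul_one]
    abel)
  simpa using h1

/-- `hs (B P) ≤ Re Tr (B P Bᴴ)` -/
theorem hs_mul_P {P : Matrix ι ι ℂ} (hP : Ctr P) (B : Matrix ι ι ℂ) :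
    hs (B * P) ≤ (Matrix.trace (B * P * Bᴴ)).re := by
  rw [hs_eq_trace']
  refine trace_re_mono ?_
  convert hP.sub_sq.mul_mul_conjTranspose_same B using 1
  rw [conjTranspose_mul, hP.1.1.eq]
  simp only [Matrix.mul_sub, Matrix.sub_mul, Matrix.mul_assoc]

theorem hs_ind (Z : Finset ι) : hs (ind Z) = Z.card := by
  have e : ∀ j, ∑ k, ‖ind Z j k‖ ^ 2 = if j ∈ Z then (1 : ℝ) else 0 := fun j => by
    rw [Finset.sum_eq_single j]
    · simp only [ind, dg, diagonal_apply_eq]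
      split_ifs <;> simp
    · intro k _ hk
      simp [ind, dg, diagonal_apply_ne _ (Ne.symm hk)]
    · simp
  simp [hs, e]

end InvX

theorem invGen {P Y : Matrix ι ι ℂ} (hP : Ctr P) {ε σ : ℝ} (hε : 0 < ε) {a : ι → ℝ}
    (ha : ∀ j, 1 ≤ a j ∧ a j ≤ σ) (hY : Bd 1 Y) :
    hs ((1 - Ra ε P a) * (dg a * Y * dg fun j => (a j)⁻¹) * Ra ε P a)
      ≤ 2 * hs ((1 - Ra ε P a) * dg a * Y * P) + 2 * σ ^ 4 * dfc P / ε ^ 2 := by
  have hK := dg_psd hP.1 a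
  have hR := Ra_ctr hP.1 hε a
  set G := (dg a * P * dg a + (ε : ℂ) • (1 : Matrix ι ι ℂ))⁻¹ with hG
  have e1 : (dg fun j => (a j)⁻¹) * Ra ε P a = P * (dg a * G) := by
    rw [Ra, Rs_eq hK hε, ← hG]
    simp only [← Matrix.mul_assoc]
    rw [InvX.inv_mul_dg ha, Matrix.one_mul]
  have e2 : (1 - Ra ε P a) * (dg a * Y * dg fun j => (a j)⁻¹) * Ra ε P a =
      (1 - Ra ε P a) * dg a * Y * P * ((dg fun j => (a j)⁻¹) * Ra ε P a) +
        (1 - Ra ε P a) * dg a * Y * ((P - P * P) * (dg a * G)) := by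
    have : (1 - Ra ε P a) * (dg a * Y * dg fun j => (a j)⁻¹) * Ra ε P a =
        (1 - Ra ε P a) * dg a * Y * ((dg fun j => (a j)⁻¹) * Ra ε P a) := by
      simp only [Matrix.mul_assoc]
    rw [this, e1]
    simp only [Matrix.mul_sub, Matrix.sub_mul, Matrix.mul_assoc]
    abel
  have h1 := hs_mul_right ((InvX.bd_ainv ha).mul hR.bd) ((1 - Ra ε P a) * dg a * Y * P)
  have h2 := hs_mul_left ((hR.one_sub.bd.mul (InvX.bd_a ha)).mul hY) ((P - P * P) * (dg a * G))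
  have h3 := hs_mul_right ((InvX.bd_a ha).mul (Bd_inv_eps hK hε)) (P - P * P)
  have h4 := hs_sub_sq_le hP
  have h5 : (1 * σ * 1) ^ 2 * hs ((P - P * P) * (dg a * G)) ≤ σ ^ 4 * dfc P / ε ^ 2 := by
    calc (1 * σ * 1) ^ 2 * hs ((P - P * P) * (dg a * G))
        ≤ (1 * σ * 1) ^ 2 * ((σ * (1 / ε)) ^ 2 * dfc P) := by
          refine mul_le_mul_of_nonneg_left (h3.trans ?_) (sq_nonneg _)
          exact mul_le_mul_of_nonneg_left h4 (sq_nonneg _)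
      _ = σ ^ 4 * dfc P / ε ^ 2 := by field_simp
  rw [e2]
  refine (hs_add_le _ _).trans ?_
  have e3 : 2 * σ ^ 4 * dfc P / ε ^ 2 = 2 * (σ ^ 4 * dfc P / ε ^ 2) := by ring
  rw [e3]
  linarith

theorem hs_Ph_a_P {P : Matrix ι ι ℂ} (hP : Ctr P) {ε : ℝ} (hε : 0 < ε) (a : ι → ℝ) :
    hs ((1 - Ra ε P a) * dg a * P) ≤ ε * Fintype.card ι := by
  refine (InvX.hs_mul_P hP _).trans ?_
  have := InvX.tr_PKP hP hε a
  rw [conjTranspose_mul, dg_herm, InvX.herm_Ph hP hε]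
  simpa only [Matrix.mul_assoc] using this

theorem invY {P Y : Matrix ι ι ℂ} (hP : Ctr P) {ε σ : ℝ} (hε : 0 < ε) {a : ι → ℝ}
    (ha : ∀ j, 1 ≤ a j ∧ a j ≤ σ) (hY : Bd 1 Y) (Z : Finset ι)
    (h : ((2 : ℂ) • P + (2 : ℂ) • ind Z - Y * P * Yᴴ).PosSemidef) :
    hs ((1 - Ra ε P a) * (dg a * Y * dg fun j => (a j)⁻¹) * Ra ε P a)
      ≤ 4 * ε * Fintype.card ι + 4 * σ ^ 2 * Z.card + 2 * σ ^ 4 * dfc P / ε ^ 2 := by
  have hR := Ra_ctr hP.1 hε a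
  have h1 := invGen hP hε ha hY
  have h2 := InvX.hs_mul_P hP ((1 - Ra ε P a) * dg a * Y)
  have h3 := trace_re_mono
    (A := (1 - Ra ε P a) * dg a * Y * P * ((1 - Ra ε P a) * dg a * Y)ᴴ)
    (B := (2 : ℂ) • ((1 - Ra ε P a) * (dg a * P * dg a) * (1 - Ra ε P a)) +
      (2 : ℂ) • (((1 - Ra ε P a) * dg a * ind Z) * ((1 - Ra ε P a) * dg a * ind Z)ᴴ)) (by
    convert h.mul_mul_conjTranspose_same ((1 - Ra ε P a) * dg a) using 1
    have hZ : (ind Z)ᴴ = ind Z := dg_herm _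
    have hZ2 : ∀ M : Matrix ι ι ℂ, ind Z * (ind Z * M) = ind Z * M := fun M => by
      rw [← Matrix.mul_assoc, ind_mul_ind]
    simp only [conjTranspose_mul, dg_herm, InvX.herm_Ph hP hε, hZ]
    generalize 1 - Ra ε P a = Φ
    simp only [Matrix.mul_sub, Matrix.sub_mul, Matrix.mul_add, Matrix.add_mul, Matrix.mul_assoc,
      Matrix.smul_mul, Matrix.mul_smul, hZ2])
  rw [trace_add, trace_smul, trace_smul, Complex.add_re, smul_eq_mul, smul_eq_mul] at h3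
  have e2 : ∀ z : ℂ, ((2 : ℂ) * z).re = 2 * z.re := fun z => by simp
  rw [e2, e2, ← InvX.hs_eq_trace'] at h3
  have h4 := InvX.tr_PKP hP hε a
  have h5 := hs_mul_left (hR.one_sub.bd.mul (InvX.bd_a ha)) (ind Z)
  rw [InvX.hs_ind] at h5
  nlinarith

theorem dfc_Ra {P : Matrix ι ι ℂ} (hP : Ctr P) {ε σ η : ℝ} (hε : 0 < ε) (hη : 0 < η) {a : ι → ℝ}
    (ha : ∀ j, 1 ≤ a j ∧ a j ≤ σ) :
    dfc (Ra ε P a) ≤ η * Fintype.card ι
      + (4 * ε * Fintype.card ι + 2 * σ ^ 4 * dfc P / ε ^ 2) / η := by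
  have hR := Ra_ctr hP.1 hε a
  have h1 := invGen hP hε ha (Y := 1) (by simpa [Bd] using PosSemidef.zero)
  have h2 := hs_Ph_a_P hP hε a
  rw [Matrix.mul_one, Matrix.mul_one, InvX.dg_mul_inv ha, Matrix.mul_one] at h1
  have h3 := trace_re_le ((1 - Ra ε P a) * Ra ε P a) hη
  have h4 : dfc (Ra ε P a) = (Matrix.trace ((1 - Ra ε P a) * Ra ε P a)).re := by
    rw [dfc, hs_eq_trace, hR.1.1.eq, Matrix.sub_mul, Matrix.one_mul, trace_sub, Complex.sub_re]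
    congr 1
    simp [Matrix.trace, de]
  rw [h4]
  refine h3.trans (add_le_add le_rfl (div_le_div_of_nonneg_right ?_ hη.le))
  have : 0 ≤ ε * Fintype.card ι := by positivity
  linarith

end Crest.Agent.R113
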