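import Crest.Agent.R113.Basic2
import Crest.Agent.R113.BlkB

set_option autoImplicit false
open Matrix
open scoped ComplexOrder

namespace Crest.Agent.R113
variable {ι : Type*} [Fintype ι] [DecidableEq ι]
variable {β : Type*} [Fintype β] [DecidableEq β] {N : ℕ}
variable {T : Type*} [Fintype T]

namespace OffX

theorem crs_eq (S : Finset ι) (M : Matrix ι ι ℂ) :
    crs S M = ∑ j, ∑ k, if j ∈ S ∧ k ∉ S then ‖M j k‖ ^ 2 else 0 := by
  simp only [crs, ite_and, Finset.sum_ite_irrel, Finset.sum_const_zero, ← Finset.mem_compl,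
    Finset.sum_ite_mem, Finset.univ_inter]

theorem sep_eq {R : Matrix ι ι ℂ} (hR : Ctr R) (S : Finset ι) :
    ∑ j, ∑ k, (if (j ∈ S ↔ k ∈ S) then 0 else 1) * ‖R j k‖ ^ 2 = 2 * crs S R := by
  have e : crs S R = ∑ j, ∑ k, if k ∈ S ∧ j ∉ S then ‖R j k‖ ^ 2 else 0 := by
    rw [crs_eq, Finset.sum_comm]
    simp only [hR.norm_symm]
  rw [two_mul]
  nth_rw 1 [e]
  simp only [crs_eq, ← Finset.sum_add_distrib]
  refine Finset.sum_congr rfl fun j _ => Finset.sum_congr rfl fun k _ => ?_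
  by_cases a : j ∈ S <;> by_cases b : k ∈ S <;> simp [a, b]

theorem rows_le {R : Matrix ι ι ℂ} (hR : Ctr R) (S : Finset ι) :
    ∑ j, ∑ k, (if j ∈ S then ‖R j k‖ ^ 2 else 0) ≤ S.card := by
  simp only [Finset.sum_ite_irrel, Finset.sum_const_zero, Finset.sum_ite_mem, Finset.univ_inter]
  simpa using Finset.sum_le_card_nsmul S _ 1 fun j _ => (hR.row_le j).trans (hR.de_le_one j)

theorem cols_le {R : Matrix ι ι ℂ} (hR : Ctr R) (S : Finset ι) :
    ∑ j, ∑ k, (if k ∈ S then ‖R j k‖ ^ 2 else 0) ≤ S.card := by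
  rw [Finset.sum_comm]
  simpa only [hR.norm_symm] using rows_le hR S

omit [Fintype ι] [DecidableEq ι] [Fintype β] [DecidableEq β] in
theorem eq_of_pos (B : Blk ι β N) {j k : ι} (h0 : B.blk j ≠ none) (h1 : B.blk k = B.blk j)
    (h2 : B.pos k = B.pos j) : k = j := by
  obtain ⟨b, hb⟩ := Option.ne_none_iff_exists'.1 h0
  rw [← B.site_pos j b hb, ← h2, B.site_pos k b (h1.trans hb)]

theorem prs_iff (B : Blk ι β N) (n : ℕ) (j k : ι) : (j, k) ∈ B.prs n ↔
    B.blk j ≠ none ∧ B.blk k = B.blk j ∧ B.pos k = B.pos j + n := by simp [Blk.prs]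

theorem inj1 (B : Blk ι β N) {n : ℕ} {j k k' : ι} (h : (j, k) ∈ B.prs n) (h' : (j, k') ∈ B.prs n) :
    k = k' := by
  rw [prs_iff] at h h'
  exact eq_of_pos B (h'.2.1 ▸ h.1) (h.2.1.trans h'.2.1.symm) (by omega)

theorem inj2 (B : Blk ι β N) {n : ℕ} {j j' k : ι} (h : (j, k) ∈ B.prs n) (h' : (j', k) ∈ B.prs n) :
    j = j' := by
  rw [prs_iff] at h h'
  exact eq_of_pos B h'.1 (h.2.1.symm.trans h'.2.1) (by omega)

theorem sum_le_K (B : Blk ι β N) (n : ℕ) {F : ι → ℝ} (hF : ∀ j, 0 ≤ F j) :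
    ∑ q ∈ B.prs n, F q.1 ≤ ∑ j ∈ B.K, F j ∧ ∑ q ∈ B.prs n, F q.2 ≤ ∑ j ∈ B.K, F j := by
  constructor
  · rw [← Finset.sum_image (g := Prod.fst) fun q hq q' hq' e =>
      Prod.ext e (inj1 B (j := q.1) hq (e ▸ hq'))]
    refine Finset.sum_le_sum_of_subset_of_nonneg (fun j hj => ?_) fun j _ _ => hF j
    obtain ⟨q, hq, rfl⟩ := Finset.mem_image.1 hj
    exact (B.mem_K _).2 ((prs_iff B n _ _).1 hq).1
  · rw [← Finset.sum_image (g := Prod.snd) fun q hq q' hq' e =>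
      Prod.ext (inj2 B (k := q.2) hq (e ▸ hq')) e]
    refine Finset.sum_le_sum_of_subset_of_nonneg (fun j hj => ?_) fun j _ _ => hF j
    obtain ⟨q, hq, rfl⟩ := Finset.mem_image.1 hj
    have := (prs_iff B n _ _).1 hq
    exact (B.mem_K _).2 (this.2.1 ▸ this.1)

theorem hs_off {R : Matrix ι ι ℂ} (hR : Ctr R) (K : Finset ι) :
    hs (ind K * R - dg fun j => if j ∈ K then de R j else 0) = off K R := by
  have e : ∀ j k, ‖(ind K * R - dg fun j => if j ∈ K then de R j else 0) j k‖ ^ 2 =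
      if j ∈ K then (if k = j then 0 else ‖R j k‖ ^ 2) else 0 := fun j k => by
    simp only [ind, dg, Matrix.sub_apply, diagonal_mul, diagonal_apply]
    by_cases a : j = k
    · subst a
      by_cases b : j ∈ K <;> simp [b, ← hR.diag_eq]
    · by_cases b : j ∈ K <;> simp [a, b, Ne.symm a]
  simp only [hs, off, e, Finset.sum_ite_irrel, Finset.sum_const_zero, Finset.sum_ite_mem,
    Finset.univ_inter]

theorem var_le {R : Matrix ι ι ℂ} (hR : Ctr R) (K : Finset ι) :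
    ∑ j ∈ K, de R j * (1 - de R j) ≤ dfc R + off K R := by
  have h1 : ∑ j ∈ K, (de R j - ∑ k, ‖R j k‖ ^ 2) ≤ dfc R := by
    rw [dfc, hs, ← Finset.sum_sub_distrib]
    exact Finset.sum_le_sum_of_subset_of_nonneg (Finset.subset_univ _)
      fun j _ _ => sub_nonneg.2 (hR.row_le j)
  refine le_trans (le_of_eq ?_) (add_le_add_left h1 _)
  rw [off, ← Finset.sum_add_distrib]
  refine Finset.sum_congr rfl fun j _ => ?_
  have e : ∑ k, ‖R j k‖ ^ 2 = ∑ k, ((if k = j then 0 else ‖R j k‖ ^ 2) +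
      if k = j then de R j ^ 2 else 0) := Finset.sum_congr rfl fun k _ => by
    split_ifs with a
    · rw [a, hR.diag_eq, Complex.norm_real, Real.norm_eq_abs, sq_abs, zero_add]
    · rw [add_zero]
  rw [e, Finset.sum_add_distrib, Finset.sum_ite_eq', if_pos (Finset.mem_univ _)]
  ring

theorem rank_add_le (A B : Matrix ι ι ℂ) : (A + B).rank ≤ A.rank + B.rank := by
  unfold Matrix.rank
  rw [Matrix.mulVecLin_add]
  exact (Submodule.finrank_mono (LinearMap.range_add_le _ _)).trans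
    (Submodule.finrank_add_le_finrank_add_finrank _ _)

end OffX

open OffX

theorem Sit.OK.off_le {A : Sit ι β T N} {Q κm c : ℝ} (h : A.OK Q κm c) {R : Matrix ι ι ℂ}
    (hR : Ctr R) :
    off A.B.K R ≤ A.B.win R + crs A.B.K R + 2 * (A.B.K \ A.G).card + dif A.col R
      + 2 / c * ∑ τ, A.ω τ * crs (A.S τ) R := by
  have hc := h.c_pos
  have e1 : off A.B.K R = ∑ j, ∑ k, if j ∈ A.B.K then (if k = j then 0 else ‖R j k‖ ^ 2) else 0 := by
    simp only [off, Finset.sum_ite_irrel, Finset.sum_const_zero, Finset.sum_ite_mem,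
      Finset.univ_inter]
  have e2 : 2 / c * ∑ τ, A.ω τ * crs (A.S τ) R =
      ∑ j, ∑ k, c⁻¹ * A.toTst.sep j k * ‖R j k‖ ^ 2 := by
    simp only [mul_assoc, ← Finset.mul_sum, Tst.sep, Finset.sum_mul]
    rw [Finset.sum_congr rfl fun j _ => Finset.sum_comm, Finset.sum_comm]
    simp only [← Finset.mul_sum, sep_eq hR, mul_left_comm _ (2 : ℝ)]
    ring
  have h1 := rows_le hR (A.B.K \ A.G)
  have h2 := cols_le hR (A.B.K \ A.G)
  suffices key : off A.B.K R ≤ A.B.win R + crs A.B.K R +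
      ((∑ j, ∑ k, if j ∈ A.B.K \ A.G then ‖R j k‖ ^ 2 else 0) +
        ∑ j, ∑ k, if k ∈ A.B.K \ A.G then ‖R j k‖ ^ 2 else 0) + dif A.col R +
      ∑ j, ∑ k, c⁻¹ * A.toTst.sep j k * ‖R j k‖ ^ 2 by rw [e2]; linarith
  simp only [e1, crs_eq, Blk.win, dif, ← Finset.sum_add_distrib]
  refine Finset.sum_le_sum fun j _ => Finset.sum_le_sum fun k _ => ?_
  have r0 : 0 ≤ ‖R j k‖ ^ 2 := sq_nonneg _
  have s0 : 0 ≤ A.toTst.sep j k := Finset.sum_nonneg fun τ _ =>
    mul_nonneg (h.tst.ω_nonneg τ) (by split_ifs <;> norm_num)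
  have n1 : 0 ≤ (if A.B.blk j = A.B.blk k ∧ A.B.blk j ≠ none then
      ‖R j k‖ ^ 2 * (A.B.ht j - A.B.ht k) ^ 2 else 0) := by split_ifs <;> positivity
  have n2 : 0 ≤ (if j ∈ A.B.K ∧ k ∉ A.B.K then ‖R j k‖ ^ 2 else 0) := by split_ifs <;> positivity
  have n3 : 0 ≤ (if j ∈ A.B.K \ A.G then ‖R j k‖ ^ 2 else 0) := by split_ifs <;> positivity
  have n4 : 0 ≤ (if k ∈ A.B.K \ A.G then ‖R j k‖ ^ 2 else 0) := by split_ifs <;> positivity
  have n5 : 0 ≤ (if A.col j = A.col k then 0 else ‖R j k‖ ^ 2) := by split_ifs <;> positivity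
  have n6 : 0 ≤ c⁻¹ * A.toTst.sep j k * ‖R j k‖ ^ 2 := by positivity
  by_cases a1 : j ∈ A.B.K
  swap
  · rw [if_neg a1]; linarith
  rw [if_pos a1]
  by_cases a2 : k = j
  · rw [if_pos a2]; linarith
  rw [if_neg a2]
  by_cases a3 : k ∈ A.B.K
  swap
  · rw [if_pos (And.intro a1 a3)]; linarith
  have b1 := (A.B.mem_K j).1 a1
  have b3 := (A.B.mem_K k).1 a3
  by_cases a4 : A.B.blk j = A.B.blk k
  · have d1 : (A.B.pos k : ℤ) - A.B.pos j ≠ 0 := fun e => a2 (eq_of_pos A.B b1 a4.symm (by omega))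
    have d2 : (1 : ℝ) ≤ ((A.B.pos k : ℝ) - A.B.pos j) ^ 2 := by
      exact_mod_cast (one_le_sq_iff_one_le_abs _).2 (Int.one_le_abs d1)
    have d3 := mul_le_mul_of_nonneg_left d2 r0
    rw [if_pos (And.intro a4 b1), Blk.ht, Blk.ht, if_neg b1, if_neg b3, sub_sub_sub_cancel_left]
    linarith
  by_cases a5 : j ∈ A.G
  swap
  · rw [if_pos (Finset.mem_sdiff.2 ⟨a1, a5⟩)]; linarith
  by_cases a6 : k ∈ A.G
  swap
  · rw [if_pos (Finset.mem_sdiff.2 ⟨a3, a6⟩)]; linarith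
  by_cases a7 : A.col j = A.col k
  swap
  · rw [if_neg a7]; linarith
  have d := mul_le_mul_of_nonneg_right
    ((one_le_inv_mul₀ hc).2 (h.code j k a5 a6 b1 b3 a4 a7)) r0
  linarith

theorem Bd_sh (B : Blk ι β N) (n : ℕ) : Bd 1 (B.sh n) := by
  have e : (B.sh n)ᴴ * B.sh n = ind ((B.prs n).image Prod.fst) := by
    ext j j'
    simp only [Matrix.mul_apply, conjTranspose_apply, Blk.sh, ind, dg, diagonal_apply]
    by_cases a : ∃ k, (j, k) ∈ B.prs n
    · obtain ⟨k, hk⟩ := a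
      rw [Finset.sum_eq_single k (fun k' _ b => by rw [if_neg fun c => b (inj1 B c hk)]; simp)
        (by simp), if_pos hk, if_pos (Finset.mem_image.2 ⟨_, hk, rfl⟩)]
      by_cases b : j = j'
      · simp [← b, hk]
      · rw [if_neg b, if_neg fun c => b (inj2 B hk c), mul_zero]
    · rw [Finset.sum_eq_zero fun k _ => by rw [if_neg fun c => a ⟨k, c⟩]; simp,
        if_neg (show j ∉ (B.prs n).image Prod.fst by simpa using a)]
      simp
  unfold Bd
  rw [e, one_pow, Complex.ofReal_one, one_smul, ← ind_add_compl ((B.prs n).image Prod.fst),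
    add_sub_cancel_left, ind, dg]
  refine PosSemidef.diagonal fun j => ?_
  simp only [Pi.zero_apply, Complex.zero_le_real]
  split_ifs <;> norm_num

theorem stepA {R Xt Zh W₁ W₂ : Matrix ι ι ℂ} (hR : Ctr R) (K Mg : Finset ι) {M : ℝ}
    (hZ : Zh * ind K = Xt + ind Mg * W₁ + W₂) (hX : Bd 1 Xt) (hM : Bd M (Zh * ind Kᶜ))
    (M₁ : Matrix ι ι ℂ) :
    hs (ind K * (1 - R) * Xt * R * ind K) ≤ Mg.card + M₁.rank
      + 3 * (hs ((1 - R) * Zh * R) + hs W₂ + M ^ 2 * hs (ind Kᶜ * R * ind K - M₁)) := by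
  have b1 := (Bd_ind K).mul hR.one_sub.bd
  have b2 := hR.bd.mul (Bd_ind K)
  have b3 := ((b1.mul hX).mul hR.bd).mul (Bd_ind K)
  have b4 := b1.mul hM
  simp only [one_mul] at b1 b2 b3 b4
  have h1 := hs_le_rank b3 (ind K * (1 - R) * ind Mg * -(W₁ * R * ind K) +
    -(ind K * (1 - R) * (Zh * ind Kᶜ)) * M₁)
  have h2 : (ind K * (1 - R) * ind Mg * -(W₁ * R * ind K) +
      -(ind K * (1 - R) * (Zh * ind Kᶜ)) * M₁).rank ≤ Mg.card + M₁.rank :=
    (OffX.rank_add_le _ _).trans (add_le_add ((rank_mul_le_left _ _).trans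
      ((rank_mul_le_right _ _).trans (rank_ind_le _))) (rank_mul_le_right _ _))
  have e1 : Xt = Zh - Zh * ind Kᶜ * ind Kᶜ - ind Mg * W₁ - W₂ := by
    rw [Matrix.mul_assoc, ind_mul_ind, eq_sub_of_add_eq' (ind_add_compl K), Matrix.mul_sub,
      Matrix.mul_one, hZ]
    abel
  have e2 : ind K * (1 - R) * Xt * R * ind K - (ind K * (1 - R) * ind Mg * -(W₁ * R * ind K) +
      -(ind K * (1 - R) * (Zh * ind Kᶜ)) * M₁) =
      ind K * ((1 - R) * Zh * R) * ind K + -(ind K * (1 - R) * W₂ * (R * ind K)) +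
        -(ind K * (1 - R) * (Zh * ind Kᶜ) * (ind Kᶜ * R * ind K - M₁)) := by
    rw [e1]
    generalize 1 - R = Φ
    noncomm_ring
  have h3 := hs_add3_le (ind K * ((1 - R) * Zh * R) * ind K) (-(ind K * (1 - R) * W₂ * (R * ind K)))
    (-(ind K * (1 - R) * (Zh * ind Kᶜ) * (ind Kᶜ * R * ind K - M₁)))
  have h4 := hs_mul_right (Bd_ind K) (ind K * ((1 - R) * Zh * R))
  have h5 := hs_mul_left (Bd_ind K) ((1 - R) * Zh * R)
  have h6 := hs_mul_right b2 (ind K * (1 - R) * W₂)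
  have h7 := hs_mul_left b1 W₂
  have h8 := hs_mul_left b4 (ind Kᶜ * R * ind K - M₁)
  have h9 := (Nat.cast_le (α := ℝ)).2 h2
  rw [e2] at h1
  rw [hs_neg, hs_neg] at h3
  push_cast at h9
  linarith

theorem stepB (B : Blk ι β N) {R : Matrix ι ι ℂ} (hR : Ctr R) (n : ℕ) :
    ∑ q ∈ B.prs n, de R q.1 * (1 - de R q.2)
      ≤ 3 * hs (ind B.K * (1 - R) * B.sh n * R * ind B.K) + 8 * off B.K R + 2 * dfc R := by
  have x0 := de_nonneg hR.1
  have x1 := hR.de_le_one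
  obtain ⟨D, hD⟩ : ∃ D, D = dg fun j => if j ∈ B.K then de R j else 0 := ⟨_, rfl⟩
  have e0 : ind B.K - D = dg fun j => if j ∈ B.K then 1 - de R j else 0 := by
    rw [hD, ind, dg, dg, dg, diagonal_sub]
    congr 1
    funext j
    split_ifs <;> simp
  have b1 : Bd 1 (ind B.K - D) := e0 ▸ Bd_dg fun j => by
    split_ifs
    · rw [abs_le]; constructor <;> linarith [x0 j, x1 j]
    · simp
  have o1 := hs_off hR B.K
  rw [← hD] at o1
  have o2 : hs (R * ind B.K - D) = off B.K R := by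
    rw [← o1, ← hs_conjTranspose, conjTranspose_sub, conjTranspose_mul, hR.1.1.eq, ind, dg_herm, hD,
      dg_herm]
  have b2 := ((Bd_sh B n).mul hR.bd).mul (Bd_ind B.K)
  have h1 := hs_mul_right b2 (ind B.K * R - D)
  have h2 := hs_mul_left (b1.mul (Bd_sh B n)) (R * ind B.K - D)
  have h3 := hs_add3_le (ind B.K * (1 - R) * B.sh n * R * ind B.K)
    ((ind B.K * R - D) * (B.sh n * R * ind B.K)) (-((ind B.K - D) * B.sh n * (R * ind B.K - D)))
  have e1 : ind B.K * (1 - R) * B.sh n * R * ind B.K + (ind B.K * R - D) * (B.sh n * R * ind B.K) +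
      -((ind B.K - D) * B.sh n * (R * ind B.K - D)) = (ind B.K - D) * B.sh n * D := by noncomm_ring
  have e2 : hs ((ind B.K - D) * B.sh n * D) = ∑ q ∈ B.prs n, (de R q.1 * (1 - de R q.2)) ^ 2 := by
    rw [hs, Finset.sum_comm, ← Fintype.sum_prod_type', ← Finset.univ_inter (B.prs n),
      ← Finset.sum_ite_mem]
    refine Finset.sum_congr rfl fun q _ => ?_
    rw [e0, hD]
    simp only [dg, mul_diagonal, diagonal_mul, Blk.sh]
    by_cases a : q ∈ B.prs n
    · have c := (prs_iff B n _ _).1 a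
      rw [if_pos a, if_pos a, if_pos ((B.mem_K _).2 c.1), if_pos ((B.mem_K _).2 (c.2.1 ▸ c.1)),
        mul_one, ← Complex.ofReal_mul, Complex.norm_real, Real.norm_eq_abs, sq_abs, mul_comm]
    · simp [a]
  obtain ⟨h4, h5⟩ := sum_le_K B n (F := fun j => de R j * (1 - de R j))
    fun j => mul_nonneg (x0 j) (sub_nonneg.2 (x1 j))
  have h6 := var_le hR B.K
  have h7 : ∑ q ∈ B.prs n, de R q.1 * (1 - de R q.2) ≤ ∑ q ∈ B.prs n,
      ((de R q.1 * (1 - de R q.2)) ^ 2 + de R q.1 * (1 - de R q.1) + de R q.2 * (1 - de R q.2)) :=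
    Finset.sum_le_sum fun q _ => by
      have a1 := mul_nonneg (mul_nonneg (x0 q.1) (sub_nonneg.2 (x1 q.1))) (x0 q.2)
      have a2 := mul_nonneg (mul_nonneg (x0 q.2) (sub_nonneg.2 (x1 q.2)))
        (mul_nonneg (sub_nonneg.2 (x1 q.1)) (add_nonneg zero_le_one (x0 q.1)))
      linarith
  rw [e1, e2, hs_neg] at h3
  rw [Finset.sum_add_distrib, Finset.sum_add_distrib] at h7
  rw [o1] at h1
  rw [o2] at h2
  linarith

end Crest.Agent.R113
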