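import Crest.Agent.R113.AbsA
import Crest.Agent.R113.AbsD
import Crest.Agent.R113.Off
import Crest.Agent.R113.Inv

set_option autoImplicit false
open Matrix
open scoped ComplexOrder

namespace Crest.Agent.R113
variable {ι : Type*} [Fintype ι] [DecidableEq ι]
variable {β : Type*} [Fintype β] [DecidableEq β] {N : ℕ}
variable {T : Type*} [Fintype T]

namespace AbsCX

theorem mul_dg_apply (M : Matrix ι ι ℂ) (a : ι → ℝ) (k j : ι) : (M * dg a) k j = M k j * a j := by
  rw [dg, Matrix.mul_diagonal]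

theorem dg_mul_apply (M : Matrix ι ι ℂ) (a : ι → ℝ) (k j : ι) : (dg a * M) k j = a k * M k j := by
  rw [dg, Matrix.diagonal_mul]

theorem mul_ind_apply (M : Matrix ι ι ℂ) (S : Finset ι) (k j : ι) :
    (M * ind S) k j = if j ∈ S then M k j else 0 := by
  rw [ind, mul_dg_apply]
  split_ifs <;> simp

theorem ind_mul_apply (M : Matrix ι ι ℂ) (S : Finset ι) (k j : ι) :
    (ind S * M) k j = if k ∈ S then M k j else 0 := by
  rw [ind, dg_mul_apply]
  split_ifs <;> simp

/-- crossing columns -/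
def cr (B : Blk ι β N) (n : ℕ) : Finset ι := B.K.filter fun j => N ≤ B.pos j + n

theorem sh_site (B : Blk ι β N) {n : ℕ} (b : β) {l : ℕ} (hl : l + n < N) (k : ι) :
    B.sh n k (B.site b l) = if k = B.site b (l + n) then 1 else 0 := by
  have hl' : l < N := by omega
  have : (B.site b l, k) ∈ B.prs n ↔ k = B.site b (l + n) := by
    simp only [Blk.prs, Finset.mem_filter, Finset.mem_univ, true_and, B.blk_site b l hl',
      B.pos_site b l hl']
    constructor
    · rintro ⟨-, h1, h2⟩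
      rw [← h2, B.site_pos k b h1]
    · rintro rfl
      exact ⟨Option.some_ne_none b, B.blk_site b _ hl, B.pos_site b _ hl⟩
  simp only [Blk.sh, this]

theorem sh_cross (B : Blk ι β N) {n : ℕ} (b : β) {l : ℕ} (hl : l < N) (hl' : N ≤ l + n) (k : ι) :
    B.sh n k (B.site b l) = 0 := by
  have : (B.site b l, k) ∉ B.prs n := by
    simp only [Blk.prs, Finset.mem_filter, Finset.mem_univ, true_and, B.blk_site b l hl,
      B.pos_site b l hl]
    rintro ⟨-, h1, h2⟩
    have := B.pos_lt k b h1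
    omega
  simp only [Blk.sh, this, if_false]

theorem sh_out (B : Blk ι β N) {n : ℕ} {j : ι} (hj : j ∉ B.K) (k : ι) : B.sh n k j = 0 := by
  have : (j, k) ∉ B.prs n := by
    simp only [Blk.prs, Finset.mem_filter, Finset.mem_univ, true_and]
    rintro ⟨h1, -⟩
    exact hj ((B.mem_K j).2 h1)
  simp only [Blk.sh, this, if_false]

end AbsCX

open AbsCX AbsDX in
theorem Sit.OK.absC {A : Sit ι β T N} {Q κm c : ℝ} (h : A.OK Q κm c) {ε s : ℝ} (hε : 0 < ε)
    {m : β → ℝ} (hs0 : 0 ≤ s ∧ s ≤ 2 * Q ^ 3) (hm : ∀ b, 0 ≤ m b ∧ m b ≤ N) {n : ℕ} (hn : n < N)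
    (M₁ : Matrix ι ι ℂ) :
    ∑ q ∈ A.B.prs n, de (Ra ε A.P (A.B.av (A.base Q) s m)) q.1
        * (1 - de (Ra ε A.P (A.B.av (A.base Q) s m)) q.2)
      ≤ 3 * A.Mg.card + 3 * M₁.rank
        + 9 * Om Q * (4 * ε * Fintype.card ι + 4 * Om Q ^ 6 * N + 2 * Om Q ^ 12 * dfc A.P / ε ^ 2)
        + 9 * Fintype.card ι / Om Q ^ 7
        + 9 * Om Q * hs (ind A.B.Kᶜ * Ra ε A.P (A.B.av (A.base Q) s m) * ind A.B.K - M₁)
        + 8 * off A.B.K (Ra ε A.P (A.B.av (A.base Q) s m))
        + 2 * dfc (Ra ε A.P (A.B.av (A.base Q) s m)) := by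
  have hQ := h.Q_ge
  obtain ⟨ha1, ha2⟩ := h.av_bounds hs0 hm
  obtain ⟨-, hΩ2⟩ := Om_ge hQ
  set a := A.B.av (A.base Q) s m with ha
  set R := Ra ε A.P a with hR
  set Ω := Om Q with hΩ
  have hΩ1 : 1 ≤ Ω := by linarith
  have hΩ0 : 0 < Ω := by linarith
  have hP : Ctr A.P := h.tst.hP
  have hRc : Ctr R := Ra_ctr hP.1 hε a
  have hab : ∀ j, 1 ≤ a j ∧ a j ≤ Ω ^ 3 := by
    intro j
    by_cases hj : j ∈ A.B.K
    · exact ⟨(ha1 j hj).1, (ha1 j hj).2.trans (le_self_pow₀ hΩ1 (by norm_num))⟩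
    · rw [ha2 j hj]
      exact ⟨one_le_pow₀ hΩ1, le_rfl⟩
  have hapos : ∀ j, 0 < a j := fun j => lt_of_lt_of_le one_pos (hab j).1
  set e : ℝ := Real.exp (s * n) with he
  have he0 : 0 < e := Real.exp_pos _
  have he2 : e ^ 2 ≤ Ω := by
    rw [he, hΩ, Om, ← Real.exp_nat_mul, Real.exp_le_exp]
    have h1 : (n : ℝ) ≤ Q := le_trans (by exact_mod_cast hn.le) h.N_le
    have h2 : s * n ≤ 2 * Q ^ 3 * Q := mul_le_mul hs0.2 h1 (by positivity) (by positivity)
    have h3 : 0 ≤ Q ^ 4 := by positivity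
    push_cast
    nlinarith
  set Z0 : Matrix ι ι ℂ := dg a * A.Y n * dg fun j => (a j)⁻¹ with hZ0
  set Zh : Matrix ι ι ℂ := (e : ℂ) • Z0 with hZh
  have hZe : ∀ k j, Zh k j = ((e * a k * (a j)⁻¹ : ℝ) : ℂ) * A.Y n k j := by
    intro k j
    rw [hZh, Matrix.smul_apply, hZ0, mul_dg_apply, dg_mul_apply, smul_eq_mul]
    push_cast
    ring
  set W₁ : Matrix ι ι ℂ := Zh * ind (cr A.B n) with hW₁
  have hsplit : Zh * ind A.B.K = A.B.sh n + W₁ := by
    ext k j
    rw [Matrix.add_apply, hW₁, mul_ind_apply, mul_ind_apply]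
    by_cases hj : j ∈ A.B.K
    · obtain ⟨b, l, hl, rfl⟩ := exists_site A.B hj
      have hcr : A.B.site b l ∈ cr A.B n ↔ N ≤ l + n := by
        simp only [cr, Finset.mem_filter, hj, true_and, A.B.pos_site b l hl]
      rw [if_pos hj]
      by_cases hln : l + n < N
      · rw [if_neg (by rw [hcr]; omega), add_zero, sh_site A.B b hln, hZe, h.Y_in n b l k hn hln]
        split_ifs with hk
        · subst hk
          rw [← Complex.ofReal_mul, ← Complex.ofReal_one]
          congr 1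
          have p1 : 0 < A.bw (A.B.site b l) := lt_of_lt_of_le one_pos (h.bw_ge _)
          have p2 : 0 < A.bw (A.B.site b (l + n)) := lt_of_lt_of_le one_pos (h.bw_ge _)
          rw [ha, av_site A Q s m b hl, av_site A Q s m b hln, he]
          have q1 : Real.exp (2 * Q ^ 4 + Real.log (A.bw (A.B.site b l)) + s * ((N : ℝ) - l - m b))
              = A.bw (A.B.site b l) * (Real.exp (s * n) *
                Real.exp (2 * Q ^ 4 + s * ((N : ℝ) - (l + n : ℕ) - m b))) := by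
            rw [← Real.exp_add, ← Real.exp_log p1, ← Real.exp_add, Real.log_exp]
            congr 1
            push_cast
            ring
          have q2 : Real.exp (2 * Q ^ 4 + Real.log (A.bw (A.B.site b (l + n)))
                + s * ((N : ℝ) - (l + n : ℕ) - m b))
              = A.bw (A.B.site b (l + n)) *
                Real.exp (2 * Q ^ 4 + s * ((N : ℝ) - (l + n : ℕ) - m b)) := by
            rw [← Real.exp_log p2, ← Real.exp_add, Real.log_exp]
            congr 1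
            ring
          rw [q1, q2]
          field_simp
        · rw [mul_zero]
      · rw [if_pos (by rw [hcr]; omega), sh_cross A.B b hl (by omega), zero_add]
    · rw [if_neg hj, if_neg (fun hc : j ∈ cr A.B n => hj (Finset.mem_filter.1 hc).1), sh_out A.B hj, add_zero]
  have hZ : Zh * ind A.B.K = A.B.sh n + ind A.Mg * W₁ + ind A.Mgᶜ * W₁ := by
    rw [hsplit, add_assoc, ← add_mul, ind_add_compl, one_mul]
  -- the part off the blocks
  have hM : Bd (|e| * (Ω ^ 3 * 1 * (Ω ^ 3)⁻¹)) (Zh * ind A.B.Kᶜ) := by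
    have e1 : Zh * ind A.B.Kᶜ = (e : ℂ) • (dg a * A.Y n *
        dg fun j => (a j)⁻¹ * (if j ∈ A.B.Kᶜ then 1 else 0)) := by
      rw [hZh, hZ0, smul_mul_assoc, ind, mul_assoc, dg_mul_dg]
    rw [e1]
    refine Bd.smul (Bd.mul (Bd.mul (Bd_dg fun j => ?_) (h.Y_bd n hn)) (Bd_dg fun j => ?_)) e
    · rw [abs_of_pos (hapos j)]
      exact (hab j).2
    · by_cases hj : j ∈ A.B.K
      · rw [if_neg (by simpa using hj), mul_zero, abs_zero]
        positivity
      · rw [if_pos (by simpa using hj), mul_one, ha2 j hj, abs_of_pos (by positivity)]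
  have hM2 : (|e| * (Ω ^ 3 * 1 * (Ω ^ 3)⁻¹)) ^ 2 ≤ Ω := by
    rw [mul_one, mul_inv_cancel₀ (by positivity), mul_one, sq_abs]
    exact he2
  have hA := stepA hRc A.B.K A.Mg hZ (Bd_sh A.B n) hM M₁
  have hB := stepB A.B hRc n
  -- approximate invariance
  have hI := invY hP hε hab (h.Y_bd n hn) (A.Z n) (h.Y_inv n hn)
  rw [← hR, ← hZ0] at hI
  have hI2 : hs ((1 - R) * Zh * R) ≤
      Ω * (4 * ε * Fintype.card ι + 4 * Ω ^ 6 * N + 2 * Ω ^ 12 * dfc A.P / ε ^ 2) := by
    rw [hZh, mul_smul_comm, smul_mul_assoc, hs_smul, Complex.norm_real, Real.norm_eq_abs, sq_abs]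
    refine mul_le_mul he2 (hI.trans ?_) (hs_nonneg _) hΩ0.le
    have hZc : ((A.Z n).card : ℝ) ≤ N := by exact_mod_cast h.Z_card n hn
    have e1 : (Ω ^ 3) ^ 2 = Ω ^ 6 := by ring
    have e2 : (Ω ^ 3) ^ 4 = Ω ^ 12 := by ring
    rw [e1, e2]
    have : 4 * Ω ^ 6 * ((A.Z n).card : ℝ) ≤ 4 * Ω ^ 6 * N := by gcongr
    linarith
  -- the crossing columns off `Mg`
  have hW : hs (ind A.Mgᶜ * W₁) ≤ Fintype.card ι / Ω ^ 7 := by
    rw [hs, Finset.sum_comm]
    have hcol : ∀ j, ∑ k, ‖(ind A.Mgᶜ * W₁) k j‖ ^ 2 ≤ 1 / Ω ^ 7 := by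
      intro j
      by_cases hj : j ∈ cr A.B n
      · obtain ⟨hjK, hj2⟩ := Finset.mem_filter.1 hj
        obtain ⟨b, l, hl, rfl⟩ := exists_site A.B hjK
        rw [A.B.pos_site b l hl] at hj2
        have h1 := h.Y_out n b l hn hl hj2
        have h2 : ∑ k, ‖(ind A.Mgᶜ * W₁) k (A.B.site b l)‖ ^ 2 ≤
            ∑ k ∈ A.Mgᶜ, Ω * Ω ^ 6 * ‖A.Y n k (A.B.site b l)‖ ^ 2 := by
          rw [← Finset.sum_add_sum_compl A.Mgᶜ, Finset.sum_eq_zero (s := A.Mgᶜᶜ), add_zero]
          · refine Finset.sum_le_sum fun k hk => ?_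
            rw [ind_mul_apply, if_pos hk, hW₁, mul_ind_apply, if_pos hj, hZe, norm_mul, mul_pow,
              Complex.norm_real, Real.norm_eq_abs, sq_abs]
            refine mul_le_mul_of_nonneg_right ?_ (by positivity)
            have p1 : (a (A.B.site b l))⁻¹ ≤ 1 := inv_le_one_of_one_le₀ (hab _).1
            have p2 : 0 ≤ (a (A.B.site b l))⁻¹ := inv_nonneg.2 (hapos _).le
            have p3 : a k ^ 2 ≤ (Ω ^ 3) ^ 2 := pow_le_pow_left₀ (hapos k).le (hab k).2 2
            have p4 : ((a (A.B.site b l))⁻¹) ^ 2 ≤ 1 := pow_le_one₀ p2 p1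
            calc (e * a k * (a (A.B.site b l))⁻¹) ^ 2
                = e ^ 2 * a k ^ 2 * ((a (A.B.site b l))⁻¹) ^ 2 := by ring
              _ ≤ Ω * (Ω ^ 3) ^ 2 * 1 := by gcongr
              _ = Ω * Ω ^ 6 := by ring
          · intro k hk
            rw [ind_mul_apply, if_neg (Finset.mem_compl.1 hk), norm_zero]
            norm_num
        rw [← Finset.mul_sum] at h2
        refine h2.trans ((mul_le_mul_of_nonneg_left h1 (by positivity)).trans (le_of_eq ?_))
        rw [Th, ← hΩ]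
        field_simp
      · rw [Finset.sum_eq_zero]
        · positivity
        · intro k _
          rw [ind_mul_apply, hW₁, mul_ind_apply, if_neg hj, ite_self, norm_zero]
          norm_num
    refine (Finset.sum_le_card_nsmul _ _ _ fun j _ => hcol j).trans (le_of_eq ?_)
    rw [nsmul_eq_mul, Finset.card_univ, mul_one_div]
  have hL := mul_le_mul_of_nonneg_right hM2 (hs_nonneg (ind A.B.Kᶜ * R * ind A.B.K - M₁))
  have e9 : 9 * (Fintype.card ι : ℝ) / Ω ^ 7 = 9 * (Fintype.card ι / Ω ^ 7) := by ring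
  rw [e9]
  linarith

end Crest.Agent.R113
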