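import Crest.Agent.R113.Basic2

set_option autoImplicit false
open Matrix
open scoped ComplexOrder

namespace Crest.Agent.R113
variable {ι : Type*} [Fintype ι] [DecidableEq ι]

namespace CrossX

theorem ind_herm (S : Finset ι) : (ind S)ᴴ = ind S := dg_herm _

theorem ind_mul_compl (S : Finset ι) : ind S * ind Sᶜ = 0 := by
  have h : ind Sᶜ = 1 - ind S := by rw [← ind_add_compl S]; abel
  rw [h, Matrix.mul_sub, Matrix.mul_one, ind_mul_ind, sub_self]

theorem ind_psd (S : Finset ι) : (ind S).PosSemidef := by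
  have := posSemidef_conjTranspose_mul_self (ind S)
  rwa [ind_herm, ind_mul_ind] at this

theorem dg_ite_mul (S : Finset ι) (c : ℝ) :
    dg (fun j => if j ∈ S then c else 1) * ind S = (c : ℂ) • ind S := by
  rw [ind, dg_mul_dg]
  ext j k
  simp only [dg, Matrix.smul_apply, diagonal_apply, smul_eq_mul]
  split_ifs <;> simp

theorem mul_dg_ite (S : Finset ι) (c : ℝ) :
    ind S * dg (fun j => if j ∈ S then c else 1) = (c : ℂ) • ind S := by
  rw [ind, dg_mul_dg]
  ext j k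
  simp only [dg, Matrix.smul_apply, diagonal_apply, smul_eq_mul]
  split_ifs <;> simp

theorem dg_sq (S : Finset ι) (c : ℝ) :
    dg (fun j => if j ∈ S then c else 1) * dg (fun j => if j ∈ S then c else 1) =
      1 - ((1 - c ^ 2 : ℝ) : ℂ) • ind S := by
  rw [ind, dg_mul_dg]
  ext j k
  simp only [dg, Matrix.smul_apply, diagonal_apply, smul_eq_mul, Matrix.sub_apply, one_apply]
  split_ifs <;> simp [sq]

theorem dg_inv (S : Finset ι) {c : ℝ} (hc : c ≠ 0) :
    dg (fun j => if j ∈ S then c⁻¹ else 1) * dg (fun j => if j ∈ S then c else 1) = 1 := by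
  rw [dg_mul_dg, ← dg_one]
  congr 1
  funext j
  split_ifs
  · exact inv_mul_cancel₀ hc
  · exact one_mul _

/-- the resolvent identity for the compression to `S` -/
theorem key {K : Matrix ι ι ℂ} (hK : K.PosSemidef) {ε c : ℝ} (hε : 0 < ε) (hc : 0 < c)
    (S : Finset ι) :
    ((c ^ 2 : ℝ) : ℂ) • (ind S * Ph ε (dg (fun j => if j ∈ S then c else 1) * K *
        dg (fun j => if j ∈ S then c else 1)) * ind S) +
      ((1 - c ^ 2 : ℝ) : ℂ) • ((ind S * Ph ε K * ind S) *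
        (ind S * Ph ε (dg (fun j => if j ∈ S then c else 1) * K *
          dg (fun j => if j ∈ S then c else 1)) * ind S)) = ind S * Ph ε K * ind S := by
  set d := dg (fun j => if j ∈ S then c else 1) with hd
  set d' := dg (fun j => if j ∈ S then c⁻¹ else 1) with hd'
  set E := ind S with hE
  have hdd : d' * d = 1 := dg_inv S hc.ne'
  have hd2 : d * d = 1 - ((1 - c ^ 2 : ℝ) : ℂ) • E := dg_sq S c
  have hEd : E * d = (c : ℂ) • E := mul_dg_ite S c
  have hd'E : d' * E = ((c⁻¹ : ℝ) : ℂ) • E := dg_ite_mul S c⁻¹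
  have hEE : E * E = E := ind_mul_ind S
  have hW := (posDef_add_eps hK hε).isUnit
  have hW' := (posDef_add_eps (dg_psd hK (fun j => if j ∈ S then c else 1)) hε).isUnit
  rw [← hd] at hW'
  rw [Matrix.isUnit_iff_isUnit_det] at hW hW'
  have h1 := Matrix.nonsing_inv_mul _ hW
  have h2 := Matrix.mul_nonsing_inv _ hW'
  unfold Ph
  set V := (K + (ε : ℂ) • (1 : Matrix ι ι ℂ))⁻¹ with hV
  set V' := (d * K * d + (ε : ℂ) • (1 : Matrix ι ι ℂ))⁻¹ with hV'
  have e1 : d * K * d + (ε : ℂ) • (1 : Matrix ι ι ℂ) =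
      d * (K + (ε : ℂ) • (1 : Matrix ι ι ℂ)) * d + ((ε : ℂ) * ((1 - c ^ 2 : ℝ) : ℂ)) • E := by
    rw [Matrix.mul_add, Matrix.add_mul, Matrix.mul_smul, Matrix.mul_one, Matrix.smul_mul, hd2,
      smul_sub, smul_smul]
    abel
  rw [e1] at h2
  set W := K + (ε : ℂ) • (1 : Matrix ι ι ℂ) with hWdef
  -- multiply `h2` by `E V d'` on the left and by `E` on the right
  have h3 := congrArg (fun M => E * V * d' * M * E) h2
  simp only [Matrix.add_mul, Matrix.mul_add, Matrix.smul_mul, Matrix.mul_smul, Matrix.mul_one] at h3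
  have e2 : E * V * d' * (d * W * d * V') * E = (c : ℂ) • (E * V' * E) := by
    calc E * V * d' * (d * W * d * V') * E = E * (V * ((d' * d) * W)) * d * V' * E := by
          simp only [Matrix.mul_assoc]
      _ = (c : ℂ) • (E * V' * E) := by
          rw [hdd, Matrix.one_mul, h1, Matrix.mul_one, hEd, Matrix.smul_mul, Matrix.smul_mul]
  have e3 : E * V * d' * (E * V') * E = ((c⁻¹ : ℝ) : ℂ) • (E * V * E * (E * V' * E)) := by
    calc E * V * d' * (E * V') * E = E * V * (d' * E) * V' * E := by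
          simp only [Matrix.mul_assoc]
      _ = ((c⁻¹ : ℝ) : ℂ) • (E * V * (E * E) * V' * E) := by
          rw [hd'E, hEE, Matrix.mul_smul, Matrix.smul_mul, Matrix.smul_mul]
      _ = _ := by simp only [Matrix.mul_assoc]
  have e4 : E * V * d' * E = ((c⁻¹ : ℝ) : ℂ) • (E * V * E) := by
    rw [Matrix.mul_assoc (E * V), hd'E, Matrix.mul_smul]
  rw [e2, e3, e4] at h3
  have hc' : (c : ℂ) ≠ 0 := Complex.ofReal_ne_zero.2 hc.ne'
  have h4 := congrArg (fun M => ((ε : ℂ) * (c : ℂ)) • M) h3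
  simp only [smul_add, smul_smul] at h4
  simp only [Matrix.smul_mul, Matrix.mul_smul, smul_smul]
  convert h4 using 2
  · congr 1
    push_cast; ring
  · congr 1
    push_cast; field_simp
  · push_cast; field_simp

theorem den_pos {η x : ℝ} (hη : 0 < η) (h0 : 0 ≤ x) (h1 : x ≤ 1) : 0 < η + (1 - η) * x := by
  rcases h0.eq_or_lt with h | h
  · rw [← h]; linarith
  · nlinarith [mul_nonneg hη.le (sub_nonneg.2 h1)]

/-- spectral data of the compression `A = S Φ S` -/
theorem spec {P : Matrix ι ι ℂ} (hP : P.PosSemidef) {ε : ℝ} (hε : 0 < ε) (a : ι → ℝ)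
    (S : Finset ι) :
    ∃ (U : Matrix ι ι ℂ) (x : ι → ℝ), U * Uᴴ = 1 ∧ Uᴴ * U = 1 ∧ (∀ i, 0 ≤ x i) ∧ (∀ i, x i ≤ 1) ∧
      (∀ c : ℝ, 0 < c → dsum S (Ra ε P (sc S c a)) =
        S.card - ∑ i, x i / (c ^ 2 + (1 - c ^ 2) * x i)) ∧
      ∀ i, ∑ k, ‖(Uᴴ * (ind S * Ra ε P a * ind Sᶜ)) i k‖ ^ 2 ≤ x i * (1 - x i) := by
  have hK := dg_psd hP a
  set K := dg a * P * dg a with hKdef
  have hΦ := Ph_ctr hK hε
  set Φ := Ph ε K with hΦdef
  set E := ind S with hE
  have hEh : Eᴴ = E := ind_herm S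
  have hEE : E * E = E := ind_mul_ind S
  have hA0 : (E * Φ * E).PosSemidef := by
    have := hΦ.1.mul_mul_conjTranspose_same E
    rwa [hEh] at this
  have hA1 : (1 - E * Φ * E).PosSemidef := by
    have h1 := hΦ.2.mul_mul_conjTranspose_same E
    rw [hEh] at h1
    convert h1.add (ind_psd Sᶜ) using 1
    rw [Matrix.mul_sub, Matrix.sub_mul, Matrix.mul_one, hEE, ← ind_add_compl S]
    abel
  have hH := hA0.1
  obtain ⟨U, hU, hU', hD⟩ : ∃ U : Matrix ι ι ℂ, U * Uᴴ = 1 ∧ Uᴴ * U = 1 ∧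
      Uᴴ * (E * Φ * E) * U = diagonal fun i => (hH.eigenvalues i : ℂ) :=
    ⟨hH.eigenvectorUnitary, hH.eigenvectorUnitary.2.2, hH.eigenvectorUnitary.2.1, by
      simpa [Unitary.conjStarAlgAut_apply, Function.comp_def, star_eq_conjTranspose] using
        hH.conjStarAlgAut_star_eigenvectorUnitary⟩
  set x := hH.eigenvalues with hx
  set A := E * Φ * E with hAdef
  have hx0 : ∀ i, 0 ≤ x i := fun i => by
    have := (hA0.conjTranspose_mul_mul_same U).diag_nonneg (i := i)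
    rwa [hD, diagonal_apply_eq, Complex.zero_le_real] at this
  have hx1 : ∀ i, x i ≤ 1 := fun i => by
    have := (hA1.conjTranspose_mul_mul_same U).diag_nonneg (i := i)
    rw [Matrix.mul_sub, Matrix.sub_mul, Matrix.mul_one, hU', hD, Matrix.sub_apply,
      diagonal_apply_eq, one_apply_eq, ← Complex.ofReal_one, ← Complex.ofReal_sub,
      Complex.zero_le_real] at this
    linarith
  refine ⟨U, x, hU, hU', hx0, hx1, fun c hc => ?_, fun i => ?_⟩
  · have hk := key hK hε hc S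
    have e0 : dg (fun j => if j ∈ S then c else 1) * K * dg (fun j => if j ∈ S then c else 1) =
        dg (sc S c a) * P * dg (sc S c a) := by
      rw [hKdef, dg_conj]
      have : (fun j => (if j ∈ S then c else 1) * a j) = sc S c a := by
        funext j
        unfold sc
        split_ifs <;> simp
      rw [this]
    rw [e0, ← hΦdef, ← hE, ← hAdef] at hk
    set X := E * Ph ε (dg (sc S c a) * P * dg (sc S c a)) * E with hX
    have h1 := congrArg (fun M => Uᴴ * M * U) hk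
    have e1 : Uᴴ * (A * X) * U = (Uᴴ * A * U) * (Uᴴ * X * U) := by
      calc Uᴴ * (A * X) * U = Uᴴ * A * (U * Uᴴ) * X * U := by
            rw [hU, Matrix.mul_one]; simp only [Matrix.mul_assoc]
        _ = _ := by simp only [Matrix.mul_assoc]
    simp only [Matrix.add_mul, Matrix.mul_add, Matrix.smul_mul, Matrix.mul_smul] at h1
    rw [e1, hD] at h1
    have h2 : ∀ i, ((Uᴴ * X * U) i i).re = x i / (c ^ 2 + (1 - c ^ 2) * x i) := by
      intro i
      have h3 := congrArg Complex.re (congrFun (congrFun h1 i) i)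
      simp only [Matrix.add_apply, Matrix.smul_apply, diagonal_mul, diagonal_apply_eq, smul_eq_mul,
        Complex.add_re, Complex.re_ofReal_mul, Complex.ofReal_re] at h3
      rw [eq_div_iff (den_pos (pow_pos hc 2) (hx0 i) (hx1 i)).ne']
      linarith
    have h4 : (Matrix.trace X).re = ∑ i, x i / (c ^ 2 + (1 - c ^ 2) * x i) := by
      have : Matrix.trace X = Matrix.trace (Uᴴ * X * U) := by
        rw [trace_mul_cycle Uᴴ X U, hU, Matrix.one_mul]
      rw [this, Matrix.trace, Complex.re_sum]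
      exact Finset.sum_congr rfl fun i _ => h2 i
    rw [← h4, dsum_eq_trace, Ra, Rs, Matrix.mul_sub, Matrix.mul_one, trace_sub, Complex.sub_re,
      hX, trace_mul_cycle, hEE]
    congr 1
    have := dsum_eq_trace S (1 : Matrix ι ι ℂ)
    rw [Matrix.mul_one] at this
    rw [← this]
    simp [dsum, de]
  · have e0 : E * Ra ε P a * ind Sᶜ = -(E * Φ * ind Sᶜ) := by
      rw [Ra, Rs, ← hKdef, ← hΦdef, Matrix.mul_sub, Matrix.sub_mul, Matrix.mul_one, hE,
        ind_mul_compl, zero_sub]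
    have hc : ind Sᶜ = 1 - E := by rw [hE, ← ind_add_compl S]; abel
    have hcc : ind Sᶜ * ind Sᶜ = ind Sᶜ := ind_mul_ind _
    have h1 : (A - A * A - (E * Φ * ind Sᶜ) * (E * Φ * ind Sᶜ)ᴴ).PosSemidef := by
      have h2 := hΦ.sub_sq.mul_mul_conjTranspose_same E
      rw [hEh] at h2
      convert h2 using 1
      have e2 : (E * Φ * ind Sᶜ) * (E * Φ * ind Sᶜ)ᴴ = E * Φ * (ind Sᶜ * ind Sᶜ) * Φ * E := by
        rw [conjTranspose_mul, conjTranspose_mul, ind_herm, hEh, hΦ.1.1.eq]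
        simp only [Matrix.mul_assoc]
      have e3 : A * A = E * Φ * (E * E) * Φ * E := by
        rw [hAdef]; simp only [Matrix.mul_assoc]
      rw [e2, e3, hcc, hEE, hc, hAdef]
      simp only [Matrix.mul_sub, Matrix.sub_mul, Matrix.mul_one, Matrix.mul_assoc]
      abel
    have h3 := (h1.conjTranspose_mul_mul_same U).diag_nonneg (i := i)
    have e1 : Uᴴ * (A * A) * U = (Uᴴ * A * U) * (Uᴴ * A * U) := by
      calc Uᴴ * (A * A) * U = Uᴴ * A * (U * Uᴴ) * A * U := by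
            rw [hU, Matrix.mul_one]; simp only [Matrix.mul_assoc]
        _ = _ := by simp only [Matrix.mul_assoc]
    have e4 : Uᴴ * ((E * Φ * ind Sᶜ) * (E * Φ * ind Sᶜ)ᴴ) * U =
        (Uᴴ * -(E * Φ * ind Sᶜ)) * (Uᴴ * -(E * Φ * ind Sᶜ))ᴴ := by
      rw [conjTranspose_mul Uᴴ, conjTranspose_conjTranspose, conjTranspose_neg]
      simp only [Matrix.mul_neg, Matrix.neg_mul, neg_neg, Matrix.mul_assoc]
    rw [Matrix.mul_sub, Matrix.mul_sub, Matrix.sub_mul, Matrix.sub_mul, e1, e4, hD,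
      Matrix.sub_apply, Matrix.sub_apply, B2.row, diagonal_mul_diagonal, diagonal_apply_eq,
      diagonal_apply_eq, ← Complex.ofReal_mul, ← Complex.ofReal_sub, ← Complex.ofReal_sub,
      Complex.zero_le_real] at h3
    rw [e0]
    linarith

theorem sc_one (S : Finset ι) (a : ι → ℝ) : sc S 1 a = a := by
  funext j
  unfold sc
  split_ifs <;> simp

theorem scal1 {x : ℝ} (h0 : 0 ≤ x) (h1 : x ≤ 1) :
    x * (1 - x) ≤ 2 * (x / ((1 / 2) ^ 2 + (1 - (1 / 2) ^ 2) * x) - x / (1 ^ 2 + (1 - 1 ^ 2) * x)) := by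
  have hd : (0 : ℝ) < (1 / 2) ^ 2 + (1 - (1 / 2) ^ 2) * x := by nlinarith
  have h2 : x + x * (1 - x) / 2 ≤ x / ((1 / 2) ^ 2 + (1 - (1 / 2) ^ 2) * x) := by
    rw [le_div_iff₀ hd]
    nlinarith [mul_nonneg h0 (sub_nonneg.2 h1), mul_nonneg (mul_nonneg h0 (sub_nonneg.2 h1))
      (sub_nonneg.2 h1)]
  have h3 : x / (1 ^ 2 + (1 - 1 ^ 2) * x) = x := by norm_num
  rw [h3]
  linarith

theorem scal2 {η x : ℝ} (hη : 0 < η) (hη4 : η ≤ 1 / 4) (h0 : 0 ≤ x) (h1 : x ≤ 1) :
    (if 2 * η ≤ x ∧ x ≤ 1 - η then (1 : ℝ) else 0) ≤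
      8 * (x / (η + (1 - η) * x) - x / (η⁻¹ + (1 - η⁻¹) * x)) := by
  have hd := den_pos hη h0 h1
  have hd2 : 0 < 1 - (1 - η) * x := by nlinarith
  have e : x / (η⁻¹ + (1 - η⁻¹) * x) = η * x / (1 - (1 - η) * x) := by
    have : η⁻¹ + (1 - η⁻¹) * x = (1 - (1 - η) * x) / η := by field_simp; ring
    rw [this]
    field_simp
  rw [e]
  have a1 : x ≤ x / (η + (1 - η) * x) := by
    rw [le_div_iff₀ hd]
    nlinarith [mul_nonneg h0 (mul_nonneg (by linarith : 0 ≤ 1 - η) (sub_nonneg.2 h1))]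
  have a2 : η * x / (1 - (1 - η) * x) ≤ x := by
    rw [div_le_iff₀ hd2]
    nlinarith [mul_nonneg h0 (mul_nonneg (by linarith : 0 ≤ 1 - η) (sub_nonneg.2 h1))]
  split_ifs with h
  · obtain ⟨h2, h3⟩ := h
    rcases le_total x (1 / 2) with h4 | h4
    · have : 2 / 3 ≤ x / (η + (1 - η) * x) := by
        rw [le_div_iff₀ hd]
        nlinarith [mul_nonneg hη.le h0]
      linarith
    · have : η * x / (1 - (1 - η) * x) ≤ 4 / 7 * x := by
        rw [div_le_iff₀ hd2]
        have b1 : 7 / 4 * η ≤ 1 - (1 - η) * x := by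
          nlinarith [mul_nonneg (by linarith : 0 ≤ 1 - η) (sub_nonneg.2 h3)]
        nlinarith [mul_le_mul_of_nonneg_left b1 h0]
      linarith
  · linarith

end CrossX

open CrossX

theorem cross {P : Matrix ι ι ℂ} (hP : P.PosSemidef) {ε : ℝ} (hε : 0 < ε) (a : ι → ℝ)
    (S : Finset ι) :
    crs S (Ra ε P a) ≤ 2 * (dsum S (Ra ε P a) - dsum S (Ra ε P (sc S (1 / 2) a))) := by
  obtain ⟨U, x, hU, hU', hx0, hx1, hd, hr⟩ := spec hP hε a S
  have b1 : Bd 1 U := by simpa [Bd, hU'] using PosSemidef.zero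
  have h1 := hs_mul_left b1 (Uᴴ * (ind S * Ra ε P a * ind Sᶜ))
  rw [← Matrix.mul_assoc, hU, Matrix.one_mul, hs_ind_mul_ind] at h1
  have h2 := hd 1 one_pos
  rw [sc_one] at h2
  rw [h2, hd (1 / 2) (by norm_num)]
  have h3 : hs (Uᴴ * (ind S * Ra ε P a * ind Sᶜ)) ≤ ∑ i, 2 * (x i / ((1 / 2) ^ 2 +
      (1 - (1 / 2) ^ 2) * x i) - x i / (1 ^ 2 + (1 - 1 ^ 2) * x i)) :=
    Finset.sum_le_sum fun i _ => (hr i).trans (scal1 (hx0 i) (hx1 i))
  rw [← Finset.mul_sum, Finset.sum_sub_distrib] at h3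
  linarith

theorem crossRank {P : Matrix ι ι ℂ} (hP : P.PosSemidef) {ε c : ℝ} (hε : 0 < ε) (hc : 0 < c)
    (hc2 : c ≤ 1 / 2) (a : ι → ℝ) (S : Finset ι) :
    ∃ M₁ : Matrix ι ι ℂ,
      (M₁.rank : ℝ) ≤ 8 * (dsum S (Ra ε P (sc S c⁻¹ a)) - dsum S (Ra ε P (sc S c a))) ∧
      hs (ind S * Ra ε P a * ind Sᶜ - M₁) ≤ 2 * c ^ 2 * Fintype.card ι := by
  obtain ⟨U, x, hU, hU', hx0, hx1, hd, hr⟩ := spec hP hε a S
  have b1 : Bd 1 U := by simpa [Bd, hU'] using PosSemidef.zero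
  have hη : 0 < c ^ 2 := pow_pos hc 2
  have hη4 : c ^ 2 ≤ 1 / 4 := by nlinarith
  set M := ind S * Ra ε P a * ind Sᶜ with hM
  set B : Finset ι := Finset.univ.filter fun i => 2 * c ^ 2 ≤ x i ∧ x i ≤ 1 - c ^ 2 with hB
  refine ⟨U * ind B * (Uᴴ * M), ?_, ?_⟩
  · have h1 : (U * ind B * (Uᴴ * M)).rank ≤ B.card :=
      (rank_mul_le_left _ _).trans ((rank_mul_le_right _ _).trans (rank_ind_le B))
    have h2 : (B.card : ℝ) ≤ ∑ i, 8 * (x i / (c ^ 2 + (1 - c ^ 2) * x i) -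
        x i / ((c ^ 2)⁻¹ + (1 - (c ^ 2)⁻¹) * x i)) := by
      rw [hB, ← Finset.sum_boole]
      exact Finset.sum_le_sum fun i _ => scal2 hη hη4 (hx0 i) (hx1 i)
    rw [← Finset.mul_sum, Finset.sum_sub_distrib] at h2
    rw [hd c hc, hd c⁻¹ (inv_pos.2 hc), inv_pow]
    have h3 : ((U * ind B * (Uᴴ * M)).rank : ℝ) ≤ B.card := by exact_mod_cast h1
    linarith
  · have e : M - U * ind B * (Uᴴ * M) = U * (ind Bᶜ * (Uᴴ * M)) := by
      have hc : ind Bᶜ = 1 - ind B := by rw [← ind_add_compl B]; abel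
      rw [hc, Matrix.sub_mul, Matrix.mul_sub, Matrix.one_mul, ← Matrix.mul_assoc U Uᴴ, hU,
        Matrix.one_mul, Matrix.mul_assoc]
    rw [e]
    refine (hs_mul_left b1 _).trans ?_
    rw [one_pow, one_mul]
    have h1 : hs (ind Bᶜ * (Uᴴ * M)) ≤ ∑ _i : ι, 2 * c ^ 2 := by
      refine Finset.sum_le_sum fun i _ => ?_
      by_cases hi : i ∈ B
      · have : ∀ k, (ind Bᶜ * (Uᴴ * M)) i k = 0 := fun k => by
          simp [ind, dg, diagonal_mul, hi]
        simp only [this, norm_zero]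
        simpa using hη.le
      · have : ∀ k, (ind Bᶜ * (Uᴴ * M)) i k = (Uᴴ * M) i k := fun k => by
          simp [ind, dg, diagonal_mul, hi]
        simp only [this]
        refine (hr i).trans ?_
        rw [hB, Finset.mem_filter, not_and, not_and_or] at hi
        rcases hi (Finset.mem_univ i) with h | h
        · nlinarith [hx0 i, hx1 i, not_le.1 h, mul_nonneg (hx0 i) (hx0 i)]
        · nlinarith [hx0 i, hx1 i, not_le.1 h, mul_nonneg (sub_nonneg.2 (hx1 i))
            (sub_nonneg.2 (hx1 i))]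
    rw [Finset.sum_const, Finset.card_univ, nsmul_eq_mul] at h1
    linarith

end Crest.Agent.R113
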