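import Crest.Agent.R113.ML
import Crest.Agent.R113.Cross

set_option autoImplicit false
open Matrix
open scoped ComplexOrder

namespace Crest.Agent.R113
variable {ι : Type*} [Fintype ι] [DecidableEq ι]
variable {T : Type*} [Fintype T]

theorem Tst.OK.gam {D : Tst ι T} {Θ κm : ℝ} (h : D.OK Θ κm) {ε σ : ℝ} (hε : 0 < ε) (hσ : σ ≤ Θ)
    (hσ1 : 1 ≤ σ) {a : ι → ℝ} (ha : ∀ j, 1 ≤ a j ∧ a j ≤ σ) (haC : ∀ j, j ∉ D.C → a j = σ) :
    ∑ j ∈ D.Cᶜ, |de (Ra ε D.P a) j - de D.P j| ≤ D.Γ κm σ ε := by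
  have ha0 : ∀ j, 0 < a j := fun j => by linarith [(ha j).1]
  have h1 := h.fwdB hε hσ ha hσ1 D.Cᶜ subset_rfl
  rw [Finset.inter_compl, Finset.card_empty] at h1
  set μ : ι → ℝ := fun j => de (Ra ε D.P a) j - de D.P j with hμ
  have h2 := lowB h.hP hε hσ1 ha0 (D.Cᶜ.filter fun j => μ j < 0)
    (fun j hj => (haC j (Finset.mem_compl.1 (Finset.mem_filter.1 hj).1)).ge) fun j _ => (ha j).2
  have h3 : ∑ j ∈ D.Cᶜ, |μ j| = ∑ j ∈ D.Cᶜ, μ j - 2 * ∑ j ∈ D.Cᶜ.filter (fun j => μ j < 0), μ j := by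
    rw [Finset.sum_filter, Finset.mul_sum, ← Finset.sum_sub_distrib]
    refine Finset.sum_congr rfl fun j _ => ?_
    split_ifs with hj
    · rw [abs_of_neg hj]; ring
    · rw [abs_of_nonneg (not_lt.1 hj)]; ring
  have h4 : ∀ S : Finset ι, ∑ j ∈ S, μ j = dsum S (Ra ε D.P a) - dsum S D.P := fun S => by
    simp only [hμ, dsum, Finset.sum_sub_distrib]
  change ∑ j ∈ D.Cᶜ, |μ j| ≤ _
  rw [h3, h4, h4, Tst.Γ, Tst.γ0]
  simp only [Nat.cast_zero, mul_zero, add_zero] at h1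
  linarith

theorem Tst.OK.bal {D : Tst ι T} {Θ κm : ℝ} (h : D.OK Θ κm) {ε σ v Pb : ℝ} (hε : 0 < ε)
    (hσ : 2 * σ ≤ Θ) (hσ1 : 1 ≤ σ) (hv : 0 < v) (hPb : 0 ≤ Pb) {a : ι → ℝ}
    (ha : ∀ j, 1 ≤ a j ∧ a j ≤ σ) (haC : ∀ j, j ∉ D.C → a j = σ) :
    ∑ τ, D.ω τ * crs (D.S τ) (Ra ε D.P a) ≤ 2 * D.X κm σ ε v Pb := by
  have ha0 : ∀ j, 0 < a j := fun j => by linarith [(ha j).1]
  have hg := h.gam hε (by linarith) hσ1 ha haC
  have hR := Ra_ctr h.hP.1 hε a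
  set μ : ι → ℝ := fun j => de (Ra ε D.P a) j - de D.P j with hμ
  have h4 : ∀ S : Finset ι, ∑ j ∈ S, μ j = dsum S (Ra ε D.P a) - dsum S D.P := fun S => by
    simp only [hμ, dsum, Finset.sum_sub_distrib]
  have hμ1 : ∀ j, |μ j| ≤ 1 := fun j => by
    have e1 := de_nonneg hR.1 j
    have e2 := hR.de_le_one j
    have e3 := de_nonneg h.hP.1 j
    have e4 := h.hP.de_le_one j
    simp only [hμ]
    rw [abs_le]
    constructor <;> linarith
  have h1 : ∑ τ, D.ω τ * crs (D.S τ) (Ra ε D.P a) ≤ ∑ τ, 2 * (D.ω τ * ∑ j ∈ D.S τ, μ j +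
      D.ω τ * ((dsum (D.S τ) D.P - dsum (D.S τ) (D.Pm τ)) + 2 * (D.E τ).card) +
      D.ω τ * (4 * ε * Fintype.card ι / κm ^ 2)) := by
    refine Finset.sum_le_sum fun τ _ => ?_
    have e1 := cross h.hP.1 hε a (D.S τ)
    have e2 := h.bwdB hε hσ ha hσ1 τ
    have e3 : crs (D.S τ) (Ra ε D.P a) ≤ 2 * (∑ j ∈ D.S τ, μ j +
        ((dsum (D.S τ) D.P - dsum (D.S τ) (D.Pm τ)) + 2 * (D.E τ).card) +
        4 * ε * Fintype.card ι / κm ^ 2) := by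
      rw [h4]; linarith
    refine (mul_le_mul_of_nonneg_left e3 (h.ω_nonneg τ)).trans (le_of_eq ?_)
    ring
  have h2 : ∑ τ, D.ω τ * ∑ j ∈ D.S τ, μ j = ∑ j, μ j * (D.Pi j - Pb) + Pb * ∑ j, μ j := by
    have e1 : ∀ τ, ∑ j ∈ D.S τ, μ j = ∑ j, if j ∈ D.S τ then μ j else 0 := fun τ => by
      rw [← Finset.sum_filter, Finset.filter_mem_eq_inter, Finset.univ_inter]
    simp only [e1, Finset.mul_sum]
    rw [Finset.sum_comm, ← Finset.sum_add_distrib]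
    refine Finset.sum_congr rfl fun j _ => ?_
    have e2 : μ j * (D.Pi j - Pb) + Pb * μ j = μ j * D.Pi j := by ring
    rw [e2, Tst.Pi, Finset.mul_sum]
    refine Finset.sum_congr rfl fun τ _ => ?_
    split_ifs <;> ring
  have h3 : ∑ j, μ j ≤ σ ^ 2 * dfc D.P / ε := by
    have e1 := upB h.hP hε (by linarith : 0 < σ) ha0 Finset.univ ∅ (fun j _ _ => (ha j).2)
      fun j hj => absurd (Finset.mem_univ j) hj
    rw [h4]
    simp only [Finset.card_empty, Nat.cast_zero, mul_zero, add_zero] at e1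
    linarith
  have h5 : ∑ j, μ j * (D.Pi j - Pb) ≤ (∑ j ∈ D.C, |D.Pi j - Pb|) + v / 2 * D.Γ κm σ ε +
      (∑ j, (D.Pi j - Pb) ^ 2) / v := by
    rw [← Finset.sum_add_sum_compl D.C]
    have e1 : ∑ j ∈ D.C, μ j * (D.Pi j - Pb) ≤ ∑ j ∈ D.C, |D.Pi j - Pb| := by
      refine Finset.sum_le_sum fun j _ => (le_abs_self _).trans ?_
      rw [abs_mul]
      exact mul_le_of_le_one_left (abs_nonneg _) (hμ1 j)
    have e2 : ∑ j ∈ D.Cᶜ, μ j * (D.Pi j - Pb) ≤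
        ∑ j ∈ D.Cᶜ, (v / 2 * |μ j| + (D.Pi j - Pb) ^ 2 / v) := by
      refine Finset.sum_le_sum fun j _ => ?_
      have f1 := hμ1 j
      have f2 := abs_nonneg (μ j)
      have f3 : μ j ^ 2 ≤ |μ j| := by rw [← sq_abs]; nlinarith
      generalize D.Pi j - Pb = x
      have f4 : x ^ 2 / v = v * (x / v) ^ 2 := by field_simp
      have f5 : μ j * x = v * (μ j * (x / v)) := by field_simp
      rw [f4, f5]
      generalize x / v = y
      have f6 : μ j * y ≤ 1 / 2 * |μ j| + y ^ 2 := by nlinarith [sq_nonneg (μ j - y), sq_nonneg y]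
      nlinarith [mul_le_mul_of_nonneg_left f6 hv.le]
    rw [Finset.sum_add_distrib, ← Finset.mul_sum, ← Finset.sum_div] at e2
    have e3 : (∑ j ∈ D.Cᶜ, (D.Pi j - Pb) ^ 2) / v ≤ (∑ j, (D.Pi j - Pb) ^ 2) / v :=
      div_le_div_of_nonneg_right (Finset.sum_le_sum_of_subset_of_nonneg (Finset.subset_univ _)
        fun j _ _ => sq_nonneg _) hv.le
    have e4 : v / 2 * ∑ j ∈ D.Cᶜ, |μ j| ≤ v / 2 * D.Γ κm σ ε :=
      mul_le_mul_of_nonneg_left hg (by positivity)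
    linarith
  have h6 : Pb * ∑ j, μ j ≤ Pb * σ ^ 2 * dfc D.P / ε := by
    refine (mul_le_mul_of_nonneg_left h3 hPb).trans (le_of_eq ?_)
    ring
  rw [← Finset.mul_sum, Finset.sum_add_distrib, Finset.sum_add_distrib, h2, ← Finset.sum_mul] at h1
  rw [Tst.X, Tst.γT]
  linarith

end Crest.Agent.R113
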