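import Crest.Agent.R113.Defs

set_option autoImplicit false
set_option linter.unusedSectionVars false
open Matrix
open scoped ComplexOrder

namespace Crest.Agent.R113
variable {ι : Type*} [Fintype ι] [DecidableEq ι]

namespace B1

theorem smul {A : Matrix ι ι ℂ} (h : A.PosSemidef) {r : ℝ} (hr : 0 ≤ r) :
    ((r : ℂ) • A).PosSemidef := h.smul (Complex.zero_le_real.2 hr)

theorem conj {A G : Matrix ι ι ℂ} (h : A.PosSemidef) (hG : G.IsHermitian) :
    (G * A * G).PosSemidef := by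
  have := h.conjTranspose_mul_mul_same G
  rwa [hG.eq] at this

theorem inv_mul {A : Matrix ι ι ℂ} (h : A.PosDef) : A⁻¹ * A = 1 :=
  Matrix.nonsing_inv_mul A ((Matrix.isUnit_iff_isUnit_det A).1 h.isUnit)

theorem mul_inv {A : Matrix ι ι ℂ} (h : A.PosDef) : A * A⁻¹ = 1 :=
  Matrix.mul_nonsing_inv A ((Matrix.isUnit_iff_isUnit_det A).1 h.isUnit)

theorem of_conj {H X : Matrix ι ι ℂ} (hH : H.PosDef) (h : (H * X * H).PosSemidef) :
    X.PosSemidef := by
  have h1 := conj h hH.inv.isHermitian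
  have h2 : H⁻¹ * (H * X * H) * H⁻¹ = X := by
    calc H⁻¹ * (H * X * H) * H⁻¹ = (H⁻¹ * H) * X * (H * H⁻¹) := by simp only [Matrix.mul_assoc]
      _ = X := by rw [inv_mul hH, mul_inv hH, Matrix.one_mul, Matrix.mul_one]
  rwa [h2] at h1

theorem sq_diag {M : Matrix ι ι ℂ} (h : M.IsHermitian) (j : ι) :
    de (M * M) j = ∑ k, ‖M j k‖ ^ 2 := by
  have h1 : (M * Mᴴ) j j = ((∑ k, ‖M j k‖ ^ 2 : ℝ) : ℂ) := by
    simp [Matrix.mul_apply, Complex.mul_conj, Complex.normSq_eq_norm_sq]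
  rw [h.eq] at h1
  rw [de, h1, Complex.ofReal_re]

theorem de_sub (A B : Matrix ι ι ℂ) (j : ι) : de (A - B) j = de A j - de B j := by
  simp [de]

theorem de_add (A B : Matrix ι ι ℂ) (j : ι) : de (A + B) j = de A j + de B j := by
  simp [de]

theorem de_smul (r : ℝ) (A : Matrix ι ι ℂ) (j : ι) : de ((r : ℂ) • A) j = r * de A j := by
  simp [de]

theorem de_one (j : ι) : de (1 : Matrix ι ι ℂ) j = 1 := by
  simp [de]

end B1

theorem dg_mul_dg (a b : ι → ℝ) : dg a * dg b = dg (fun j => a j * b j) := by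
  simp [dg, diagonal_mul_diagonal]
theorem dg_one : dg (fun _ : ι => (1 : ℝ)) = 1 := by
  simp [dg]
theorem dg_herm (a : ι → ℝ) : (dg a)ᴴ = dg a := by
  rw [dg, diagonal_conjTranspose]
  congr 1
  funext j
  simp
theorem dg_psd {K : Matrix ι ι ℂ} (hK : K.PosSemidef) (a : ι → ℝ) :
    (dg a * K * dg a).PosSemidef := B1.conj hK (dg_herm a)
theorem dg_conj (a b : ι → ℝ) (K : Matrix ι ι ℂ) :
    dg b * (dg a * K * dg a) * dg b = dg (fun j => b j * a j) * K * dg (fun j => b j * a j) := by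
  have h : dg (fun j => b j * a j) = dg a * dg b := by
    rw [dg_mul_dg]
    congr 1
    funext j
    ring
  calc dg b * (dg a * K * dg a) * dg b = (dg b * dg a) * K * (dg a * dg b) := by
        simp only [Matrix.mul_assoc]
    _ = _ := by rw [← h, dg_mul_dg]
theorem ind_add_compl (S : Finset ι) : ind S + ind Sᶜ = 1 := by
  rw [ind, ind, dg, dg, diagonal_add, ← diagonal_one]
  congr 1
  funext j
  by_cases h : j ∈ S <;> simp [h]
theorem ind_mul_ind (S : Finset ι) : ind S * ind S = ind S := by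
  rw [ind, dg_mul_dg]
  congr 1
  funext j
  by_cases h : j ∈ S <;> simp [h]
theorem posDef_add_eps {K : Matrix ι ι ℂ} (hK : K.PosSemidef) {ε : ℝ} (hε : 0 < ε) :
    (K + (ε : ℂ) • (1 : Matrix ι ι ℂ)).PosDef :=
  PosDef.posSemidef_add hK (PosDef.one.smul (Complex.zero_lt_real.2 hε))
/-- the inverse is antitone -/
theorem inv_anti {A B : Matrix ι ι ℂ} (hA : A.PosDef) (h : (B - A).PosSemidef) :
    (A⁻¹ - B⁻¹).PosSemidef := by
  have hB : B.PosDef := by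
    have := hA.add_posSemidef h
    rwa [add_sub_cancel] at this
  have h1 : B⁻¹ * (B - A) * A⁻¹ = A⁻¹ - B⁻¹ := by
    rw [Matrix.mul_sub, Matrix.sub_mul, B1.inv_mul hB, Matrix.one_mul, Matrix.mul_assoc,
      B1.mul_inv hA, Matrix.mul_one]
  have h2 : A⁻¹ * (B - A) * B⁻¹ = A⁻¹ - B⁻¹ := by
    rw [Matrix.mul_sub, Matrix.sub_mul, B1.inv_mul hA, Matrix.one_mul, Matrix.mul_assoc,
      B1.mul_inv hB, Matrix.mul_one]
  have h3 : A⁻¹ - B⁻¹ =
      B⁻¹ * (B - A) * B⁻¹ + B⁻¹ * ((B - A) * A⁻¹ * (B - A)) * B⁻¹ := by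
    calc A⁻¹ - B⁻¹ = A⁻¹ * (B - A) * B⁻¹ := h2.symm
      _ = (B⁻¹ + B⁻¹ * (B - A) * A⁻¹) * (B - A) * B⁻¹ := by rw [h1, add_sub_cancel]
      _ = _ := by simp only [Matrix.add_mul, Matrix.mul_assoc]
  rw [h3]
  exact (B1.conj h hB.inv.isHermitian).add
    (B1.conj (B1.conj hA.inv.posSemidef h.isHermitian) hB.inv.isHermitian)
theorem B1.Rs_eq {K : Matrix ι ι ℂ} (hK : K.PosSemidef) {ε : ℝ} (hε : 0 < ε) :
    Rs ε K = K * (K + (ε : ℂ) • 1)⁻¹ := by
  have h := B1.mul_inv (posDef_add_eps hK hε)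
  rw [Matrix.add_mul, Matrix.smul_mul, Matrix.one_mul] at h
  rw [Rs, Ph, sub_eq_iff_eq_add, h]
theorem B1.conj_Rs {K : Matrix ι ι ℂ} (hK : K.PosSemidef) {ε : ℝ} (hε : 0 < ε) :
    (K + (ε : ℂ) • 1) * Rs ε K * (K + (ε : ℂ) • 1) = K * K + (ε : ℂ) • K := by
  rw [B1.Rs_eq hK hε, Matrix.mul_assoc, Matrix.mul_assoc, B1.inv_mul (posDef_add_eps hK hε),
    Matrix.mul_one, Matrix.add_mul, Matrix.smul_mul, Matrix.one_mul]
theorem B1.sq_psd {K : Matrix ι ι ℂ} (hK : K.IsHermitian) : (K * K).PosSemidef := by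
  have := posSemidef_conjTranspose_mul_self K
  rwa [hK.eq] at this
theorem Ph_ctr {K : Matrix ι ι ℂ} (hK : K.PosSemidef) {ε : ℝ} (hε : 0 < ε) : Ctr (Ph ε K) := by
  refine ⟨B1.smul (posDef_add_eps hK hε).inv.posSemidef hε.le, ?_⟩
  refine B1.of_conj (posDef_add_eps hK hε) ?_
  have := B1.conj_Rs hK hε
  rw [Rs] at this
  rw [this]
  exact (B1.sq_psd hK.isHermitian).add (B1.smul hK hε.le)
theorem Ph_posDef {K : Matrix ι ι ℂ} (hK : K.PosSemidef) {ε : ℝ} (hε : 0 < ε) :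
    (Ph ε K).PosDef := (posDef_add_eps hK hε).inv.smul (Complex.zero_lt_real.2 hε)
theorem Rs_ctr {K : Matrix ι ι ℂ} (hK : K.PosSemidef) {ε : ℝ} (hε : 0 < ε) : Ctr (Rs ε K) := by
  obtain ⟨h1, h2⟩ := Ph_ctr hK hε
  refine ⟨h2, ?_⟩
  rw [Rs, sub_sub_cancel]
  exact h1
theorem Ra_ctr {P : Matrix ι ι ℂ} (hP : P.PosSemidef) {ε : ℝ} (hε : 0 < ε) (a : ι → ℝ) :
    Ctr (Ra ε P a) := Rs_ctr (dg_psd hP a) hε
theorem Rs_eq {K : Matrix ι ι ℂ} (hK : K.PosSemidef) {ε : ℝ} (hε : 0 < ε) :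
    Rs ε K = K * (K + (ε : ℂ) • 1)⁻¹ := B1.Rs_eq hK hε
theorem Rs_eq' {K : Matrix ι ι ℂ} (hK : K.PosSemidef) {ε : ℝ} (hε : 0 < ε) :
    Rs ε K = (K + (ε : ℂ) • 1)⁻¹ * K := by
  have h := B1.inv_mul (posDef_add_eps hK hε)
  rw [Matrix.mul_add, Matrix.mul_smul, Matrix.mul_one] at h
  rw [Rs, Ph, sub_eq_iff_eq_add, h]
theorem Rs_mono {K K' : Matrix ι ι ℂ} (hK : K.PosSemidef) (h : (K' - K).PosSemidef) {ε : ℝ}
    (hε : 0 < ε) : (Rs ε K' - Rs ε K).PosSemidef := by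
  have h1 := inv_anti (B := K' + (ε : ℂ) • 1) (posDef_add_eps hK hε)
    (by rwa [add_sub_add_right_eq_sub])
  have h2 := B1.smul h1 hε.le
  rw [smul_sub] at h2
  rw [Rs, Rs, sub_sub_sub_cancel_left]
  exact h2
theorem de_nonneg {M : Matrix ι ι ℂ} (h : M.PosSemidef) (j : ι) : 0 ≤ de M j :=
  (Complex.nonneg_iff.1 h.diag_nonneg).1
theorem dsum_mono {A B : Matrix ι ι ℂ} (h : (B - A).PosSemidef) (S : Finset ι) :
    dsum S A ≤ dsum S B := by
  refine Finset.sum_le_sum fun j _ => ?_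
  have := de_nonneg h j
  rw [B1.de_sub] at this
  linarith
theorem Ctr.one_sub {M : Matrix ι ι ℂ} (h : Ctr M) : Ctr (1 - M) :=
  ⟨h.2, by rw [sub_sub_cancel]; exact h.1⟩
theorem Ctr.de_le_one {M : Matrix ι ι ℂ} (h : Ctr M) (j : ι) : de M j ≤ 1 := by
  have := de_nonneg h.2 j
  rw [B1.de_sub, B1.de_one] at this
  linarith
theorem Ctr.sub_sq {M : Matrix ι ι ℂ} (h : Ctr M) : (M - M * M).PosSemidef := by
  have e : M - M * M = M * (1 - M) * M + (1 - M) * M * (1 - M) := by noncomm_ring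
  rw [e]
  exact (B1.conj h.2 h.1.isHermitian).add (B1.conj h.1 h.2.isHermitian)
theorem Ctr.norm_symm {M : Matrix ι ι ℂ} (h : Ctr M) (j k : ι) : ‖M j k‖ = ‖M k j‖ := by
  rw [← h.1.isHermitian.apply j k, norm_star]
theorem Ctr.diag_eq {M : Matrix ι ι ℂ} (h : Ctr M) (j : ι) : M j j = (de M j : ℂ) := by
  have := (Complex.nonneg_iff.1 (h.1.diag_nonneg (i := j))).2
  exact Complex.ext (by simp [de]) (by simp [← this])
theorem Ctr.row_le {M : Matrix ι ι ℂ} (h : Ctr M) (j : ι) : ∑ k, ‖M j k‖ ^ 2 ≤ de M j := by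
  have := de_nonneg h.sub_sq j
  rw [B1.de_sub, B1.sq_diag h.1.isHermitian] at this
  linarith
theorem Ctr.dfc_nonneg {M : Matrix ι ι ℂ} (h : Ctr M) : 0 ≤ dfc M :=
  sub_nonneg.2 (Finset.sum_le_sum fun j _ => h.row_le j)
/-- `R_η(P) ≥ P / (1 + η)` -/
theorem dsum_Rs_ge {P : Matrix ι ι ℂ} (hP : Ctr P) {η : ℝ} (hη : 0 < η) (S : Finset ι) :
    dsum S P - η * Fintype.card ι ≤ dsum S (Rs η P) := by
  have h1 : (Rs η P - P + (η : ℂ) • 1).PosSemidef := by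
    refine B1.of_conj (posDef_add_eps hP.1 hη) ?_
    have e0 : (P + (η : ℂ) • 1) * (Rs η P - P + (η : ℂ) • 1) * (P + (η : ℂ) • 1) =
        (P + (η : ℂ) • 1) * Rs η P * (P + (η : ℂ) • 1) +
          (P + (η : ℂ) • 1) * ((η : ℂ) • 1 - P) * (P + (η : ℂ) • 1) := by
      rw [← Matrix.add_mul, ← Matrix.mul_add]
      congr 2
      abel
    have e : (P + (η : ℂ) • 1) * (Rs η P - P + (η : ℂ) • 1) * (P + (η : ℂ) • 1) =
        P * (1 - P) * P + (η : ℂ) • (P - P * P) + (η : ℂ) • (η : ℂ) • P +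
          (η : ℂ) • (η : ℂ) • (η : ℂ) • 1 := by
      rw [e0, B1.conj_Rs hP.1 hη]
      simp only [Matrix.mul_add, Matrix.add_mul, Matrix.mul_sub, Matrix.sub_mul, Matrix.smul_mul,
        Matrix.mul_smul, Matrix.mul_one, Matrix.one_mul, Matrix.mul_assoc]
      module
    rw [e]
    exact (((B1.conj hP.2 hP.1.isHermitian).add (B1.smul hP.sub_sq hη.le)).add
      (B1.smul (B1.smul hP.1 hη.le) hη.le)).add
      (B1.smul (B1.smul (B1.smul PosSemidef.one hη.le) hη.le) hη.le)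
  have h2 : ∀ j, de P j - η ≤ de (Rs η P) j := by
    intro j
    have := de_nonneg h1 j
    rw [B1.de_add, B1.de_sub, B1.de_smul, B1.de_one] at this
    linarith
  have h3 : (S.card : ℝ) ≤ Fintype.card ι := by exact_mod_cast S.card_le_univ
  have h4 : ∑ j ∈ S, (de P j - η) ≤ dsum S (Rs η P) := Finset.sum_le_sum fun j _ => h2 j
  rw [Finset.sum_sub_distrib, Finset.sum_const, nsmul_eq_mul] at h4
  have h5 := mul_le_mul_of_nonneg_left h3 hη.le
  unfold dsum at h4 ⊢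
  linarith
/-- `R_η(P) - P ≤ (P - P²) / η` -/
theorem dsum_Rs_le {P : Matrix ι ι ℂ} (hP : Ctr P) {η : ℝ} (hη : 0 < η) (S : Finset ι) :
    dsum S (Rs η P) ≤ dsum S P + dfc P / η := by
  have h1 : (P - P * P - (η : ℂ) • (Rs η P - P)).PosSemidef := by
    refine B1.of_conj (posDef_add_eps hP.1 hη) ?_
    have e0 : (P + (η : ℂ) • 1) * (P - P * P - (η : ℂ) • (Rs η P - P)) * (P + (η : ℂ) • 1) =
        (P + (η : ℂ) • 1) * (P - P * P + (η : ℂ) • P) * (P + (η : ℂ) • 1) -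
          (η : ℂ) • ((P + (η : ℂ) • 1) * Rs η P * (P + (η : ℂ) • 1)) := by
      generalize P + (η : ℂ) • (1 : Matrix ι ι ℂ) = H
      simp only [Matrix.mul_add, Matrix.add_mul, Matrix.mul_sub, Matrix.sub_mul, Matrix.smul_mul,
        Matrix.mul_smul, Matrix.mul_assoc]
      module
    have e : (P + (η : ℂ) • 1) * (P - P * P - (η : ℂ) • (Rs η P - P)) * (P + (η : ℂ) • 1) =
        P * (P - P * P) * P + (η : ℂ) • (P * (1 - P) * P) + (η : ℂ) • (η : ℂ) • (P * P) +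
          (η : ℂ) • (η : ℂ) • (η : ℂ) • P := by
      rw [e0, B1.conj_Rs hP.1 hη]
      simp only [Matrix.mul_add, Matrix.add_mul, Matrix.mul_sub, Matrix.sub_mul, Matrix.smul_mul,
        Matrix.mul_smul, Matrix.mul_one, Matrix.one_mul, Matrix.mul_assoc]
      module
    rw [e]
    exact (((B1.conj hP.sub_sq hP.1.isHermitian).add
      (B1.smul (B1.conj hP.2 hP.1.isHermitian) hη.le)).add
      (B1.smul (B1.smul (B1.sq_psd hP.1.isHermitian) hη.le) hη.le)).add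
      (B1.smul (B1.smul (B1.smul hP.1 hη.le) hη.le) hη.le)
  have h2 : ∀ j, η * (de (Rs η P) j - de P j) ≤ de P j - ∑ k, ‖P j k‖ ^ 2 := by
    intro j
    have := de_nonneg h1 j
    rw [B1.de_sub, B1.de_sub, B1.de_smul, B1.de_sub, B1.sq_diag hP.1.isHermitian] at this
    linarith
  have h3 : η * (dsum S (Rs η P) - dsum S P) ≤ dfc P := by
    unfold dsum dfc hs
    rw [← Finset.sum_sub_distrib, ← Finset.sum_sub_distrib, Finset.mul_sum]
    refine (Finset.sum_le_sum fun j _ => h2 j).trans ?_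
    exact Finset.sum_le_sum_of_subset_of_nonneg (Finset.subset_univ S)
      fun j _ _ => sub_nonneg.2 (hP.row_le j)
  rw [← sub_le_iff_le_add', le_div_iff₀ hη]
  linarith

end Crest.Agent.R113
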