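import Crest.Agent.R113.Basic1

set_option autoImplicit false
open Matrix
open scoped ComplexOrder

namespace Crest.Agent.R113
variable {ι : Type*} [Fintype ι] [DecidableEq ι]

omit [DecidableEq ι] in
theorem B2.row (N : Matrix ι ι ℂ) (i : ι) : (N * Nᴴ) i i = ((∑ k, ‖N i k‖ ^ 2 : ℝ) : ℂ) := by
  simp [Matrix.mul_apply, Complex.mul_conj, Complex.normSq_eq_norm_sq]

theorem B2.smul {A : Matrix ι ι ℂ} (h : A.PosSemidef) {r : ℝ} (hr : 0 ≤ r) :
    ((r : ℂ) • A).PosSemidef := h.smul (Complex.zero_le_real.2 hr)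

theorem hs_nonneg (M : Matrix ι ι ℂ) : 0 ≤ hs M := by
  exact Finset.sum_nonneg fun j _ => Finset.sum_nonneg fun k _ => by positivity
theorem hs_eq_trace (M : Matrix ι ι ℂ) : hs M = (Matrix.trace (Mᴴ * M)).re := by
  rw [trace_mul_comm, Matrix.trace, Complex.re_sum]
  refine Finset.sum_congr rfl fun j _ => ?_
  rw [Matrix.diag_apply, B2.row, Complex.ofReal_re]
theorem hs_conjTranspose (M : Matrix ι ι ℂ) : hs Mᴴ = hs M := by
  unfold hs
  rw [Finset.sum_comm]
  simp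
theorem hs_neg (M : Matrix ι ι ℂ) : hs (-M) = hs M := by
  simp [hs]
theorem hs_smul (c : ℂ) (M : Matrix ι ι ℂ) : hs (c • M) = ‖c‖ ^ 2 * hs M := by
  simp [hs, mul_pow, Finset.mul_sum]
theorem hs_add_le (A B : Matrix ι ι ℂ) : hs (A + B) ≤ 2 * hs A + 2 * hs B := by
  simp only [hs, Finset.mul_sum, ← Finset.sum_add_distrib]
  refine Finset.sum_le_sum fun j _ => Finset.sum_le_sum fun k _ => ?_
  have h := pow_le_pow_left₀ (norm_nonneg _) (norm_add_le (A j k) (B j k)) 2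
  rw [Matrix.add_apply]
  nlinarith [sq_nonneg (‖A j k‖ - ‖B j k‖)]
theorem hs_sub_le (A B : Matrix ι ι ℂ) : hs (A - B) ≤ 2 * hs A + 2 * hs B := by
  simpa only [hs_neg, ← sub_eq_add_neg] using hs_add_le A (-B)
theorem hs_add3_le (A B C : Matrix ι ι ℂ) : hs (A + B + C) ≤ 3 * (hs A + hs B + hs C) := by
  simp only [hs, Finset.mul_sum, ← Finset.sum_add_distrib]
  refine Finset.sum_le_sum fun j _ => Finset.sum_le_sum fun k _ => ?_
  have h := pow_le_pow_left₀ (norm_nonneg _) (norm_add₃_le (a := A j k) (b := B j k) (c := C j k)) 2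
  rw [Matrix.add_apply, Matrix.add_apply]
  nlinarith [sq_nonneg (‖A j k‖ - ‖B j k‖), sq_nonneg (‖A j k‖ - ‖C j k‖),
    sq_nonneg (‖B j k‖ - ‖C j k‖)]
theorem trace_re_mono {A B : Matrix ι ι ℂ} (h : (B - A).PosSemidef) :
    (Matrix.trace A).re ≤ (Matrix.trace B).re := by
  have := (Complex.nonneg_iff.1 h.trace_nonneg).1
  rw [trace_sub, Complex.sub_re] at this
  linarith
/-- the trace of a product of two positive matrices is nonnegative -/
theorem trace_mul_re_nonneg {A B : Matrix ι ι ℂ} (hA : A.PosSemidef) (hB : B.PosSemidef) :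
    0 ≤ (Matrix.trace (A * B)).re := by
  open MatrixOrder in
  obtain ⟨C, rfl⟩ := CStarAlgebra.nonneg_iff_eq_star_mul_self.mp hA.nonneg
  rw [Matrix.mul_assoc, trace_mul_comm]
  exact (Complex.nonneg_iff.1 (hB.mul_mul_conjTranspose_same C).trace_nonneg).1
theorem dsum_eq_trace (S : Finset ι) (M : Matrix ι ι ℂ) :
    dsum S M = (Matrix.trace (ind S * M)).re := by
  simp only [dsum, de, ind, dg, Matrix.trace, Matrix.diag_apply, diagonal_mul, Complex.re_sum,
    Complex.re_ofReal_mul, ite_mul, one_mul, zero_mul]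
  rw [← Finset.sum_filter]
  simp
/-- `Re Tr M ≤ (η n + ‖M‖² / η)` -/
theorem trace_re_le (M : Matrix ι ι ℂ) {η : ℝ} (hη : 0 < η) :
    (Matrix.trace M).re ≤ η * Fintype.card ι + hs M / η := by
  have e : η * Fintype.card ι + hs M / η = ∑ j, (η + (∑ k, ‖M j k‖ ^ 2) / η) := by
    rw [Finset.sum_add_distrib, ← Finset.sum_div, hs]
    simp [mul_comm]
  rw [e, Matrix.trace, Complex.re_sum]
  refine Finset.sum_le_sum fun j _ => (Complex.re_le_norm _).trans ?_
  have h1 : ‖M j j‖ ^ 2 ≤ ∑ k, ‖M j k‖ ^ 2 :=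
    Finset.single_le_sum (f := fun k => ‖M j k‖ ^ 2) (fun k _ => by positivity) (Finset.mem_univ j)
  rw [Matrix.diag_apply, ← sub_le_iff_le_add', le_div_iff₀ hη]
  nlinarith [sq_nonneg (‖M j j‖ - η), mul_nonneg (norm_nonneg (M j j)) hη.le]
theorem Bd.conjTranspose {c : ℝ} {A : Matrix ι ι ℂ} (h : Bd c A) : Bd c Aᴴ := by
  unfold Bd at h ⊢
  rw [conjTranspose_conjTranspose]
  rcases (sq_nonneg c).eq_or_lt with h0 | h0
  · have h1 := h.trace_nonneg
    rw [← h0] at h1 ⊢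
    simp only [Complex.ofReal_zero, zero_smul, zero_sub, trace_neg, Left.nonneg_neg_iff] at h1
    rw [trace_conjTranspose_mul_self_eq_zero_iff.1
      (le_antisymm h1 (posSemidef_conjTranspose_mul_self A).trace_nonneg)]
    simpa using PosSemidef.zero
  · have h1 := B2.smul ((posSemidef_conjTranspose_mul_self
      (((c ^ 2 : ℝ) : ℂ) • (1 : Matrix ι ι ℂ) - A * Aᴴ)).add (h.mul_mul_conjTranspose_same A))
      (inv_pos.2 h0).le
    convert h1 using 1
    have h2 : ((c ^ 2 : ℝ) : ℂ) ≠ 0 := Complex.ofReal_ne_zero.2 h0.ne'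
    rw [Complex.ofReal_inv, eq_inv_smul_iff₀ h2]
    simp only [conjTranspose_sub, conjTranspose_smul, conjTranspose_one, conjTranspose_mul,
      conjTranspose_conjTranspose, Complex.star_def, Complex.conj_ofReal, Matrix.mul_sub,
      Matrix.sub_mul, Matrix.smul_mul, Matrix.mul_smul, Matrix.one_mul, Matrix.mul_one,
      Matrix.mul_assoc, smul_sub]
    abel
theorem Bd.mul {c d : ℝ} {A B : Matrix ι ι ℂ} (hA : Bd c A) (hB : Bd d B) : Bd (c * d) (A * B) := by
  unfold Bd at hA hB ⊢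
  convert (hA.conjTranspose_mul_mul_same B).add (B2.smul hB (sq_nonneg c)) using 1
  simp only [conjTranspose_mul, Matrix.mul_sub, Matrix.sub_mul, Matrix.smul_mul, Matrix.mul_smul,
    Matrix.mul_one, Matrix.mul_assoc, smul_sub, smul_smul, mul_pow, Complex.ofReal_mul]
  abel
theorem Bd.mono {c d : ℝ} {A : Matrix ι ι ℂ} (h : Bd c A) (hc : 0 ≤ c) (hcd : c ≤ d) : Bd d A := by
  unfold Bd at h ⊢
  convert h.add (B2.smul PosSemidef.one (sub_nonneg.2 (pow_le_pow_left₀ hc hcd 2))) using 1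
  rw [Complex.ofReal_sub, sub_smul]
  abel
theorem Bd.smul {c : ℝ} {A : Matrix ι ι ℂ} (h : Bd c A) (r : ℝ) : Bd (|r| * c) ((r : ℂ) • A) := by
  unfold Bd at h ⊢
  convert B2.smul h (sq_nonneg r) using 1
  simp only [conjTranspose_smul, Complex.star_def, Complex.conj_ofReal, Matrix.smul_mul,
    Matrix.mul_smul, smul_sub, smul_smul, mul_pow, sq_abs, Complex.ofReal_mul]
  rw [sq r, Complex.ofReal_mul]
theorem Bd_dg {c : ℝ} {a : ι → ℝ} (h : ∀ j, |a j| ≤ c) : Bd c (dg a) := by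
  unfold Bd
  rw [dg_herm, dg_mul_dg, dg, smul_one_eq_diagonal, diagonal_sub]
  refine PosSemidef.diagonal fun j => ?_
  have := pow_le_pow_left₀ (abs_nonneg _) (h j) 2
  rw [sq_abs] at this
  simp only [Pi.zero_apply, ← Complex.ofReal_sub, Complex.zero_le_real]
  linarith
theorem Bd_ind (S : Finset ι) : Bd 1 (ind S) := by
  exact Bd_dg fun j => by split_ifs <;> simp
theorem Ctr.bd {M : Matrix ι ι ℂ} (h : Ctr M) : Bd 1 M := by
  unfold Bd
  convert h.2.add h.sub_sq using 1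
  rw [h.1.1.eq]
  simp
theorem Bd_inv_eps {K : Matrix ι ι ℂ} (hK : K.PosSemidef) {ε : ℝ} (hε : 0 < ε) :
    Bd (1 / ε) (K + (ε : ℂ) • (1 : Matrix ι ι ℂ))⁻¹ := by
  have h := (Ph_ctr hK hε).bd.smul (1 / ε)
  rwa [Ph, smul_smul, ← Complex.ofReal_mul, one_div_mul_cancel hε.ne', Complex.ofReal_one, one_smul,
    mul_one, abs_of_pos (one_div_pos.2 hε)] at h
theorem hs_mul_left {c : ℝ} {A : Matrix ι ι ℂ} (h : Bd c A) (M : Matrix ι ι ℂ) :
    hs (A * M) ≤ c ^ 2 * hs M := by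
  have h1 := trace_re_mono (A := (A * M)ᴴ * (A * M)) (B := ((c ^ 2 : ℝ) : ℂ) • (Mᴴ * M)) (by
    convert PosSemidef.conjTranspose_mul_mul_same h M using 1
    simp only [conjTranspose_mul, Matrix.mul_sub, Matrix.sub_mul, Matrix.smul_mul, Matrix.mul_smul,
      Matrix.mul_one, Matrix.mul_assoc])
  rwa [trace_smul, smul_eq_mul, Complex.re_ofReal_mul, ← hs_eq_trace, ← hs_eq_trace] at h1
theorem hs_mul_right {c : ℝ} {A : Matrix ι ι ℂ} (h : Bd c A) (M : Matrix ι ι ℂ) :
    hs (M * A) ≤ c ^ 2 * hs M := by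
  rw [← hs_conjTranspose, conjTranspose_mul, ← hs_conjTranspose M]
  exact hs_mul_left h.conjTranspose _
theorem hs_sub_sq_le {P : Matrix ι ι ℂ} (hP : Ctr P) : hs (P - P * P) ≤ dfc P := by
  have h1 : Ctr (P - P * P) := ⟨hP.sub_sq, by
    convert hP.2.add (posSemidef_conjTranspose_mul_self P) using 1
    rw [hP.1.1.eq]
    abel⟩
  have h2 := h1.dfc_nonneg
  have h3 := hs_eq_trace P
  rw [hP.1.1.eq, Matrix.trace, Complex.re_sum] at h3
  simp only [dfc, de, Matrix.sub_apply, Complex.sub_re, Finset.sum_sub_distrib,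
    Matrix.diag_apply] at h2 h3 ⊢
  linarith
theorem hs_ind_mul_ind (S : Finset ι) (M : Matrix ι ι ℂ) : hs (ind S * M * ind Sᶜ) = crs S M := by
  have e : ∀ j k, ‖(ind S * M * ind Sᶜ) j k‖ ^ 2 =
      if j ∈ S then (if k ∈ Sᶜ then ‖M j k‖ ^ 2 else 0) else 0 := fun j k => by
    simp only [ind, dg, mul_diagonal, diagonal_mul]
    split_ifs <;> simp
  simp only [hs, crs, e, Finset.sum_ite_irrel, Finset.sum_const_zero, Finset.sum_ite_mem,
    Finset.univ_inter]
theorem rank_ind_le (S : Finset ι) : (ind S).rank ≤ S.card := by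
  rw [ind, dg, rank_diagonal, Fintype.card_subtype]
  refine Finset.card_le_card fun j hj => ?_
  by_contra c
  simp [c] at hj
/-- a contraction that is low rank plus small has small Hilbert–Schmidt norm -/
theorem hs_le_rank {M : Matrix ι ι ℂ} (h : Bd 1 M) (M₁ : Matrix ι ι ℂ) :
    hs M ≤ M₁.rank + hs (M - M₁) := by
  have hH := isHermitian_mul_conjTranspose_self M₁
  obtain ⟨U, hU, hU', hD⟩ : ∃ U : Matrix ι ι ℂ, U * Uᴴ = 1 ∧ Uᴴ * U = 1 ∧
      Uᴴ * (M₁ * M₁ᴴ) * U = diagonal fun i => (hH.eigenvalues i : ℂ) :=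
    ⟨hH.eigenvectorUnitary, hH.eigenvectorUnitary.2.2, hH.eigenvectorUnitary.2.1, by
      simpa [Unitary.conjStarAlgAut_apply, Function.comp_def, star_eq_conjTranspose] using
        hH.conjStarAlgAut_star_eigenvectorUnitary⟩
  have b1 : Bd 1 U := by simpa [Bd, hU'] using PosSemidef.zero
  have h1 := hs_mul_left b1 (Uᴴ * M)
  rw [← Matrix.mul_assoc, hU, Matrix.one_mul] at h1
  have h2 := hs_mul_left b1.conjTranspose (M - M₁)
  have h3 : hs (Uᴴ * M) ≤ ∑ i, ((if hH.eigenvalues i ≠ 0 then (1 : ℝ) else 0) +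
      ∑ k, ‖(Uᴴ * (M - M₁)) i k‖ ^ 2) := by
    refine Finset.sum_le_sum fun i _ => ?_
    split_ifs with c
    · have h4 := PosSemidef.diag_nonneg (b1.conjTranspose.mul h).conjTranspose (i := i)
      rw [conjTranspose_conjTranspose, Matrix.sub_apply, B2.row, Matrix.smul_apply, one_apply_eq,
        smul_eq_mul, mul_one, ← Complex.ofReal_sub, Complex.zero_le_real] at h4
      have : 0 ≤ ∑ k, ‖(Uᴴ * (M - M₁)) i k‖ ^ 2 := Finset.sum_nonneg fun k _ => by positivity
      linarith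
    · have h4 := B2.row (Uᴴ * M₁) i
      rw [conjTranspose_mul, conjTranspose_conjTranspose, ← Matrix.mul_assoc,
        Matrix.mul_assoc Uᴴ, hD, diagonal_apply_eq, not_not.1 c, Complex.ofReal_inj, eq_comm,
        Finset.sum_eq_zero_iff_of_nonneg fun k _ => by positivity] at h4
      rw [zero_add, Matrix.mul_sub]
      refine le_of_eq (Finset.sum_congr rfl fun k hk => ?_)
      rw [Matrix.sub_apply, norm_eq_zero.1 (pow_eq_zero_iff two_ne_zero |>.1 (h4 k hk)), sub_zero]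
  rw [Finset.sum_add_distrib, Finset.sum_boole, ← Fintype.card_subtype,
    ← hH.rank_eq_card_non_zero_eigs, rank_self_mul_conjTranspose, ← hs] at h3
  linarith

end Crest.Agent.R113
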