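import Crest.Agent.R113.Defs2

set_option autoImplicit false
open MeasureTheory
open scoped InnerProductSpace ComplexOrder

namespace Crest.Agent.R113

namespace CodeX
open Set

/-- union bound on the box `[5/4, 7/4]^n` -/
theorem union {n : ℕ} {J : Type} (T : Finset J) (B : J → Fin n → Set ℝ) {p : ℝ} (hp : 0 ≤ p)
    (hp1 : p ≤ 1) (hB : ∀ j ∈ T, ∀ i, volume (B j i) ≤ ENNReal.ofReal p) (k : ℕ)
    (h : T.card * 2 ^ n * p ^ k < (1 / 2) ^ n) :
    ∃ x : Fin n → ℝ, (∀ i, x i ∈ Icc (5 / 4 : ℝ) (7 / 4)) ∧ ∀ j ∈ T, ∀ S : Finset (Fin n),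
      (∀ i ∈ S, x i ∈ B j i) → S.card < k := by
  classical
  by_contra hc
  push Not at hc
  let E : J × Finset (Fin n) → Set (Fin n → ℝ) := fun q =>
    Set.pi univ fun i => if i ∈ q.2 then B q.1 i else Icc (5 / 4 : ℝ) (7 / 4)
  let Q : Finset (J × Finset (Fin n)) := T ×ˢ (Finset.univ.filter fun S => k ≤ S.card)
  have hsub : (Set.pi univ fun _ : Fin n => Icc (5 / 4 : ℝ) (7 / 4)) ⊆ ⋃ q ∈ Q, E q := by
    intro x hx
    obtain ⟨j, hj, S, hS, hk⟩ := hc x fun i => hx i (mem_univ i)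
    refine mem_iUnion₂.2 ⟨(j, S), by simp [Q, hj, hk], fun i _ => ?_⟩
    by_cases hi : i ∈ S
    · simpa [hi] using hS i hi
    · simpa [hi] using hx i (mem_univ i)
  have hE : ∀ q ∈ Q, volume (E q) ≤ ENNReal.ofReal (p ^ k) := by
    rintro ⟨j, S⟩ hq
    simp only [Q, Finset.mem_product, Finset.mem_filter, Finset.mem_univ, true_and] at hq
    calc volume (E (j, S)) = ∏ i, volume (if i ∈ S then B j i else Icc (5 / 4 : ℝ) (7 / 4)) :=
          volume_pi_pi _
      _ ≤ ∏ i, (if i ∈ S then ENNReal.ofReal p else 1) := by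
          refine Finset.prod_le_prod' fun i _ => ?_
          split_ifs
          · exact hB j hq.1 i
          · rw [Real.volume_Icc]
            exact ENNReal.ofReal_le_one.2 (by norm_num)
      _ = ENNReal.ofReal (p ^ S.card) := by
          rw [Finset.prod_ite_mem, Finset.univ_inter, Finset.prod_const, ENNReal.ofReal_pow hp]
      _ ≤ ENNReal.ofReal (p ^ k) := ENNReal.ofReal_le_ofReal (pow_le_pow_of_le_one hp hp1 hq.2)
  have hQ : (Q.card : ℝ) ≤ T.card * 2 ^ n := by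
    have : Q.card ≤ T.card * 2 ^ n := by
      simp only [Q, Finset.card_product]
      refine Nat.mul_le_mul_left _ ((Finset.card_filter_le _ _).trans ?_)
      simp
    exact_mod_cast this
  have h1 : ENNReal.ofReal ((1 / 2) ^ n) ≤ ENNReal.ofReal (Q.card * p ^ k) := by
    calc ENNReal.ofReal ((1 / 2) ^ n)
        = volume (Set.pi univ fun _ : Fin n => Icc (5 / 4 : ℝ) (7 / 4)) := by
          rw [volume_pi_pi, Finset.prod_const, Real.volume_Icc, ENNReal.ofReal_pow (by norm_num)]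
          norm_num
      _ ≤ volume (⋃ q ∈ Q, E q) := measure_mono hsub
      _ ≤ ∑ q ∈ Q, volume (E q) := measure_biUnion_finset_le _ _
      _ ≤ ∑ _q ∈ Q, ENNReal.ofReal (p ^ k) := Finset.sum_le_sum hE
      _ = ENNReal.ofReal (Q.card * p ^ k) := by
          rw [Finset.sum_const, nsmul_eq_mul, ENNReal.ofReal_mul (Nat.cast_nonneg _),
            ENNReal.ofReal_natCast]
  rw [ENNReal.ofReal_le_ofReal_iff (by positivity)] at h1
  have h2 := mul_le_mul_of_nonneg_right hQ (pow_nonneg hp k)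
  linarith

/-- the speeds for which `a u` is close to an integer -/
def bad (a r : ℝ) : Set ℝ := {u | u ∈ Icc (5 / 4 : ℝ) (7 / 4) ∧ ∃ m : ℤ, |a * u - m| < r}

theorem vol_bad {a r : ℝ} (ha : 1 ≤ a) (hr : 0 ≤ r) (hr1 : r ≤ 1) :
    volume (bad a r) ≤ ENNReal.ofReal (8 * r) := by
  have ha0 : 0 < a := by linarith
  have hsub : bad a r ⊆ ⋃ m ∈ Finset.range (⌊3 * a⌋₊ + 1), Ioo ((m - r) / a) ((m + r) / a) := by
    rintro u ⟨⟨h1, h2⟩, m, hm⟩
    rw [abs_lt] at hm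
    have h3 : 5 / 4 ≤ a * u := by nlinarith
    have h4 : a * u ≤ 7 / 4 * a := by nlinarith
    have hm0 : (0 : ℝ) ≤ m := by linarith
    obtain ⟨m', rfl⟩ := Int.eq_ofNat_of_zero_le (by exact_mod_cast hm0 : 0 ≤ m)
    rw [Int.cast_natCast] at hm
    refine mem_iUnion₂.2 ⟨m', Finset.mem_range.2 (Nat.lt_succ_of_le (Nat.le_floor (by linarith))),
      ?_, ?_⟩
    · rw [div_lt_iff₀ ha0]; linarith
    · rw [lt_div_iff₀ ha0]; linarith
  have hfl : (⌊3 * a⌋₊ : ℝ) ≤ 3 * a := Nat.floor_le (by linarith)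
  calc volume (bad a r) ≤ _ := measure_mono hsub
    _ ≤ ∑ m ∈ Finset.range (⌊3 * a⌋₊ + 1), volume (Ioo ((m - r) / a) ((m + r) / a)) :=
        measure_biUnion_finset_le _ _
    _ = ∑ _m ∈ Finset.range (⌊3 * a⌋₊ + 1), ENNReal.ofReal (2 * r / a) := by
        refine Finset.sum_congr rfl fun m _ => ?_
        rw [Real.volume_Ioo]
        congr 1
        ring
    _ = ENNReal.ofReal (((⌊3 * a⌋₊ + 1 : ℕ) : ℝ) * (2 * r / a)) := by
        rw [Finset.sum_const, nsmul_eq_mul, ENNReal.ofReal_mul (Nat.cast_nonneg _),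
          ENNReal.ofReal_natCast, Finset.card_range]
    _ ≤ ENNReal.ofReal (8 * r) := by
        refine ENNReal.ofReal_le_ofReal ?_
        push_cast
        calc ((⌊3 * a⌋₊ : ℝ) + 1) * (2 * r / a) ≤ (4 * a) * (2 * r / a) :=
              mul_le_mul_of_nonneg_right (by linarith) (by positivity)
          _ = 8 * r := by field_simp; ring

theorem numeric {q : ℝ} (hq : q = 1 / 128 ^ 17) {n : ℕ} (hn : 4 ≤ n) {N : ℝ}
    (hN : N ≤ 3 * 128 ^ (15 * n) / (q ^ 4 / 24)) :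
    N * 2 ^ n * (q ^ 4) ^ (n / 2 + 1) < (1 / 2) ^ n := by
  have hq0 : 0 < q := by rw [hq]; positivity
  have hq1 : q ≤ 1 := by rw [hq]; norm_num
  have h1 : (q ^ 4) ^ (n / 2) ≤ q ^ n := by
    rw [← pow_mul]
    exact pow_le_pow_of_le_one hq0.le hq1 (by omega)
  have h2 : (72 : ℝ) ≤ 72 ^ n := le_self_pow₀ (by norm_num) (by omega)
  calc N * 2 ^ n * (q ^ 4) ^ (n / 2 + 1)
      ≤ (3 * 128 ^ (15 * n) / (q ^ 4 / 24)) * 2 ^ n * (q ^ 4) ^ (n / 2 + 1) := by gcongr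
    _ = 72 * (128 ^ 15) ^ n * 2 ^ n * (q ^ 4) ^ (n / 2) := by
        rw [pow_succ, ← pow_mul]
        field_simp
        ring
    _ ≤ 72 ^ n * (128 ^ 15) ^ n * 2 ^ n * q ^ n := by gcongr
    _ = (72 * 128 ^ 15 * 2 * q) ^ n := by simp only [mul_pow]
    _ < (1 / 2) ^ n := by
        refine pow_lt_pow_left₀ ?_ (by positivity) (by omega)
        rw [hq]; norm_num

end CodeX

/-- random speeds form a code -/
theorem exists_code : ∃ ρ : ℝ, 0 < ρ ∧ ∀ n : ℕ, 4 ≤ n → ∃ u : ℕ → ℝ,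
    (∀ i, 5 / 4 ≤ u i ∧ u i ≤ 7 / 4) ∧ ∀ D : ℝ, 1 ≤ D → D ≤ 128 ^ (14 * n) →
      n ≤ 2 * ((Finset.range n).filter fun i =>
        2 * ρ ≤ |D * 128 ^ i * u i - round (D * 128 ^ i * u i)|).card := by
  obtain ⟨q, hq⟩ : ∃ q : ℝ, q = 1 / 128 ^ 17 := ⟨_, rfl⟩
  have hq0 : 0 < q := by rw [hq]; positivity
  have hq1 : q ≤ 1 := by rw [hq]; norm_num
  have hq4 : q ^ 4 ≤ 1 := pow_le_one₀ hq0.le hq1
  have hq40 : 0 < q ^ 4 := by positivity
  obtain ⟨ρ, hρ⟩ : ∃ ρ : ℝ, ρ = q ^ 4 / 24 := ⟨_, rfl⟩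
  have hρ0 : 0 < ρ := by rw [hρ]; positivity
  have hρ1 : ρ ≤ 1 / 24 := by rw [hρ]; linarith
  refine ⟨ρ, hρ0, fun n hn => ?_⟩
  obtain ⟨h, hh⟩ : ∃ h : ℝ, h = ρ / (2 * 128 ^ n) := ⟨_, rfl⟩
  have hh0 : 0 < h := by rw [hh]; positivity
  obtain ⟨x, hx, hgood⟩ := CodeX.union (n := n) (Finset.range (⌊128 ^ (14 * n) / h⌋₊ + 1))
    (fun j i => CodeX.bad ((1 + j * h) * 128 ^ (i : ℕ)) (3 * ρ)) hq40.le hq4 (fun j _ i => by
      have := CodeX.vol_bad (a := (1 + j * h) * 128 ^ (i : ℕ)) (r := 3 * ρ)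
        (one_le_mul_of_one_le_of_one_le (by have : 0 ≤ j * h := by positivity
                                            linarith) (one_le_pow₀ (by norm_num)))
        (by positivity) (by linarith)
      convert this using 2
      rw [hρ]; ring) (n / 2 + 1) (CodeX.numeric hq hn (by
        rw [Finset.card_range, ← hρ]
        push_cast
        have h1 : (⌊128 ^ (14 * n) / h⌋₊ : ℝ) ≤ 128 ^ (14 * n) / h := Nat.floor_le (by positivity)
        have h2 : (128 : ℝ) ^ (14 * n) / h = 2 * (128 ^ (15 * n) / ρ) := by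
          rw [hh, show 15 * n = 14 * n + n by ring, pow_add]
          field_simp
        have h3 : 1 ≤ (128 : ℝ) ^ (15 * n) / ρ := by
          rw [le_div_iff₀ hρ0]
          have : (1 : ℝ) ≤ 128 ^ (15 * n) := one_le_pow₀ (by norm_num)
          linarith
        have h4 : 3 * (128 : ℝ) ^ (15 * n) / ρ = 3 * (128 ^ (15 * n) / ρ) := by ring
        linarith))
  refine ⟨fun i => if hi : i < n then x ⟨i, hi⟩ else 3 / 2, fun i => ?_, fun D hD1 hD2 => ?_⟩
  · by_cases hi : i < n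
    · simpa only [hi, dif_pos, Set.mem_Icc] using hx ⟨i, hi⟩
    · simp only [hi, dif_neg, not_false_eq_true]
      norm_num
  · obtain ⟨j, hj⟩ : ∃ j : ℕ, j = ⌊(D - 1) / h⌋₊ := ⟨_, rfl⟩
    have hj1 : (j : ℝ) ≤ (D - 1) / h := hj ▸ Nat.floor_le (div_nonneg (by linarith) hh0.le)
    have hj2 : (D - 1) / h < j + 1 := hj ▸ Nat.lt_floor_add_one _
    rw [le_div_iff₀ hh0] at hj1
    rw [div_lt_iff₀ hh0] at hj2
    have hjT : j ∈ Finset.range (⌊128 ^ (14 * n) / h⌋₊ + 1) := by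
      refine Finset.mem_range.2 (Nat.lt_succ_of_le (hj ▸ Nat.floor_le_floor ?_))
      exact div_le_div_of_nonneg_right (by linarith) hh0.le
    have h1 := hgood j hjT (Finset.univ.filter fun i : Fin n =>
      ¬ 2 * ρ ≤ |D * 128 ^ (i : ℕ) * x i - round (D * 128 ^ (i : ℕ) * x i)|) (fun i hi => by
        have hi' := not_le.1 (Finset.mem_filter.1 hi).2
        refine ⟨hx i, round (D * 128 ^ (i : ℕ) * x i), ?_⟩
        have hp : (128 : ℝ) ^ (i : ℕ) ≤ 128 ^ n := pow_le_pow_right₀ (by norm_num) i.2.le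
        have hp0 : (0 : ℝ) < 128 ^ (i : ℕ) := by positivity
        obtain ⟨hx1, hx2⟩ := hx i
        have e1 : 0 ≤ (D - (1 + j * h)) * (128 ^ (i : ℕ) * x i) :=
          mul_nonneg (by linarith) (by positivity)
        have e2 : (D - (1 + j * h)) * (128 ^ (i : ℕ) * x i) ≤ ρ := by
          calc (D - (1 + j * h)) * (128 ^ (i : ℕ) * x i) ≤ h * (128 ^ n * 2) :=
                mul_le_mul (by linarith) (mul_le_mul hp (by linarith) (by linarith) (by positivity))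
                  (by positivity) hh0.le
            _ = ρ := by rw [hh]; field_simp
        rw [abs_lt] at hi' ⊢
        constructor <;> linarith [hi'.1, hi'.2])
    have h2 := Finset.card_filter_add_card_filter_not (s := (Finset.univ : Finset (Fin n)))
      (fun i : Fin n => 2 * ρ ≤ |D * 128 ^ (i : ℕ) * x i - round (D * 128 ^ (i : ℕ) * x i)|)
    rw [Finset.card_univ, Fintype.card_fin] at h2
    have h3 : ((Finset.range n).filter fun i => 2 * ρ ≤
        |D * 128 ^ i * (if hi : i < n then x ⟨i, hi⟩ else 3 / 2) -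
          round (D * 128 ^ i * (if hi : i < n then x ⟨i, hi⟩ else 3 / 2))|).card =
        (Finset.univ.filter fun i : Fin n =>
          2 * ρ ≤ |D * 128 ^ (i : ℕ) * x i - round (D * 128 ^ (i : ℕ) * x i)|).card := by
      rw [Finset.card_filter, Finset.card_filter, Finset.sum_range]
      refine Finset.sum_congr rfl fun i _ => ?_
      simp only [i.2, dif_pos, Fin.eta]
    rw [h3]
    omega

/-- multiples of `M` approximate any target speed -/
theorem exists_mul_fract {θ : ℝ} (hθ : Irrational θ) {M : ℕ} (hM : 0 < M) {a δ : ℝ} (ha : 0 < a)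
    (ha1 : a < 1) (hδ : 0 < δ) :
    ∃ k : ℕ, 0 < k ∧ M ∣ k ∧ |Int.fract ((k : ℝ) * θ) - a| < δ := by
  have hβ : Irrational ((M : ℝ) * θ / 1) := by
    rw [div_one]
    exact hθ.natCast_mul hM.ne'
  have hd : DenseRange (· • (((M : ℝ) * θ : ℝ) : AddCircle (1 : ℝ)) : ℕ → AddCircle (1 : ℝ)) :=
    denseRange_zsmul_iff_nsmul.1 (AddCircle.denseRange_zsmul_coe_iff.2 hβ)
  have ho : IsOpen (((↑) : ℝ → AddCircle (1 : ℝ)) ''
      (Set.Ioo (a - δ) (a + δ) ∩ Set.Ioo 0 1)) :=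
    QuotientAddGroup.isOpenMap_coe _ (isOpen_Ioo.inter isOpen_Ioo)
  obtain ⟨t, y, ⟨⟨hy1, hy2⟩, hy3, hy4⟩, hy⟩ := hd.exists_mem_open ho
    ⟨_, a, ⟨⟨by linarith, by linarith⟩, ha, ha1⟩, rfl⟩
  have h1 : Int.fract (((M * t : ℕ) : ℝ) * θ) = y := by
    refine Int.fract_eq_iff.2 ⟨hy3.le, hy4, ?_⟩
    have h2 : ((((M * t : ℕ) : ℝ) * θ - y : ℝ) : AddCircle (1 : ℝ)) = 0 := by
      rw [AddCircle.coe_sub, hy, ← AddCircle.coe_nsmul, sub_eq_zero]
      congr 1
      push_cast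
      rw [nsmul_eq_mul]
      ring
    obtain ⟨z, hz⟩ := (AddCircle.coe_eq_zero_iff _).1 h2
    exact ⟨z, by rw [← hz]; simp⟩
  refine ⟨M * t, Nat.pos_of_ne_zero fun h0 => ?_, dvd_mul_right _ _, ?_⟩
  · rw [h0] at h1
    simp at h1
    linarith
  · rw [h1, abs_lt]
    constructor <;> linarith

end Crest.Agent.R113
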