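import Crest.Agent.R113.Inv

set_option autoImplicit false
open Matrix
open scoped ComplexOrder

namespace Crest.Agent.R113
variable {ι : Type*} [Fintype ι] [DecidableEq ι]

namespace FarX

theorem half {W : Type*} [Fintype W] [DecidableEq W] {c d : W} (h : c ≠ d) :
    ∑ w : W → Bool, (if w c = w d then (0 : ℝ) else 1) = (Fintype.card (W → Bool) : ℝ) / 2 := by
  let t : (W → Bool) → (W → Bool) := fun w => Function.update w c (!w c)
  have ht : Function.Involutive t := fun w => by simp [t]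
  have h1 : ∑ w : W → Bool, (if (t w) c = (t w) d then (0 : ℝ) else 1) =
      ∑ w : W → Bool, (if w c = w d then (0 : ℝ) else 1) :=
    Equiv.sum_comp ht.toPerm fun w : W → Bool => if w c = w d then (0 : ℝ) else 1
  have h2 : ∑ w : W → Bool, ((if w c = w d then (0 : ℝ) else 1) +
      (if (t w) c = (t w) d then (0 : ℝ) else 1)) = (Fintype.card (W → Bool) : ℝ) := by
    have : ∀ w : W → Bool, ((if w c = w d then (0 : ℝ) else 1) +
        (if (t w) c = (t w) d then (0 : ℝ) else 1)) = 1 := fun w => by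
      simp only [t, Function.update_self, Function.update_of_ne h.symm]
      cases w c <;> cases w d <;> simp
    simp [this]
  rw [Finset.sum_add_distrib] at h2
  linarith

theorem hs_comm (S : Finset ι) (M : Matrix ι ι ℂ) :
    hs (ind S * M - M * ind S) = ∑ j, ∑ k, (if (j ∈ S ↔ k ∈ S) then 0 else 1) * ‖M j k‖ ^ 2 := by
  refine Finset.sum_congr rfl fun j _ => Finset.sum_congr rfl fun k _ => ?_
  simp only [ind, dg, Matrix.sub_apply, mul_diagonal, diagonal_mul]
  by_cases hj : j ∈ S <;> by_cases hk : k ∈ S <;> simp [hj, hk]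

theorem one {P : Matrix ι ι ℂ} (hP : Ctr P) {ε σ : ℝ} (hε : 0 < ε) {a : ι → ℝ}
    (ha : ∀ j, 1 ≤ a j ∧ a j ≤ σ) (S : Finset ι) :
    hs (ind S * Ra ε P a - Ra ε P a * ind S) ≤ 16 * ε * Fintype.card ι +
      16 * σ ^ 2 * hs (ind S * P - P * ind S) + 8 * σ ^ 4 * dfc P / ε ^ 2 := by
  have hR := Ra_ctr hP.1 hε a
  have hS : (ind S)ᴴ = ind S := dg_herm _
  have e1 : ind S * Ra ε P a - Ra ε P a * ind S =
      (1 - Ra ε P a) * ind S * Ra ε P a - ((1 - Ra ε P a) * ind S * Ra ε P a)ᴴ := by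
    simp only [conjTranspose_mul, InvX.herm_Ph hP hε, InvX.herm_R hP hε, hS]
    simp only [Matrix.mul_sub, Matrix.sub_mul, Matrix.mul_assoc, Matrix.one_mul, Matrix.mul_one]
    abel
  have h1 := hs_sub_le ((1 - Ra ε P a) * ind S * Ra ε P a) ((1 - Ra ε P a) * ind S * Ra ε P a)ᴴ
  rw [hs_conjTranspose, ← e1] at h1
  have h2 := invGen hP hε ha (Bd_ind S)
  have e2 : (dg a * ind S * dg fun j => (a j)⁻¹) = ind S := by
    have : dg a * ind S = ind S * dg a := by
      rw [ind, dg_mul_dg, dg_mul_dg]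
      congr 1
      funext j
      exact mul_comm _ _
    rw [this, Matrix.mul_assoc, InvX.dg_mul_inv ha, Matrix.mul_one]
  rw [e2] at h2
  have e3 : (1 - Ra ε P a) * dg a * ind S * P = (1 - Ra ε P a) * dg a * P * ind S +
      (1 - Ra ε P a) * dg a * (ind S * P - P * ind S) := by
    generalize (1 - Ra ε P a) * dg a = B
    simp only [Matrix.mul_sub, Matrix.mul_assoc]
    abel
  have h3 := hs_add_le ((1 - Ra ε P a) * dg a * P * ind S)
    ((1 - Ra ε P a) * dg a * (ind S * P - P * ind S))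
  rw [← e3] at h3
  have h4 := hs_mul_right (Bd_ind S) ((1 - Ra ε P a) * dg a * P)
  have h5 := hs_Ph_a_P hP hε a
  have h6 := hs_mul_left (hR.one_sub.bd.mul (InvX.bd_a ha)) (ind S * P - P * ind S)
  have e4 : 8 * σ ^ 4 * dfc P / ε ^ 2 = 4 * (2 * σ ^ 4 * dfc P / ε ^ 2) := by ring
  rw [e4]
  nlinarith

end FarX

theorem far {P : Matrix ι ι ℂ} (hP : Ctr P) {ε σ : ℝ} (hε : 0 < ε) {a : ι → ℝ}
    (ha : ∀ j, 1 ≤ a j ∧ a j ≤ σ) (col : ι → ℕ) :
    dif col (Ra ε P a) ≤ 32 * ε * Fintype.card ι + 32 * σ ^ 2 * dif col P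
      + 16 * σ ^ 4 * dfc P / ε ^ 2 := by
  let W := ↥(Finset.univ.image col)
  let cl : ι → W := fun j => ⟨col j, Finset.mem_image_of_mem _ (Finset.mem_univ j)⟩
  have hcl : ∀ j k, cl j = cl k ↔ col j = col k := fun j k => Subtype.ext_iff
  let S : (W → Bool) → Finset ι := fun w => Finset.univ.filter fun j => w (cl j) = true
  have hS : ∀ w j k, (j ∈ S w ↔ k ∈ S w) ↔ w (cl j) = w (cl k) := fun w j k => by
    simp only [S, Finset.mem_filter, Finset.mem_univ, true_and]
    cases w (cl j) <;> cases w (cl k) <;> simp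
  have h1 : ∀ w, hs (ind (S w) * P - P * ind (S w)) ≤ dif col P := fun w => by
    rw [FarX.hs_comm]
    refine Finset.sum_le_sum fun j _ => Finset.sum_le_sum fun k _ => ?_
    by_cases h : col j = col k
    · rw [if_pos h, if_pos ((hS w j k).2 (by rw [(hcl j k).2 h])), zero_mul]
    · rw [if_neg h]
      split_ifs <;> simp
  have h2 : ∑ w : W → Bool, hs (ind (S w) * Ra ε P a - Ra ε P a * ind (S w)) =
      (Fintype.card (W → Bool) : ℝ) / 2 * dif col (Ra ε P a) := by
    simp only [FarX.hs_comm, hS]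
    rw [dif, Finset.mul_sum, Finset.sum_comm]
    refine Finset.sum_congr rfl fun j _ => ?_
    rw [Finset.mul_sum, Finset.sum_comm]
    refine Finset.sum_congr rfl fun k _ => ?_
    rw [← Finset.sum_mul]
    by_cases h : col j = col k
    · simp [h, (hcl j k).2 h]
    · rw [if_neg h, FarX.half fun h' => h ((hcl j k).1 h')]
  have h3 : ∑ w : W → Bool, hs (ind (S w) * Ra ε P a - Ra ε P a * ind (S w)) ≤
      ∑ _w : W → Bool, (16 * ε * Fintype.card ι + 16 * σ ^ 2 * dif col P +
        8 * σ ^ 4 * dfc P / ε ^ 2) := Finset.sum_le_sum fun w _ => by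
    have := FarX.one hP hε ha (S w)
    have h4 := mul_le_mul_of_nonneg_left (h1 w) (by positivity : 0 ≤ 16 * σ ^ 2)
    linarith
  rw [h2, Finset.sum_const, Finset.card_univ, nsmul_eq_mul] at h3
  have hc : (0 : ℝ) < Fintype.card (W → Bool) := by exact_mod_cast Fintype.card_pos
  have e : 16 * σ ^ 4 * dfc P / ε ^ 2 = 2 * (8 * σ ^ 4 * dfc P / ε ^ 2) := by ring
  rw [e]
  have h5 : (Fintype.card (W → Bool) : ℝ) * (dif col (Ra ε P a) / 2) ≤
      (Fintype.card (W → Bool) : ℝ) * (16 * ε * Fintype.card ι + 16 * σ ^ 2 * dif col P +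
        8 * σ ^ 4 * dfc P / ε ^ 2) := by linarith
  have h6 := le_of_mul_le_mul_left h5 hc
  linarith

end Crest.Agent.R113
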