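import Crest.Agent.R113.Basic2

set_option autoImplicit false
open Matrix
open scoped ComplexOrder

namespace Crest.Agent.R113
variable {ι : Type*} [Fintype ι] [DecidableEq ι]

/-- the soft projection along the ray `exp (α + r v)` -/
noncomputable def Rf (ε : ℝ) (P : Matrix ι ι ℂ) (α v : ι → ℝ) (r : ℝ) : Matrix ι ι ℂ :=
  Ra ε P fun j => Real.exp (α j + r * v j)

/-- total gain along the ray -/
noncomputable def gain (ε : ℝ) (P : Matrix ι ι ℂ) (α v : ι → ℝ) : ℝ :=
  ∑ j, v j * (de (Rf ε P α v 1) j - de (Rf ε P α v 0) j)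

namespace FlowX

/-- the bilinear form `Re Tr (w Φ v R)` -/
noncomputable def Bf (Φ R : Matrix ι ι ℂ) (w v : ι → ℝ) : ℝ :=
  ∑ j, ∑ k, w j * v k * (Φ j k * R k j).re

theorem tr_eq (Φ R : Matrix ι ι ℂ) (w v : ι → ℝ) :
    (Matrix.trace (dg w * Φ * dg v * R)).re = Bf Φ R w v := by
  unfold Bf Matrix.trace dg
  simp only [Matrix.diag_apply, Complex.re_sum]
  refine Finset.sum_congr rfl fun j _ => ?_
  rw [Matrix.mul_apply, Complex.re_sum]
  refine Finset.sum_congr rfl fun k _ => ?_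
  rw [Matrix.mul_diagonal, Matrix.diagonal_mul,
    show (w j : ℂ) * Φ j k * v k * R k j = ((w j * v k : ℝ) : ℂ) * (Φ j k * R k j) by push_cast; ring,
    Complex.re_ofReal_mul]

theorem de_mul (Φ R : Matrix ι ι ℂ) (v : ι → ℝ) (j : ι) :
    de (Φ * dg v * R) j = ∑ k, v k * (Φ j k * R k j).re := by
  unfold de dg
  rw [Matrix.mul_apply, Complex.re_sum]
  refine Finset.sum_congr rfl fun k _ => ?_
  rw [Matrix.mul_diagonal, show Φ j k * v k * R k j = (v k : ℂ) * (Φ j k * R k j) by ring,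
    Complex.re_ofReal_mul]

theorem sum_de (Φ R : Matrix ι ι ℂ) (w v : ι → ℝ) :
    ∑ j, w j * de (Φ * dg v * R + R * dg v * Φ) j = Bf Φ R w v + Bf Φ R v w := by
  have : ∀ j, de (Φ * dg v * R + R * dg v * Φ) j = de (Φ * dg v * R) j + de (R * dg v * Φ) j :=
    fun j => by simp [de]
  simp only [this, mul_add, Finset.sum_add_distrib, de_mul, Finset.mul_sum]
  unfold Bf
  congr 1
  · simp only [mul_assoc]
  · rw [Finset.sum_comm]
    refine Finset.sum_congr rfl fun j _ => Finset.sum_congr rfl fun k _ => ?_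
    rw [mul_comm (R k j)]; ring

theorem Bf_nonneg {Φ R : Matrix ι ι ℂ} (hΦ : Φ.PosSemidef) (hR : R.PosSemidef) (u : ι → ℝ) :
    0 ≤ Bf Φ R u u := by
  rw [← tr_eq]; exact trace_mul_re_nonneg (dg_psd hΦ u) hR

theorem Bf_cs {Φ R : Matrix ι ι ℂ} (hΦ : Φ.PosSemidef) (hR : R.PosSemidef) (w v : ι → ℝ) {η : ℝ}
    (hη : 0 < η) : Bf Φ R w v + Bf Φ R v w ≤ η * Bf Φ R w w + Bf Φ R v v / η := by
  have h := Bf_nonneg hΦ hR (fun j => η * w j - v j)
  have e : Bf Φ R (fun j => η * w j - v j) (fun j => η * w j - v j)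
      = η ^ 2 * Bf Φ R w w - η * (Bf Φ R w v + Bf Φ R v w) + Bf Φ R v v := by
    unfold Bf
    simp only [Finset.mul_sum, ← Finset.sum_add_distrib, ← Finset.sum_sub_distrib]
    refine Finset.sum_congr rfl fun j _ => Finset.sum_congr rfl fun k _ => ?_
    ring
  rw [e] at h
  have : η * (Bf Φ R w v + Bf Φ R v w) ≤ η * (η * Bf Φ R w w + Bf Φ R v v / η) := by
    rw [mul_add η (η * _), mul_div_cancel₀ _ hη.ne']; linarith
  exact le_of_mul_le_mul_left this hη

theorem Bf_le {Φ R : Matrix ι ι ℂ} (hΦ : Ctr Φ) (hR : Ctr R) {w : ι → ℝ} (hw : ∀ j, |w j| ≤ 1) :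
    Bf Φ R w w ≤ Fintype.card ι := by
  have h1 := Bf_nonneg hΦ.1 hR.2 w
  have h2 : Bf Φ (1 - R) w w = ∑ j, w j * w j * de Φ j - Bf Φ R w w := by
    unfold Bf
    rw [← Finset.sum_sub_distrib]
    refine Finset.sum_congr rfl fun j _ => ?_
    simp only [Matrix.sub_apply, mul_sub, Complex.sub_re, Finset.sum_sub_distrib]
    congr 1
    rw [Finset.sum_eq_single j]
    · simp [de]
    · intro k _ hk; simp [Matrix.one_apply_ne hk]
    · simp
  have h3 : ∑ j, w j * w j * de Φ j ≤ ∑ _j : ι, (1 : ℝ) := Finset.sum_le_sum fun j _ => by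
    have e1 : w j * w j ≤ 1 := by
      rw [← abs_mul_abs_self]; exact mul_le_one₀ (hw j) (abs_nonneg _) (hw j)
    exact mul_le_one₀ e1 (de_nonneg hΦ.1 j) (hΦ.de_le_one j)
  rw [Finset.sum_const, Finset.card_univ, nsmul_eq_mul, mul_one] at h3
  linarith

theorem Bf_ge {R : Matrix ι ι ℂ} (hR : Ctr R) (v : ι → ℝ) :
    ∑ j, ∑ k, ‖R j k‖ ^ 2 * (v j - v k) ^ 2 ≤ Bf (1 - R) R v v + Bf (1 - R) R v v := by
  have hn : ∀ j k, (R j k * R k j).re = ‖R j k‖ ^ 2 := fun j k => by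
    have : R k j = star (R j k) := (hR.1.1.apply k j).symm
    rw [this, Complex.star_def, Complex.mul_conj, Complex.ofReal_re, Complex.normSq_eq_norm_sq]
  have h2 : Bf (1 - R) R v v = ∑ j, v j * v j * de R j - ∑ j, ∑ k, v j * v k * ‖R j k‖ ^ 2 := by
    unfold Bf
    rw [← Finset.sum_sub_distrib]
    refine Finset.sum_congr rfl fun j _ => ?_
    simp only [Matrix.sub_apply, sub_mul, mul_sub, Complex.sub_re, Finset.sum_sub_distrib, hn]
    congr 1
    rw [Finset.sum_eq_single j]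
    · simp [de]
    · intro k _ hk; simp [Matrix.one_apply_ne hk.symm]
    · simp
  have h3 : ∑ j, ∑ k, v j * v j * ‖R j k‖ ^ 2 ≤ ∑ j, v j * v j * de R j :=
    Finset.sum_le_sum fun j _ => by
      rw [← Finset.mul_sum]
      exact mul_le_mul_of_nonneg_left (hR.row_le j) (mul_self_nonneg _)
  have h4 : ∑ j, ∑ k, v k * v k * ‖R j k‖ ^ 2 = ∑ j, ∑ k, v j * v j * ‖R j k‖ ^ 2 := by
    rw [Finset.sum_comm]
    exact Finset.sum_congr rfl fun j _ => Finset.sum_congr rfl fun k _ => by rw [hR.norm_symm]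
  have h5 : ∑ j, ∑ k, ‖R j k‖ ^ 2 * (v j - v k) ^ 2 = ∑ j, ∑ k, v j * v j * ‖R j k‖ ^ 2
      + ∑ j, ∑ k, v k * v k * ‖R j k‖ ^ 2 - 2 * ∑ j, ∑ k, v j * v k * ‖R j k‖ ^ 2 := by
    simp only [Finset.mul_sum, ← Finset.sum_add_distrib, ← Finset.sum_sub_distrib]
    refine Finset.sum_congr rfl fun j _ => Finset.sum_congr rfl fun k _ => ?_
    ring
  rw [h5, h4, h2]
  linarith

/-- `dg` as a linear map -/
noncomputable def dgL : (ι → ℝ) →ₗ[ℝ] Matrix ι ι ℂ where
  toFun := dg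
  map_add' a b := by ext j k; by_cases h : j = k <;> simp [dg, h]
  map_smul' c a := by ext j k; by_cases h : j = k <;> simp [dg, h]

/-- weighted real trace as a linear map -/
noncomputable def trL (w : ι → ℝ) : Matrix ι ι ℂ →ₗ[ℝ] ℝ where
  toFun M := ∑ j, w j * de M j
  map_add' a b := by simp [de, mul_add, Finset.sum_add_distrib]
  map_smul' c a := by
    simp only [de, Matrix.smul_apply, Complex.real_smul, Complex.re_ofReal_mul, RingHom.id_apply,
      smul_eq_mul, Finset.mul_sum]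
    exact Finset.sum_congr rfl fun j _ => by ring

open scoped Matrix.Norms.Operator in
theorem deriv {P : Matrix ι ι ℂ} (hP : P.PosSemidef) {ε : ℝ} (hε : 0 < ε) (α v w : ι → ℝ) (r : ℝ) :
    HasDerivAt (fun r => ∑ j, w j * de (Rf ε P α v r) j)
      (Bf (1 - Rf ε P α v r) (Rf ε P α v r) w v + Bf (1 - Rf ε P α v r) (Rf ε P α v r) v w) r := by
  set a : ℝ → ι → ℝ := fun r j => Real.exp (α j + r * v j) with ha
  have h1 : HasDerivAt a (fun j => v j * a r j) r := by
    refine hasDerivAt_pi.2 fun j => ?_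
    have := (((hasDerivAt_id r).mul_const (v j)).const_add (α j)).exp
    simpa [ha, mul_comm] using this
  have h2 : HasDerivAt (fun r => dg (a r)) (dg v * dg (a r)) r := by
    rw [dg_mul_dg]
    exact (LinearMap.toContinuousLinearMap (dgL (ι := ι))).hasFDerivAt.comp_hasDerivAt r h1
  set K := dg (a r) * P * dg (a r) with hK
  have hKp : K.PosSemidef := dg_psd hP _
  have hcomm : dg v * dg (a r) = dg (a r) * dg v := by
    rw [dg_mul_dg, dg_mul_dg]; simp only [mul_comm]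
  have h3 : HasDerivAt (fun r => dg (a r) * P * dg (a r) + (ε : ℂ) • (1 : Matrix ι ι ℂ))
      (dg v * K + K * dg v) r := by
    have := ((h2.mul_const P).mul h2).add_const ((ε : ℂ) • (1 : Matrix ι ι ℂ))
    refine this.congr_deriv ?_
    rw [hK]
    conv_lhs => enter [2]; rw [hcomm]
    simp only [Matrix.mul_assoc]
  have hu : IsUnit (K + (ε : ℂ) • (1 : Matrix ι ι ℂ)) := (posDef_add_eps hKp hε).isUnit
  have h4 := (hasFDerivAt_ringInverse (𝕜 := ℝ) hu.unit).comp_hasDerivAt_of_eq r h3 rfl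
  have h5 := (h4.const_smul (ε : ℂ)).const_sub 1
  have h6 := (LinearMap.toContinuousLinearMap (trL w)).hasFDerivAt.comp_hasDerivAt r h5
  have hR : Rf ε P α v r = Rs ε K := rfl
  have hinv : ((hu.unit⁻¹ : (Matrix ι ι ℂ)ˣ) : Matrix ι ι ℂ) = (K + (ε : ℂ) • 1)⁻¹ := by
    rw [Matrix.coe_units_inv, IsUnit.unit_spec]
  refine (h6.congr_deriv ?_).congr_of_eventuallyEq (Filter.Eventually.of_forall fun s => ?_)
  swap
  · simp only [Function.comp, LinearMap.coe_toContinuousLinearMap', Pi.smul_apply,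
      ← Matrix.nonsing_inv_eq_ringInverse]
    rfl
  · rw [← sum_de]
    symm
    show trL w _ = trL w _
    congr 1
    have hΦ : 1 - Rs ε K = (ε : ℂ) • (K + (ε : ℂ) • 1)⁻¹ := by simp [Rs, Ph]
    rw [hR, hΦ]
    conv_lhs => enter [1]; rw [Rs_eq hKp hε]
    conv_lhs => enter [2]; rw [Rs_eq' hKp hε]
    simp only [ContinuousLinearMap.neg_apply, ContinuousLinearMap.mulLeftRight_apply, hinv,
      smul_neg, neg_neg, Matrix.mul_add, Matrix.add_mul, smul_add, Matrix.smul_mul, Matrix.mul_smul,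
      Matrix.mul_assoc]

end FlowX

theorem flow_mvt {P : Matrix ι ι ℂ} (hP : P.PosSemidef) {ε : ℝ} (hε : 0 < ε) (α v : ι → ℝ) :
    ∃ r ∈ Set.Icc (0 : ℝ) 1,
      ∑ j, ∑ k, ‖Rf ε P α v r j k‖ ^ 2 * (v j - v k) ^ 2 ≤ gain ε P α v := by
  obtain ⟨r, hr, h⟩ := exists_hasDerivAt_eq_slope (fun r => ∑ j, v j * de (Rf ε P α v r) j) _
    zero_lt_one (fun r _ => (FlowX.deriv hP hε α v v r).continuousAt.continuousWithinAt)
    (fun r _ => FlowX.deriv hP hε α v v r)
  refine ⟨r, ⟨hr.1.le, hr.2.le⟩, (FlowX.Bf_ge (Ra_ctr hP hε _) v).trans (le_of_eq ?_)⟩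
  refine h.trans ?_
  simp only [gain, sub_zero, div_one, mul_sub, Finset.sum_sub_distrib]

theorem flow_w {P : Matrix ι ι ℂ} (hP : P.PosSemidef) {ε η : ℝ} (hε : 0 < ε) (hη : 0 < η)
    (α v w : ι → ℝ) (hw : ∀ j, |w j| ≤ 1) {r : ℝ} (hr : r ∈ Set.Icc (0 : ℝ) 1) :
    ∑ j, w j * (de (Rf ε P α v r) j - de (Rf ε P α v 0) j)
      ≤ η * Fintype.card ι + gain ε P α v / η := by
  set g : ℝ → ℝ := fun r => ∑ j, v j * de (Rf ε P α v r) j with hg
  set f : ℝ → ℝ := fun r => ∑ j, w j * de (Rf ε P α v r) j with hf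
  have hc : ∀ r, Ctr (Rf ε P α v r) := fun r => Ra_ctr hP hε _
  have hgm : Monotone g := monotone_of_hasDerivAt_nonneg (fun r => FlowX.deriv hP hε α v v r)
    fun r => add_nonneg (FlowX.Bf_nonneg (hc r).2 (hc r).1 v) (FlowX.Bf_nonneg (hc r).2 (hc r).1 v)
  have hhm : Monotone fun r => η * Fintype.card ι * r + g r / η - f r := by
    refine monotone_of_hasDerivAt_nonneg (fun r => ((((hasDerivAt_id r).const_mul
      (η * Fintype.card ι)).add ((FlowX.deriv hP hε α v v r).div_const η)).sub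
        (FlowX.deriv hP hε α v w r))) fun r => ?_
    have h1 := FlowX.Bf_cs (hc r).2 (hc r).1 w v hη
    have h2 := mul_le_mul_of_nonneg_left (FlowX.Bf_le (hc r).one_sub (hc r) hw) hη.le
    have h3 := div_nonneg (FlowX.Bf_nonneg (hc r).2 (hc r).1 v) hη.le
    simp only [Pi.zero_apply, add_div]
    linarith
  have h1 := hhm hr.1
  have h2 := div_le_div_of_nonneg_right (hgm hr.2) hη.le
  have h3 : η * Fintype.card ι * r ≤ η * Fintype.card ι :=
    mul_le_of_le_one_right (by positivity) hr.2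
  have e1 : gain ε P α v = g 1 - g 0 := by
    simp only [gain, hg, mul_sub, Finset.sum_sub_distrib]
  have e2 : ∑ j, w j * (de (Rf ε P α v r) j - de (Rf ε P α v 0) j) = f r - f 0 := by
    simp only [hf, mul_sub, Finset.sum_sub_distrib]
  rw [e1, e2, sub_div]
  simp only at h1
  linarith

end Crest.Agent.R113
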