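import Crest.Agent.R113.Fix
import Crest.Agent.R113.Flow

set_option autoImplicit false
set_option linter.unusedSectionVars false
open Matrix
open scoped ComplexOrder

namespace Crest.Agent.R113
variable {ι : Type*} [Fintype ι] [DecidableEq ι]
variable {β : Type*} [Fintype β] [DecidableEq β] {N : ℕ}

namespace ScaleX

theorem sum_mv (B : Blk ι β N) (w : β → ℝ) (F : ι → ℝ) :
    ∑ j, B.mv w j * F j = ∑ b, w b * ∑ j ∈ B.bl b, F j := by
  have h1 : ∑ j, B.mv w j * F j = ∑ j ∈ B.K, B.mv w j * F j := by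
    refine (Finset.sum_subset (Finset.subset_univ _) fun j _ hj => ?_).symm
    have : B.blk j = none := by simpa [B.mem_K] using hj
    simp [Blk.mv, this]
  rw [h1, B.sum_K]
  refine Finset.sum_congr rfl fun b _ => ?_
  rw [Finset.mul_sum]
  refine Finset.sum_congr rfl fun j hj => ?_
  have := (B.mem_bl b j).1 hj
  simp [Blk.mv, this]

theorem card_le (B : Blk ι β N) : (N : ℝ) * Fintype.card β ≤ Fintype.card ι := by
  have := B.card_K ▸ Finset.card_le_univ B.K
  exact_mod_cast this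

/-- exponent of the scaling -/
noncomputable def al (B : Blk ι β N) (base : ι → ℝ) (s : ℝ) (m : β → ℝ) : ι → ℝ :=
  fun j => base j + s * (B.ht j - B.mv m j)

/-- direction of one step -/
noncomputable def vv (B : Blk ι β N) (s : ℝ) (m m' : β → ℝ) : ι → ℝ :=
  fun j => B.ht j - B.mv (fun b => (s + 1) * m' b - s * m b) j

theorem Rf_eq (B : Blk ι β N) (P : Matrix ι ι ℂ) (ε : ℝ) (base : ι → ℝ) {s r : ℝ}
    (hsr : s + r ≠ 0) (m m' : β → ℝ) :
    Rf ε P (al B base s m) (vv B s m m') r =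
      Ra ε P (B.av base (s + r) fun b => ((1 - r) * s * m b + r * (s + 1) * m' b) / (s + r)) := by
  unfold Rf
  congr 1
  funext j
  unfold Blk.av al vv Blk.mv
  congr 1
  cases B.blk j with
  | none => simp; ring
  | some b => simp only [Option.elim]; field_simp; ring

theorem Rf_zero (B : Blk ι β N) (P : Matrix ι ι ℂ) (ε : ℝ) (base : ι → ℝ) (s : ℝ)
    (m m' : β → ℝ) : Rf ε P (al B base s m) (vv B s m m') 0 = Ra ε P (B.av base s m) := by
  unfold Rf
  congr 1
  funext j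
  simp [Blk.av, al]

theorem Rf_one (B : Blk ι β N) (P : Matrix ι ι ℂ) (ε : ℝ) (base : ι → ℝ) (s : ℝ)
    (m m' : β → ℝ) : Rf ε P (al B base s m) (vv B s m m') 1 = Ra ε P (B.av base (s + 1) m') := by
  unfold Rf
  congr 1
  funext j
  unfold Blk.av al vv Blk.mv
  congr 1
  cases B.blk j with
  | none => simp; ring
  | some b => simp only [Option.elim]; ring

/-- height-weighted trace -/
noncomputable def HH (B : Blk ι β N) (M : Matrix ι ι ℂ) : ℝ := ∑ j, B.ht j * de M j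

theorem HH_bd (B : Blk ι β N) {M : Matrix ι ι ℂ} (hM : Ctr M) :
    0 ≤ HH B M ∧ HH B M ≤ N * Fintype.card ι := by
  refine ⟨Finset.sum_nonneg fun j _ => mul_nonneg (B.ht_bounds j).1 (de_nonneg hM.1 j), ?_⟩
  calc HH B M ≤ ∑ _j : ι, (N : ℝ) := Finset.sum_le_sum fun j _ => by
        have h1 := B.ht_bounds j
        have h2 := hM.de_le_one j
        have h3 := de_nonneg hM.1 j
        nlinarith
    _ = N * Fintype.card ι := by simp [mul_comm]

theorem gain_eq (B : Blk ι β N) (P : Matrix ι ι ℂ) (ε : ℝ) (base : ι → ℝ) (s : ℝ) {m m' : β → ℝ}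
    (hm : ∀ b, dsum (B.bl b) (Ra ε P (B.av base s m)) = m b)
    (hm' : ∀ b, dsum (B.bl b) (Ra ε P (B.av base (s + 1) m')) = m' b) :
    gain ε P (al B base s m) (vv B s m m') + (s + 1 / 2) * ∑ b, (m' b - m b) ^ 2 =
      (HH B (Ra ε P (B.av base (s + 1) m')) - (∑ b, m' b ^ 2) / 2) -
        (HH B (Ra ε P (B.av base s m)) - (∑ b, m b ^ 2) / 2) := by
  unfold gain
  rw [Rf_zero, Rf_one]
  set R := Ra ε P (B.av base s m)
  set R' := Ra ε P (B.av base (s + 1) m')
  have h1 : ∑ j, vv B s m m' j * (de R' j - de R j) = HH B R' - HH B R -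
      ∑ j, B.mv (fun b => (s + 1) * m' b - s * m b) j * (de R' j - de R j) := by
    unfold HH vv
    rw [← Finset.sum_sub_distrib, ← Finset.sum_sub_distrib]
    exact Finset.sum_congr rfl fun j _ => by ring
  rw [h1, sum_mv]
  have h2 : ∀ b, ∑ j ∈ B.bl b, (de R' j - de R j) = m' b - m b := fun b => by
    rw [Finset.sum_sub_distrib, ← hm b, ← hm' b]; rfl
  simp only [h2]
  have h3 : ∑ b, ((s + 1) * m' b - s * m b) * (m' b - m b) =
      (s + 1 / 2) * ∑ b, (m' b - m b) ^ 2 + ((∑ b, m' b ^ 2) / 2 - (∑ b, m b ^ 2) / 2) := by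
    rw [Finset.mul_sum, Finset.sum_div, Finset.sum_div, ← Finset.sum_sub_distrib,
      ← Finset.sum_add_distrib]
    exact Finset.sum_congr rfl fun b _ => by ring
  rw [h3]
  ring

theorem one_step (B : Blk ι β N) (hN : 1 ≤ N) {P : Matrix ι ι ℂ} (hP : P.PosSemidef)
    {ε η s A : ℝ} (hε : 0 < ε) (hη : 0 < η) (hs : 1 ≤ s) (base : ι → ℝ) {m m' : β → ℝ}
    (hb : ∀ b, 0 ≤ m b ∧ m b ≤ N) (hb' : ∀ b, 0 ≤ m' b ∧ m' b ≤ N)
    (hm : ∀ b, dsum (B.bl b) (Ra ε P (B.av base s m)) = m b)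
    (hA : gain ε P (al B base s m) (vv B s m m') + ∑ b, (m' b - m b) ^ 2 ≤ A) :
    ∃ (r : ℝ) (mt : β → ℝ), 0 ≤ r ∧ r ≤ 1 ∧ (∀ b, 0 ≤ mt b ∧ mt b ≤ N) ∧
      B.win (Ra ε P (B.av base (s + r) mt)) ≤ A ∧
      ∑ b, |dsum (B.bl b) (Ra ε P (B.av base (s + r) mt)) - mt b|
        ≤ 2 * η * Fintype.card ι + A / η := by
  obtain ⟨r, hr, hg⟩ := flow_mvt hP hε (al B base s m) (vv B s m m')
  have hsr : 0 < s + r := by linarith [hr.1]
  have hD : 0 ≤ ∑ b, (m' b - m b) ^ 2 := Finset.sum_nonneg fun b _ => sq_nonneg _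
  have hr0 := hr.1
  have hr1 := hr.2
  have hR := Rf_eq B P ε base hsr.ne' m m'
  set mt : β → ℝ := fun b => ((1 - r) * s * m b + r * (s + 1) * m' b) / (s + r) with hmt
  have c1 : 0 ≤ (1 - r) * s := mul_nonneg (by linarith) (by linarith)
  have c2 : 0 ≤ r * (s + 1) := mul_nonneg hr0 (by linarith)
  refine ⟨r, mt, hr0, hr1, fun b => ⟨?_, ?_⟩, ?_, ?_⟩
  · exact div_nonneg (add_nonneg (mul_nonneg c1 (hb b).1) (mul_nonneg c2 (hb' b).1)) hsr.le
  · rw [hmt, div_le_iff₀ hsr]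
    have h1 := mul_le_mul_of_nonneg_left (hb b).2 c1
    have h2 := mul_le_mul_of_nonneg_left (hb' b).2 c2
    nlinarith
  · rw [← hR]
    refine le_trans ?_ (hg.trans (by linarith))
    unfold Blk.win
    refine Finset.sum_le_sum fun j _ => Finset.sum_le_sum fun k _ => ?_
    split_ifs with h
    · refine le_of_eq ?_
      congr 2
      unfold vv Blk.mv
      rw [h.1]
      ring
    · positivity
  · rw [← hR]
    set Rr := Rf ε P (al B base s m) (vv B s m m') r
    set sg : β → ℝ := fun b => if 0 ≤ dsum (B.bl b) Rr - m b then 1 else -1 with hsg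
    have hw : ∀ j, |B.mv sg j| ≤ 1 := fun j => by
      unfold Blk.mv
      cases B.blk j with
      | none => simp
      | some b => simp only [Option.elim, hsg]; split_ifs <;> simp
    have h1 := flow_w hP hε hη (al B base s m) (vv B s m m') (B.mv sg) hw hr
    rw [sum_mv, Rf_zero] at h1
    have h2 : ∀ b, sg b * ∑ j ∈ B.bl b, (de Rr j - de (Ra ε P (B.av base s m)) j) =
        |dsum (B.bl b) Rr - m b| := fun b => by
      have e : ∑ j ∈ B.bl b, (de Rr j - de (Ra ε P (B.av base s m)) j) =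
          dsum (B.bl b) Rr - m b := by rw [Finset.sum_sub_distrib, ← hm b]; rfl
      rw [e, hsg]
      simp only
      split_ifs with h
      · rw [abs_of_nonneg h, one_mul]
      · rw [abs_of_neg (not_le.1 h)]; ring
    rw [Finset.sum_congr rfl fun b _ => h2 b] at h1
    have h3 : ∀ b, |m b - mt b| ≤ η + (m' b - m b) ^ 2 / η := fun b => by
      have e : m b - mt b = -(r * (s + 1) / (s + r)) * (m' b - m b) := by
        rw [hmt]; field_simp; ring
      have e1 : r * (s + 1) / (s + r) ≤ 1 := by rw [div_le_one hsr]; nlinarith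
      have e2 : |m b - mt b| ≤ |m' b - m b| := by
        rw [e, abs_mul, abs_neg, abs_of_nonneg (div_nonneg c2 hsr.le)]
        exact mul_le_of_le_one_left (abs_nonneg _) e1
      refine e2.trans ?_
      rw [← sq_abs (m' b - m b)]
      have e3 := abs_nonneg (m' b - m b)
      generalize |m' b - m b| = y at e3 ⊢
      rw [← sub_nonneg]
      have : η + y ^ 2 / η - y = ((η - y) ^ 2 + η * y) / η := by field_simp; ring
      rw [this]; positivity
    have h4 : ∑ b, |m b - mt b| ≤ η * Fintype.card ι + (∑ b, (m' b - m b) ^ 2) / η := by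
      refine (Finset.sum_le_sum fun b _ => h3 b).trans ?_
      rw [Finset.sum_add_distrib, Finset.sum_div, Finset.sum_const, Finset.card_univ, nsmul_eq_mul]
      have h5 := card_le B
      have h6 : (1 : ℝ) ≤ N := by exact_mod_cast hN
      have h7 : (0 : ℝ) ≤ Fintype.card β := Nat.cast_nonneg _
      have h8 : (Fintype.card β : ℝ) ≤ Fintype.card ι := by nlinarith
      nlinarith
    have h5 : ∑ b, |dsum (B.bl b) Rr - mt b| ≤
        ∑ b, |dsum (B.bl b) Rr - m b| + ∑ b, |m b - mt b| := by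
      rw [← Finset.sum_add_distrib]
      exact Finset.sum_le_sum fun b _ => abs_sub_le _ _ _
    have h6 : gain ε P (al B base s m) (vv B s m m') / η + (∑ b, (m' b - m b) ^ 2) / η ≤ A / η := by
      rw [← add_div]; exact div_le_div_of_nonneg_right hA hη.le
    linarith

end ScaleX

open ScaleX in
theorem scale (B : Blk ι β N) (hN : 1 ≤ N) {P : Matrix ι ι ℂ} (hP : P.PosSemidef) {ε η s₀ : ℝ}
    (hε : 0 < ε) (hη : 0 < η) (hs0 : 1 ≤ s₀) {I : ℕ} (hI : 1 ≤ I) (base : ι → ℝ) :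
    ∃ (s : ℝ) (m : β → ℝ), s₀ ≤ s ∧ s ≤ s₀ + I ∧ (∀ b, 0 ≤ m b ∧ m b ≤ N) ∧
      B.win (Ra ε P (B.av base s m)) ≤ 2 * N * Fintype.card ι / I ∧
      ∑ b, |dsum (B.bl b) (Ra ε P (B.av base s m)) - m b|
        ≤ 2 * η * Fintype.card ι + 2 * N * Fintype.card ι / (I * η) := by
  have hs : ∀ i : ℕ, 1 ≤ s₀ + i := fun i => by linarith [(Nat.cast_nonneg i : (0 : ℝ) ≤ i)]
  choose m hm using fun i : ℕ => fixB B hP hε (le_trans zero_le_one (hs i)) base
  set U : ℕ → ℝ := fun i => HH B (Ra ε P (B.av base (s₀ + i) (m i))) - (∑ b, m i b ^ 2) / 2 with hU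
  set g : ℕ → ℝ := fun i => gain ε P (al B base (s₀ + i) (m i)) (vv B (s₀ + i) (m i) (m (i + 1))) +
    ∑ b, (m (i + 1) b - m i b) ^ 2 with hg
  have h1 : ∀ i, g i ≤ U (i + 1) - U i := fun i => by
    have e : s₀ + ((i + 1 : ℕ) : ℝ) = s₀ + i + 1 := by push_cast; ring
    have h := gain_eq B P ε base (s₀ + i) (m := m i) (m' := m (i + 1)) (fun b => (hm i b).2.2)
      (fun b => by rw [← e]; exact (hm (i + 1) b).2.2)
    have hD : 0 ≤ ∑ b, (m (i + 1) b - m i b) ^ 2 := Finset.sum_nonneg fun b _ => sq_nonneg _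
    have := hs i
    simp only [hU, hg, e]
    nlinarith
  have hI0 : (0 : ℝ) < I := by exact_mod_cast hI
  have h2 : ∑ i ∈ Finset.range I, g i ≤ 2 * N * Fintype.card ι := by
    refine (Finset.sum_le_sum fun i _ => h1 i).trans ?_
    rw [Finset.sum_range_sub]
    have a1 := (HH_bd B (Ra_ctr hP hε (B.av base (s₀ + (I : ℕ)) (m I)))).2
    have a2 := (HH_bd B (Ra_ctr hP hε (B.av base (s₀ + ((0 : ℕ) : ℝ)) (m 0)))).1
    have a3 : 0 ≤ ∑ b, m I b ^ 2 := Finset.sum_nonneg fun b _ => sq_nonneg _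
    have a4 : ∑ b, m 0 b ^ 2 ≤ N * Fintype.card ι := by
      calc ∑ b, m 0 b ^ 2 ≤ ∑ _b : β, (N : ℝ) ^ 2 :=
            Finset.sum_le_sum fun b _ => pow_le_pow_left₀ (hm 0 b).1 (hm 0 b).2.1 2
        _ = N * (N * Fintype.card β) := by simp; ring
        _ ≤ N * Fintype.card ι := mul_le_mul_of_nonneg_left (card_le B) (Nat.cast_nonneg N)
    have a5 : (0 : ℝ) ≤ N * Fintype.card ι := by positivity
    have e1 : U I ≤ N * Fintype.card ι := by
      refine le_trans ?_ a1
      exact sub_le_self _ (by linarith)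
    have e2 : -(N * Fintype.card ι) ≤ U 0 := by
      refine le_trans ?_ (sub_le_sub_right a2 _)
      linarith
    linarith
  obtain ⟨i, hi, hgi⟩ : ∃ i ∈ Finset.range I, g i ≤ 2 * N * Fintype.card ι / I := by
    refine Finset.exists_le_of_sum_le ⟨0, Finset.mem_range.2 hI⟩ ?_
    rw [Finset.sum_const, Finset.card_range, nsmul_eq_mul, mul_div_cancel₀ _ hI0.ne']
    exact h2
  obtain ⟨r, mt, hr0, hr1, hb, hw, hd⟩ := one_step B hN hP hε hη (hs i) base
    (fun b => ⟨(hm i b).1, (hm i b).2.1⟩) (fun b => ⟨(hm (i + 1) b).1, (hm (i + 1) b).2.1⟩)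
    (fun b => (hm i b).2.2) hgi
  have hi' : (i : ℝ) + 1 ≤ I := by exact_mod_cast Finset.mem_range.1 hi
  refine ⟨s₀ + i + r, mt, by linarith [(Nat.cast_nonneg i : (0 : ℝ) ≤ i)], by linarith, hb, hw, ?_⟩
  rwa [div_div] at hd

end Crest.Agent.R113
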