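import Crest.Agent.R113.AbsC
import Crest.Agent.R113.AbsD
import Crest.Agent.R113.Scale
import Crest.Agent.R113.Far

set_option autoImplicit false
open Matrix
open scoped ComplexOrder

namespace Crest.Agent.R113

namespace CoreX

theorem weights {ξ c E X r S : ℝ} (hξ : 0 < ξ) (hξ1 : ξ ≤ 1) (hc : 0 < c) (hc1 : c ≤ 1)
    (hE : 0 ≤ E) (hr : 0 ≤ r) (h : E + 32 * X + r ≤ 1000 * S) :
    (E + 8 * (2 / c * (2 * X))) / ξ + r ≤ 1000 / (ξ * c) * S := by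
  have h1 : (E + 8 * (2 / c * (2 * X))) / ξ + r = (c * E + 32 * X + ξ * c * r) / (ξ * c) := by
    field_simp; ring
  have h2 : c * E ≤ E := mul_le_of_le_one_left hE hc1
  have h3 : ξ * c * r ≤ r := mul_le_of_le_one_left hr (mul_le_one₀ hξ1 hc.le hc1)
  rw [h1, div_mul_eq_mul_div]
  exact div_le_div_of_nonneg_right (by linarith) (by positivity)

theorem small {Q Ω L : ℝ} (hQ : 0 < Q) (h : Q ≤ Ω) (h2 : 2 ≤ Ω) (hL : 0 ≤ L) (k : ℕ) :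
    L / Ω ^ (k + 1) ≤ L / Q :=
  div_le_div_of_nonneg_left hL hQ (h.trans (le_self_pow₀ (by linarith) (Nat.succ_ne_zero k)))

/-- the constant in front of `ε L` -/
noncomputable def MM (Q κm W v η : ℝ) : ℝ :=
  36 * Om Q + 257 + 8 / η + 1000 * (2 * v + 4 * W / κm ^ 2)

noncomputable def c1 (Q W η ε : ℝ) : ℝ :=
  18 * Om Q ^ 13 / ε ^ 2 + 128 * Om Q ^ 12 / ε ^ 2 + 4 * Om Q ^ 12 / ε ^ 2 / η + Om Q ^ 2 / ε +
    1000 * W * Om Q ^ 6 / ε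

noncomputable def c2 (Q κm v ε : ℝ) : ℝ := 500 * v * (Om Q ^ 6 + Om Q ^ 10) / (ε * κm ^ 2)

theorem scale_bd {Q L N I : ℝ} (hQ : 5 ≤ Q) (hL : 0 ≤ L) (hN : N ≤ Q) (hI : Q ^ 3 ≤ I) :
    2 * N * L / I ≤ L / Q ∧ 2 * (1 / Q) * L + 2 * N * L / (I * (1 / Q)) ≤ 4 * (L / Q) := by
  have hQ0 : 0 < Q := by linarith
  have hI0 : 0 < I := lt_of_lt_of_le (by positivity) hI
  have h1 : 2 * N * L / I ≤ 2 * Q * L / Q ^ 3 :=
    div_le_div₀ (by positivity) (by gcongr) (by positivity) hI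
  constructor
  · refine h1.trans ?_
    rw [div_le_div_iff₀ (by positivity) hQ0]
    have : 0 ≤ L * Q ^ 2 * (Q - 2) := mul_nonneg (by positivity) (by linarith)
    nlinarith
  · have h2 : 2 * N * L / (I * (1 / Q)) = 2 * N * L / I * Q := by field_simp
    have h3 : 2 * Q * L / Q ^ 3 * Q = 2 * (L / Q) := by field_simp
    have h4 := mul_le_mul_of_nonneg_right h1 hQ0.le
    have h5 : 2 * (1 / Q) * L = 2 * (L / Q) := by ring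
    linarith

theorem arith {Q Ω κm W v η ε L N Mg D KG SC S2 γ0 γT df dP dPp Pb sw Γ X C1 C2 : ℝ}
    (hQ : 0 < Q) (hQΩ : Q ≤ Ω) (hΩ : 2 ≤ Ω) (hκ : 0 < κm) (hv : 1 ≤ v) (hη : 0 < η) (hε : 0 < ε)
    (hM : ε * (36 * Ω + 257 + 8 / η + 1000 * (2 * v + 4 * W / κm ^ 2)) = η)
    (hL : 0 ≤ L) (hN : N ≤ Q) (hMg : 0 ≤ Mg) (hD : 0 ≤ D) (hKG : 0 ≤ KG) (hdf : 0 ≤ df)
    (hdP : 0 ≤ dP) (hdPp : 0 ≤ dPp) (hPb : Pb ≤ W) (hsw : sw ≤ W)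
    (hΓ : Γ = γ0 + dPp * (Ω ^ 5) ^ 2 / (ε * κm ^ 2) + 2 * ε * L) (hΓ0 : 0 ≤ Γ)
    (hX : X = SC + v / 2 * (γ0 + dPp * (Ω ^ 3) ^ 2 / (ε * κm ^ 2) + 2 * ε * L) + S2 / v
      + Pb * (Ω ^ 3) ^ 2 * dP / ε + γT + sw * (4 * ε * L / κm ^ 2)) (hX0 : 0 ≤ X)
    (hC1 : C1 = 18 * Ω ^ 13 / ε ^ 2 + 128 * Ω ^ 12 / ε ^ 2 + 4 * Ω ^ 12 / ε ^ 2 / η + Ω ^ 2 / ε +
      1000 * W * Ω ^ 6 / ε) (hC10 : 0 ≤ C1)
    (hC2 : C2 = 500 * v * (Ω ^ 6 + Ω ^ 10) / (ε * κm ^ 2)) (hC20 : 0 ≤ C2) :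
    (3 * Mg + 3 * (8 * (Γ + 3 * D)) + 9 * Ω * (4 * ε * L + 4 * Ω ^ 6 * N + 2 * Ω ^ 12 * dP / ε ^ 2)
      + 9 * L / Ω ^ 7 + 9 * Ω * (2 * L / Ω ^ 4)
      + 8 * (L / Q + (8 * (Γ + 3 * D) + 2 * L / Ω ^ 4) + 2 * KG
        + (32 * ε * L + 32 * (Ω ^ 3) ^ 2 * df + 16 * (Ω ^ 3) ^ 4 * dP / ε ^ 2))
      + 2 * (η * L + (4 * ε * L + 2 * (Ω ^ 3) ^ 4 * dP / ε ^ 2) / η)) + 32 * X
      + (2 * (4 * (L / Q)) + (Γ + 3 * D) + ε * L + Ω ^ 2 * dP / ε)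
      ≤ 1000 * (Mg + D + KG + SC + S2 / v + v * γ0 + γT + L / Q + (Ω ^ 7) ^ 2 * df + η * L
        + (C1 + C2 + 36 * Ω ^ 7 * Q) * (dP + dPp + 1)) := by
  have hΩ0 : 0 < Ω := by linarith
  have a1 : L / Ω ^ 7 ≤ L / Q := small hQ hQΩ hΩ hL 6
  have a2 : L / Ω ^ 4 ≤ L / Q := small hQ hQΩ hΩ hL 3
  have a3 : Ω * (L / Ω ^ 4) ≤ L / Q := by
    rw [show Ω * (L / Ω ^ 4) = L / Ω ^ 3 by field_simp]
    exact small hQ hQΩ hΩ hL 2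
  have a4 : Ω ^ 7 * N ≤ Ω ^ 7 * Q := mul_le_mul_of_nonneg_left hN (by positivity)
  have a5 : Ω ^ 6 * df ≤ Ω ^ 14 * df :=
    mul_le_mul_of_nonneg_right (pow_le_pow_right₀ (by linarith) (by norm_num)) hdf
  have a6 : Γ ≤ v * Γ := le_mul_of_one_le_left hΓ0 hv
  have a7 : sw * (ε * L / κm ^ 2) ≤ W * (ε * L / κm ^ 2) :=
    mul_le_mul_of_nonneg_right hsw (by positivity)
  have a8 : Pb * (Ω ^ 6 * dP / ε) ≤ W * (Ω ^ 6 * dP / ε) :=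
    mul_le_mul_of_nonneg_right hPb (by positivity)
  have a9 : ε * (36 * Ω + 257 + 8 / η + 1000 * (2 * v + 4 * W / κm ^ 2)) * L = η * L := by rw [hM]
  have b0 : 0 ≤ Ω ^ 7 * Q := by positivity
  have b1 : C1 * dP + C2 * dPp + 36 * (Ω ^ 7 * Q) ≤
      1000 * ((C1 + C2 + 36 * Ω ^ 7 * Q) * (dP + dPp + 1)) := by
    have := mul_nonneg hC10 hdP
    have := mul_nonneg hC10 hdPp
    have := mul_nonneg hC20 hdP
    have := mul_nonneg hC20 hdPp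
    have := mul_nonneg b0 hdP
    have := mul_nonneg b0 hdPp
    linarith
  have b2 : 0 ≤ L / Q := by positivity
  have b3 : 0 ≤ η * L := by positivity
  have b4 : 0 ≤ Ω ^ 14 * df := by positivity
  have b5 : v * Γ = v * (γ0 + dPp * (Ω ^ 5) ^ 2 / (ε * κm ^ 2) + 2 * ε * L) := by rw [← hΓ]
  have b6 : C1 * dP = (18 * Ω ^ 13 / ε ^ 2 + 128 * Ω ^ 12 / ε ^ 2 + 4 * Ω ^ 12 / ε ^ 2 / η + Ω ^ 2 / ε +
      1000 * W * Ω ^ 6 / ε) * dP := by rw [← hC1]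
  have b7 : C2 * dPp = 500 * v * (Ω ^ 6 + Ω ^ 10) / (ε * κm ^ 2) * dPp := by rw [← hC2]
  generalize (C1 + C2 + 36 * Ω ^ 7 * Q) * (dP + dPp + 1) = Z at b1 ⊢
  clear hΓ hC1 hC2 hM
  simp only [div_eq_mul_inv, mul_inv] at *
  linarith

end CoreX

set_option maxHeartbeats 1000000 in
theorem core {Q κm W v η : ℝ} (hκ : 0 < κm) (hW : 0 ≤ W) (hv : 1 ≤ v) (hη : 0 < η) :
    ∃ Cb : ℝ, 0 ≤ Cb ∧ ∀ (ι β T : Type) [Fintype ι] [DecidableEq ι] [Fintype β] [DecidableEq β]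
      [Fintype T] (N : ℕ) (A : Sit ι β T N) (c Pb t ξ Dv : ℝ), A.OK Q κm c → ∑ τ, A.ω τ ≤ W →
      0 ≤ Pb → Pb ≤ W → 0 ≤ t → t ≤ 1 → 0 < ξ → ξ ≤ 1 → 0 ≤ Dv →
      (∀ μ : β → ℕ, (∀ b, μ b ≤ N) →
        ∑ b, ∑ l ∈ Finset.Ico (N - μ b) N, de A.P (A.B.site b l) ≤ t * ∑ b, (μ b : ℝ) + Dv) →
      t * A.B.K.card - Dv ≤ dsum A.B.K A.P →
      t * (1 - t) * A.B.K.card ≤ ξ * A.B.K.card + 3 * Fintype.card β + 2 * Dv
        + 1000 / (ξ * c) * (A.Err Q v Pb + η * Fintype.card ι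
            + Cb * (dfc A.P + dfc A.Pp + 1)) := by
  have hΩ0 : 0 < Om Q := Real.exp_pos _
  have hM0 : 0 < CoreX.MM Q κm W v η := by unfold CoreX.MM; positivity
  obtain ⟨ε, hε, hM⟩ : ∃ ε : ℝ, 0 < ε ∧ ε * CoreX.MM Q κm W v η = η :=
    ⟨η / CoreX.MM Q κm W v η, by positivity, div_mul_cancel₀ _ hM0.ne'⟩
  have hC1 : 0 ≤ CoreX.c1 Q W η ε := by unfold CoreX.c1; positivity
  have hC2 : 0 ≤ CoreX.c2 Q κm v ε := by unfold CoreX.c2; positivity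
  by_cases hQ : 5 ≤ Q
  swap
  · exact ⟨0, le_rfl, fun ι β T _ _ _ _ _ N A c Pb t ξ Dv h => absurd h.Q_ge hQ⟩
  have hQ0 : 0 < Q := by linarith
  refine ⟨CoreX.c1 Q W η ε + CoreX.c2 Q κm v ε + 36 * Om Q ^ 7 * Q, by positivity, ?_⟩
  intro ι β T _ _ _ _ _ N A c Pb t ξ Dv h hω hPb0 hPb ht0 ht1 hξ hξ1 hDv htop htot
  obtain ⟨hQΩ, hΩ⟩ := Om_ge hQ
  have hΩ1 : 1 ≤ Om Q := by linarith
  have hP := h.tst.hP
  have hI : Q ^ 3 ≤ (⌈Q ^ 3⌉₊ : ℝ) := Nat.le_ceil _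
  obtain ⟨s, m, hs1, hs2, hm, hwin, he5⟩ := scale A.B h.N_pos hP.1 hε (one_div_pos.2 hQ0)
    (by linarith : 1 ≤ Q) (I := ⌈Q ^ 3⌉₊) (Nat.ceil_pos.2 (by positivity)) (A.base Q)
  have hs3 : s ≤ 2 * Q ^ 3 := by
    have h1 := (Nat.ceil_lt_add_one (by positivity : 0 ≤ Q ^ 3)).le
    have h2 : 0 ≤ Q * (Q ^ 2 - 2) := mul_nonneg hQ0.le (by nlinarith)
    nlinarith
  have hL : (0 : ℝ) ≤ Fintype.card ι := Nat.cast_nonneg _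
  obtain ⟨b1, b2⟩ := CoreX.scale_bd hQ hL h.N_le hI
  obtain ⟨av1, av2⟩ := h.av_bounds ⟨by linarith, hs3⟩ hm
  obtain ⟨hΓ0, hO, hcrs, M₁, hrk, hhs⟩ := h.absA hε av1 av2
  have ha : ∀ j, 1 ≤ A.B.av (A.base Q) s m j ∧ A.B.av (A.base Q) s m j ≤ Om Q ^ 3 := fun j => by
    by_cases hj : j ∈ A.B.K
    · exact ⟨(av1 j hj).1, (av1 j hj).2.trans (le_self_pow₀ hΩ1 (by norm_num))⟩
    · rw [av2 j hj]; exact ⟨one_le_pow₀ hΩ1, le_rfl⟩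
  have hfar := far hP hε ha A.col
  have hbal := h.tst.bal (v := v) (Pb := Pb) hε (σ := Om Q ^ 3) (by
      have h1 : Om Q ^ 4 ≤ Om Q ^ 7 := pow_le_pow_right₀ hΩ1 (by norm_num)
      have h2 : 2 * Om Q ^ 3 ≤ Om Q * Om Q ^ 3 := mul_le_mul_of_nonneg_right hΩ (by positivity)
      unfold Th
      linarith) (one_le_pow₀ hΩ1) (by linarith) hPb0 ha
    (fun j hj => av2 j fun hk => hj (h.K_sub hk))
  have hR := Ra_ctr hP.1 hε (A.B.av (A.base Q) s m)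
  have hoff := h.off_le hR
  have hdfc := dfc_Ra hP hε hη ha
  have hC := fun n (hn : n < N) => h.absC hε ⟨by linarith, hs3⟩ hm hn M₁
  have hX0 : 0 ≤ A.toTst.X κm (Om Q ^ 3) ε v Pb := by
    have : 0 ≤ ∑ τ, A.ω τ * crs (A.S τ) (Ra ε A.P (A.B.av (A.base Q) s m)) :=
      Finset.sum_nonneg fun τ _ => mul_nonneg (h.tst.ω_nonneg τ)
        (Finset.sum_nonneg fun _ _ => Finset.sum_nonneg fun _ _ => sq_nonneg _)
    linarith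
  have hdf : 0 ≤ dif A.col A.P :=
    Finset.sum_nonneg fun _ _ => Finset.sum_nonneg fun _ _ => by split_ifs <;> positivity
  have hdP := hP.dfc_nonneg
  have hdPp := h.tst.hPp.dfc_nonneg
  have hc := h.c_pos
  have key := CoreX.arith (N := N) (Mg := A.Mg.card) (D := (A.C \ A.B.K).card)
    (KG := (A.B.K \ A.G).card) (Γ := A.toTst.Γ κm (Om Q ^ 5) ε)
    (X := A.toTst.X κm (Om Q ^ 3) ε v Pb) (C1 := CoreX.c1 Q W η ε) (C2 := CoreX.c2 Q κm v ε)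
    (SC := ∑ j ∈ A.C, |A.toTst.Pi j - Pb|) (S2 := ∑ j, (A.toTst.Pi j - Pb) ^ 2)
    (γ0 := A.toTst.γ0) (γT := A.toTst.γT) hQ0 hQΩ hΩ hκ hv hη hε hM hL h.N_le (Nat.cast_nonneg _)
    (Nat.cast_nonneg _) (Nat.cast_nonneg _) hdf hdP hdPp hPb hω rfl hΓ0 rfl hX0 rfl hC1 rfl hC2
  have key2 := CoreX.weights hξ hξ1 hc h.c_le (by positivity) (by positivity) key
  have hbal2 := mul_le_mul_of_nonneg_left hbal (by positivity : 0 ≤ 2 / c)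
  have hhs2 := mul_le_mul_of_nonneg_left hhs (by positivity : 0 ≤ 9 * Om Q)
  have hD := h.absD hε ⟨hs1, hs3⟩ hm ⟨ht0, ht1⟩ hξ hDv (by positivity) (by positivity) htop htot
    (Er := (3 * A.Mg.card + 3 * (8 * (A.toTst.Γ κm (Om Q ^ 5) ε + 3 * (A.C \ A.B.K).card))
      + 9 * Om Q * (4 * ε * Fintype.card ι + 4 * Om Q ^ 6 * N + 2 * Om Q ^ 12 * dfc A.P / ε ^ 2)
      + 9 * Fintype.card ι / Om Q ^ 7 + 9 * Om Q * (2 * Fintype.card ι / Om Q ^ 4)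
      + 8 * (Fintype.card ι / Q + (8 * (A.toTst.Γ κm (Om Q ^ 5) ε + 3 * (A.C \ A.B.K).card)
        + 2 * Fintype.card ι / Om Q ^ 4) + 2 * (A.B.K \ A.G).card
        + (32 * ε * Fintype.card ι + 32 * (Om Q ^ 3) ^ 2 * dif A.col A.P
          + 16 * (Om Q ^ 3) ^ 4 * dfc A.P / ε ^ 2))
      + 2 * (η * Fintype.card ι + (4 * ε * Fintype.card ι
        + 2 * (Om Q ^ 3) ^ 4 * dfc A.P / ε ^ 2) / η))
      + 8 * (2 / c * (2 * A.toTst.X κm (Om Q ^ 3) ε v Pb)))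
    (fun n _ hn => (hC n hn).trans
      (by linarith only [hrk, hhs2, hoff, hwin, b1, hcrs, hfar, hbal2, hdfc])) hO
  unfold Sit.Err Th
  linarith only [hD, key2, he5, b2]

end Crest.Agent.R113
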