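import Mathlib

/-! Row 113, S0149: finite-dimensional vocabulary (soft projections of positive matrices). -/

set_option autoImplicit false
open Matrix
open scoped ComplexOrder

namespace Crest.Agent.R113

section FD
variable {ι : Type*} [Fintype ι] [DecidableEq ι]

/-- real diagonal matrix -/
noncomputable def dg (a : ι → ℝ) : Matrix ι ι ℂ := Matrix.diagonal fun j => (a j : ℂ)
/-- coordinate projection -/
noncomputable def ind (S : Finset ι) : Matrix ι ι ℂ := dg fun j => if j ∈ S then 1 else 0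
/-- `Φ = ε (K + ε)⁻¹` -/
noncomputable def Ph (ε : ℝ) (K : Matrix ι ι ℂ) : Matrix ι ι ℂ := (ε : ℂ) • (K + (ε : ℂ) • 1)⁻¹
/-- soft range projection `R = 1 - ε (K + ε)⁻¹` -/
noncomputable def Rs (ε : ℝ) (K : Matrix ι ι ℂ) : Matrix ι ι ℂ := 1 - Ph ε K
/-- soft range projection of `a P a` -/
noncomputable def Ra (ε : ℝ) (P : Matrix ι ι ℂ) (a : ι → ℝ) : Matrix ι ι ℂ :=
  Rs ε (dg a * P * dg a)
/-- real part of a diagonal entry -/
def de (M : Matrix ι ι ℂ) (j : ι) : ℝ := (M j j).re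
/-- partial trace -/
def dsum (S : Finset ι) (M : Matrix ι ι ℂ) : ℝ := ∑ j ∈ S, de M j
/-- squared Hilbert–Schmidt norm -/
noncomputable def hs (M : Matrix ι ι ℂ) : ℝ := ∑ j, ∑ k, ‖M j k‖ ^ 2
/-- projection defect `Tr (P - P²)` -/
noncomputable def dfc (P : Matrix ι ι ℂ) : ℝ := (∑ j, de P j) - hs P
/-- `0 ≤ P ≤ 1` -/
def Ctr (P : Matrix ι ι ℂ) : Prop := P.PosSemidef ∧ (1 - P).PosSemidef
/-- operator norm at most `c` -/
def Bd (c : ℝ) (A : Matrix ι ι ℂ) : Prop := (((c ^ 2 : ℝ) : ℂ) • (1 : Matrix ι ι ℂ) - Aᴴ * A).PosSemidef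
/-- cross mass between `S` and its complement -/
noncomputable def crs (S : Finset ι) (M : Matrix ι ι ℂ) : ℝ := ∑ j ∈ S, ∑ k ∈ Sᶜ, ‖M j k‖ ^ 2
/-- rescale `a` by `c` on `S` -/
noncomputable def sc (S : Finset ι) (c : ℝ) (a : ι → ℝ) : ι → ℝ := fun j => if j ∈ S then c * a j else a j
/-- mass between sites of different colours -/
noncomputable def dif (col : ι → ℕ) (M : Matrix ι ι ℂ) : ℝ :=
  ∑ j, ∑ k, if col j = col k then 0 else ‖M j k‖ ^ 2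
/-- off-diagonal mass in the rows of `K` -/
noncomputable def off (K : Finset ι) (M : Matrix ι ι ℂ) : ℝ :=
  ∑ j ∈ K, ∑ k, if k = j then 0 else ‖M j k‖ ^ 2

end FD

/-- disjoint blocks of `N` sites each -/
structure Blk (ι β : Type*) (N : ℕ) where
  blk : ι → Option β
  pos : ι → ℕ
  site : β → ℕ → ι
  blk_site : ∀ b l, l < N → blk (site b l) = some b
  pos_site : ∀ b l, l < N → pos (site b l) = l
  pos_lt : ∀ j b, blk j = some b → pos j < N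
  site_pos : ∀ j b, blk j = some b → site b (pos j) = j

namespace Blk
variable {ι β : Type*} [Fintype ι] [DecidableEq ι] [Fintype β] [DecidableEq β] {N : ℕ}

/-- all sites in blocks -/
def K (B : Blk ι β N) : Finset ι := Finset.univ.filter fun j => B.blk j ≠ none
/-- the sites of block `b` -/
def bl (B : Blk ι β N) (b : β) : Finset ι := Finset.univ.filter fun j => B.blk j = some b
/-- height `N - pos` in blocks, `0` outside -/
noncomputable def ht (B : Blk ι β N) (j : ι) : ℝ := if B.blk j = none then 0 else (N : ℝ) - B.pos j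
/-- a function on blocks read at a site (`0` outside) -/
def mv (B : Blk ι β N) (m : β → ℝ) (j : ι) : ℝ := (B.blk j).elim 0 m
/-- within-block mass weighted by squared height differences -/
noncomputable def win (B : Blk ι β N) (M : Matrix ι ι ℂ) : ℝ :=
  ∑ j, ∑ k, if B.blk j = B.blk k ∧ B.blk j ≠ none then ‖M j k‖ ^ 2 * (B.ht j - B.ht k) ^ 2 else 0
/-- the tilted, block-shifted scaling -/
noncomputable def av (B : Blk ι β N) (base : ι → ℝ) (s : ℝ) (m : β → ℝ) : ι → ℝ :=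
  fun j => Real.exp (base j + s * (B.ht j - B.mv m j))
/-- ordered pairs `(source, target)` at distance `n` inside one block -/
def prs (B : Blk ι β N) (n : ℕ) : Finset (ι × ι) :=
  Finset.univ.filter fun q => B.blk q.1 ≠ none ∧ B.blk q.2 = B.blk q.1 ∧ B.pos q.2 = B.pos q.1 + n
/-- the truncated shift by `n` inside the blocks -/
def sh (B : Blk ι β N) (n : ℕ) : Matrix ι ι ℂ := fun k j => if (j, k) ∈ B.prs n then 1 else 0

end Blk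

/-- `Ω = exp (Q ^ 5)` -/
noncomputable def Om (Q : ℝ) : ℝ := Real.exp (Q ^ 5)
/-- `Θ = Ω ^ 7` -/
noncomputable def Th (Q : ℝ) : ℝ := Om Q ^ 7

/-- Test data: a forward test (`Pp, g0, C, E0, κ0`) and backward tests indexed by `T`. -/
structure Tst (ι T : Type*) where
  P : Matrix ι ι ℂ
  Pp : Matrix ι ι ℂ
  Pm : T → Matrix ι ι ℂ
  g0 : ι → ℝ
  g : T → ι → ℝ
  C : Finset ι
  E0 : Finset ι
  S : T → Finset ι
  E : T → Finset ι
  ω : T → ℝ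
  κ : T → ℝ
  κ0 : ℝ

namespace Tst
variable {ι T : Type*} [Fintype ι] [DecidableEq ι] [Fintype T]

structure OK (D : Tst ι T) (Θ κm : ℝ) : Prop where
  hP : Ctr D.P
  hPp : Ctr D.Pp
  hPm : ∀ τ, Ctr (D.Pm τ)
  g0_pos : ∀ j, 0 < D.g0 j
  g_pos : ∀ τ j, 0 < D.g τ j
  fwd : (D.Pp - dg D.g0 * D.P * dg D.g0).PosSemidef
  bwd : ∀ τ, (D.P - dg (D.g τ) * D.Pm τ * dg (D.g τ)).PosSemidef
  κm_pos : 0 < κm
  κm_le : κm ≤ 1
  κ0_ge : κm ≤ D.κ0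
  κ_ge : ∀ τ, κm ≤ D.κ τ
  ω_nonneg : ∀ τ, 0 ≤ D.ω τ
  f_out : ∀ j, j ∉ D.C → j ∉ D.E0 → D.κ0 ≤ D.g0 j
  f_in : ∀ j, j ∈ D.C → j ∉ D.E0 → D.g0 j ≤ D.κ0 / Θ
  b_in : ∀ τ j, j ∈ D.S τ → j ∉ D.E τ → D.κ τ ≤ D.g τ j
  b_out : ∀ τ j, j ∉ D.S τ → j ∉ D.E τ → D.g τ j ≤ D.κ τ / Θ

/-- weighted count of the tests passed by a site -/
noncomputable def Pi (D : Tst ι T) (j : ι) : ℝ := ∑ τ, D.ω τ * (if j ∈ D.S τ then 1 else 0)
/-- weighted count of the tests separating two sites -/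
noncomputable def sep (D : Tst ι T) (j k : ι) : ℝ :=
  ∑ τ, D.ω τ * (if (j ∈ D.S τ ↔ k ∈ D.S τ) then 0 else 1)
/-- forward gain plus its exceptional set -/
noncomputable def γ0 (D : Tst ι T) : ℝ := (dsum D.Cᶜ D.Pp - dsum D.Cᶜ D.P) + 2 * D.E0.card
/-- weighted backward gains plus exceptional sets -/
noncomputable def γT (D : Tst ι T) : ℝ :=
  ∑ τ, D.ω τ * ((dsum (D.S τ) D.P - dsum (D.S τ) (D.Pm τ)) + 2 * (D.E τ).card)
/-- `Γ`: bound for the total variation of `R - P` off `C` -/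
noncomputable def Γ (D : Tst ι T) (κm σ ε : ℝ) : ℝ :=
  D.γ0 + dfc D.Pp * σ ^ 2 / (ε * κm ^ 2) + 2 * ε * Fintype.card ι
/-- the balance bound -/
noncomputable def X (D : Tst ι T) (κm σ ε v Pb : ℝ) : ℝ :=
  (∑ j ∈ D.C, |D.Pi j - Pb|) + v / 2 * D.Γ κm σ ε + (∑ j, (D.Pi j - Pb) ^ 2) / v
    + Pb * σ ^ 2 * dfc D.P / ε + D.γT + (∑ τ, D.ω τ) * (4 * ε * Fintype.card ι / κm ^ 2)

end Tst

/-- The full abstract situation. -/
structure Sit (ι β T : Type*) (N : ℕ) extends Tst ι T where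
  B : Blk ι β N
  Mg : Finset ι
  G : Finset ι
  bw : ι → ℝ
  Y : ℕ → Matrix ι ι ℂ
  Z : ℕ → Finset ι
  col : ι → ℕ

namespace Sit
variable {ι β T : Type*} [Fintype ι] [DecidableEq ι] [Fintype β] [DecidableEq β] [Fintype T] {N : ℕ}

structure OK (A : Sit ι β T N) (Q κm c : ℝ) : Prop where
  tst : A.toTst.OK (Th Q) κm
  Q_ge : 5 ≤ Q
  N_pos : 1 ≤ N
  N_le : (N : ℝ) ≤ Q
  c_pos : 0 < c
  c_le : c ≤ 1
  K_sub : A.B.K ⊆ A.C
  bw_ge : ∀ j, 1 ≤ A.bw j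
  bw_le : ∀ j, A.bw j ≤ Q
  Y_bd : ∀ n, n < N → Bd 1 (A.Y n)
  Y_inv : ∀ n, n < N →
    ((2 : ℂ) • A.P + (2 : ℂ) • ind (A.Z n) - A.Y n * A.P * (A.Y n)ᴴ).PosSemidef
  Z_card : ∀ n, n < N → (A.Z n).card ≤ N
  Y_in : ∀ n b l k, n < N → l + n < N → A.Y n k (A.B.site b l) =
    if k = A.B.site b (l + n) then ((A.bw (A.B.site b l) / A.bw k : ℝ) : ℂ) else 0
  Y_out : ∀ n b l, n < N → l < N → N ≤ l + n →
    ∑ k ∈ A.Mgᶜ, ‖A.Y n k (A.B.site b l)‖ ^ 2 ≤ (1 / Th Q) ^ 2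
  code : ∀ j k, j ∈ A.G → k ∈ A.G → A.B.blk j ≠ none → A.B.blk k ≠ none →
    A.B.blk j ≠ A.B.blk k → A.col j = A.col k → c ≤ A.toTst.sep j k

/-- base of the scaling: `2 Q⁴ + log bw` in blocks, `log Ω³` outside -/
noncomputable def base (A : Sit ι β T N) (Q : ℝ) (j : ι) : ℝ :=
  if A.B.blk j = none then 3 * Q ^ 5 else 2 * Q ^ 4 + Real.log (A.bw j)

/-- the error terms that do not depend on `ε` -/
noncomputable def Err (A : Sit ι β T N) (Q v Pb : ℝ) : ℝ :=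
  A.Mg.card + (A.C \ A.B.K).card + (A.B.K \ A.G).card + (∑ j ∈ A.C, |A.toTst.Pi j - Pb|)
    + (∑ j, (A.toTst.Pi j - Pb) ^ 2) / v + v * A.toTst.γ0 + A.toTst.γT
    + Fintype.card ι / Q + Th Q ^ 2 * dif A.col A.P

end Sit

/-! ### kernels on `ℤ` -/

/-- window `[o, o + L)` of a kernel -/
def wnd (p : ℤ → ℤ → ℂ) (L : ℕ) (o : ℤ) : Matrix (Fin L) (Fin L) ℂ :=
  fun j k => p (((j : ℕ) : ℤ) + o) (((k : ℕ) : ℤ) + o)
/-- `n`-step weight starting at `j` -/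
noncomputable def gw (w : ℤ → ℝ) (n : ℕ) (j : ℤ) : ℝ := ∏ i ∈ Finset.range n, w (j + i)

/-- a fibre of an invariant projection of the weighted shift -/
structure Ker (p : ℤ → ℤ → ℂ) (w : ℤ → ℝ) : Prop where
  ctr : ∀ L o, Ctr (wnd p L o)
  w_pos : ∀ j, 0 < w j
  w_le : ∀ j, w j ≤ 1
  inv : ∀ (n L : ℕ) (o : ℤ), (wnd p L (o + n) - dg (fun j : Fin L => gw w n (((j : ℕ) : ℤ) + o)) * wnd p L o
    * dg (fun j : Fin L => gw w n (((j : ℕ) : ℤ) + o))).PosSemidef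

/-- the truncated `n`-th power of the weighted shift on the window `[0, L)` -/
noncomputable def Ym (w : ℤ → ℝ) (L n : ℕ) : Matrix (Fin L) (Fin L) ℂ :=
  fun k j => if (k : ℕ) = (j : ℕ) + n then ((gw w n ((j : ℕ) : ℤ) : ℝ) : ℂ) else 0
/-- sum over the window `[0, L)` -/
noncomputable def sm (L : ℕ) (F : ℤ → ℝ) : ℝ := ∑ j ∈ Finset.range L, F (j : ℤ)
/-- real indicator -/
noncomputable def ch {α : Type*} (A : Set α) (j : α) : ℝ := A.indicator (fun _ => (1 : ℝ)) j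
/-- defect relative to the colouring by intervals of length `D` -/
noncomputable def dcol (p : ℤ → ℤ → ℂ) (L D : ℕ) : ℝ :=
  (∑ j : Fin L, de (wnd p L 0) j) -
    ∑ j : Fin L, ∑ k : Fin L, if (j : ℕ) / D = (k : ℕ) / D then ‖wnd p L 0 j k‖ ^ 2 else 0
/-- deviation of the length-`n` average from `t` -/
noncomputable def dev (π : ℤ → ℝ) (t : ℝ) (n : ℕ) (j : ℤ) : ℝ :=
  |(∑ i ∈ Finset.range n, π (j + i)) / n - t|

/-- The situation on `ℤ`. -/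
structure ZS (T : Type*) where
  N : ℕ
  C : Set ℤ
  St : Set ℤ
  E0 : Set ℤ
  Mg : Set ℤ
  G : Set ℤ
  n : T → ℕ
  S : T → Set ℤ
  E : T → Set ℤ
  ω : T → ℝ
  κ : T → ℝ
  κ0 : ℝ
  D0 : ℕ

namespace ZS
variable {T : Type*} [Fintype T]

/-- sites in kept blocks -/
def K (A : ZS T) : Set ℤ := {j | ∃ s ∈ A.St, s ≤ j ∧ j < s + A.N}
noncomputable def Pi (A : ZS T) (j : ℤ) : ℝ := ∑ τ, A.ω τ * ch (A.S τ) j
noncomputable def sep (A : ZS T) (j k : ℤ) : ℝ := ∑ τ, A.ω τ * |ch (A.S τ) j - ch (A.S τ) k|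

structure OK (A : ZS T) (w : ℤ → ℝ) (Q κm c : ℝ) : Prop where
  Q_ge : 5 ≤ Q
  N_pos : 1 ≤ A.N
  N_le : (A.N : ℝ) ≤ Q
  c_pos : 0 < c
  c_le : c ≤ 1
  D0_pos : 1 ≤ A.D0
  κm_pos : 0 < κm
  κm_le : κm ≤ 1
  κ0_ge : κm ≤ A.κ0
  κ_ge : ∀ τ, κm ≤ A.κ τ
  ω_nonneg : ∀ τ, 0 ≤ A.ω τ
  St_sep : ∀ s ∈ A.St, ∀ s' ∈ A.St, s < s' → s + 2 * A.N ≤ s'
  K_sub : A.K ⊆ A.C
  light : ∀ s ∈ A.St, 1 / Q ≤ gw w A.N s
  heavy : ∀ s ∈ A.St, ∀ (j : ℤ) (n : ℕ), s ≤ j → j < s + A.N → n < A.N → s + A.N ≤ j + n →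
    j + n ∉ A.Mg → gw w n j ≤ 1 / Th Q
  f_out : ∀ j, j ∉ A.C → j ∉ A.E0 → A.κ0 ≤ gw w A.N j
  f_in : ∀ j, j ∈ A.C → j ∉ A.E0 → gw w A.N j ≤ A.κ0 / Th Q
  b_in : ∀ τ j, j ∈ A.S τ → j ∉ A.E τ → A.κ τ ≤ gw w (A.n τ) (j - A.n τ)
  b_out : ∀ τ j, j ∉ A.S τ → j ∉ A.E τ → gw w (A.n τ) (j - A.n τ) ≤ A.κ τ / Th Q
  code : ∀ s ∈ A.St, ∀ s' ∈ A.St, s ≠ s' → ∀ j k : ℤ, s ≤ j → j < s + A.N → s' ≤ k → k < s' + A.N →
    j ∈ A.G → k ∈ A.G → |j - k| < A.D0 → c ≤ A.sep j k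

/-- the per-site error density -/
noncomputable def er (A : ZS T) (π : ℤ → ℝ) (v Pb : ℝ) (j : ℤ) : ℝ :=
  ch A.Mg j + ch (A.C \ A.K) j + ch (A.K \ A.G) j + ch A.C j * |A.Pi j - Pb|
    + (A.Pi j - Pb) ^ 2 / v + v * (ch A.Cᶜ j * (π (j + A.N) - π j) + 2 * ch A.E0 j)
    + ∑ τ, A.ω τ * (ch (A.S τ) j * (π j - π (j - A.n τ)) + 2 * ch (A.E τ) j)

end ZS

end Crest.Agent.R113
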