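import Crest.Agent.R113.Defs
import Crest.Prelude.Def_RotationRep

/-! Row 113, S0149: vocabulary on the circle. -/

set_option autoImplicit false
open MeasureTheory
open scoped InnerProductSpace

namespace Crest.Agent.R113

abbrev X : Type := UnitAddCircle
/-- Haar probability measure on the circle -/
noncomputable abbrev mu : Measure X := AddCircle.haarAddCircle
abbrev H2 : Type := lp (fun _ : ℤ × ℤ => ℂ) 2
noncomputable abbrev L2 : Type := Lp ℂ 2 mu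

/-- representative in `[0,1)` -/
noncomputable def ph (x : X) : ℝ := (AddCircle.equivIco (1 : ℝ) 0 x : ℝ)
/-- orbit of the rotation -/
noncomputable def orb (θ : ℝ) (x : X) (j : ℤ) : X := x + (((j : ℝ) * θ : ℝ) : X)
/-- the arc `[α, α + ℓ)` -/
def arc (α ℓ : ℝ) : Set X := {x | ph (x - (α : X)) < ℓ}
/-- the point of the unit circle in `ℂ` -/
noncomputable def ec (x : X) : ℂ := (AddCircle.toCircle x : ℂ)

/-- the fibre kernel at `x` -/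
noncomputable def kq (θ : ℝ) (q : ℤ → X → ℂ) (x : X) : ℤ → ℤ → ℂ := fun j k => q (j - k) (orb θ x k)

/-- fibre data of an invariant projection with trace `t` -/
structure Fib (θ : ℝ) (w : X → ℝ) (q : ℤ → X → ℂ) (t : ℝ) : Prop where
  meas : ∀ d, Measurable (q d)
  ker : ∀ᵐ x ∂mu, Ker (kq θ q x) (fun j => w (orb θ x j))
  sum : HasSum (fun d => ∫ x, ‖q d x‖ ^ 2 ∂mu) t
  int0 : ∫ x, (q 0 x).re ∂mu = t

/-- row embeddings `L²(𝕋) → ℓ²(ℤ × ℤ)` -/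
structure IsEmb (emb : ℤ → (L2 →L[ℂ] H2)) : Prop where
  basis : ∀ j b : ℤ, emb j (fourierLp (T := 1) 2 b) = lp.single 2 (j, b) (1 : ℂ)
  inner : ∀ (j k : ℤ) (h h' : L2), ⟪emb j h', emb k h⟫_ℂ = if j = k then ⟪h', h⟫_ℂ else 0

/-- speed of level `i` -/
noncomputable def vt (θ : ℝ) (m : ℕ → ℕ) (i : ℕ) : ℝ := Int.fract ((m i : ℝ) * θ)
/-- phase of level `i` -/
noncomputable def yy (m : ℕ → ℕ) (i : ℕ) (x : X) : ℝ := ph (m i • x)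
/-- width of the danger zone of level `i` -/
noncomputable def et (θ : ℝ) (m : ℕ → ℕ) (i : ℕ) : ℝ := 3 * (2 ^ i + 1) * vt θ m i
/-- period of level `i` -/
noncomputable def nb (θ : ℝ) (m : ℕ → ℕ) (i : ℕ) : ℕ := ⌈1 / vt θ m i⌉₊
/-- digit of level `i` -/
noncomputable def dig (m : ℕ → ℕ) (i : ℕ) (x : X) : ℕ := ⌊4 ^ i * yy m i x⌋₊

/-- multipliers with independent digits -/
structure Mult (m : ℕ → ℕ) : Prop where
  pos : ∀ i, 0 < m i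
  dvd : ∀ i, m i * 4 ^ i ∣ m (i + 1)

/-- code property of a chain of groups above a special level -/
structure Chain (θ : ℝ) (m : ℕ → ℕ) (ρ lam : ℝ) (J I h : ℕ) (G : ℕ → Finset ℕ) : Prop where
  h_ge : I + J ≤ h
  low : lam * vt θ m I ≤ vt θ m h
  jump : vt θ m (h + 1) ≤ vt θ m h ^ 2 / vt θ m I
  mem : ∀ k, ∀ i ∈ G k, I ≤ i ∧ i ≠ h
  disj : ∀ k k', k ≠ k' → Disjoint (G k) (G k')
  ne : ∀ k, (G k).Nonempty
  sizes : ∀ n, ∑ k ∈ Finset.range n, (1 : ℝ) / (G k).card ≤ 2 / J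
  code : ∀ D : ℕ, 1 / (4 * vt θ m h) ≤ D → ∃ k, (G k).card ≤
    2 * ((G k).filter fun i => ρ ≤ |D * vt θ m i - round (D * vt θ m i)|).card

structure Spd (θ : ℝ) (m : ℕ → ℕ) (ρ : ℝ) : Prop where
  mult : Mult m
  ρ_pos : 0 < ρ
  vt_pos : ∀ i, 0 < vt θ m i
  vt_zero : vt θ m 0 ≤ 1 / 64
  ratio : ∀ i, vt θ m (i + 1) ≤ vt θ m i / 64
  chain : ∀ J₀ : ℕ, ∃ J : ℕ, J₀ ≤ J ∧ 1 ≤ J ∧ ∃ lam : ℝ, 0 < lam ∧ ∀ I₀ : ℕ, ∃ I h G, I₀ ≤ I ∧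
    Chain θ m ρ lam J I h G

/-- the weight and its quantitative properties -/
structure Wt (θ : ℝ) (m : ℕ → ℕ) (w : X → ℝ) (κ : ℕ → ℝ) (Tb : ℕ → Set X) : Prop where
  meas : Measurable w
  w_nonneg : ∀ x, 0 ≤ w x
  w_le : ∀ x, w x ≤ 1
  Tb_meas : ∀ ν, MeasurableSet (Tb ν)
  Tb_le : ∀ ν, mu.real (Tb ν) ≤ (1 / 2) ^ ν
  κ_pos : ∀ ν, 0 < κ ν
  κ_anti : Antitone κ
  κ_le : ∀ ν, κ ν ≤ vt θ m ν
  lo : ∀ (ν : ℕ) (x : X) (n : ℕ) (o : ℤ), x ∉ Tb ν → n ≤ nb θ m ν → -(nb θ m ν : ℤ) ≤ o →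
    o + n ≤ nb θ m ν → (∀ i : ℕ, i < n → ∀ l, ν ≤ l → et θ m l ≤ yy m l (orb θ x (o + i))) →
    κ ν ≤ gw (fun j => w (orb θ x j)) n o
  hi : ∀ (I ν l : ℕ) (x : X) (n : ℕ), I ≤ ν → ν ≤ l → et θ m l ≤ yy m l x →
    yy m l x ≤ n * vt θ m l → gw (fun j => w (orb θ x j)) n (-(n : ℤ)) ≤ κ ν / Th (1 / κ I)

/-- avoid one arc at each level of `[ν, M]` -/
def ev (m : ℕ → ℕ) (ν M : ℕ) (α ℓ : ℕ → ℝ) : Set X :=
  {x | ∀ i ∈ Finset.Icc ν M, m i • x ∉ arc (α i) (ℓ i)}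

/-- total weight at a level -/
noncomputable def lw {T : Type*} [Fintype T] (ν : T → ℕ) (ω : T → ℝ) (l : ℕ) : ℝ :=
  ∑ τ, if ν τ = l then ω τ else 0

/-- parameters of one application of the finite inequality -/
structure Par where
  θ : ℝ
  m : ℕ → ℕ
  w : X → ℝ
  κ : ℕ → ℝ
  Tb : ℕ → Set X
  I : ℕ
  h : ℕ
  M0 : ℕ
  N : ℕ
  m0 : ℕ
  kmax : ℕ
  D0 : ℕ
  G : ℕ → Finset ℕ

namespace Par
variable (A : Par)

/-- top level seen by the tests -/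
def M : ℕ := A.M0 + A.I
/-- tests: a level `I + ν ≤ M0 + I` and a threshold index -/
abbrev T : Type := Fin (A.M0 + 1) × Fin A.m0
def lev (τ : A.T) : ℕ := A.I + τ.1
noncomputable abbrev v (i : ℕ) : ℝ := vt A.θ A.m i
noncomputable abbrev y (i : ℕ) (x : X) : ℝ := yy A.m i x
noncomputable abbrev η (i : ℕ) : ℝ := et A.θ A.m i
noncomputable def Q : ℝ := 1 / A.κ A.I
/-- relative measure of the sparse set -/
noncomputable def ell : ℝ := A.N * A.v A.h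
noncomputable def wl (ν : ℕ) : ℝ :=
  ∑ k ∈ Finset.range A.kmax, if ν ∈ A.G k then (1 : ℝ) / (A.G k).card else 0
noncomputable def ω (τ : A.T) : ℝ := A.wl (A.lev τ) / A.m0
noncomputable def n (τ : A.T) : ℕ := ⌈((τ.2 : ℕ) : ℝ) / (A.m0 * A.v (A.lev τ))⌉₊

def cC : Set X := {x | 1 - A.ell ≤ A.y A.h x}
def cSt : Set X := {x | 1 - A.ell ≤ A.y A.h x ∧ A.y A.h x < 1 - A.ell + A.v A.h ∧
  1 / A.Q ≤ gw (fun j => A.w (orb A.θ x j)) A.N 0}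
def cK : Set X := {x | ∃ l : ℕ, l < A.N ∧ orb A.θ x (-(l : ℤ)) ∈ A.cSt}
def cMg : Set X := {x | A.y A.h x < A.η A.h}
def cE1 : Set X := {z | z ∈ A.Tb A.h ∨ A.y A.h z < A.η A.h ∨
  (A.ell ≤ A.y A.h z ∧ A.y A.h z < A.ell + A.η A.h) ∨
  ∃ i, A.h < i ∧ A.y i z < A.N * A.v i + A.η i}
def cE0 : Set X := {x | orb A.θ x A.N ∈ A.cE1}
def cS (τ : A.T) : Set X := {x | ∀ i ∈ Finset.Icc (A.lev τ) A.M, A.n τ * A.v i ≤ A.y i x}
def cE (τ : A.T) : Set X := {x | x ∈ A.Tb (A.lev τ) ∨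
  (∃ i ∈ Finset.Icc (A.lev τ) A.M, A.y i x < A.η i ∨
    (A.n τ * A.v i ≤ A.y i x ∧ A.y i x < A.n τ * A.v i + A.η i)) ∨
  ∃ i, A.M < i ∧ A.y i x < A.n τ * A.v i + A.η i}
def cH (ν : ℕ) : Set X := {x | ∀ i ∈ Finset.Icc (ν + 1) A.M, nb A.θ A.m ν * A.v i ≤ A.y i x}
def cG : Set X := {x | ∀ k, k < A.kmax →
  8 * ∑ ν ∈ A.G k, ch (A.cH ν)ᶜ x ≤ ((A.G k).card : ℝ)}
noncomputable def Pi (x : X) : ℝ := ∑ τ, A.ω τ * ch (A.cS τ) x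
noncomputable def Pb : ℝ := ∫ x, A.Pi x ∂mu

/-- the situation along the orbit of `x` -/
noncomputable def zs (x : X) : ZS A.T where
  N := A.N
  C := {j | orb A.θ x j ∈ A.cC}
  St := {j | orb A.θ x j ∈ A.cSt}
  E0 := {j | orb A.θ x j ∈ A.cE0}
  Mg := {j | orb A.θ x j ∈ A.cMg}
  G := {j | orb A.θ x j ∈ A.cG}
  n := A.n
  S := fun τ => {j | orb A.θ x j ∈ A.cS τ}
  E := fun τ => {j | orb A.θ x j ∈ A.cE τ}
  ω := A.ω
  κ := fun τ => A.κ (A.lev τ)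
  κ0 := A.κ A.h
  D0 := A.D0

/-- the error density on the circle -/
noncomputable def er (π : X → ℝ) (v : ℝ) (x : X) : ℝ :=
  ch A.cMg x + ch (A.cC \ A.cK) x + ch (A.cK \ A.cG) x + ch A.cC x * |A.Pi x - A.Pb|
    + (A.Pi x - A.Pb) ^ 2 / v + v * (ch A.cCᶜ x * (π (orb A.θ x A.N) - π x) + 2 * ch A.cE0 x)
    + ∑ τ, A.ω τ * (ch (A.cS τ) x * (π x - π (orb A.θ x (-(A.n τ : ℤ)))) + 2 * ch (A.cE τ) x)

structure OK (ρ lam : ℝ) (J : ℕ) : Prop where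
  spd : Spd A.θ A.m ρ
  wt : Wt A.θ A.m A.w A.κ A.Tb
  chain : Chain A.θ A.m ρ lam J A.I A.h A.G
  J_pos : 1 ≤ J
  h_le : A.h ≤ A.M0
  G_le : ∀ k, k < A.kmax → ∀ i ∈ A.G k, i ≤ A.M0
  N_pos : 1 ≤ A.N
  N_le : A.N * A.v A.I ≤ 1 / 4
  m0_pos : 1 ≤ A.m0
  m0_ge : 2 / ρ ≤ A.m0
  vI_le : A.v A.I ≤ ρ / 2
  D0_pos : 1 ≤ A.D0
  code : ∀ D : ℕ, 1 / (4 * A.v A.h) ≤ D → D < A.D0 → ∃ k, k < A.kmax ∧ (A.G k).card ≤
    2 * ((A.G k).filter fun i => ρ ≤ |D * A.v i - round (D * A.v i)|).card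

end Par

end Crest.Agent.R113
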