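import Crest.Agent.R113.Ph

set_option autoImplicit false
open MeasureTheory
open scoped InnerProductSpace ComplexOrder

namespace Crest.Agent.R113

namespace DigX

/-- index of the cell of length `1 / k` -/
noncomputable def fl (k : ℕ) (x : X) : ℕ := ⌊(k : ℝ) * ph x⌋₊

theorem measurable_fl (k : ℕ) : Measurable (fl k) :=
  Nat.measurable_floor.comp (measurable_ph.const_mul _)

theorem fl_lt {k : ℕ} (hk : 0 < k) (x : X) : fl k x < k := by
  have hk' : (0 : ℝ) < k := by exact_mod_cast hk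
  refine (Nat.floor_lt (mul_nonneg hk'.le (ph_nonneg x))).2 ?_
  have := ph_lt_one x
  nlinarith

theorem cell_eq {k a : ℕ} (ha : a < k) : fl k ⁻¹' {a} = arc ((a : ℝ) / k) (1 / k) := by
  have hk' : (0 : ℝ) < k := by exact_mod_cast (Nat.zero_le a).trans_lt ha
  have ha' : (a : ℝ) + 1 ≤ k := by exact_mod_cast ha
  ext x
  have h0 := ph_nonneg x
  have h1 := ph_lt_one x
  have e : x - (((a : ℝ) / k : ℝ) : X) = ((ph x - (a : ℝ) / k : ℝ) : X) := by
    rw [AddCircle.coe_sub, coe_ph]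
  have ha0 : 0 ≤ (a : ℝ) / k := by positivity
  have ha1 : (a : ℝ) / k + 1 / k ≤ 1 := by
    rw [← add_div, div_le_one hk']
    exact ha'
  have hk0 : (0 : ℝ) < 1 / k := by positivity
  simp only [Set.mem_preimage, Set.mem_singleton_iff, arc, Set.mem_ofPred_eq, fl]
  rw [e, ph_coe, Nat.floor_eq_iff (mul_nonneg hk'.le h0), ← div_le_iff₀' hk', ← lt_div_iff₀' hk',
    add_div]
  by_cases h : (a : ℝ) / k ≤ ph x
  · rw [Int.fract_eq_self.2 ⟨by linarith, by linarith⟩]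
    constructor
    · rintro ⟨-, h2⟩
      linarith
    · intro h2
      exact ⟨h, by linarith⟩
  · rw [← Int.fract_add_one, Int.fract_eq_self.2 ⟨by linarith, by linarith⟩]
    constructor
    · rintro ⟨h2, -⟩
      exact absurd h2 h
    · intro h2
      linarith

theorem mu_cell {k a : ℕ} (ha : a < k) : mu.real (fl k ⁻¹' {a}) = 1 / k := by
  have hk : 1 ≤ k := (Nat.zero_le a).trans_lt ha
  have hk' : (1 : ℝ) ≤ k := by exact_mod_cast hk
  rw [cell_eq ha, mu_arc _ (by positivity) ((div_le_one (by linarith)).2 hk')]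

theorem inv_mul {k : ℕ} {F : Set X} (hF : ∀ x, x + ((1 / (k : ℝ) : ℝ) : X) ∈ F ↔ x ∈ F) (a : ℕ)
    (x : X) : x + (((a : ℝ) / k : ℝ) : X) ∈ F ↔ x ∈ F := by
  induction a with
  | zero => simp
  | succ a ih =>
    rw [← ih, ← hF (x + (((a : ℝ) / k : ℝ) : X)), Nat.cast_succ, add_div, AddCircle.coe_add,
      add_assoc]

theorem cell_inter {k a : ℕ} (ha : a < k) {F : Set X}
    (hF : ∀ x, x + ((1 / (k : ℝ) : ℝ) : X) ∈ F ↔ x ∈ F) :
    mu (fl k ⁻¹' {a} ∩ F) = mu (arc 0 (1 / k) ∩ F) := by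
  rw [← measure_preimage_add_right mu (((a : ℝ) / k : ℝ) : X), cell_eq ha]
  congr 1
  ext x
  simp only [Set.mem_preimage, Set.mem_inter_iff, add_mem_arc, sub_self, inv_mul hF]

theorem mu_split {k : ℕ} (hk : 0 < k) (B : Set ℕ) {F : Set X} (hm : MeasurableSet F)
    (hF : ∀ x, x + ((1 / (k : ℝ) : ℝ) : X) ∈ F ↔ x ∈ F) [DecidablePred (· ∈ B)] :
    mu (fl k ⁻¹' B ∩ F) =
      ((Finset.range k).filter (· ∈ B)).card * mu (arc 0 (1 / k) ∩ F) := by
  have e : fl k ⁻¹' B = fl k ⁻¹' ((Finset.range k).filter (· ∈ B) : Finset ℕ) := by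
    ext x
    simp [fl_lt hk x]
  rw [e, ← Measure.restrict_apply' hm, ← sum_measure_preimage_singleton _
    fun y _ => measurable_fl k (measurableSet_singleton y), ← nsmul_eq_mul, ← Finset.sum_const]
  refine Finset.sum_congr rfl fun a ha => ?_
  rw [Measure.restrict_apply' hm, cell_inter (Finset.mem_range.1 (Finset.mem_filter.1 ha).1) hF]

theorem mu_inter {k : ℕ} (hk : 0 < k) (B : Set ℕ) {F : Set X} (hm : MeasurableSet F)
    (hF : ∀ x, x + ((1 / (k : ℝ) : ℝ) : X) ∈ F ↔ x ∈ F) :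
    mu (fl k ⁻¹' B ∩ F) = mu (fl k ⁻¹' B) * mu F := by
  classical
  have h1 := mu_split hk B hm hF
  have h2 := mu_split hk B MeasurableSet.univ (fun _ => by simp)
  have h3 := mu_split hk Set.univ hm hF
  have h4 := mu_split hk Set.univ MeasurableSet.univ (fun _ => by simp)
  simp only [Set.preimage_univ, Set.univ_inter, Set.inter_univ, Set.mem_univ, Finset.filter_true,
    Finset.card_range, measure_univ] at h2 h3 h4
  rw [h1, h2, h3]
  calc _ = (((Finset.range k).filter (· ∈ B)).card : ENNReal) * (1 * mu (arc 0 (1 / k) ∩ F)) := by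
        rw [one_mul]
    _ = _ := by
      rw [h4]
      ring

theorem dig_eq_fl (m : ℕ → ℕ) (i : ℕ) (x : X) : dig m i x = fl (4 ^ i) (m i • x) := by
  simp [dig, fl, yy]

theorem fl_div (n : ℕ) {c : ℕ} (hc : 0 < c) (x : X) : fl n x = fl (n * c) x / c := by
  have hc' : (c : ℝ) ≠ 0 := by exact_mod_cast hc.ne'
  rw [fl, fl, ← Nat.floor_div_natCast]
  congr 1
  push_cast
  field_simp

theorem fl_nsmul (n : ℕ) {c : ℕ} (hc : 0 < c) (x : X) : fl c (n • x) = fl (n * c) x % c := by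
  have e : n • x = (((n : ℝ) * ph x : ℝ) : X) := by
    rw [← nsmul_eq_mul, AddCircle.coe_nsmul, coe_ph]
  have h0 : 0 ≤ (n : ℝ) * ph x := mul_nonneg (Nat.cast_nonneg n) (ph_nonneg x)
  have h1 : (c : ℝ) * ph (n • x) = ((n * c : ℕ) : ℝ) * ph x - ((c * fl n x : ℕ) : ℝ) := by
    rw [e, ph_coe, Int.fract, ← natCast_floor_eq_intCast_floor h0, fl]
    push_cast
    ring
  rw [fl, h1, Nat.floor_sub_natCast, fl_div n hc x, Nat.mod_def]
  rfl

theorem sub_arc {α ℓ δ : ℝ} {y y' : X} (hy' : y' ∈ arc α ℓ) (h : |ph y - ph y'| ≤ δ) :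
    y ∈ arc (α - δ) (ℓ + 2 * δ) := by
  obtain ⟨h1, h2⟩ := abs_le.1 h
  have h0 := ph_nonneg (y' - (α : X))
  have h3 : ph (y' - (α : X)) < ℓ := hy'
  have e : y - ((α - δ : ℝ) : X) = ((ph (y' - (α : X)) + (ph y - ph y' + δ) : ℝ) : X) := by
    rw [AddCircle.coe_add, AddCircle.coe_add, AddCircle.coe_sub, AddCircle.coe_sub, coe_ph, coe_ph,
      coe_ph]
    abel
  change ph (y - ((α - δ : ℝ) : X)) < ℓ + 2 * δ
  rw [e, ph_coe, Int.fract]
  have h4 : (0 : ℝ) ≤ (⌊ph (y' - (α : X)) + (ph y - ph y' + δ)⌋ : ℤ) := by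
    exact_mod_cast Int.floor_nonneg.2 (by linarith)
  linarith

theorem abs_le_of_fl {k : ℕ} (hk : 0 < k) {y y' : X} (h : fl k y = fl k y') :
    |ph y - ph y'| ≤ 1 / k := by
  have hk' : (0 : ℝ) < k := by exact_mod_cast hk
  obtain ⟨a1, a2⟩ := (Nat.floor_eq_iff (mul_nonneg hk'.le (ph_nonneg y))).1 h
  obtain ⟨b1, b2⟩ := (Nat.floor_eq_iff (mul_nonneg hk'.le (ph_nonneg y'))).1
    (rfl : fl k y' = fl k y')
  rw [le_div_iff₀ hk', ← abs_of_pos hk', ← abs_mul, abs_le]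
  constructor <;> nlinarith

end DigX

variable {m : ℕ → ℕ}
theorem measurable_dig (m : ℕ → ℕ) (i : ℕ) : Measurable (dig m i) :=
  Nat.measurable_floor.comp ((measurable_yy m i).const_mul _)
theorem dig_lt (m : ℕ → ℕ) (i : ℕ) (x : X) : dig m i x < 4 ^ i := by
  rw [DigX.dig_eq_fl]
  exact DigX.fl_lt (by positivity) _
theorem mu_dig (h : Mult m) (i : ℕ) {k : ℕ} (hk : k < 4 ^ i) :
    mu.real {x | dig m i x = k} = (1 / 4) ^ i := by
  have e : {x | dig m i x = k} = (fun x : X => m i • x) ⁻¹' (DigX.fl (4 ^ i) ⁻¹' {k}) := by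
    ext x
    simp [DigX.dig_eq_fl]
  rw [e, (mp_nsmul (h.pos i)).measureReal_preimage
    (DigX.measurable_fl _ (measurableSet_singleton k)).nullMeasurableSet, DigX.mu_cell hk]
  simp
theorem indep_dig (h : Mult m) : ProbabilityTheory.iIndepFun (dig m) mu := by
  rw [ProbabilityTheory.iIndepFun_iff_measure_inter_preimage_eq_mul]
  intro S sets hS
  clear hS
  induction S using Finset.induction_on_min with
  | empty => simp
  | insert a s ha ih =>
    have has : a ∉ s := fun h' => lt_irrefl _ (ha a h')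
    rw [Finset.prod_insert has, Finset.set_biInter_insert, ← ih]
    obtain ⟨c, hc⟩ := h.dvd a
    have hc0 : 0 < c := by
      have := h.pos (a + 1)
      rw [hc] at this
      exact Nat.pos_of_mul_pos_left this
    have e : dig m a ⁻¹' sets a = DigX.fl (m (a + 1)) ⁻¹' {n | n / c % 4 ^ a ∈ sets a} := by
      ext x
      simp only [Set.mem_preimage, Set.mem_ofPred_eq]
      rw [DigX.dig_eq_fl, DigX.fl_nsmul _ (by positivity), DigX.fl_div _ hc0, hc]
    rw [e]
    refine DigX.mu_inter (h.pos _) _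
      (s.measurableSet_biInter fun i _ => measurable_dig m i MeasurableSet.of_discrete) fun x => ?_
    simp only [Set.mem_iInter, Set.mem_preimage]
    refine forall_congr' fun i => forall_congr' fun hi => ?_
    rw [DigX.dig_eq_fl, DigX.dig_eq_fl, h.nsmul_add_inv (Nat.succ_le_of_lt (ha i hi))]
/-- outer digit approximation of an arc -/
theorem exists_outer (h : Mult m) (i : ℕ) (α : ℝ) {ℓ : ℝ} (h0 : 0 ≤ ℓ) :
    ∃ B : Set ℕ, (∀ x, m i • x ∈ arc α ℓ → dig m i x ∈ B) ∧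
      mu.real {x | dig m i x ∈ B} ≤ ℓ + 2 * (1 / 4) ^ i ∧
      mu.real ({x | dig m i x ∈ B} \ {x | m i • x ∈ arc α ℓ}) ≤ 2 * (1 / 4) ^ i := by
  have hB : ∀ x, m i • x ∈ arc α ℓ → dig m i x ∈ dig m i '' {x | m i • x ∈ arc α ℓ} :=
    fun x hx => ⟨x, hx, rfl⟩
  have hδ : (0 : ℝ) ≤ (1 / 4) ^ i := by positivity
  have h1 : mu.real {x | dig m i x ∈ dig m i '' {x | m i • x ∈ arc α ℓ}} ≤
      ℓ + 2 * (1 / 4) ^ i := by
    refine le_trans ?_ (mu_arc_le (α - (1 / 4) ^ i) (by linarith))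
    rw [← (mp_nsmul (h.pos i)).measureReal_preimage (measurableSet_arc _ _).nullMeasurableSet]
    refine measureReal_mono fun x hx => ?_
    obtain ⟨x', hx', e⟩ := hx
    rw [DigX.dig_eq_fl, DigX.dig_eq_fl] at e
    refine DigX.sub_arc hx' ((DigX.abs_le_of_fl (by positivity) e.symm).trans (le_of_eq ?_))
    simp
  refine ⟨dig m i '' {x | m i • x ∈ arc α ℓ}, hB, h1, ?_⟩
  by_cases hl : ℓ ≤ 1
  · have h2 : mu.real {x | m i • x ∈ arc α ℓ} = ℓ :=
      ((mp_nsmul (h.pos i)).measureReal_preimage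
        (measurableSet_arc α ℓ).nullMeasurableSet).trans (mu_arc α h0 hl)
    have h3 : {x | m i • x ∈ arc α ℓ} ⊆ {x | dig m i x ∈ dig m i '' {x | m i • x ∈ arc α ℓ}} := hB
    have h4 : MeasurableSet {x | m i • x ∈ arc α ℓ} :=
      (mp_nsmul (h.pos i)).measurable (measurableSet_arc α ℓ)
    rw [measureReal_sdiff h3 h4 (measure_ne_top _ _), h2]
    linarith
  · have e : {x | dig m i x ∈ dig m i '' {x | m i • x ∈ arc α ℓ}} \ {x | m i • x ∈ arc α ℓ} = ∅ :=
      Set.sdiff_eq_empty.2 fun x _ => (ph_lt_one _).trans (not_le.1 hl)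
    rw [e, measureReal_empty]
    linarith
theorem pairArc (h : Mult m) {i j : ℕ} (hij : i ≠ j) (α α' : ℝ) {ℓ ℓ' : ℝ} (h0 : 0 ≤ ℓ)
    (h0' : 0 ≤ ℓ') :
    mu.real ({x | m i • x ∈ arc α ℓ} ∩ {x | m j • x ∈ arc α' ℓ'})
      ≤ (ℓ + 2 * (1 / 4) ^ i) * (ℓ' + 2 * (1 / 4) ^ j) := by
  obtain ⟨B, hB, hB1, -⟩ := exists_outer h i α h0
  obtain ⟨B', hB', hB1', -⟩ := exists_outer h j α' h0'
  have h1 := ((indep_dig h).indepFun hij).measure_inter_preimage_eq_mul B B'
    MeasurableSet.of_discrete MeasurableSet.of_discrete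
  calc _ ≤ mu.real (dig m i ⁻¹' B ∩ dig m j ⁻¹' B') :=
        measureReal_mono fun x hx => ⟨hB x hx.1, hB' x hx.2⟩
    _ = mu.real (dig m i ⁻¹' B) * mu.real (dig m j ⁻¹' B') := by
        simp only [Measure.real, h1, ENNReal.toReal_mul]
    _ ≤ _ := mul_le_mul hB1 hB1' measureReal_nonneg (by positivity)

end Crest.Agent.R113
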