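import Crest.Agent.R113.Ph

set_option autoImplicit false
open MeasureTheory
open scoped InnerProductSpace ComplexOrder

namespace Crest.Agent.R113

namespace ErgX

open Filter Topology Finset

/-- the characters average to zero along the family `c` -/
def Eqd (c : ℕ → ℕ → X) : Prop :=
  ∀ m : ℤ, m ≠ 0 →
    Tendsto (fun n : ℕ => (∑ i ∈ range n, fourier m (c n i)) / (n : ℂ)) atTop (𝓝 0)

/-- average minus integral -/
noncomputable def L (c : ℕ → ℕ → X) (n : ℕ) (x : X) (g : C(X, ℂ)) : ℂ :=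
  (∑ i ∈ range n, g (x + c n i)) / n - ∫ z, g z ∂mu

theorem int_c {E : Type} [NormedAddCommGroup E] {g : X → E} (hg : Continuous g) :
    Integrable g mu :=
  integrableOn_univ.1 (hg.continuousOn.integrableOn_compact isCompact_univ)

theorem L_add (c : ℕ → ℕ → X) (n : ℕ) (x : X) (g h : C(X, ℂ)) :
    L c n x (g + h) = L c n x g + L c n x h := by
  unfold L
  simp only [ContinuousMap.add_apply, sum_add_distrib]
  rw [integral_add (int_c g.continuous) (int_c h.continuous)]
  ring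

theorem L_smul (c : ℕ → ℕ → X) (n : ℕ) (x : X) (a : ℂ) (g : C(X, ℂ)) :
    L c n x (a • g) = a * L c n x g := by
  unfold L
  simp only [ContinuousMap.smul_apply, smul_eq_mul, ← mul_sum]
  rw [integral_const_mul]
  ring

theorem L_le (c : ℕ → ℕ → X) (n : ℕ) (x : X) (g : C(X, ℂ)) : ‖L c n x g‖ ≤ 2 * ‖g‖ := by
  unfold L
  have h1 : ‖(∑ i ∈ range n, g (x + c n i)) / (n : ℂ)‖ ≤ ‖g‖ := by
    rw [norm_div, Complex.norm_natCast]
    refine div_le_of_le_mul₀ (Nat.cast_nonneg _) (norm_nonneg _) ?_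
    refine (norm_sum_le _ _).trans ?_
    refine (sum_le_card_nsmul _ _ ‖g‖ fun i _ => g.norm_coe_le_norm _).trans ?_
    rw [card_range, nsmul_eq_mul, mul_comm]
  have h2 : ‖∫ z, g z ∂mu‖ ≤ ‖g‖ := by
    have := norm_integral_le_of_norm_le_const (μ := mu) (f := fun z => g z) (C := ‖g‖)
      (Eventually.of_forall fun z => g.norm_coe_le_norm z)
    simpa using this
  linarith [norm_sub_le ((∑ i ∈ range n, g (x + c n i)) / (n : ℂ)) (∫ z, g z ∂mu)]

theorem fourier_add_arg (m : ℤ) (x y : X) : fourier m (x + y) = fourier m x * fourier m y := by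
  simp only [fourier_apply, smul_add, AddCircle.toCircle_add, Circle.coe_mul]

theorem span {c : ℕ → ℕ → X} (hc : Eqd c) {g : C(X, ℂ)}
    (hg : g ∈ Submodule.span ℂ (Set.range (@fourier 1))) :
    ∀ ε > 0, ∀ᶠ n in atTop, ∀ x, ‖L c n x g‖ ≤ ε := by
  induction hg using Submodule.span_induction with
  | mem g hg =>
      obtain ⟨m, rfl⟩ := hg
      intro ε hε
      by_cases hm : m = 0
      · subst hm
        filter_upwards [eventually_ge_atTop 1] with n hn x
        have hn' : (n : ℂ) ≠ 0 := by exact_mod_cast (by omega : n ≠ 0)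
        unfold L
        simp only [fourier_zero, sum_const, card_range, nsmul_eq_mul, mul_one, integral_const,
          probReal_univ, one_smul]
        rw [div_self hn', sub_self, norm_zero]
        exact hε.le
      · have h0 : ∫ z, fourier m z ∂mu = 0 :=
          integral_eq_zero_of_add_right_eq_neg (fourier_add_half_inv_index hm one_pos)
        have h1 := (hc m hm).norm
        rw [norm_zero] at h1
        filter_upwards [h1.eventually (eventually_le_nhds hε)] with n hn x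
        unfold L
        simp only [fourier_add_arg, ← mul_sum]
        rw [h0, sub_zero, mul_div_assoc, norm_mul, fourier_apply, Circle.norm_coe, one_mul]
        exact hn
  | zero =>
      intro ε hε
      refine Eventually.of_forall fun n x => ?_
      have := L_le c n x 0
      rw [norm_zero] at this
      linarith
  | add g h _ _ ih1 ih2 =>
      intro ε hε
      filter_upwards [ih1 _ (half_pos hε), ih2 _ (half_pos hε)] with n h1 h2 x
      rw [L_add]
      linarith [norm_add_le (L c n x g) (L c n x h), h1 x, h2 x]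
  | smul a g _ ih =>
      intro ε hε
      have ha : 0 < ‖a‖ + 1 := by positivity
      filter_upwards [ih _ (div_pos hε ha)] with n h1 x
      rw [L_smul, norm_mul]
      have := (le_div_iff₀ ha).1 (h1 x)
      nlinarith [norm_nonneg (L c n x g)]

theorem cont {c : ℕ → ℕ → X} (hc : Eqd c) (g : C(X, ℂ)) {ε : ℝ} (hε : 0 < ε) :
    ∀ᶠ n in atTop, ∀ x, ‖L c n x g‖ ≤ ε := by
  have hg : g ∈ closure (Submodule.span ℂ (Set.range (@fourier 1)) : Set C(X, ℂ)) := by
    rw [← Submodule.topologicalClosure_coe, span_fourier_closure_eq_top]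
    trivial
  obtain ⟨p, hp, hd⟩ := Metric.mem_closure_iff.1 hg (ε / 4) (by positivity)
  filter_upwards [span hc hp _ (half_pos hε)] with n h1 x
  have e : g = p + (g - p) := by abel
  rw [e, L_add]
  have h2 := L_le c n x (g - p)
  rw [dist_eq_norm] at hd
  linarith [norm_add_le (L c n x p) (L c n x (g - p)), h1 x]

theorem contR {c : ℕ → ℕ → X} (hc : Eqd c) {g : X → ℝ} (hg : Continuous g) {ε : ℝ} (hε : 0 < ε) :
    ∀ᶠ n in atTop, ∀ x, |(∑ i ∈ range n, g (x + c n i)) / n - ∫ z, g z ∂mu| ≤ ε := by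
  filter_upwards [cont hc ⟨fun x => (g x : ℂ), Complex.continuous_ofReal.comp hg⟩ hε] with n h x
  have := h x
  unfold L at this
  simp only [ContinuousMap.coe_mk] at this
  rw [integral_complex_ofReal, ← Complex.ofReal_sum, ← Complex.ofReal_natCast, ← Complex.ofReal_div]
    at this
  rw [← Real.norm_eq_abs, ← Complex.norm_real, Complex.ofReal_sub]
  exact this

theorem int_avg {π : X → ℝ} (hπ : Integrable π mu) (c : ℕ → X) (n : ℕ) (t : ℝ) :
    Integrable (fun x => (∑ i ∈ range n, π (x + c i)) / n - t) mu :=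
  ((integrable_finset_sum _ fun i _ => hπ.comp_add_right (c i)).div_const _).sub
    (integrable_const _)

theorem l1 {c : ℕ → ℕ → X} (hc : Eqd c) {π : X → ℝ} (hπ : Integrable π mu) {ε : ℝ} (hε : 0 < ε) :
    ∀ᶠ n in atTop, ∫ x, |(∑ i ∈ range n, π (x + c n i)) / n - ∫ z, π z ∂mu| ∂mu ≤ ε := by
  obtain ⟨g, hg, gi⟩ := hπ.exists_boundedContinuous_integral_sub_le (ε := ε / 3) (by positivity)
  simp only [Real.norm_eq_abs] at hg
  have hd : Integrable (fun x => |π x - g x|) mu := (hπ.sub gi).abs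
  filter_upwards [contR hc g.continuous (ε := ε / 3) (by positivity), eventually_ge_atTop 1]
    with n h hn
  have hn' : (0 : ℝ) < n := by exact_mod_cast hn
  have h1 : |∫ z, g z ∂mu - ∫ z, π z ∂mu| ≤ ε / 3 := by
    rw [abs_sub_comm, ← integral_sub hπ gi]
    exact abs_integral_le_integral_abs.trans hg
  have h2 : ∀ x, |(∑ i ∈ range n, π (x + c n i)) / n - ∫ z, π z ∂mu| ≤
      (∑ i ∈ range n, |π (x + c n i) - g (x + c n i)|) / n - -(2 * (ε / 3)) := fun x => by
    have a1 : |(∑ i ∈ range n, π (x + c n i)) / n - (∑ i ∈ range n, g (x + c n i)) / n| ≤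
        (∑ i ∈ range n, |π (x + c n i) - g (x + c n i)|) / n := by
      rw [← sub_div, ← sum_sub_distrib, abs_div, abs_of_pos hn']
      exact div_le_div_of_nonneg_right (abs_sum_le_sum_abs _ _) hn'.le
    have a2 := abs_sub_le ((∑ i ∈ range n, π (x + c n i)) / n)
      ((∑ i ∈ range n, g (x + c n i)) / n) (∫ z, π z ∂mu)
    have a3 := abs_sub_le ((∑ i ∈ range n, g (x + c n i)) / n) (∫ z, g z ∂mu) (∫ z, π z ∂mu)
    linarith [h x]
  refine (integral_mono (int_avg hπ _ _ _).abs (int_avg hd (c n) n _) h2).trans ?_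
  rw [integral_sub ((integrable_finset_sum _ fun i _ => hd.comp_add_right (c n i)).div_const _)
    (integrable_const _), integral_div,
    integral_finset_sum _ fun i _ => hd.comp_add_right (c n i)]
  have e : ∀ i, ∫ x, |π (x + c n i) - g (x + c n i)| ∂mu = ∫ x, |π x - g x| ∂mu := fun i =>
    integral_add_right_eq_self (fun x => |π x - g x|) (c n i)
  simp only [e, sum_const, card_range, nsmul_eq_mul, integral_const, probReal_univ, one_smul]
  rw [mul_div_cancel_left₀ _ hn'.ne']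
  linarith

theorem chr_pow (m : ℤ) (u : ℝ) (i : ℕ) :
    fourier m (((i : ℝ) * u : ℝ) : X) = fourier m (u : X) ^ i := by
  rw [fourier_coe_apply, fourier_coe_apply, ← Complex.exp_nat_mul]
  congr 1
  push_cast
  ring

theorem chr_ne (m : ℤ) (u : ℝ) (h : ∀ n : ℤ, (m : ℝ) * u ≠ n) : fourier m (u : X) ≠ 1 := by
  rw [fourier_coe_apply, Ne, Complex.exp_eq_one_iff]
  rintro ⟨n, hn⟩
  apply h n
  have h2 : (2 * (Real.pi : ℂ) * Complex.I) ≠ 0 := Complex.two_pi_I_ne_zero
  have : ((m : ℂ) * u) * (2 * Real.pi * Complex.I) = n * (2 * Real.pi * Complex.I) := by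
    rw [← hn]; push_cast; ring
  exact_mod_cast mul_right_cancel₀ h2 this

theorem eqd_irr {θ : ℝ} (hθ : Irrational θ) : Eqd fun _ i => (((i : ℝ) * θ : ℝ) : X) := by
  intro m hm
  have hz := chr_ne m θ fun n => (hθ.intCast_mul hm).ne_int n
  simp only [chr_pow]
  have h1 : ‖fourier m (θ : X)‖ = 1 := by rw [fourier_apply, Circle.norm_coe]
  generalize fourier m (θ : X) = z at *
  refine squeeze_zero_norm (a := fun n : ℕ => (2 / ‖z - 1‖) / (n : ℝ)) (fun n => ?_)
    (tendsto_const_div_atTop_nhds_zero_nat _)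
  rw [norm_div, Complex.norm_natCast, geom_sum_eq hz, norm_div]
  gcongr
  refine (norm_sub_le _ _).trans ?_
  rw [norm_pow, h1, one_pow, norm_one]
  norm_num

theorem eqd_per : Eqd fun k i => (((i : ℝ) * (1 / (k : ℝ)) : ℝ) : X) := by
  intro m hm
  refine tendsto_const_nhds.congr' ?_
  filter_upwards [eventually_gt_atTop m.natAbs] with k hk
  have hk0 : (k : ℝ) ≠ 0 := by exact_mod_cast (by omega : k ≠ 0)
  have hz := chr_ne m (1 / (k : ℝ)) fun n hn => by
    have h1 : (m : ℝ) = n * k := by rw [← hn]; field_simp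
    have h2 : m = n * k := by exact_mod_cast h1
    have h3 := Int.eq_zero_of_dvd_of_natAbs_lt_natAbs (d := k) (n := m) ⟨n, by rw [h2, mul_comm]⟩
      (by simpa using hk)
    exact hm h3
  have h1 : fourier m ((1 / (k : ℝ) : ℝ) : X) ^ k = 1 := by
    rw [← chr_pow, mul_one_div_cancel hk0, AddCircle.coe_period, fourier_eval_zero]
  simp only [chr_pow]
  rw [geom_sum_eq hz, h1, sub_self, zero_div, zero_div]

theorem int_pi {π : X → ℝ} (hπ : Measurable π) (hb : ∀ᵐ x ∂mu, 0 ≤ π x ∧ π x ≤ 1) :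
    Integrable π mu :=
  Integrable.of_bound hπ.aestronglyMeasurable 1 (hb.mono fun x hx => by
    rw [Real.norm_eq_abs, abs_of_nonneg hx.1]; exact hx.2)

theorem amgm {a b ε : ℝ} (hε : 0 < ε) (a2 : |a| ≤ 1) : |a * b| ≤ |a| / ε + ε * b ^ 2 := by
  rw [abs_mul, ← sq_abs b]
  have a3 := abs_nonneg a
  have a4 := abs_nonneg b
  generalize |a| = x at *
  generalize |b| = y at *
  rw [div_add' _ _ _ hε.ne', le_div_iff₀ hε]
  nlinarith [sq_nonneg (x - ε * y), mul_nonneg a3 (sub_nonneg.2 a2),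
    mul_nonneg (mul_nonneg a3 a4) hε.le]

theorem per_inv {G : X → ℝ} {u : ℝ} (hper : ∀ x, G (x + (u : X)) = G x) (i : ℕ) (x : X) :
    G (x + (((i : ℝ) * u : ℝ) : X)) = G x := by
  induction i with
  | zero => simp
  | succ i ih =>
      have : ((i + 1 : ℕ) : ℝ) * u = (i : ℝ) * u + u := by push_cast; ring
      rw [this, AddCircle.coe_add, ← add_assoc, hper, ih]

theorem per_aux {π G : X → ℝ} (hi : Integrable π mu) (hb : ∀ᵐ x ∂mu, 0 ≤ π x ∧ π x ≤ 1)
    {ε : ℝ} (hε : 0 < ε) (c : ℕ → X) {k : ℕ} (hk1 : 1 ≤ k) {t : ℝ} (t0 : 0 ≤ t) (t1 : t ≤ 1)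
    (hA : ∫ x, |(∑ i ∈ range k, π (x + c i)) / k - t| ∂mu ≤ ε ^ 2) (hG : Measurable G)
    {C : ℝ} (hC : ∀ x, |G x| ≤ C) (hGc : ∀ i x, G (x + c i) = G x) :
    |∫ x, (π x - t) * G x ∂mu| ≤ ε * (1 + ∫ x, G x ^ 2 ∂mu) := by
  have hk' : (0 : ℝ) < k := by exact_mod_cast hk1
  have hGb : ∀ᵐ x ∂mu, ‖G x‖ ≤ C := Filter.Eventually.of_forall hC
  have mulG : ∀ {f : X → ℝ}, Integrable f mu → Integrable (fun x => f x * G x) mu := fun hf =>
    hf.mul_bdd hG.aestronglyMeasurable hGb
  have iG : Integrable G mu := Integrable.of_bound hG.aestronglyMeasurable C hGb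
  have iG2 : Integrable (fun x => G x ^ 2) mu := by simpa only [sq] using mulG iG
  have iA := int_avg hi c k t
  have e1 : ∫ x, (π x - t) * G x ∂mu =
      ∫ x, ((∑ i ∈ range k, π (x + c i)) / k - t) * G x ∂mu := by
    have e2 : ∀ x, ((∑ i ∈ range k, π (x + c i)) / k - t) * G x =
        (∑ i ∈ range k, (π (x + c i) - t) * G (x + c i)) / k := fun x => by
      simp only [hGc, ← sum_mul, sum_sub_distrib, sum_const, card_range, nsmul_eq_mul]
      field_simp
    have i1 : Integrable (fun x => (π x - t) * G x) mu :=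
      mulG (f := fun x => π x - t) (hi.sub (integrable_const _))
    have e3 : ∀ i, ∫ x, (π (x + c i) - t) * G (x + c i) ∂mu = ∫ x, (π x - t) * G x ∂mu :=
      fun i => integral_add_right_eq_self (fun x => (π x - t) * G x) (c i)
    have i6 : ∀ i ∈ range k, Integrable (fun x => (π (x + c i) - t) * G (x + c i)) mu :=
      fun i _ => i1.comp_add_right (c i)
    symm
    calc _ = ∫ x, (∑ i ∈ range k, (π (x + c i) - t) * G (x + c i)) / k ∂mu :=
          integral_congr_ae (Eventually.of_forall e2)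
      _ = (∑ i ∈ range k, ∫ x, (π (x + c i) - t) * G (x + c i) ∂mu) / k := by
          rw [integral_div, integral_finset_sum _ i6]
      _ = _ := by
          rw [sum_congr rfl fun i _ => e3 i, sum_const, card_range, nsmul_eq_mul,
            mul_div_cancel_left₀ _ hk'.ne']
  have hb' : ∀ᵐ x ∂mu, ∀ i, 0 ≤ π (x + c i) ∧ π (x + c i) ≤ 1 :=
    ae_all_iff.2 fun i => by
      have := (measurePreserving_add_right mu (c i)).quasiMeasurePreserving.ae
        (p := fun x => 0 ≤ π x ∧ π x ≤ 1) hb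
      exact this
  have key : ∀ᵐ x ∂mu, |((∑ i ∈ range k, π (x + c i)) / k - t) * G x| ≤
      |(∑ i ∈ range k, π (x + c i)) / k - t| / ε + ε * G x ^ 2 := by
    filter_upwards [hb'] with x hx
    have a0 : 0 ≤ (∑ i ∈ range k, π (x + c i)) / k :=
      div_nonneg (sum_nonneg fun i _ => (hx i).1) hk'.le
    have a1 : (∑ i ∈ range k, π (x + c i)) / k ≤ 1 := by
      rw [div_le_one hk']
      refine (sum_le_card_nsmul _ _ 1 fun i _ => (hx i).2).trans ?_
      simp
    refine amgm hε ?_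
    rw [abs_le]; constructor <;> linarith
  have i2 : Integrable (fun x => |(∑ i ∈ range k, π (x + c i)) / k - t| / ε) mu :=
    iA.abs.div_const ε
  have i3 : Integrable (fun x => ε * G x ^ 2) mu := iG2.const_mul ε
  have i4 : Integrable (fun x => |((∑ i ∈ range k, π (x + c i)) / k - t) * G x|) mu :=
    (mulG (f := fun x => (∑ i ∈ range k, π (x + c i)) / k - t) iA).abs
  have i5 : Integrable
      (fun x => |(∑ i ∈ range k, π (x + c i)) / k - t| / ε + ε * G x ^ 2) mu := i2.add i3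
  rw [e1]
  refine abs_integral_le_integral_abs.trans ((integral_mono_ae i4 i5 key).trans ?_)
  rw [integral_add i2 i3, integral_div, integral_const_mul, mul_add]
  have : (∫ x, |(∑ i ∈ range k, π (x + c i)) / k - t| ∂mu) / ε ≤ ε * 1 := by
    rw [div_le_iff₀ hε]
    calc _ ≤ ε ^ 2 := hA
      _ = _ := by ring
  linarith

end ErgX

open ErgX in
theorem erg_avg {θ : ℝ} (hθ : Irrational θ) {π : X → ℝ} (hπ : Measurable π)
    (hb : ∀ᵐ x ∂mu, 0 ≤ π x ∧ π x ≤ 1) {ε : ℝ} (hε : 0 < ε) :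
    ∃ n : ℕ, 1 ≤ n ∧ ∫ x, dev (fun j => π (orb θ x j)) (∫ z, π z ∂mu) n 0 ∂mu ≤ ε := by
  obtain ⟨n, h1, h2⟩ :=
    ((Filter.eventually_ge_atTop 1).and (l1 (eqd_irr hθ) (int_pi hπ hb) hε)).exists
  refine ⟨n, h1, ?_⟩
  simpa only [dev, orb, zero_add, Int.cast_natCast] using h2

open ErgX in
theorem erg_per {π : X → ℝ} (hπ : Measurable π) (hb : ∀ᵐ x ∂mu, 0 ≤ π x ∧ π x ≤ 1) {ε : ℝ}
    (hε : 0 < ε) : ∃ k₀ : ℕ, ∀ k : ℕ, k₀ ≤ k → ∀ G : X → ℝ, Measurable G →
      (∃ C : ℝ, ∀ x, |G x| ≤ C) → (∀ x, G (x + ((1 / (k : ℝ) : ℝ) : X)) = G x) →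
      |∫ x, (π x - ∫ z, π z ∂mu) * G x ∂mu| ≤ ε * (1 + ∫ x, G x ^ 2 ∂mu) := by
  have hi := int_pi hπ hb
  obtain ⟨k₀, hk₀⟩ := Filter.eventually_atTop.1 ((Filter.eventually_ge_atTop 1).and
    (l1 eqd_per hi (ε := ε ^ 2) (by positivity)))
  refine ⟨k₀, fun k hk G hG hC hper => ?_⟩
  obtain ⟨C, hC⟩ := hC
  obtain ⟨hk1, hA⟩ := hk₀ k hk
  have t0 : 0 ≤ ∫ z, π z ∂mu := integral_nonneg_of_ae (hb.mono fun x hx => hx.1)
  have t1 : ∫ z, π z ∂mu ≤ 1 := by
    have := integral_mono_ae hi (integrable_const (1 : ℝ)) (hb.mono fun x hx => hx.2)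
    simpa using this
  exact per_aux hi hb hε (fun i => (((i : ℝ) * (1 / (k : ℝ)) : ℝ) : X)) hk1 t0 t1 hA hG hC
    (per_inv hper)

end Crest.Agent.R113
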