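import Crest.Agent.R113.Ph
import Crest.Agent.R113.Basic1

set_option autoImplicit false
open MeasureTheory
open scoped InnerProductSpace ComplexOrder

namespace Crest.Agent.R113

variable {θ t : ℝ} {w : X → ℝ} {q : ℤ → X → ℂ}

namespace Erg3X

/-- defect of a window relative to the colouring by intervals of length `D` -/
noncomputable def G (p : ℤ → ℤ → ℂ) (L D : ℕ) (o : ℤ) : ℝ :=
  (∑ j : Fin L, de (wnd p L o) j) -
    ∑ j : Fin L, ∑ k : Fin L, if (j : ℕ) / D = (k : ℕ) / D then ‖wnd p L o j k‖ ^ 2 else 0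

theorem dfc_eq (p : ℤ → ℤ → ℂ) (L : ℕ) (o : ℤ) : dfc (wnd p L o) = G p L (L + 1) o := by
  have : ∀ j : Fin L, (j : ℕ) / (L + 1) = 0 := fun j => Nat.div_eq_of_lt (by omega)
  simp [dfc, hs, G, this]

theorem meas (h : Fib θ w q t) (L : ℕ) (o : ℤ) (j k : Fin L) :
    Measurable fun x => wnd (kq θ q x) L o j k :=
  (h.meas _).comp (continuous_orb θ _).measurable

theorem int_de (h : Fib θ w q t) (L : ℕ) (o : ℤ) (j : Fin L) :
    Integrable (fun x => de (wnd (kq θ q x) L o) j) mu := by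
  refine .of_bound (Complex.measurable_re.comp (meas h L o j j)).aestronglyMeasurable 1 ?_
  filter_upwards [h.ker] with x hx
  rw [Real.norm_eq_abs, abs_of_nonneg (de_nonneg (hx.ctr L o).1 j)]
  exact (hx.ctr L o).de_le_one j

theorem int_sq (h : Fib θ w q t) (L : ℕ) (o : ℤ) (j k : Fin L) (c : Prop) [Decidable c] :
    Integrable (fun x => if c then ‖wnd (kq θ q x) L o j k‖ ^ 2 else 0) mu := by
  split_ifs
  · refine .of_bound ((meas h L o j k).norm.pow_const 2).aestronglyMeasurable 1 ?_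
    filter_upwards [h.ker] with x hx
    rw [Real.norm_eq_abs, abs_of_nonneg (by positivity)]
    exact (Finset.single_le_sum (f := fun k => ‖wnd (kq θ q x) L o j k‖ ^ 2)
      (fun _ _ => by positivity) (Finset.mem_univ k)).trans
      (((hx.ctr L o).row_le j).trans ((hx.ctr L o).de_le_one j))
  · exact integrable_zero _ _ _

theorem int_G (h : Fib θ w q t) (L D : ℕ) (o : ℤ) : Integrable (fun x => G (kq θ q x) L D o) mu :=
  (integrable_finsetSum _ fun j _ => int_de h L o j).sub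
    (integrable_finsetSum _ fun j _ => integrable_finsetSum _ fun k _ => int_sq h L o j k _)

theorem integral_G (h : Fib θ w q t) (L D : ℕ) (o : ℤ) : ∫ x, G (kq θ q x) L D o ∂mu =
    ∑ j : Fin L, (t - ∑ k : Fin L, if (j : ℕ) / D = (k : ℕ) / D then
      ∫ x, ‖q (((j : ℕ) : ℤ) - (k : ℕ)) x‖ ^ 2 ∂mu else 0) := by
  unfold G
  rw [integral_sub (integrable_finsetSum _ fun j _ => int_de h L o j)
      (integrable_finsetSum _ fun j _ => integrable_finsetSum _ fun k _ => int_sq h L o j k _),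
    integral_finsetSum _ fun j _ => int_de h L o j,
    integral_finsetSum _ fun j _ => integrable_finsetSum _ fun k _ => int_sq h L o j k _,
    ← Finset.sum_sub_distrib]
  refine Finset.sum_congr rfl fun j _ => ?_
  rw [integral_finsetSum _ fun k _ => int_sq h L o j k _]
  congr 1
  · simp only [de, wnd, kq, sub_self]
    rw [integral_orb θ _ fun x => (q 0 x).re, h.int0]
  · refine Finset.sum_congr rfl fun k _ => ?_
    split_ifs
    · simp only [wnd, kq, add_sub_add_right_eq_sub]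
      exact integral_orb θ _ fun x => ‖q (((j : ℕ) : ℤ) - (k : ℕ)) x‖ ^ 2
    · simp

theorem card_bad (L D D₁ : ℕ) (hD : 1 ≤ D) :
    ((Finset.range L).filter fun j => ¬(j / D * D + D₁ ≤ j ∧ j + D₁ < L ∧
      j + D₁ < j / D * D + D)).card ≤ 2 * D₁ * (L / D + 1) := by
  rw [← Finset.card_range (L / D + 1)]
  refine Finset.card_le_mul_card_image_of_maps_to (f := fun j => j / D) (fun j hj => ?_) _
    fun c _ => ?_
  · exact Finset.mem_range.2 (Nat.lt_succ_of_le
      (Nat.div_le_div_right (Finset.mem_range.1 (Finset.mem_filter.1 hj).1).le))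
  · refine (Finset.card_le_card (t := Finset.Ico (c * D) (c * D + D₁) ∪
      Finset.Ico (min L (c * D + D) - D₁) (min L (c * D + D))) fun j hj => ?_).trans
      ((Finset.card_union_le _ _).trans ?_)
    · simp only [Finset.mem_filter, Finset.mem_range] at hj
      obtain ⟨⟨h1, h2⟩, rfl⟩ := hj
      have h3 := Nat.div_mul_le_self j D
      have h4 := Nat.lt_div_mul_add (a := j) hD
      simp only [Finset.mem_union, Finset.mem_Ico]
      omega
    · simp only [Nat.card_Ico]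
      omega

theorem comb {g : ℤ → ℝ} (hg : ∀ d, 0 ≤ g d) (ht : HasSum g t) (ht1 : t ≤ 1) {ε : ℝ} (hε : 0 < ε) :
    ∃ D₁ : ℕ, ∀ L D : ℕ, 1 ≤ D → ∑ j : Fin L, (t - ∑ k : Fin L, if (j : ℕ) / D = (k : ℕ) / D then
      g (((j : ℕ) : ℤ) - (k : ℕ)) else 0) ≤ ε * L + 2 * D₁ * ((L / D : ℕ) + 1) := by
  obtain ⟨s, hs⟩ := (ht.eventually (lt_mem_nhds (show t - ε < t by linarith))).exists
  refine ⟨s.sup Int.natAbs, fun L D hD => ?_⟩
  set D₁ := s.sup Int.natAbs
  have h1 : ∀ j : Fin L, (t - ∑ k : Fin L, if (j : ℕ) / D = (k : ℕ) / D then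
      g (((j : ℕ) : ℤ) - (k : ℕ)) else 0) ≤ ε + if ¬((j : ℕ) / D * D + D₁ ≤ j ∧ j + D₁ < L ∧
        j + D₁ < j / D * D + D) then 1 else 0 := by
    intro j
    rw [← Finset.sum_filter]
    split_ifs with c
    · have h2 : ∑ d ∈ s, g d ≤ ∑ k ∈ Finset.univ.filter fun k : Fin L => (j : ℕ) / D = (k : ℕ) / D,
          g (((j : ℕ) : ℤ) - (k : ℕ)) := by
        rw [← Finset.sum_image (f := g) (g := fun k : Fin L => ((j : ℕ) : ℤ) - (k : ℕ))
          fun a _ b _ e => Fin.ext (by simp only at e; omega)]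
        refine Finset.sum_le_sum_of_subset_of_nonneg (fun d hd => ?_) fun _ _ _ => hg _
        have h3 : d.natAbs ≤ D₁ := Finset.le_sup (f := Int.natAbs) hd
        refine Finset.mem_image.2 ⟨⟨(((j : ℕ) : ℤ) - d).toNat, by omega⟩,
          Finset.mem_filter.2 ⟨Finset.mem_univ _, ?_⟩, by simp only; omega⟩
        exact (Nat.div_eq_of_lt_le (by simp only; omega)
          (by simp only [add_mul, one_mul]; omega)).symm
      linarith
    · have := Finset.sum_nonneg fun k
        (_ : k ∈ Finset.univ.filter fun k : Fin L => (j : ℕ) / D = (k : ℕ) / D) =>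
        hg (((j : ℕ) : ℤ) - (k : ℕ))
      linarith
  refine (Finset.sum_le_sum fun j _ => h1 j).trans ?_
  rw [Finset.sum_add_distrib, Fin.sum_univ_eq_sum_range (fun j => if ¬(j / D * D + D₁ ≤ j ∧
    j + D₁ < L ∧ j + D₁ < j / D * D + D) then (1 : ℝ) else 0), Finset.sum_boole]
  have h2 : (((Finset.range L).filter fun j => ¬(j / D * D + D₁ ≤ j ∧ j + D₁ < L ∧
      j + D₁ < j / D * D + D)).card : ℝ) ≤ 2 * D₁ * ((L / D : ℕ) + 1) := by
    exact_mod_cast card_bad L D D₁ hD
  rw [Finset.sum_const, Finset.card_univ, Fintype.card_fin, nsmul_eq_mul]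
  linarith

end Erg3X

theorem Fib.pi_bounds (h : Fib θ w q t) : ∀ᵐ x ∂mu, 0 ≤ (q 0 x).re ∧ (q 0 x).re ≤ 1 := by
  filter_upwards [h.ker] with x hx
  have h1 := de_nonneg (hx.ctr 1 0).1 0
  have h2 := (hx.ctr 1 0).de_le_one 0
  simp only [de, wnd, kq, sub_self, Fin.val_zero, Nat.cast_zero, add_zero, orb_zero] at h1 h2
  exact ⟨h1, h2⟩
theorem Fib.t_bounds (h : Fib θ w q t) : 0 ≤ t ∧ t ≤ 1 := by
  rw [← h.int0]
  refine ⟨integral_nonneg_of_ae (h.pi_bounds.mono fun x hx => hx.1), ?_⟩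
  simpa using integral_mono_of_nonneg (h.pi_bounds.mono fun x hx => hx.1) (integrable_const 1)
    (h.pi_bounds.mono fun x hx => hx.2)
theorem Fib.integrable_dcol (h : Fib θ w q t) (L D : ℕ) :
    Integrable (fun x => dcol (kq θ q x) L D) mu := by
  exact Erg3X.int_G h L D 0
theorem Fib.integrable_dfc (h : Fib θ w q t) (L : ℕ) (o : ℤ) :
    Integrable (fun x => dfc (wnd (kq θ q x) L o)) mu := by
  simpa only [Erg3X.dfc_eq] using Erg3X.int_G h L (L + 1) o
theorem Fib.defect_le (h : Fib θ w q t) {ε : ℝ} (hε : 0 < ε) : ∃ D₁ : ℕ,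
    (∀ L D : ℕ, 1 ≤ D → ∫ x, dcol (kq θ q x) L D ∂mu ≤ ε * L + 2 * D₁ * (L / D + 1)) ∧
    ∀ (L : ℕ) (o : ℤ), ∫ x, dfc (wnd (kq θ q x) L o) ∂mu ≤ ε * L + 2 * D₁ := by
  obtain ⟨D₁, hD⟩ := Erg3X.comb (fun d => integral_nonneg fun x => by positivity) h.sum
    h.t_bounds.2 hε
  refine ⟨D₁, fun L D h1 => ?_, fun L o => ?_⟩
  · have h2 := (Erg3X.integral_G h L D 0).trans_le (hD L D h1)
    have h3 := mul_le_mul_of_nonneg_left (Nat.cast_div_le (α := ℝ) (m := L) (n := D))
      (by positivity : (0 : ℝ) ≤ 2 * D₁)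
    refine le_trans h2 ?_
    linarith
  · have h2 := (Erg3X.integral_G h L (L + 1) o).trans_le (hD L (L + 1) (by omega))
    rw [Nat.div_eq_of_lt (Nat.lt_succ_self L)] at h2
    simpa [Erg3X.dfc_eq] using h2

end Crest.Agent.R113
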