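import Crest.Agent.R113.Ph

set_option autoImplicit false
open MeasureTheory Crest.AnalysisR.RotationRep
open scoped InnerProductSpace ComplexOrder

namespace Crest.Agent.R113

namespace FibAX

/-- basis vector -/
noncomputable abbrev e (i : ℤ × ℤ) : H2 := lp.single 2 i (1 : ℂ)

theorem extH {E : Type*} [NormedAddCommGroup E] [NormedSpace ℂ E] {A B : H2 →L[ℂ] E}
    (h : ∀ i, A (e i) = B (e i)) : A = B := by
  refine lp.ext_continuousLinearMap (by norm_num) fun i => ?_
  ext
  exact h i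

theorem extL {E : Type*} [NormedAddCommGroup E] [NormedSpace ℂ E] {A B : L2 →L[ℂ] E}
    (h : ∀ b : ℤ, A (fourierLp (T := 1) 2 b) = B (fourierLp (T := 1) 2 b)) : A = B := by
  refine ContinuousLinearMap.ext_on (s := Set.range (fourierLp (T := 1) 2)) ?_ ?_
  · exact Submodule.dense_iff_topologicalClosure_eq_top.2
      (span_fourierLp_closure_eq_top (by norm_num))
  · rintro _ ⟨b, rfl⟩
    exact h b

theorem inner_e (i k : ℤ × ℤ) : ⟪e i, e k⟫_ℂ = if i = k then 1 else 0 := by
  rw [lp.inner_single_left, lp.single_apply, Pi.single_apply]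
  split_ifs <;> simp

theorem unitary_of {T : H2 →L[ℂ] H2} (σ : ℤ × ℤ ≃ ℤ × ℤ) (c : ℤ × ℤ → ℂ) (hc : ∀ i, ‖c i‖ = 1)
    (hT : ∀ i, T (e i) = c i • e (σ i)) : T ∈ unitary (H2 →L[ℂ] H2) := by
  have h1 : ∀ i, (star T) (e (σ i)) = star (c i) • e i := by
    intro i
    refine lp.ext (funext fun k => ?_)
    have e1 : ∀ x : H2, x k = ⟪e k, x⟫_ℂ := fun x => by rw [lp.inner_single_left]; simp
    rw [e1, e1, ContinuousLinearMap.star_eq_adjoint, ContinuousLinearMap.adjoint_inner_right, hT,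
      inner_smul_left, inner_smul_right, inner_e, inner_e]
    by_cases h : k = i
    · subst h; simp
    · simp [h]
  have h2 : ∀ i, star (c i) * c i = 1 := fun i => by
    rw [Complex.star_def, Complex.conj_mul', hc]; simp
  refine ⟨extH fun i => ?_, extH fun i => ?_⟩
  · rw [ContinuousLinearMap.mul_apply, hT, map_smul, h1, smul_smul, mul_comm, h2, one_smul]; rfl
  · obtain ⟨k, rfl⟩ := σ.surjective i
    rw [ContinuousLinearMap.mul_apply, h1, map_smul, hT, smul_smul, h2, one_smul]; rfl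

theorem U_unitary {θ : ℝ} {U V : H2 →L[ℂ] H2} (hUV : IsRotationPair θ U V) :
    U ∈ unitary (H2 →L[ℂ] H2) :=
  unitary_of (Equiv.addRight (1, 0)) (fun _ => 1) (fun _ => norm_one) fun i => by
    rw [one_smul]
    have := hUV.1 i.1 i.2
    simpa [Prod.add_def] using this

theorem V_unitary {θ : ℝ} {U V : H2 →L[ℂ] H2} (hUV : IsRotationPair θ U V) :
    V ∈ unitary (H2 →L[ℂ] H2) :=
  unitary_of (Equiv.addRight (0, 1)) (fun i => Complex.exp (2 * Real.pi * Complex.I * θ * i.1))
    (fun i => by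
      rw [show (2 * Real.pi * Complex.I * θ * i.1 : ℂ) = ((2 * Real.pi * θ * i.1 : ℝ) : ℂ) * Complex.I by
        push_cast; ring]
      exact Complex.norm_exp_ofReal_mul_I _) fun i => by
    have := hUV.2 i.1 i.2
    simpa [Prod.add_def] using this

/-- multiplication operators -/
noncomputable def M : C(X, ℂ) →L[ℂ] L2 →L[ℂ] L2 :=
  ((ContinuousLinearMap.mul ℂ ℂ).holderL mu ⊤ 2 2).comp (ContinuousMap.toLp ⊤ mu ℂ)

theorem M_coe (g : C(X, ℂ)) (h : L2) : M g h =ᵐ[mu] fun x => g x * h x := by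
  have h1 := (ContinuousLinearMap.mul ℂ ℂ).coeFn_holder (r := 2) (ContinuousMap.toLp ⊤ mu ℂ g) h
  filter_upwards [h1, ContinuousMap.coeFn_toLp (p := ⊤) (𝕜 := ℂ) mu g] with x a b
  exact a.trans (by rw [b]; rfl)

theorem M_eq {g : C(X, ℂ)} {h h' : L2} (hh : ∀ᵐ x ∂mu, h' x = g x * h x) : M g h = h' := by
  refine Lp.ext ?_
  filter_upwards [M_coe g h, hh] with x a b
  rw [a, b]

theorem M_mul (f g : C(X, ℂ)) (h : L2) : M (f * g) h = M f (M g h) := by
  refine M_eq ?_
  filter_upwards [M_coe f (M g h), M_coe g h] with x a b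
  rw [a, b, ContinuousMap.mul_apply, mul_assoc]

theorem M_one (h : L2) : M 1 h = h := M_eq (Filter.Eventually.of_forall fun x => by simp)

theorem norm_ec (x : X) : ‖ec x‖ = 1 := Circle.norm_coe _

/-- the orbit point on the unit circle -/
noncomputable def ph' (θ : ℝ) (j : ℤ) : C(X, Metric.sphere (0 : ℂ) 1) :=
  ⟨fun x => ⟨ec (orb θ x j), by simp [norm_ec]⟩,
    (continuous_subtype_val.comp (AddCircle.continuous_toCircle.comp
      (continuous_orb θ j))).subtype_mk _⟩

end FibAX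

open FibAX in
theorem exists_emb : ∃ emb : ℤ → (L2 →L[ℂ] H2), IsEmb emb := by
  have ho : ∀ j : ℤ, Orthonormal ℂ fun b : ℤ => e (j, b) := fun j => by
    rw [orthonormal_iff_ite]
    intro a b
    rw [inner_e]
    simp
  let W : ℤ → (L2 →ₗᵢ[ℂ] H2) := fun j => ((ho j).orthogonalFamily.linearIsometry).comp
    (fourierBasis (T := 1)).repr.toLinearIsometry
  have hW : ∀ j b : ℤ, W j (fourierLp (T := 1) 2 b) = e (j, b) := by
    intro j b
    have : (fourierBasis (T := 1)).repr (fourierLp (T := 1) 2 b) = lp.single 2 b (1 : ℂ) := by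
      rw [← coe_fourierBasis]; exact HilbertBasis.repr_self _ b
    show (ho j).orthogonalFamily.linearIsometry
      ((fourierBasis (T := 1)).repr (fourierLp (T := 1) 2 b)) = _
    rw [this, OrthogonalFamily.linearIsometry_apply_single]
    simp
  refine ⟨fun j => (W j).toContinuousLinearMap, hW, fun j k h h' => ?_⟩
  by_cases hjk : j = k
  · subst hjk
    rw [if_pos rfl]
    exact (W j).inner_map_map h' h
  · rw [if_neg hjk]
    have h1 : ∀ b : ℤ, ∀ h : L2, ⟪e (j, b), W k h⟫_ℂ = 0 := by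
      intro b h
      have : (innerSL ℂ (e (j, b))).comp (W k).toContinuousLinearMap = 0 := extL fun b' => by
        show ⟪e (j, b), W k _⟫_ℂ = 0
        rw [hW, inner_e, if_neg (by simp [hjk])]
      exact DFunLike.congr_fun this h
    have : (innerSL ℂ (W k h)).comp (W j).toContinuousLinearMap = 0 := extL fun b' => by
      show ⟪W k h, W j _⟫_ℂ = 0
      rw [hW, inner_eq_zero_symm, h1]
    exact inner_eq_zero_symm.1 (DFunLike.congr_fun this h')

variable {emb : ℤ → (L2 →L[ℂ] H2)} {θ : ℝ} {U V : H2 →L[ℂ] H2}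

theorem U_emb (he : IsEmb emb) (hUV : IsRotationPair θ U V) (j : ℤ) (h : L2) :
    U (emb j h) = emb (j + 1) h := by
  have : U.comp (emb j) = emb (j + 1) := FibAX.extL fun b => by
    rw [ContinuousLinearMap.comp_apply, he.basis, he.basis, hUV.1]
  exact DFunLike.congr_fun this h

theorem star_U_emb (he : IsEmb emb) (hUV : IsRotationPair θ U V) (j : ℤ) (h : L2) :
    (star U) (emb (j + 1) h) = emb j h := by
  rw [← U_emb he hUV, ← ContinuousLinearMap.mul_apply, (FibAX.U_unitary hUV).1]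
  rfl

theorem FibAX.V_emb (he : IsEmb emb) (hUV : IsRotationPair θ U V) (j : ℤ) (h : L2) :
    V (emb j h) = emb j (FibAX.M (((ContinuousMap.id ℂ).restrict _).comp (FibAX.ph' θ j)) h) := by
  have : V.comp (emb j) = (emb j).comp
      (FibAX.M (((ContinuousMap.id ℂ).restrict _).comp (FibAX.ph' θ j))) := FibAX.extL fun b => by
    rw [ContinuousLinearMap.comp_apply, ContinuousLinearMap.comp_apply, he.basis, hUV.2, ← he.basis,
      ← map_smul]
    congr 1
    symm
    refine FibAX.M_eq ?_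
    filter_upwards [Lp.coeFn_smul (Complex.exp (2 * Real.pi * Complex.I * θ * j))
      (fourierLp (T := 1) 2 (b + 1)), coeFn_fourierLp (T := 1) 2 (b + 1),
      coeFn_fourierLp (T := 1) 2 b] with x a1 a2 a3
    rw [a1, Pi.smul_apply, a2, a3, fourier_add, fourier_one, smul_eq_mul]
    show _ = ec (orb θ x j) * _
    unfold ec orb
    rw [AddCircle.toCircle_add, Circle.coe_mul, AddCircle.toCircle_apply_mk, Circle.coe_exp]
    have : ((2 * Real.pi / 1 * (j * θ) : ℝ) : ℂ) * Complex.I = 2 * Real.pi * Complex.I * θ * j := by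
      push_cast; ring
    rw [this]; ring
  exact DFunLike.congr_fun this h

theorem FibAX.star_V_emb (he : IsEmb emb) (hUV : IsRotationPair θ U V) (j : ℤ) (h : L2) :
    (star V) (emb j h) =
      emb j (FibAX.M ((star ((ContinuousMap.id ℂ).restrict _)).comp (FibAX.ph' θ j)) h) := by
  have e1 : ((ContinuousMap.id ℂ).restrict (Metric.sphere (0 : ℂ) 1)).comp (FibAX.ph' θ j) *
      (star ((ContinuousMap.id ℂ).restrict (Metric.sphere (0 : ℂ) 1))).comp (FibAX.ph' θ j) = 1 := by
    ext x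
    show ec (orb θ x j) * star (ec (orb θ x j)) = 1
    rw [Complex.star_def, Complex.mul_conj', FibAX.norm_ec]; simp
  have e2 := FibAX.V_emb he hUV j (FibAX.M ((star ((ContinuousMap.id ℂ).restrict
    (Metric.sphere (0 : ℂ) 1))).comp (FibAX.ph' θ j)) h)
  rw [← FibAX.M_mul, e1, FibAX.M_one] at e2
  rw [← e2, ← ContinuousLinearMap.mul_apply, (FibAX.V_unitary hUV).1]
  rfl

theorem FibAX.hom_emb (he : IsEmb emb) (hUV : IsRotationPair θ U V) (j : ℤ)
    (φ : C(Metric.sphere (0 : ℂ) 1, ℂ) →⋆ₐ[ℂ] (H2 →L[ℂ] H2)) (hφ : Continuous φ)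
    (hid : φ ((ContinuousMap.id ℂ).restrict _) = V) (f : C(Metric.sphere (0 : ℂ) 1, ℂ)) (h : L2) :
    φ f (emb j h) = emb j (FibAX.M (f.comp (FibAX.ph' θ j)) h) := by
  induction f using ContinuousMap.induction_on_of_compact generalizing h with
  | const r =>
    have e1 : ContinuousMap.const (Metric.sphere (0 : ℂ) 1) r = r • 1 := by ext; simp
    rw [e1, map_smul, map_one, ContinuousMap.smul_comp, ContinuousMap.one_comp, map_smul,
      ContinuousLinearMap.smul_apply, ContinuousLinearMap.smul_apply, FibAX.M_one, map_smul]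
    rfl
  | id =>
    rw [hid]
    exact FibAX.V_emb he hUV j h
  | star_id =>
    rw [map_star, hid]
    exact FibAX.star_V_emb he hUV j h
  | add f g hf hg =>
    rw [map_add, ContinuousMap.add_comp, map_add, ContinuousLinearMap.add_apply,
      ContinuousLinearMap.add_apply, map_add, hf, hg]
  | mul f g hf hg =>
    rw [map_mul, ContinuousLinearMap.mul_apply, hg, hf, ContinuousMap.mul_comp, FibAX.M_mul]
  | frequently f hf =>
    have hc1 : Continuous fun f : C(Metric.sphere (0 : ℂ) 1, ℂ) => φ f (emb j h) :=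
      hφ.clm_apply continuous_const
    have hc2 : Continuous fun f : C(Metric.sphere (0 : ℂ) 1, ℂ) =>
        emb j (FibAX.M (f.comp (FibAX.ph' θ j)) h) :=
      (emb j).continuous.comp ((FibAX.M.continuous.comp
        (ContinuousMap.continuous_precomp _)).clm_apply continuous_const)
    exact (isClosed_eq hc1 hc2).closure_subset
      (mem_closure_iff_frequently.2 (hf.mono fun g hg => hg h))

theorem FibAX.gen {A : Type*} [CStarAlgebra A] {a : A} (hV : a ∈ unitary A) :
    ∃ φ : C(Metric.sphere (0 : ℂ) 1, ℂ) →⋆ₐ[ℂ] A, Continuous φ ∧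
      φ ((ContinuousMap.id ℂ).restrict _) = a ∧
      ∀ (F : ℂ → ℂ) (hF : Continuous F), cfc F a = φ ((⟨F, hF⟩ : C(ℂ, ℂ)).restrict _) := by
  have hn : IsStarNormal a := isStarNormal_of_mem_unitary hV
  have hs : spectrum ℂ a ⊆ Metric.sphere 0 1 := spectrum.subset_circle_of_unitary hV
  refine ⟨cfcHomSuperset (R := ℂ) hn hs, cfcHomSuperset_continuous hn hs,
    cfcHomSuperset_id hn hs, fun F hF => ?_⟩
  rw [cfc_apply F a hn hF.continuousOn, cfcHomSuperset_apply]
  rfl

theorem FibAX.gen2 {V : H2 →L[ℂ] H2} (hV : V ∈ unitary (H2 →L[ℂ] H2)) :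
    ∃ φ : C(Metric.sphere (0 : ℂ) 1, ℂ) →⋆ₐ[ℂ] (H2 →L[ℂ] H2), Continuous φ ∧
      φ ((ContinuousMap.id ℂ).restrict _) = V ∧
      ∀ (F : ℂ → ℂ) (hF : Continuous F), cfc F V = φ ((⟨F, hF⟩ : C(ℂ, ℂ)).restrict _) :=
  FibAX.gen hV

open FibAX in
theorem cfc_emb (he : IsEmb emb) (hUV : IsRotationPair θ U V) {F : ℂ → ℂ} (hF : Continuous F)
    (j : ℤ) (h h' : L2) (hh : ∀ᵐ x ∂mu, h' x = F (ec (orb θ x j)) * h x) :
    cfc F V (emb j h) = emb j h' := by
  obtain ⟨φ, h1, h2, h3⟩ := gen2 (V_unitary hUV)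
  rw [h3 F hF, hom_emb he hUV j φ h1 h2]
  congr 1
  exact M_eq hh

theorem norm_cfc_le (hUV : IsRotationPair θ U V) {f : ℂ → ℝ} (hf : Continuous f)
    (h01 : ∀ x, 0 ≤ f (ec x) ∧ f (ec x) ≤ 1) :
    ‖U * cfc (fun z : ℂ => (f z : ℂ)) V‖ ≤ 1 ∧
      star (cfc (fun z : ℂ => (f z : ℂ)) V) = cfc (fun z : ℂ => (f z : ℂ)) V := by
  constructor
  · rw [CStarRing.norm_mem_unitary_mul _ (FibAX.U_unitary hUV)]
    refine _root_.norm_cfc_le zero_le_one fun z hz => ?_
    have h1 := spectrum.subset_circle_of_unitary (FibAX.V_unitary hUV) hz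
    obtain ⟨x, hx⟩ := (AddCircle.homeomorphCircle (T := (1 : ℝ)) one_ne_zero).surjective ⟨z, h1⟩
    rw [AddCircle.homeomorphCircle_apply] at hx
    have h2 : ec x = z := congrArg Subtype.val hx
    have h3 := h01 x
    rw [h2] at h3
    rw [Complex.norm_real, Real.norm_eq_abs, abs_of_nonneg h3.1]
    exact h3.2
  · rw [← cfc_star]
    simp

end Crest.Agent.R113
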