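import Crest.Agent.R113.Ph

set_option autoImplicit false
open MeasureTheory
open scoped InnerProductSpace ComplexOrder

namespace Crest.Agent.R113

namespace FibBX

theorem L2_ext {u v : L2}
    (h : ∀ b : ℤ, ⟪(fourierLp (T := 1) 2 b : L2), u⟫_ℂ = ⟪(fourierLp (T := 1) 2 b : L2), v⟫_ℂ) :
    u = v := by
  apply (fourierBasis (T := 1)).repr.injective
  ext b
  rw [HilbertBasis.repr_apply_apply, HilbertBasis.repr_apply_apply, coe_fourierBasis]
  exact h b

theorem inner_eq (u v : L2) : ⟪u, v⟫_ℂ = ∫ x, (starRingEnd ℂ) (u x) * v x ∂mu := by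
  rw [L2.inner_def]
  refine integral_congr_ae (Filter.Eventually.of_forall fun x => ?_)
  simp [mul_comm]

theorem shift {φ : ℤ → ℤ → ℂ} (hT : ∀ b b', φ (b' + 1) (b + 1) = φ b' b) (b b' : ℤ) :
    φ b' b = φ (b' - b) 0 := by
  have key : ∀ d c : ℤ, φ (c + d) d = φ c 0 := by
    intro d c
    induction d using Int.induction_on with
    | zero => simp
    | succ n ih => rw [← ih, ← hT n (c + n)]; congr 1; ring
    | pred n ih =>
      rw [← ih, ← hT (-(n : ℤ) - 1) (c + (-(n : ℤ) - 1))]
      congr 1 <;> ring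
  have := key b (b' - b)
  rwa [sub_add_cancel] at this

theorem herm_of {L : ℕ} (M : Matrix (Fin L) (Fin L) ℂ)
    (h : ∀ ξ : Fin L → ℂ, 0 ≤ star ξ ⬝ᵥ (M.mulVec ξ)) : M.IsHermitian := by
  have form : ∀ (j k : Fin L) (a b : ℂ),
      star (Pi.single j a + Pi.single k b : Fin L → ℂ) ⬝ᵥ
        (M.mulVec (Pi.single j a + Pi.single k b))
      = star a * (M j j * a + M j k * b) + star b * (M k j * a + M k k * b) := by
    intro j k a b
    rw [star_add, ← Pi.single_star, ← Pi.single_star, add_dotProduct, single_dotProduct,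
      single_dotProduct, Matrix.mulVec_add]
    simp [Matrix.mulVec_single]
    ring
  ext j k
  have h1 := (Complex.le_def.1 (h (Pi.single j 1 + Pi.single k 0))).2
  have h2 := (Complex.le_def.1 (h (Pi.single j 0 + Pi.single k 1))).2
  have h3 := (Complex.le_def.1 (h (Pi.single j 1 + Pi.single k 1))).2
  have h4 := (Complex.le_def.1 (h (Pi.single j 1 + Pi.single k Complex.I))).2
  rw [form] at h1 h2 h3 h4
  simp at h1 h2 h3 h4
  apply Complex.ext <;> simp [Matrix.conjTranspose_apply] <;> linarith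

end FibBX

open FibBX in
theorem exists_symbol {emb : ℤ → (L2 →L[ℂ] H2)} (he : IsEmb emb) (A : H2 →L[ℂ] H2)
    (hT : ∀ j k b b' : ℤ, ⟪(lp.single 2 (j, b' + 1) (1 : ℂ) : H2), A (lp.single 2 (k, b + 1) (1 : ℂ))⟫_ℂ
      = ⟪(lp.single 2 (j, b') (1 : ℂ) : H2), A (lp.single 2 (k, b) (1 : ℂ))⟫_ℂ) (j k : ℤ) :
    ∃ a : X → ℂ, Measurable a ∧ MemLp a 2 mu ∧
      (∀ b : ℤ, fourierCoeff a b
        = ⟪(lp.single 2 (j, b) (1 : ℂ) : H2), A (lp.single 2 (k, 0) (1 : ℂ))⟫_ℂ) ∧
      ∀ h h' : L2, (∃ C : ℝ, ∀ᵐ x ∂mu, ‖h x‖ ≤ C) →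
        ⟪emb j h', A (emb k h)⟫_ℂ = ∫ x, (starRingEnd ℂ) (h' x) * a x * h x ∂mu := by
  set a0 : L2 := ContinuousLinearMap.adjoint (emb j) (A (lp.single 2 (k, 0) (1 : ℂ))) with ha0
  have hm := Lp.aestronglyMeasurable a0
  set a : X → ℂ := hm.mk a0 with ha
  have hae : (a0 : X → ℂ) =ᵐ[mu] a := hm.ae_eq_mk
  have hmem : MemLp a 2 mu := (Lp.memLp a0).ae_eq hae
  have hcoef : ∀ b : ℤ, fourierCoeff a b
      = ⟪(lp.single 2 (j, b) (1 : ℂ) : H2), A (lp.single 2 (k, 0) (1 : ℂ))⟫_ℂ := by
    intro b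
    have h1 : fourierCoeff a b = fourierCoeff (a0 : X → ℂ) b := by
      unfold fourierCoeff
      refine integral_congr_ae ?_
      filter_upwards [hae] with x hx
      rw [hx]
    rw [h1, ← fourierBasis_repr, HilbertBasis.repr_apply_apply, coe_fourierBasis, ha0,
      ContinuousLinearMap.adjoint_inner_right, he.basis]
  refine ⟨a, hm.stronglyMeasurable_mk.measurable, hmem, hcoef, ?_⟩
  -- step 1 and 2: test vector a character
  have step2 : ∀ (b' : ℤ) (h : L2), ⟪emb j (fourierLp (T := 1) 2 b'), A (emb k h)⟫_ℂ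
      = ∫ x, (starRingEnd ℂ) (fourier b' x) * a x * h x ∂mu := by
    intro b' h
    have hg : MemLp (fun x : X => fourier b' x * (starRingEnd ℂ) (a x)) 2 mu := by
      refine hmem.of_le ?_ (Filter.Eventually.of_forall fun x => ?_)
      · exact (fourier b').continuous.aestronglyMeasurable.mul
          (Complex.continuous_conj.comp_aestronglyMeasurable hmem.aestronglyMeasurable)
      · simp [fourier_apply]
    have huv : ContinuousLinearMap.adjoint (emb k)
        (ContinuousLinearMap.adjoint A (emb j (fourierLp (T := 1) 2 b'))) = hg.toLp _ := by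
      apply L2_ext
      intro b
      rw [ContinuousLinearMap.adjoint_inner_right, ContinuousLinearMap.adjoint_inner_right,
        he.basis, he.basis, ← inner_conj_symm,
        shift (φ := fun c' c => ⟪(lp.single 2 (j, c') (1 : ℂ) : H2),
          A (lp.single 2 (k, c) (1 : ℂ))⟫_ℂ) (fun c c' => hT j k c c') b b', ← hcoef, inner_eq]
      unfold fourierCoeff
      rw [← integral_conj]
      refine integral_congr_ae ?_
      filter_upwards [coeFn_fourierLp (T := 1) 2 b, hg.coeFn_toLp] with x h1 h2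
      rw [h1, h2, show -(b' - b) = -b' + b by ring, fourier_add, fourier_neg]
      simp only [smul_eq_mul, map_mul, Complex.conj_conj]
      ring
    rw [← ContinuousLinearMap.adjoint_inner_left, ← ContinuousLinearMap.adjoint_inner_left, huv,
      inner_eq]
    refine integral_congr_ae ?_
    filter_upwards [hg.coeFn_toLp] with x h2
    rw [h2]
    simp only [map_mul, Complex.conj_conj]
  rintro h h' ⟨C, hC⟩
  have hs : MemLp (fun x : X => a x * h x) 2 mu := by
    refine (hmem.norm.const_mul C).of_le ?_ ?_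
    · exact hmem.aestronglyMeasurable.mul (Lp.aestronglyMeasurable h)
    · filter_upwards [hC] with x hx
      rw [norm_mul, Real.norm_eq_abs, abs_mul, abs_norm, mul_comm]
      exact mul_le_mul_of_nonneg_right (hx.trans (le_abs_self C)) (norm_nonneg _)
  have huv : ContinuousLinearMap.adjoint (emb j) (A (emb k h)) = hs.toLp _ := by
    apply L2_ext
    intro b'
    rw [ContinuousLinearMap.adjoint_inner_right, step2, inner_eq]
    refine integral_congr_ae ?_
    filter_upwards [coeFn_fourierLp (T := 1) 2 b', hs.coeFn_toLp] with x h1 h2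
    rw [h1, h2, mul_assoc]
  rw [← ContinuousLinearMap.adjoint_inner_right, huv, inner_eq]
  refine integral_congr_ae ?_
  filter_upwards [hs.coeFn_toLp] with x h2
  rw [h2, mul_assoc]


open FibBX in
theorem ae_psd {L : ℕ} (M : X → Matrix (Fin L) (Fin L) ℂ)
    (hM : ∀ j k, Integrable (fun x => M x j k) mu)
    (h : ∀ B : Set X, MeasurableSet B → ∀ ξ : Fin L → ℂ,
      0 ≤ ∫ x in B, ∑ j, ∑ k, (starRingEnd ℂ) (ξ j) * M x j k * ξ k ∂mu) :
    ∀ᵐ x ∂mu, (M x).PosSemidef := by
  set F : (Fin L → ℂ) → X → ℂ := fun ξ x => ∑ j, ∑ k, (starRingEnd ℂ) (ξ j) * M x j k * ξ k with hF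
  have hint : ∀ ξ, Integrable (F ξ) mu := fun ξ =>
    integrable_finsetSum _ fun j _ => integrable_finsetSum _ fun k _ =>
      ((hM j k).const_mul _).mul_const _
  have h1 : ∀ ξ, ∀ᵐ x ∂mu, 0 ≤ F ξ x := by
    intro ξ
    have hre : 0 ≤ᵐ[mu] fun x => (F ξ x).re := by
      refine ae_nonneg_of_forall_setIntegral_nonneg (hint ξ).re fun B hB _ => ?_
      have := (Complex.le_def.1 (h B hB ξ)).1
      have e := integral_re (μ := mu.restrict B) (hint ξ).integrableOn
      simp only [RCLike.re_to_complex] at e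
      rw [e]
      simpa using this
    have him : (fun x => (F ξ x).im) =ᵐ[mu] 0 := by
      refine Integrable.ae_eq_zero_of_forall_setIntegral_eq_zero (hint ξ).im fun B hB _ => ?_
      have := (Complex.le_def.1 (h B hB ξ)).2
      have e := integral_im (μ := mu.restrict B) (hint ξ).integrableOn
      simp only [RCLike.im_to_complex] at e
      rw [e]
      simpa using this.symm
    filter_upwards [hre, him] with x a b
    exact Complex.le_def.2 ⟨by simpa using a, by simpa using b.symm⟩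
  obtain ⟨S, hSc, hSd⟩ := TopologicalSpace.exists_countable_dense (Fin L → ℂ)
  have h2 : ∀ᵐ x ∂mu, ∀ ξ ∈ S, 0 ≤ F ξ x := (ae_ball_iff hSc).2 fun ξ _ => h1 ξ
  filter_upwards [h2] with x hx
  have h3 : ∀ ξ, 0 ≤ F ξ x := by
    have hc : Continuous fun ξ => F ξ x := by
      simp only [hF]
      fun_prop
    have hcl : IsClosed {ξ | 0 ≤ F ξ x} := isClosed_le continuous_const hc
    intro ξ
    exact hcl.closure_subset_iff.2 hx (hSd ξ)
  have h4 : ∀ ξ : Fin L → ℂ, 0 ≤ star ξ ⬝ᵥ ((M x).mulVec ξ) := by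
    intro ξ
    have := h3 ξ
    simp only [hF] at this
    convert this using 1
    simp [dotProduct, Matrix.mulVec, Finset.mul_sum, mul_assoc]
  exact Matrix.PosSemidef.of_dotProduct_mulVec_nonneg (herm_of _ h4) h4


end Crest.Agent.R113
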