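import Crest.Agent.R113.Ph

set_option autoImplicit false
set_option linter.deprecated false
open MeasureTheory Crest.AnalysisR.RotationRep
open scoped InnerProductSpace ComplexOrder

namespace Crest.Agent.R113

namespace FibDX

/-- basis vector -/
noncomputable abbrev dl (i : ℤ × ℤ) : H2 := lp.single 2 i (1 : ℂ)

theorem inner_dl (i : ℤ × ℤ) (f : H2) : ⟪dl i, f⟫_ℂ = f i := by
  rw [lp.inner_single_left]; simp

theorem inner_dl_dl (i j : ℤ × ℤ) : ⟪dl i, dl j⟫_ℂ = if i = j then 1 else 0 := by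
  rw [inner_dl, lp.single_apply, Pi.single_apply]

theorem op_ext {A B : H2 →L[ℂ] H2} (h : ∀ i, A (dl i) = B (dl i)) : A = B := by
  refine lp.ext_continuousLinearMap (ENNReal.ofNat_ne_top (n := nat_lit 2)) fun i => ?_
  refine ContinuousLinearMap.ext_ring ?_
  exact h i

theorem vec_ext {f g : H2} (h : ∀ i, ⟪dl i, f⟫_ℂ = ⟪dl i, g⟫_ℂ) : f = g := by
  refine lp.ext (funext fun i => ?_)
  have := h i
  rwa [inner_dl, inner_dl] at this

/-- weighted permutation of the basis -/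
def Sh (W : H2 →L[ℂ] H2) (e : ℤ × ℤ ≃ ℤ × ℤ) (c : ℤ × ℤ → ℂ) : Prop :=
  (∀ i, ‖c i‖ = 1) ∧ ∀ i, W (dl i) = c i • dl (e i)

theorem exists_sh (e : ℤ × ℤ ≃ ℤ × ℤ) {c : ℤ × ℤ → ℂ} (hc : ∀ i, ‖c i‖ = 1) :
    ∃ W : H2 →L[ℂ] H2, Sh W e c := by
  have hv : Orthonormal ℂ fun i => c i • dl (e i) := by
    rw [orthonormal_iff_ite]
    intro i j
    rw [inner_smul_left, inner_smul_right, inner_dl_dl]
    by_cases h : i = j
    · subst h
      simp [Complex.conj_mul', hc]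
    · simp [h]
  refine ⟨hv.orthogonalFamily.linearIsometry.toContinuousLinearMap, hc, fun i => ?_⟩
  change hv.orthogonalFamily.linearIsometry (lp.single 2 i (1 : ℂ)) = _
  rw [OrthogonalFamily.linearIsometry_apply_single]
  simp

variable {W : H2 →L[ℂ] H2} {e : ℤ × ℤ ≃ ℤ × ℤ} {c : ℤ × ℤ → ℂ}

theorem Sh.star_apply (h : Sh W e c) (i : ℤ × ℤ) :
    star W (dl (e i)) = (starRingEnd ℂ) (c i) • dl i := by
  refine vec_ext fun j => ?_
  rw [ContinuousLinearMap.star_eq_adjoint, ContinuousLinearMap.adjoint_inner_right, h.2,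
    inner_smul_left, inner_smul_right, inner_dl_dl, inner_dl_dl]
  by_cases hj : j = i
  · subst hj; simp
  · simp [hj]

theorem Sh.star_mul (h : Sh W e c) : star W * W = 1 := by
  refine op_ext fun i => ?_
  rw [ContinuousLinearMap.mul_apply, h.2, map_smul, h.star_apply, smul_smul, Complex.mul_conj',
    h.1]
  simp

theorem Sh.mul_star (h : Sh W e c) : W * star W = 1 := by
  refine op_ext fun i => ?_
  obtain ⟨j, rfl⟩ := e.surjective i
  rw [ContinuousLinearMap.mul_apply, h.star_apply, map_smul, h.2, smul_smul, Complex.conj_mul',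
    h.1]
  simp

theorem Sh.comm_star (h : Sh W e c) {R : H2 →L[ℂ] H2} (hR : W * R = R * W) :
    star W * R = R * star W := by
  calc star W * R = star W * R * (W * star W) := by rw [h.mul_star, mul_one]
    _ = star W * (R * W) * star W := by simp only [mul_assoc]
    _ = star W * (W * R) * star W := by rw [hR]
    _ = (star W * W) * R * star W := by simp only [mul_assoc]
    _ = R * star W := by rw [h.star_mul, one_mul]

theorem Sh.comm (h : Sh W e c) {W' : H2 →L[ℂ] H2} {e' : ℤ × ℤ ≃ ℤ × ℤ} {c' : ℤ × ℤ → ℂ}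
    (h' : Sh W' e' c') (he : ∀ i, e (e' i) = e' (e i))
    (hc : ∀ i, c' i * c (e' i) = c i * c' (e i)) : W * W' = W' * W := by
  refine op_ext fun i => ?_
  rw [ContinuousLinearMap.mul_apply, ContinuousLinearMap.mul_apply, h.2, h'.2, map_smul, map_smul,
    h.2, h'.2, smul_smul, smul_smul, he, hc]

theorem Sh.coef (h : Sh W e c) {p : H2 →L[ℂ] H2} (hp : W * p = p * W) (i k : ℤ × ℤ) :
    ⟪dl (e i), p (dl (e k))⟫_ℂ = c i * (starRingEnd ℂ) (c k) * ⟪dl i, p (dl k)⟫_ℂ := by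
  have h1 : ⟪W (dl i), p (W (dl k))⟫_ℂ = ⟪dl i, p (dl k)⟫_ℂ := by
    rw [← ContinuousLinearMap.mul_apply, ← hp, ← ContinuousLinearMap.adjoint_inner_right,
      ← ContinuousLinearMap.star_eq_adjoint, ← ContinuousLinearMap.mul_apply, ← mul_assoc,
      h.star_mul, one_mul]
  rw [h.2, h.2, map_smul, inner_smul_left, inner_smul_right] at h1
  have hi : c i * (starRingEnd ℂ) (c i) = 1 := by rw [Complex.mul_conj', h.1]; simp
  have hk : c k * (starRingEnd ℂ) (c k) = 1 := by rw [Complex.mul_conj', h.1]; simp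
  rw [← h1]
  linear_combination (-⟪dl (e i), p (dl (e k))⟫_ℂ * (c k * (starRingEnd ℂ) (c k))) * hi
    - ⟪dl (e i), p (dl (e k))⟫_ℂ * hk

/-- shift of the first index -/
def e1 : ℤ × ℤ ≃ ℤ × ℤ := Equiv.addRight ((1, 0) : ℤ × ℤ)
/-- shift of the second index -/
def e2 : ℤ × ℤ ≃ ℤ × ℤ := Equiv.addRight ((0, 1) : ℤ × ℤ)

theorem e1_apply (a b : ℤ) : e1 (a, b) = (a + 1, b) := by simp [e1]
theorem e2_apply (a b : ℤ) : e2 (a, b) = (a, b + 1) := by simp [e2]

/-- the phase -/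
noncomputable def ex (θ : ℝ) (a : ℤ) : ℂ := Complex.exp (2 * Real.pi * Complex.I * θ * a)

theorem norm_ex (θ : ℝ) (a : ℤ) : ‖ex θ a‖ = 1 := by
  have : (2 * Real.pi * Complex.I * θ * a : ℂ) = ((2 * Real.pi * θ * a : ℝ) : ℂ) * Complex.I := by
    push_cast; ring
  rw [ex, this, Complex.norm_exp_ofReal_mul_I]

theorem ex_add (θ : ℝ) (a b : ℤ) : ex θ (a + b) = ex θ a * ex θ b := by
  rw [ex, ex, ex, ← Complex.exp_add]; congr 1; push_cast; ring

theorem ex_mul_conj (θ : ℝ) (a b : ℤ) : ex θ a * (starRingEnd ℂ) (ex θ b)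
    = Complex.exp (2 * Real.pi * Complex.I * θ * (a - b)) := by
  rw [ex, ex, ← Complex.exp_conj, ← Complex.exp_add]
  congr 1
  simp only [map_mul, Complex.conj_ofReal, Complex.conj_I, map_ofNat, map_intCast]
  ring

variable {θ : ℝ} {U V p : H2 →L[ℂ] H2}

theorem sh_U (hUV : IsRotationPair θ U V) : Sh U e1 fun _ => 1 := by
  refine ⟨fun _ => norm_one, fun ⟨a, b⟩ => ?_⟩
  rw [e1_apply, one_smul]; exact hUV.1 a b

theorem sh_V (hUV : IsRotationPair θ U V) : Sh V e2 fun i => ex θ i.1 := by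
  refine ⟨fun _ => norm_ex _ _, fun ⟨a, b⟩ => ?_⟩
  rw [e2_apply]; exact hUV.2 a b

theorem comm_p (hUV : IsRotationPair θ U V) (hp : p ∈ vonNeumannGenerated {U, V})
    {R : H2 →L[ℂ] H2} (hU : U * R = R * U) (hV : V * R = R * V) : R * p = p * R := by
  refine hp R ?_
  rintro m (hm | ⟨m', hm', rfl⟩)
  · rcases hm with rfl | rfl
    · exact hU
    · exact hV
  · rcases hm' with rfl | rfl
    · exact (sh_U hUV).comm_star hU
    · exact (sh_V hUV).comm_star hV

theorem inner_proj (hpp : IsStarProjection p) (ψ : H2) :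
    ⟪ψ, p ψ⟫_ℂ = ((‖p ψ‖ ^ 2 : ℝ) : ℂ) := by
  have h1 : ⟪p ψ, p ψ⟫_ℂ = ⟪ψ, p ψ⟫_ℂ := by
    rw [← ContinuousLinearMap.adjoint_inner_right, ← ContinuousLinearMap.star_eq_adjoint,
      hpp.isSelfAdjoint.star_eq, ← ContinuousLinearMap.mul_apply, hpp.isIdempotentElem.eq]
  rw [← h1, inner_self_eq_norm_sq_to_K]
  simp

end FibDX

open FibDX

variable {θ : ℝ} {U V p : H2 →L[ℂ] H2}

theorem coef_shift (hUV : IsRotationPair θ U V) (hp : p ∈ vonNeumannGenerated {U, V})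
    (j k b b' : ℤ) :
    ⟪(lp.single 2 (j, b' + 1) (1 : ℂ) : H2), p (lp.single 2 (k, b + 1) (1 : ℂ))⟫_ℂ
      = ⟪(lp.single 2 (j, b') (1 : ℂ) : H2), p (lp.single 2 (k, b) (1 : ℂ))⟫_ℂ := by
  obtain ⟨W, hW⟩ := exists_sh e2 (c := fun _ => 1) fun _ => norm_one
  have hU : U * W = W * U := (sh_U hUV).comm hW
    (fun ⟨a, b⟩ => by simp only [e1_apply, e2_apply]) (fun _ => rfl)
  have hV : V * W = W * V := (sh_V hUV).comm hW (fun _ => rfl)
    (fun ⟨a, b⟩ => by simp only [e2_apply]; ring)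
  have := hW.coef (comm_p hUV hp hU hV) (j, b') (k, b)
  rw [e2_apply, e2_apply] at this
  simpa using this

theorem coef_cov (hUV : IsRotationPair θ U V) (hp : p ∈ vonNeumannGenerated {U, V})
    (j k b b' : ℤ) :
    ⟪(lp.single 2 (j + 1, b') (1 : ℂ) : H2), p (lp.single 2 (k + 1, b) (1 : ℂ))⟫_ℂ
      = Complex.exp (2 * Real.pi * Complex.I * θ * (b' - b))
        * ⟪(lp.single 2 (j, b') (1 : ℂ) : H2), p (lp.single 2 (k, b) (1 : ℂ))⟫_ℂ := by
  obtain ⟨W, hW⟩ := exists_sh e1 (c := fun i => ex θ i.2) fun _ => norm_ex _ _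
  have hU : U * W = W * U := (sh_U hUV).comm hW (fun _ => rfl)
    (fun ⟨a, b⟩ => by simp only [e1_apply]; ring)
  have hV : V * W = W * V := (sh_V hUV).comm hW
    (fun ⟨a, b⟩ => by simp only [e1_apply, e2_apply])
    (fun ⟨a, b⟩ => by simp only [e1_apply, e2_apply, ex_add]; ring)
  have := hW.coef (comm_p hUV hp hU hV) (j, b') (k, b)
  rw [e1_apply, e1_apply, ex_mul_conj] at this
  exact this

theorem FibDX.diag (hUV : IsRotationPair θ U V) (hp : p ∈ vonNeumannGenerated {U, V}) (a b : ℤ) :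
    ⟪dl (a, b), p (dl (a, b))⟫_ℂ = ⟪dl (0, 0), p (dl (0, 0))⟫_ℂ := by
  have h1 : ∀ a b : ℤ, ⟪dl (a + 1, b), p (dl (a + 1, b))⟫_ℂ = ⟪dl (a, b), p (dl (a, b))⟫_ℂ := by
    intro a b
    have := coef_cov hUV hp a a b b
    rw [sub_self, mul_zero, Complex.exp_zero, one_mul] at this
    exact this
  have h2 : ∀ a b : ℤ, ⟪dl (a, b + 1), p (dl (a, b + 1))⟫_ℂ = ⟪dl (a, b), p (dl (a, b))⟫_ℂ :=
    fun a b => coef_shift hUV hp a a b b
  have h3 : ∀ b : ℤ, ⟪dl (0, b), p (dl (0, b))⟫_ℂ = ⟪dl (0, 0), p (dl (0, 0))⟫_ℂ := by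
    intro b
    induction b using Int.induction_on with
    | zero => rfl
    | succ n ih => rw [h2, ih]
    | pred n ih => rw [← h2, sub_add_cancel, ih]
  induction a using Int.induction_on with
  | zero => exact h3 b
  | succ n ih => rw [h1, ih]
  | pred n ih => rw [← h1, sub_add_cancel, ih]

theorem eq_zero_of_trace (hUV : IsRotationPair θ U V) (hp : p ∈ vonNeumannGenerated {U, V})
    (hpp : IsStarProjection p)
    (h : (⟪(lp.single 2 (0, 0) (1 : ℂ) : H2), p (lp.single 2 (0, 0) (1 : ℂ))⟫_ℂ).re = 0) :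
    p = 0 := by
  refine op_ext fun ⟨a, b⟩ => ?_
  have h1 : (⟪dl (a, b), p (dl (a, b))⟫_ℂ).re = 0 := by rw [diag hUV hp]; exact h
  rw [inner_proj hpp, Complex.ofReal_re] at h1
  simpa using h1

theorem eq_one_of_trace (hUV : IsRotationPair θ U V) (hp : p ∈ vonNeumannGenerated {U, V})
    (hpp : IsStarProjection p)
    (h : (⟪(lp.single 2 (0, 0) (1 : ℂ) : H2), p (lp.single 2 (0, 0) (1 : ℂ))⟫_ℂ).re = 1) :
    p = 1 := by
  have hp' : 1 - p ∈ vonNeumannGenerated {U, V} := by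
    intro m hm
    rw [mul_sub, sub_mul, hp m hm, mul_one, one_mul]
  have := eq_zero_of_trace hUV hp' hpp.one_sub (by
    rw [ContinuousLinearMap.sub_apply, inner_sub_right, Complex.sub_re, h,
      ContinuousLinearMap.one_apply, inner_dl_dl]
    simp)
  exact (sub_eq_zero.1 this).symm

/-- Parseval over `ℤ × ℤ` -/
theorem hasSum_coef (hpp : IsStarProjection p) :
    HasSum (fun d : ℤ => ∑' b : ℤ,
        ‖⟪(lp.single 2 (d, b) (1 : ℂ) : H2), p (lp.single 2 (0, 0) (1 : ℂ))⟫_ℂ‖ ^ 2)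
      (⟪(lp.single 2 (0, 0) (1 : ℂ) : H2), p (lp.single 2 (0, 0) (1 : ℂ))⟫_ℂ).re := by
  rw [inner_proj hpp, Complex.ofReal_re]
  have h := lp.hasSum_norm (p := 2) (by norm_num) (p (dl (0, 0)))
  have h2 : HasSum (fun i : ℤ × ℤ => ‖⟪dl i, p (dl (0, 0))⟫_ℂ‖ ^ 2) (‖p (dl (0, 0))‖ ^ 2) := by
    simp only [inner_dl]
    simpa using h
  exact h2.prod_fiberwise fun d => (h2.summable.prod_factor d).hasSum

/-- `Tⁿ p T*ⁿ ≤ p` for an invariant projection and a contraction -/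
theorem pow_inv_le {T : H2 →L[ℂ] H2} (hpp : IsStarProjection p) (hT : ‖T‖ ≤ 1)
    (hinv : (1 - p) * T * p = 0) (n : ℕ) (ψ : H2) :
    0 ≤ ⟪ψ, p ψ⟫_ℂ - ⟪(star T ^ n) ψ, p ((star T ^ n) ψ)⟫_ℂ := by
  have h1 : p * star T * p = p * star T := by
    have := congrArg star hinv
    rw [star_mul, star_mul, star_sub, star_one, hpp.isSelfAdjoint.star_eq, star_zero, ← mul_assoc,
      mul_sub, mul_one, sub_eq_zero] at this
    exact this.symm
  have hstep : ∀ φ : H2, ‖p (star T φ)‖ ≤ ‖p φ‖ := by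
    intro φ
    have e : p (star T φ) = (p * star T) (p φ) := by
      rw [← ContinuousLinearMap.mul_apply, ← ContinuousLinearMap.mul_apply, h1]
    rw [e]
    refine ((p * star T).le_opNorm _).trans (mul_le_of_le_one_left (norm_nonneg _) ?_)
    refine (norm_mul_le _ _).trans (mul_le_one₀ hpp.norm_le (norm_nonneg _) ?_)
    rw [ContinuousLinearMap.star_eq_adjoint, LinearIsometryEquiv.norm_map]
    exact hT
  have hn : ‖p ((star T ^ n) ψ)‖ ≤ ‖p ψ‖ := by
    induction n with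
    | zero => simp
    | succ n ih =>
      rw [pow_succ', ContinuousLinearMap.mul_apply]
      exact (hstep _).trans ih
  rw [inner_proj hpp, inner_proj hpp, ← Complex.ofReal_sub, Complex.zero_le_real, sub_nonneg]
  gcongr

end Crest.Agent.R113
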