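import Crest.Agent.R113.FibA
import Crest.Agent.R113.FibB
import Crest.Agent.R113.FibD

set_option autoImplicit false
open MeasureTheory Crest.AnalysisR.RotationRep
open scoped InnerProductSpace ComplexOrder

namespace Crest.Agent.R113

namespace FibC

theorem ae_eq_of_coef {g g' : X → ℂ} (hg : MemLp g 2 mu) (hg' : MemLp g' 2 mu)
    (h : ∀ b, fourierCoeff g b = fourierCoeff g' b) : g =ᵐ[mu] g' := by
  have e : hg.toLp g = hg'.toLp g' := by
    apply (fourierBasis (T := 1)).repr.injective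
    ext b
    rw [fourierBasis_repr, fourierBasis_repr, fourierCoeff_congr_ae hg.coeFn_toLp,
      fourierCoeff_congr_ae hg'.coeFn_toLp, h]
  exact hg.coeFn_toLp.symm.trans (e ▸ hg'.coeFn_toLp)

theorem fourier_add_pt (n : ℤ) (x y : X) : fourier n (x + y) = fourier n x * fourier n y := by
  simp only [fourier_apply, smul_add, AddCircle.toCircle_add, Circle.coe_mul]

theorem coef_orb (θ : ℝ) (g : X → ℂ) (k b : ℤ) :
    fourierCoeff (fun x => g (orb θ x k)) b =
      Complex.exp (2 * Real.pi * Complex.I * θ * b * k) * fourierCoeff g b := by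
  unfold fourierCoeff orb
  set u : X := (((k : ℝ) * θ : ℝ) : X) with hu
  have h1 : fourier b u = Complex.exp (2 * Real.pi * Complex.I * θ * b * k) := by
    rw [hu, fourier_coe_apply]; congr 1; push_cast; ring
  have h2 : fourier b u * fourier (-b) u = 1 := by rw [← fourier_add]; simp
  rw [← integral_add_right_eq_self (fun t => fourier (-b) t • g t) u, ← h1, ← integral_const_mul]
  refine integral_congr_ae (Filter.Eventually.of_forall fun x => ?_)
  simp only [fourier_add_pt, smul_eq_mul]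
  linear_combination (-(fourier (-b) x * g (x + u))) * h2

variable {θ : ℝ} {U V p : H2 →L[ℂ] H2}

theorem coef_cov_iter (hUV : IsRotationPair θ U V) (hp : p ∈ vonNeumannGenerated {U, V})
    (d b k : ℤ) :
    ⟪(lp.single 2 (d + k, b) (1 : ℂ) : H2), p (lp.single 2 (k, 0) (1 : ℂ))⟫_ℂ
      = Complex.exp (2 * Real.pi * Complex.I * θ * b * k)
        * ⟪(lp.single 2 (d, b) (1 : ℂ) : H2), p (lp.single 2 (0, 0) (1 : ℂ))⟫_ℂ := by
  induction k using Int.induction_on with
  | zero => simp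
  | succ k ih =>
    rw [← add_assoc, coef_cov hUV hp, ih, ← mul_assoc, ← Complex.exp_add]
    congr 2
    push_cast; ring
  | pred k ih =>
    have h := coef_cov hUV hp (d + (-(k : ℤ) - 1)) (-(k : ℤ) - 1) 0 b
    rw [show d + (-(k : ℤ) - 1) + 1 = d + -(k : ℤ) by ring, show -(k : ℤ) - 1 + 1 = -(k : ℤ) by ring,
      ih] at h
    have h0 : Complex.exp (2 * Real.pi * Complex.I * θ * ((b : ℂ) - ((0 : ℤ) : ℂ))) ≠ 0 :=
      Complex.exp_ne_zero _
    apply mul_left_cancel₀ h0
    rw [← h, ← mul_assoc, ← Complex.exp_add]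
    congr 2
    push_cast; ring

theorem continuous_ec : Continuous ec :=
  continuous_subtype_val.comp AddCircle.continuous_toCircle

theorem mu_zero : mu {(0 : X)} = 0 := by
  have h : ∀ ℓ : ℝ, 0 < ℓ → mu.real {(0 : X)} ≤ ℓ := fun ℓ hℓ => by
    refine le_trans (measureReal_mono ?_) (mu_arc_le 0 hℓ.le)
    rintro x rfl
    rw [mem_arc_zero]
    have : ph (0 : X) = 0 := by simpa using ph_coe 0
    rwa [this]
  have h0 : mu.real {(0 : X)} = 0 :=
    le_antisymm (le_of_forall_pos_le_add fun ε hε => by simpa using h ε hε) measureReal_nonneg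
  exact (measureReal_eq_zero_iff (measure_ne_top _ _)).1 h0

variable {emb : ℤ → (L2 →L[ℂ] H2)}

/-- `a` is the matrix symbol of `A` -/
def Sym (emb : ℤ → (L2 →L[ℂ] H2)) (A : H2 →L[ℂ] H2) (a : X → ℤ → ℤ → ℂ) : Prop :=
  (∀ j k, Integrable (fun x => a x j k) mu) ∧ ∀ (j k : ℤ) (h h' : L2), (∃ C : ℝ, ∀ᵐ x ∂mu, ‖h x‖ ≤ C) →
    (∃ C : ℝ, ∀ᵐ x ∂mu, ‖h' x‖ ≤ C) →
    ⟪emb j h', A (emb k h)⟫_ℂ = ∫ x, (starRingEnd ℂ) (h' x) * a x j k * h x ∂mu

theorem int3 {a u v : X → ℂ} (ha : Integrable a mu) (hu : AEStronglyMeasurable u mu)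
    (hv : AEStronglyMeasurable v mu) (bu : ∃ C : ℝ, ∀ᵐ x ∂mu, ‖u x‖ ≤ C)
    (bv : ∃ C : ℝ, ∀ᵐ x ∂mu, ‖v x‖ ≤ C) :
    Integrable (fun x => (starRingEnd ℂ) (u x) * a x * v x) mu := by
  obtain ⟨C, hC⟩ := bu
  obtain ⟨D, hD⟩ := bv
  refine Integrable.mul_bdd (c := D) (Integrable.bdd_mul (c := C) ha
    (Complex.continuous_conj.comp_aestronglyMeasurable hu) ?_) hv hD
  filter_upwards [hC] with x hx
  rwa [Complex.norm_conj]

theorem Sym.one_sub (he : IsEmb emb) {A : H2 →L[ℂ] H2} {a : X → ℤ → ℤ → ℂ} (hA : Sym emb A a) :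
    Sym emb (1 - A) fun x j k => (if j = k then 1 else 0) - a x j k := by
  refine ⟨fun j k => (integrable_const _).sub (hA.1 j k), fun j k h h' hb hb' => ?_⟩
  rw [sub_apply, inner_sub_right, hA.2 j k h h' hb hb',
    one_apply_eq_self, he.inner]
  have e1 : (if j = k then ⟪h', h⟫_ℂ else 0) =
      ∫ x, (starRingEnd ℂ) (h' x) * (if j = k then 1 else 0) * h x ∂mu := by
    split_ifs
    · rw [L2.inner_def]
      refine integral_congr_ae (Filter.Eventually.of_forall fun x => ?_)
      simp [mul_comm]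
    · simp
  rw [e1, ← integral_sub (int3 (integrable_const _) (Lp.aestronglyMeasurable _)
    (Lp.aestronglyMeasurable _) hb' hb) (int3 (hA.1 j k) (Lp.aestronglyMeasurable _)
    (Lp.aestronglyMeasurable _) hb' hb)]
  refine integral_congr_ae (Filter.Eventually.of_forall fun x => ?_)
  simp only
  ring

/-- the test function `1_B ξ g` -/
theorem memLp_test {B : Set X} (hB : MeasurableSet B) (ξ : ℂ) {g : X → ℝ} (hg : Measurable g)
    (hg1 : ∀ x, |g x| ≤ 1) :
    MemLp (B.indicator fun x => (g x : ℂ) * ξ) 2 mu ∧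
      ∀ x, ‖B.indicator (fun x => (g x : ℂ) * ξ) x‖ ≤ ‖ξ‖ := by
  have hb : ∀ x, ‖B.indicator (fun x => (g x : ℂ) * ξ) x‖ ≤ ‖ξ‖ := fun x => by
    refine (norm_indicator_le_norm_self _ _).trans ?_
    rw [norm_mul, Complex.norm_real, Real.norm_eq_abs]
    exact mul_le_of_le_one_left (norm_nonneg _) (hg1 x)
  refine ⟨MemLp.of_bound (Measurable.aestronglyMeasurable ?_) ‖ξ‖ (Filter.Eventually.of_forall hb), hb⟩
  exact ((Complex.measurable_ofReal.comp hg).mul_const ξ).indicator hB

theorem conj_int {L : ℕ} {M : X → Matrix (Fin L) (Fin L) ℂ}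
    (hM : ∀ j k, Integrable (fun x => M x j k) mu) {g : Fin L → X → ℝ} (hg : ∀ j, Measurable (g j))
    (hg1 : ∀ j x, |g j x| ≤ 1) (j k : Fin L) :
    Integrable (fun x => (dg (fun j => g j x) * M x * dg (fun j => g j x)) j k) mu := by
  have hm : ∀ j, AEStronglyMeasurable (fun x => (g j x : ℂ)) mu := fun j =>
    (Complex.measurable_ofReal.comp (hg j)).aestronglyMeasurable
  have hb : ∀ j, ∃ C : ℝ, ∀ᵐ x ∂mu, ‖(g j x : ℂ)‖ ≤ C := fun j =>
    ⟨1, Filter.Eventually.of_forall fun x => by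
      rw [Complex.norm_real, Real.norm_eq_abs]; exact hg1 j x⟩
  have := int3 (hM j k) (hm j) (hm k) (hb j) (hb k)
  simpa [dg, Matrix.mul_diagonal, Matrix.diagonal_mul] using this

theorem quad {A : H2 →L[ℂ] H2} {a : X → ℤ → ℤ → ℂ} (hA : Sym emb A a) {L : ℕ} (o : ℤ) {B : Set X}
    (hB : MeasurableSet B) (ξ : Fin L → ℂ) {g : Fin L → X → ℝ} (hg : ∀ j, Measurable (g j))
    (hg1 : ∀ j x, |g j x| ≤ 1) (h : Fin L → L2)
    (hh : ∀ j, h j =ᵐ[mu] B.indicator fun x => (g j x : ℂ) * ξ j) :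
    ⟪∑ j : Fin L, emb (((j : ℕ) : ℤ) + o) (h j), A (∑ j : Fin L, emb (((j : ℕ) : ℤ) + o) (h j))⟫_ℂ =
      ∫ x in B, ∑ j, ∑ k, (starRingEnd ℂ) (ξ j) *
        (dg (fun j => g j x) * wnd (a x) L o * dg (fun j => g j x)) j k * ξ k ∂mu := by
  have hb : ∀ j, ∃ C : ℝ, ∀ᵐ x ∂mu, ‖h j x‖ ≤ C := fun j => ⟨‖ξ j‖, by
    filter_upwards [hh j] with x hx
    rw [hx]; exact (memLp_test hB (ξ j) (hg j) (hg1 j)).2 x⟩
  have hi : ∀ j k, Integrable (fun x => (starRingEnd ℂ) (ξ j) *
      (dg (fun j => g j x) * wnd (a x) L o * dg (fun j => g j x)) j k * ξ k) (mu.restrict B) :=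
    fun j k => (((conj_int (M := fun x => wnd (a x) L o) (fun j k => hA.1 _ _) hg hg1 j k).const_mul
      _).mul_const _).restrict
  rw [map_sum, sum_inner, integral_finsetSum _ fun j _ => integrable_finsetSum _ fun k _ => hi j k]
  refine Finset.sum_congr rfl fun j _ => ?_
  rw [inner_sum, integral_finsetSum _ fun k _ => hi j k]
  refine Finset.sum_congr rfl fun k _ => ?_
  rw [hA.2 _ _ _ _ (hb k) (hb j), ← integral_indicator hB]
  refine integral_congr_ae ?_
  filter_upwards [hh j, hh k] with x hj hk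
  rw [hj, hk]
  by_cases hx : x ∈ B
  · simp only [Set.indicator_of_mem hx, dg, Matrix.mul_diagonal, Matrix.diagonal_mul, wnd, map_mul,
      Complex.conj_ofReal]
    ring
  · simp [Set.indicator_of_notMem hx]

theorem dg_one {L : ℕ} : dg (fun _ : Fin L => (1 : ℝ)) = 1 := by simp [dg]

theorem proj_nonneg (hpp : IsStarProjection p) (ψ : H2) : 0 ≤ ⟪ψ, p ψ⟫_ℂ := by
  simpa using pow_inv_le (T := 0) hpp (by simp) (by simp) 1 ψ

theorem psd_of_proj (hpp : IsStarProjection p) {a : X → ℤ → ℤ → ℂ} (hA : Sym emb p a) (L : ℕ) (o : ℤ) :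
    ∀ᵐ x ∂mu, (wnd (a x) L o).PosSemidef := by
  refine ae_psd _ (fun j k => hA.1 _ _) fun B hB ξ => ?_
  have hm := fun j => (memLp_test hB (ξ j) (g := fun _ => 1) measurable_const (by simp)).1
  have := quad hA o hB ξ (g := fun _ _ => 1) (fun _ => measurable_const) (by simp)
    (fun j => (hm j).toLp _) fun j => (hm j).coeFn_toLp
  simp only [dg_one, one_mul, mul_one] at this
  rw [← this]
  exact proj_nonneg hpp _

theorem star_pow {f : ℂ → ℝ} (hf : Continuous f) (h01 : ∀ x, 0 ≤ f (ec x) ∧ f (ec x) ≤ 1)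
    (he : IsEmb emb) (hUV : IsRotationPair θ U V) (n : ℕ) (j : ℤ) (h h' : L2)
    (hh : ∀ᵐ x ∂mu, h' x = ((gw (fun j => f (ec (orb θ x j))) n j : ℝ) : ℂ) * h x) :
    (star (U * cfc (fun z : ℂ => (f z : ℂ)) V) ^ n) (emb (j + n) h) = emb j h' := by
  induction n generalizing h with
  | zero =>
    have : h' = h := Lp.ext (by filter_upwards [hh] with x hx; simpa [gw] using hx)
    simp [this]
  | succ n ih =>
    have hF : Continuous fun z : ℂ => (f z : ℂ) := Complex.continuous_ofReal.comp hf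
    have hm : MemLp (fun x => (f (ec (orb θ x (j + n))) : ℂ) * h x) 2 mu := by
      refine (Lp.memLp h).of_le (((hF.comp (continuous_ec.comp
        (continuous_orb θ (j + n)))).aestronglyMeasurable).mul (Lp.aestronglyMeasurable h))
        (Filter.Eventually.of_forall fun x => ?_)
      rw [norm_mul, Complex.norm_real, Real.norm_eq_abs, abs_of_nonneg (h01 _).1]
      exact mul_le_of_le_one_left (norm_nonneg _) (h01 _).2
    rw [pow_succ, mul_apply_eq_comp, ← ih (hm.toLp _) ?_]
    · congr 1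
      rw [star_mul, (norm_cfc_le hUV hf h01).2, mul_apply_eq_comp, Nat.cast_succ,
        ← add_assoc, star_U_emb he hUV, cfc_emb he hUV hF _ _ _ hm.coeFn_toLp]
    · filter_upwards [hh, hm.coeFn_toLp] with x h1 h2
      rw [h1, h2, gw, gw, Finset.prod_range_succ]
      push_cast
      ring

end FibC

open FibC in
theorem fibre {θ : ℝ} {f : ℂ → ℝ} (hf : Continuous f) (h01 : ∀ x, 0 ≤ f (ec x) ∧ f (ec x) ≤ 1)
    (hz : ∀ x, f (ec x) = 0 → x = 0) {U V p : H2 →L[ℂ] H2} (hUV : IsRotationPair θ U V)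
    (hp : p ∈ vonNeumannGenerated {U, V}) (hpp : IsStarProjection p)
    (hinv : (1 - p) * (U * cfc (fun z : ℂ => (f z : ℂ)) V) * p = 0) :
    ∃ (q : ℤ → X → ℂ) (t : ℝ), Fib θ (fun x => f (ec x)) q t ∧ (t = 0 → p = 0) ∧
      (t = 1 → p = 1) := by
  obtain ⟨emb, he⟩ := exists_emb
  choose a ha1 ha2 ha3 ha4 using exists_symbol he p (coef_shift hUV hp)
  refine ⟨fun d => a d 0, _, ⟨fun d => ha1 d 0, ?_, ?_, ?_⟩, eq_zero_of_trace hUV hp hpp,
    eq_one_of_trace hUV hp hpp⟩
  · have hcov : ∀ j k, a j k =ᵐ[mu] fun x => kq θ (fun d => a d 0) x j k := fun j k => by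
      refine ae_eq_of_coef (ha2 j k) ((ha2 (j - k) 0).comp_measurePreserving (mp_orb θ k)) fun b => ?_
      unfold kq
      rw [coef_orb θ (a (j - k) 0) k b, ha3, ha3, ← coef_cov_iter hUV hp, sub_add_cancel]
    have hS : Sym emb p (kq θ fun d => a d 0) := by
      refine ⟨fun j k => ((ha2 j k).integrable (by norm_num)).congr (hcov j k), fun j k h h' hb _ => ?_⟩
      rw [ha4 j k h h' hb]
      refine integral_congr_ae ?_
      filter_upwards [hcov j k] with x hx
      rw [hx]
    have h1 : ∀ᵐ x ∂mu, ∀ L o, (wnd (kq θ (fun d => a d 0) x) L o).PosSemidef :=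
      ae_all_iff.2 fun L => ae_all_iff.2 fun o => psd_of_proj hpp hS L o
    have h2 : ∀ᵐ x ∂mu, ∀ L o, (1 - wnd (kq θ (fun d => a d 0) x) L o).PosSemidef := by
      refine ae_all_iff.2 fun L => ae_all_iff.2 fun o => ?_
      filter_upwards [psd_of_proj hpp.one_sub (hS.one_sub he) L o] with x hx
      convert hx using 1
      ext j k
      simp [wnd, Matrix.one_apply, Fin.ext_iff]
    have h3 : ∀ᵐ x ∂mu, ∀ j, orb θ x j ≠ 0 := by
      refine ae_all_iff.2 fun j => ?_
      have := (mp_orb θ j).measure_preimage (measurableSet_singleton (0 : X)).nullMeasurableSet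
      rw [mu_zero] at this
      rw [ae_iff]
      simpa [Set.preimage] using this
    have h4 : ∀ᵐ x ∂mu, ∀ (n L : ℕ) (o : ℤ), (wnd (kq θ (fun d => a d 0) x) L (o + n) -
        dg (fun j : Fin L => gw (fun j => f (ec (orb θ x j))) n (((j : ℕ) : ℤ) + o)) *
          wnd (kq θ (fun d => a d 0) x) L o *
        dg (fun j : Fin L => gw (fun j => f (ec (orb θ x j))) n (((j : ℕ) : ℤ) + o))).PosSemidef := by
      refine ae_all_iff.2 fun n => ae_all_iff.2 fun L => ae_all_iff.2 fun o => ?_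
      set g : Fin L → X → ℝ := fun j x => gw (fun j => f (ec (orb θ x j))) n (((j : ℕ) : ℤ) + o) with hgd
      have hg : ∀ j, Measurable (g j) := fun j =>
        Finset.measurable_prod _ fun i _ =>
          (hf.comp (continuous_ec.comp (continuous_orb θ _))).measurable
      have hg1 : ∀ j x, |g j x| ≤ 1 := fun j x => by
        have h0 : 0 ≤ g j x := Finset.prod_nonneg fun i _ => (h01 _).1
        rw [abs_of_nonneg h0]
        exact Finset.prod_le_one (fun i _ => (h01 _).1) fun i _ => (h01 _).2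
      have i1 : ∀ j k, Integrable (fun x => wnd (kq θ (fun d => a d 0) x) L (o + n) j k) mu :=
        fun j k => hS.1 _ _
      have i2 := conj_int (M := fun x => wnd (kq θ (fun d => a d 0) x) L o) (fun j k => hS.1 _ _) hg hg1
      refine ae_psd _ (fun j k => (i1 j k).sub (i2 j k)) fun B hB ξ => ?_
      have hm := fun j => (memLp_test hB (ξ j) (g := fun _ => 1) measurable_const (by simp)).1
      have hm' := fun j => (memLp_test hB (ξ j) (hg j) (hg1 j)).1
      have e1 := quad hS (o + n) hB ξ (g := fun _ _ => 1) (fun _ => measurable_const) (by simp)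
        (fun j => (hm j).toLp _) fun j => (hm j).coeFn_toLp
      have e2 := quad hS o hB ξ hg hg1 (fun j => (hm' j).toLp _) fun j => (hm' j).coeFn_toLp
      simp only [dg_one, one_mul, mul_one] at e1
      have e3 := pow_inv_le hpp (norm_cfc_le hUV hf h01).1 hinv n
        (∑ j : Fin L, emb (((j : ℕ) : ℤ) + (o + n)) ((hm j).toLp _))
      have e4 : (star (U * cfc (fun z : ℂ => (f z : ℂ)) V) ^ n)
          (∑ j : Fin L, emb (((j : ℕ) : ℤ) + (o + n)) ((hm j).toLp _)) =
          ∑ j : Fin L, emb (((j : ℕ) : ℤ) + o) ((hm' j).toLp _) := by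
        rw [map_sum]
        refine Finset.sum_congr rfl fun j _ => ?_
        rw [← add_assoc]
        refine star_pow hf h01 he hUV n _ _ _ ?_
        filter_upwards [(hm j).coeFn_toLp, (hm' j).coeFn_toLp] with x h1 h2
        rw [h1, h2]
        by_cases hx : x ∈ B
        · simp [Set.indicator_of_mem hx, hgd]
        · simp [Set.indicator_of_notMem hx]
      rw [e4, e1, e2, ← integral_sub] at e3
      · refine e3.trans_eq (integral_congr_ae (Filter.Eventually.of_forall fun x => ?_))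
        simp only [← Finset.sum_sub_distrib, Matrix.sub_apply, mul_sub, sub_mul, hgd]
      · exact integrable_finsetSum _ fun j _ => integrable_finsetSum _ fun k _ =>
          (((i1 j k).const_mul _).mul_const _).restrict
      · exact integrable_finsetSum _ fun j _ => integrable_finsetSum _ fun k _ =>
          (((i2 j k).const_mul _).mul_const _).restrict
    filter_upwards [h1, h2, h3, h4] with x x1 x2 x3 x4
    exact ⟨fun L o => ⟨x1 L o, x2 L o⟩,
      fun j => lt_of_le_of_ne (h01 _).1 fun h => x3 j (hz _ h.symm), fun j => (h01 _).2, x4⟩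
  · convert hasSum_coef hpp using 2 with d
    have := tsum_sq_fourierCoeff ((ha2 d 0).toLp _)
    rw [fourierCoeff_congr_ae (ha2 d 0).coeFn_toLp] at this
    simp only [ha3] at this
    rw [this]
    refine integral_congr_ae ?_
    filter_upwards [(ha2 d 0).coeFn_toLp] with x hx
    rw [hx]
  · rw [← ha3 0 0 0]
    have := integral_re ((ha2 0 0).integrable (by norm_num))
    simpa [fourierCoeff] using this

end Crest.Agent.R113
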