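import Crest.Agent.R113.Basic2
import Crest.Agent.R113.BlkB

set_option autoImplicit false
open Matrix
open scoped ComplexOrder

namespace Crest.Agent.R113

namespace FinAX

theorem gw_pos {w : ℤ → ℝ} (h0 : ∀ j, 0 < w j) (n : ℕ) (j : ℤ) : 0 < gw w n j :=
  Finset.prod_pos fun _ _ => h0 _

theorem gw_le_one {w : ℤ → ℝ} (h0 : ∀ j, 0 < w j) (h1 : ∀ j, w j ≤ 1) (n : ℕ) (j : ℤ) :
    gw w n j ≤ 1 :=
  Finset.prod_le_one (fun _ _ => (h0 _).le) fun _ _ => h1 _

theorem gw_add (w : ℤ → ℝ) (m n : ℕ) (j : ℤ) : gw w (m + n) j = gw w m j * gw w n (j + m) := by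
  unfold gw
  rw [Finset.prod_range_add]
  simp only [Nat.cast_add, add_assoc]

theorem Ym_mul (w : ℤ → ℝ) (L n : ℕ) (M : Matrix (Fin L) (Fin L) ℂ) (k j : Fin L) :
    (Ym w L n * M) k j = if h : n ≤ (k : ℕ) then
      ((gw w n (((k : ℕ) : ℤ) + -(n : ℤ)) : ℝ) : ℂ) * M ⟨k - n, by omega⟩ j else 0 := by
  rw [Matrix.mul_apply]
  split_ifs with h
  · rw [Finset.sum_eq_single (⟨k - n, by omega⟩ : Fin L)]
    · have h1 : (k : ℕ) = (k : ℕ) - n + n := by omega
      have h2 : ((((k : ℕ) - n : ℕ)) : ℤ) = ((k : ℕ) : ℤ) + -(n : ℤ) := by omega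
      simp only [Ym, ← h1, if_true, h2]
    · intro i _ hi
      have : ¬ (k : ℕ) = (i : ℕ) + n := fun e => hi (Fin.ext (by simp only; omega))
      simp only [Ym, this, if_false, zero_mul]
    · simp
  · refine Finset.sum_eq_zero fun i _ => ?_
    have : ¬ (k : ℕ) = (i : ℕ) + n := by omega
    simp only [Ym, this, if_false, zero_mul]

theorem mul_YmH (w : ℤ → ℝ) (L n : ℕ) (M : Matrix (Fin L) (Fin L) ℂ) (j k : Fin L) :
    (M * (Ym w L n)ᴴ) j k = if h : n ≤ (k : ℕ) then
      M j ⟨k - n, by omega⟩ * ((gw w n (((k : ℕ) : ℤ) + -(n : ℤ)) : ℝ) : ℂ) else 0 := by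
  have h1 : M * (Ym w L n)ᴴ = (Ym w L n * Mᴴ)ᴴ := by
    rw [conjTranspose_mul, conjTranspose_conjTranspose]
  rw [h1, conjTranspose_apply, Ym_mul]
  split_ifs with h
  · simp [mul_comm]
  · simp

/-- a subset of `ℤ` seen in the window -/
noncomputable def fz (L : ℕ) (X : Set ℤ) : Finset (Fin L) := by
  classical exact Finset.univ.filter fun j => ((j : ℕ) : ℤ) ∈ X

theorem mem_fz {L : ℕ} {X : Set ℤ} {j : Fin L} : j ∈ fz L X ↔ ((j : ℕ) : ℤ) ∈ X := by
  simp [fz]

theorem ch_eq {L : ℕ} (X : Set ℤ) (j : Fin L) :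
    ch X ((j : ℕ) : ℤ) = if j ∈ fz L X then 1 else 0 := by
  unfold ch
  split_ifs with h
  · exact Set.indicator_of_mem (mem_fz.1 h) _
  · exact Set.indicator_of_notMem (fun h' => h (mem_fz.2 h')) _

theorem sum_fz {L : ℕ} (X : Set ℤ) (f : Fin L → ℝ) :
    ∑ j ∈ fz L X, f j = ∑ j : Fin L, ch X ((j : ℕ) : ℤ) * f j := by
  simp only [ch_eq, ite_mul, one_mul, zero_mul, Finset.sum_ite_mem, Finset.univ_inter]

theorem card_fz {L : ℕ} (X : Set ℤ) : ((fz L X).card : ℝ) = ∑ j : Fin L, ch X ((j : ℕ) : ℤ) := by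
  simpa using sum_fz (L := L) X fun _ => 1

theorem compl_fz {L : ℕ} (X : Set ℤ) : (fz L X)ᶜ = fz L Xᶜ := by
  ext j
  simp [mem_fz]

theorem sm_eq (L : ℕ) (F : ℤ → ℝ) : sm L F = ∑ j : Fin L, F ((j : ℕ) : ℤ) :=
  (Fin.sum_univ_eq_sum_range (fun j => F (j : ℤ)) L).symm

theorem card_lt (L n : ℕ) : (Finset.univ.filter fun k : Fin L => (k : ℕ) < n).card ≤ n := by
  refine le_trans (Finset.card_le_card_of_injOn (t := Finset.range n) (fun k => (k : ℕ))
    (fun k hk => ?_) fun a _ b _ h => Fin.ext h) (Finset.card_range n).le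
  simpa using hk

theorem card_bad (L N : ℕ) :
    (Finset.univ.filter fun k : Fin L => (k : ℕ) < N ∨ L ≤ (k : ℕ) + N).card ≤ 2 * N := by
  rw [Finset.filter_or]
  refine (Finset.card_union_le _ _).trans ?_
  have h1 := card_lt L N
  have h2 : (Finset.univ.filter fun k : Fin L => L ≤ (k : ℕ) + N).card ≤ N := by
    refine le_trans (Finset.card_le_card_of_injOn (t := Finset.range N)
      (fun k => L - 1 - (k : ℕ)) (fun k hk => ?_) fun a _ b _ h => Fin.ext ?_)
      (Finset.card_range N).le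
    · simp only [Finset.coe_filter, Finset.mem_univ, true_and, Set.mem_ofPred_eq,
        Finset.coe_range, Set.mem_Iio] at hk ⊢
      omega
    · have := a.2
      have := b.2
      simp only at h
      omega
  omega

theorem exists_blk (St : Set ℤ) {N : ℕ} (L : ℕ) (hN : 1 ≤ N)
    (hsep : ∀ s ∈ St, ∀ s' ∈ St, s < s' → s + 2 * N ≤ s') :
    ∃ (nb : ℕ) (B : Blk (Fin L) (Fin nb) N) (st : Fin nb → ℕ), Function.Injective st ∧
      (∀ b, (st b : ℤ) ∈ St) ∧ (∀ s : ℕ, (s : ℤ) ∈ St → s + N ≤ L → ∃ b, st b = s) ∧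
      (∀ (j : Fin L) b, B.blk j = some b ↔ st b ≤ j ∧ (j : ℕ) < st b + N) ∧
      ∀ b l, l < N → (B.site b l : ℕ) = st b + l := by
  classical
  let F : Finset ℕ := (Finset.range (L + 1)).filter fun s => (s : ℤ) ∈ St ∧ s + N ≤ L
  let st : Fin F.card → ℕ := fun b => (F.equivFin.symm b : ℕ)
  have hinj : Function.Injective st := fun a b h =>
    F.equivFin.symm.injective (Subtype.ext h)
  have hmem : ∀ b, (st b : ℤ) ∈ St ∧ st b + N ≤ L := fun b =>
    (Finset.mem_filter.1 (F.equivFin.symm b).2).2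
  have huniq : ∀ (j : ℕ) b b', st b ≤ j → j < st b + N → st b' ≤ j → j < st b' + N → b = b' := by
    intro j b b' h1 h2 h3 h4
    apply hinj
    rcases lt_trichotomy (st b) (st b') with h | h | h
    · have := hsep _ (hmem b).1 _ (hmem b').1 (by exact_mod_cast h)
      omega
    · exact h
    · have := hsep _ (hmem b').1 _ (hmem b).1 (by exact_mod_cast h)
      omega
  let blk : Fin L → Option (Fin F.card) := fun j =>
    if h : ∃ b, st b ≤ j ∧ (j : ℕ) < st b + N then some h.choose else none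
  have hblk : ∀ (j : Fin L) b, blk j = some b ↔ st b ≤ j ∧ (j : ℕ) < st b + N := by
    intro j b
    simp only [blk]
    split_ifs with h
    · constructor
      · intro e
        exact Option.some.inj e ▸ h.choose_spec
      · intro hb
        rw [huniq j _ _ h.choose_spec.1 h.choose_spec.2 hb.1 hb.2]
    · exact ⟨fun e => e.elim, fun hb => absurd ⟨b, hb⟩ h⟩
  let site : Fin F.card → ℕ → Fin L := fun b l =>
    if h : l < N then ⟨st b + l, by have := (hmem b).2; omega⟩
    else ⟨st b, by have := (hmem b).2; omega⟩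
  have hsite : ∀ b l, l < N → (site b l : ℕ) = st b + l := fun b l h => by
    simp only [site, dif_pos h]
  have hbs : ∀ b l, l < N → blk (site b l) = some b := fun b l h => by
    rw [hblk, hsite b l h]
    omega
  refine ⟨F.card, ⟨blk, fun j => (blk j).elim 0 fun b => j - st b, site, hbs, ?_, ?_, ?_⟩, st, hinj,
    fun b => (hmem b).1, fun s h1 h2 => ?_, hblk, hsite⟩
  · intro b l h
    simp only [hbs b l h, Option.elim, hsite b l h]
    omega
  · intro j b h
    have := (hblk j b).1 h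
    simp only [h, Option.elim]
    omega
  · intro j b h
    have := (hblk j b).1 h
    simp only [h, Option.elim]
    apply Fin.ext
    rw [hsite b _ (by omega)]
    omega
  · have hs : s ∈ F := Finset.mem_filter.2 ⟨Finset.mem_range.2 (by omega), h1, h2⟩
    exact ⟨F.equivFin ⟨s, hs⟩, by simp [st]⟩

end FinAX

open FinAX

theorem Ym_bd {w : ℤ → ℝ} (h0 : ∀ j, 0 < w j) (h1 : ∀ j, w j ≤ 1) (L n : ℕ) : Bd 1 (Ym w L n) := by
  let d : Fin L → ℝ := fun k => if n ≤ (k : ℕ) then gw w n (((k : ℕ) : ℤ) + -(n : ℤ)) else 0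
  have hd : Bd 1 (dg d) := Bd_dg fun k => by
    simp only [d]
    split_ifs
    · rw [abs_of_pos (gw_pos h0 _ _)]
      exact gw_le_one h0 h1 _ _
    · simp
  have he : Ym w L n * (Ym w L n)ᴴ = (dg d)ᴴ * dg d := by
    rw [dg_herm, dg_mul_dg]
    ext k k'
    rw [mul_YmH]
    simp only [dg, diagonal_apply, d, Ym]
    by_cases hk : k = k'
    · subst hk
      by_cases h : n ≤ (k : ℕ)
      · have a1 : (k : ℕ) = (k : ℕ) - n + n := by omega
        have a2 : ((((k : ℕ) - n : ℕ)) : ℤ) = ((k : ℕ) : ℤ) + -(n : ℤ) := by omega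
        simp only [h, dif_pos, if_true, ← a1, a2, Complex.ofReal_mul]
      · simp [h]
    · rw [if_neg hk]
      by_cases h : n ≤ (k' : ℕ)
      · have : ¬ (k : ℕ) = (k' : ℕ) - n + n := fun e => hk (Fin.ext (by omega))
        simp only [h, dif_pos, this, if_false, zero_mul]
      · simp [h]
  have h2 : Bd 1 (Ym w L n)ᴴ := by
    unfold Bd at hd ⊢
    rwa [conjTranspose_conjTranspose, he]
  simpa using h2.conjTranspose

theorem Ym_inv {p : ℤ → ℤ → ℂ} {w : ℤ → ℝ} (hp : Ker p w) (L n : ℕ) :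
    ((2 : ℂ) • wnd p L 0 + (2 : ℂ) • ind (Finset.univ.filter fun k : Fin L => (k : ℕ) < n)
      - Ym w L n * wnd p L 0 * (Ym w L n)ᴴ).PosSemidef := by
  set P := wnd p L 0 with hP
  set Z : Finset (Fin L) := Finset.univ.filter fun k : Fin L => (k : ℕ) < n with hZ
  set E := ind Z with hE
  set G := dg (fun j : Fin L => gw w n (((j : ℕ) : ℤ) + -(n : ℤ))) * wnd p L (-(n : ℤ)) *
    dg (fun j : Fin L => gw w n (((j : ℕ) : ℤ) + -(n : ℤ))) with hG
  have hinv : (P - G).PosSemidef := by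
    have := hp.inv n L (-(n : ℤ))
    rwa [neg_add_cancel] at this
  have hEH : Eᴴ = E := dg_herm _
  have hEE : E * E = E := ind_mul_ind Z
  have hc : 1 - E = ind Zᶜ := by rw [← ind_add_compl Z, hE, add_sub_cancel_left]
  have hY : Ym w L n * P * (Ym w L n)ᴴ = (1 - E) * G * (1 - E) := by
    rw [hc]
    ext k k'
    rw [mul_YmH]
    simp only [Ym_mul, hG, ind, dg, mul_diagonal, diagonal_mul, hZ, Finset.mem_compl,
      Finset.mem_filter, Finset.mem_univ, true_and, not_lt, hP, wnd]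
    by_cases h : n ≤ (k : ℕ) <;> by_cases h' : n ≤ (k' : ℕ)
    · have a1 : ((((k : ℕ) - n : ℕ)) : ℤ) + 0 = ((k : ℕ) : ℤ) + -(n : ℤ) := by omega
      have a2 : ((((k' : ℕ) - n : ℕ)) : ℤ) + 0 = ((k' : ℕ) : ℤ) + -(n : ℤ) := by omega
      simp only [h, h', dif_pos, if_true, a1, a2, Complex.ofReal_one, one_mul, mul_one]
    · simp [h']
    · simp [h]
    · simp [h']
  have p1 : ((1 + E) * P * (1 + E)ᴴ).PosSemidef := (hp.ctr L 0).1.mul_mul_conjTranspose_same _
  have p2 : (E * (1 - P) * Eᴴ).PosSemidef := (hp.ctr L 0).2.mul_mul_conjTranspose_same _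
  have p3 : ((1 - E) * (P - G) * (1 - E)ᴴ).PosSemidef := hinv.mul_mul_conjTranspose_same _
  convert (p1.add (p2.add p2)).add p3 using 1
  rw [hY]
  simp only [conjTranspose_add, conjTranspose_sub, conjTranspose_one, hEH, Matrix.mul_sub,
    Matrix.sub_mul, Matrix.mul_add, Matrix.add_mul, Matrix.one_mul, Matrix.mul_one, hEE, two_smul]
  abel

theorem dif_le_dcol {p : ℤ → ℤ → ℂ} {L : ℕ} (h : Ctr (wnd p L 0)) (D : ℕ) :
    dif (fun j : Fin L => (j : ℕ) / D) (wnd p L 0) ≤ dcol p L D := by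
  unfold dif dcol
  rw [← Finset.sum_sub_distrib]
  refine Finset.sum_le_sum fun j _ => ?_
  refine le_trans (le_of_eq ?_) (sub_le_sub_right (h.row_le j) _)
  rw [← Finset.sum_sub_distrib]
  refine Finset.sum_congr rfl fun k _ => ?_
  split_ifs <;> simp

theorem exists_sit {T : Type} [Fintype T] (A : ZS T) {p : ℤ → ℤ → ℂ} {w : ℤ → ℝ} {Q κm c : ℝ}
    (hp : Ker p w) (hA : A.OK w Q κm c) (L : ℕ) :
    ∃ (nb : ℕ) (S : Sit (Fin L) (Fin nb) T A.N) (st : Fin nb → ℕ), S.OK Q κm c ∧
      S.P = wnd p L 0 ∧ S.Pp = wnd p L A.N ∧ S.ω = A.ω ∧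
      (∀ b l, l < A.N → ((S.B.site b l : Fin L) : ℕ) = st b + l) ∧
      (S.B.K.card : ℝ) ≤ sm L (ch A.K) ∧ sm L (ch A.K) ≤ S.B.K.card + 2 * A.N ∧
      ∀ v Pb : ℝ, S.Err Q v Pb ≤ sm L (A.er (fun j => (p j j).re) v Pb) + L / Q
        + Th Q ^ 2 * dcol p L A.D0 + 2 * A.N := by
  obtain ⟨nb, B, st, hinj, hSt, hsur, hblk, hsite⟩ := exists_blk A.St L hA.N_pos hA.St_sep
  have h0 := hp.w_pos
  have h1 := hp.w_le
  have hQ : 0 < Q := by linarith [hA.Q_ge]
  let bw : Fin L → ℝ := fun j => (B.blk j).elim 1 fun b => 1 / gw w (j - st b) (st b)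
  let D : Tst (Fin L) T :=
    { P := wnd p L 0
      Pp := wnd p L A.N
      Pm := fun τ => wnd p L (-(A.n τ : ℤ))
      g0 := fun j => gw w A.N ((j : ℕ) : ℤ)
      g := fun τ j => gw w (A.n τ) (((j : ℕ) : ℤ) + -(A.n τ : ℤ))
      C := fz L A.C
      E0 := fz L A.E0
      S := fun τ => fz L (A.S τ)
      E := fun τ => fz L (A.E τ)
      ω := A.ω
      κ := A.κ
      κ0 := A.κ0 }
  let S : Sit (Fin L) (Fin nb) T A.N :=
    { toTst := D
      B := B
      Mg := fz L A.Mg
      G := fz L A.G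
      bw := bw
      Y := fun n => Ym w L n
      Z := fun n => Finset.univ.filter fun k : Fin L => (k : ℕ) < n
      col := fun j => (j : ℕ) / A.D0 }
  have hK : B.K ⊆ fz L A.K := by
    intro j hj
    obtain ⟨b, hb⟩ := Option.ne_none_iff_exists'.1 ((B.mem_K j).1 hj)
    have := (hblk j b).1 hb
    exact mem_fz.2 ⟨st b, hSt b, by omega, by omega⟩
  set Bad : Finset (Fin L) :=
    Finset.univ.filter fun k : Fin L => (k : ℕ) < A.N ∨ L ≤ (k : ℕ) + A.N with hBad
  have hBadc : (Bad.card : ℝ) ≤ 2 * A.N := by exact_mod_cast card_bad L A.N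
  have hK' : ∀ j ∈ fz L A.K, j ∈ B.K ∨ j ∈ Bad := by
    intro j hj
    obtain ⟨s, hs, a1, a2⟩ := mem_fz.1 hj
    by_cases hb : (j : ℕ) < A.N ∨ L ≤ (j : ℕ) + A.N
    · exact Or.inr (Finset.mem_filter.2 ⟨Finset.mem_univ _, hb⟩)
    · left
      obtain ⟨t, rfl⟩ := Int.eq_ofNat_of_zero_le (show 0 ≤ s by omega)
      obtain ⟨b, rfl⟩ := hsur t hs (by omega)
      rw [B.mem_K, (hblk j b).2 ⟨by omega, by omega⟩]
      exact Option.some_ne_none b
  have hPi : ∀ j : Fin L, D.Pi j = A.Pi ((j : ℕ) : ℤ) := fun j => by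
    simp only [Tst.Pi, ZS.Pi, ch_eq, D]
  have hbw : ∀ b l, l < A.N → bw (B.site b l) = 1 / gw w l (st b) := fun b l hl => by
    simp only [bw, B.blk_site b l hl, Option.elim, hsite b l hl, Nat.add_sub_cancel_left]
  have hD : D.OK (Th Q) κm :=
    { hP := hp.ctr L 0
      hPp := hp.ctr L A.N
      hPm := fun τ => hp.ctr L _
      g0_pos := fun j => gw_pos h0 _ _
      g_pos := fun τ j => gw_pos h0 _ _
      fwd := by
        have := hp.inv A.N L 0
        simp only [zero_add, add_zero] at this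
        exact this
      bwd := fun τ => by
        have := hp.inv (A.n τ) L (-(A.n τ : ℤ))
        rwa [neg_add_cancel] at this
      κm_pos := hA.κm_pos
      κm_le := hA.κm_le
      κ0_ge := hA.κ0_ge
      κ_ge := hA.κ_ge
      ω_nonneg := hA.ω_nonneg
      f_out := fun j a b => hA.f_out _ (fun h => a (mem_fz.2 h)) fun h => b (mem_fz.2 h)
      f_in := fun j a b => hA.f_in _ (mem_fz.1 a) fun h => b (mem_fz.2 h)
      b_in := fun τ j a b => hA.b_in τ _ (mem_fz.1 a) fun h => b (mem_fz.2 h)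
      b_out := fun τ j a b => hA.b_out τ _ (fun h => a (mem_fz.2 h)) fun h => b (mem_fz.2 h) }
  have hS : S.OK Q κm c :=
    { tst := hD
      Q_ge := hA.Q_ge
      N_pos := hA.N_pos
      N_le := hA.N_le
      c_pos := hA.c_pos
      c_le := hA.c_le
      K_sub := fun j hj => mem_fz.2 (hA.K_sub (mem_fz.1 (hK hj)))
      bw_ge := fun j => by
        change 1 ≤ bw j
        simp only [bw]
        cases B.blk j with
        | none => exact le_rfl
        | some b => exact one_le_one_div (gw_pos h0 _ _) (gw_le_one h0 h1 _ _)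
      bw_le := fun j => by
        change bw j ≤ Q
        simp only [bw]
        cases hb : B.blk j with
        | none =>
          change (1 : ℝ) ≤ Q
          linarith [hA.Q_ge]
        | some b =>
          change 1 / gw w (j - st b) (st b) ≤ Q
          have a1 := (hblk j b).1 hb
          have a2 := hA.light _ (hSt b)
          have a3 := gw_add w (j - st b) (A.N - (j - st b)) (st b)
          rw [show (j : ℕ) - st b + (A.N - (j - st b)) = A.N by omega] at a3
          have a4 : gw w A.N (st b) ≤ gw w (j - st b) (st b) := by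
            rw [a3]
            exact mul_le_of_le_one_right (gw_pos h0 _ _).le (gw_le_one h0 h1 _ _)
          exact (one_div_le hQ (gw_pos h0 _ _)).1 (a2.trans a4)
      Y_bd := fun n _ => Ym_bd h0 h1 L n
      Y_inv := fun n _ => Ym_inv hp L n
      Z_card := fun n hn => (card_lt L n).trans hn.le
      Y_in := fun n b l k hn hl => by
        change Ym w L n k (B.site b l) =
          if k = B.site b (l + n) then ((bw (B.site b l) / bw k : ℝ) : ℂ) else 0
        have a1 := hsite b l (by omega)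
        have a2 := hsite b (l + n) hl
        unfold Ym
        by_cases hk : k = B.site b (l + n)
        · rw [if_pos hk, if_pos (by rw [hk]; omega), hk, hbw b l (by omega), hbw b (l + n) hl,
            gw_add, a1]
          have := (gw_pos h0 l (st b)).ne'
          have := (gw_pos h0 n (st b + l)).ne'
          congr 1
          push_cast
          field_simp
        · rw [if_neg hk, if_neg fun e => hk (Fin.ext (by omega))]
      Y_out := fun n b l hn hl hln => by
        change ∑ k ∈ (fz L A.Mg)ᶜ, ‖Ym w L n k (B.site b l)‖ ^ 2 ≤ (1 / Th Q) ^ 2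
        have a1 := hsite b l hl
        by_cases hk : ∃ k ∈ (fz L A.Mg)ᶜ, (k : ℕ) = (B.site b l : ℕ) + n
        · obtain ⟨k, hk, e⟩ := hk
          rw [Finset.sum_eq_single k]
          · unfold Ym
            rw [if_pos e, Complex.norm_real, Real.norm_eq_abs, abs_of_pos (gw_pos h0 _ _)]
            refine pow_le_pow_left₀ (gw_pos h0 _ _).le ?_ 2
            refine hA.heavy _ (hSt b) _ n (by omega) (by omega) hn (by omega) fun h => ?_
            refine Finset.mem_compl.1 hk (mem_fz.2 ?_)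
            rw [e]
            exact_mod_cast h
          · intro k' _ hk'
            unfold Ym
            rw [if_neg fun e' => hk' (Fin.ext (by omega))]
            simp
          · exact fun h => absurd hk h
        · rw [Finset.sum_eq_zero]
          · positivity
          · intro k hk'
            unfold Ym
            rw [if_neg fun e => hk ⟨k, hk', e⟩]
            simp
      code := fun j k hj hk bj bk hne hcol => by
        obtain ⟨b, hb⟩ := Option.ne_none_iff_exists'.1 bj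
        obtain ⟨b', hb'⟩ := Option.ne_none_iff_exists'.1 bk
        change B.blk j = some b at hb
        change B.blk k = some b' at hb'
        change B.blk j ≠ B.blk k at hne
        change (j : ℕ) / A.D0 = (k : ℕ) / A.D0 at hcol
        have a1 := (hblk j b).1 hb
        have a2 := (hblk k b').1 hb'
        have a3 : (st b : ℤ) ≠ st b' := fun e => hne (by
          rw [hb, hb', hinj (Nat.cast_injective e)])
        have a4 : |((j : ℕ) : ℤ) - ((k : ℕ) : ℤ)| < A.D0 := by
          have b1 := Nat.div_add_mod j A.D0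
          have b2 := Nat.div_add_mod k A.D0
          have b3 := Nat.mod_lt j (show 0 < A.D0 from hA.D0_pos)
          have b4 := Nat.mod_lt k (show 0 < A.D0 from hA.D0_pos)
          rw [hcol] at b1
          generalize A.D0 * ((k : ℕ) / A.D0) = m at b1 b2
          rw [abs_lt]
          omega
        have a5 := hA.code _ (hSt b) _ (hSt b') a3 j k (by omega) (by omega) (by omega) (by omega)
          (mem_fz.1 hj) (mem_fz.1 hk) a4
        refine a5.trans (le_of_eq ?_)
        change A.sep _ _ = D.sep j k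
        simp only [Tst.sep, ZS.sep, ch_eq, D]
        refine Finset.sum_congr rfl fun τ _ => ?_
        by_cases c1 : j ∈ fz L (A.S τ) <;> by_cases c2 : k ∈ fz L (A.S τ) <;> simp [c1, c2] }
  refine ⟨nb, S, st, hS, rfl, rfl, rfl, hsite, ?_, ?_, fun v Pb => ?_⟩
  · rw [sm_eq, ← card_fz]
    exact_mod_cast Finset.card_le_card hK
  · rw [sm_eq, ← card_fz]
    have : (fz L A.K).card ≤ B.K.card + Bad.card :=
      (Finset.card_le_card fun j hj => Finset.mem_union.2 (hK' j hj)).trans
        (Finset.card_union_le _ _)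
    have h2 : ((fz L A.K).card : ℝ) ≤ B.K.card + Bad.card := by exact_mod_cast this
    change _ ≤ (B.K.card : ℝ) + _
    linarith
  · have e1 : ((fz L A.C \ B.K).card : ℝ) ≤
        ∑ j : Fin L, ch (A.C \ A.K) ((j : ℕ) : ℤ) + 2 * A.N := by
      rw [← card_fz]
      have : (fz L A.C \ B.K).card ≤ (fz L (A.C \ A.K)).card + Bad.card := by
        refine (Finset.card_le_card fun j hj => Finset.mem_union.2 ?_).trans
          (Finset.card_union_le _ _)
        obtain ⟨a1, a2⟩ := Finset.mem_sdiff.1 hj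
        by_cases a3 : j ∈ fz L A.K
        · exact Or.inr ((hK' j a3).resolve_left a2)
        · exact Or.inl (mem_fz.2 ⟨mem_fz.1 a1, fun h => a3 (mem_fz.2 h)⟩)
      have h2 : ((fz L A.C \ B.K).card : ℝ) ≤ (fz L (A.C \ A.K)).card + Bad.card := by
        exact_mod_cast this
      linarith
    have e2 : ((B.K \ fz L A.G).card : ℝ) ≤ ∑ j : Fin L, ch (A.K \ A.G) ((j : ℕ) : ℤ) := by
      rw [← card_fz]
      refine Nat.cast_le.2 (Finset.card_le_card fun j hj => ?_)
      obtain ⟨a1, a2⟩ := Finset.mem_sdiff.1 hj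
      exact mem_fz.2 ⟨mem_fz.1 (hK a1), fun h => a2 (mem_fz.2 h)⟩
    have e3 : Th Q ^ 2 * dif (fun j : Fin L => (j : ℕ) / A.D0) (wnd p L 0) ≤
        Th Q ^ 2 * dcol p L A.D0 :=
      mul_le_mul_of_nonneg_left (dif_le_dcol (hp.ctr L 0) _) (sq_nonneg _)
    have e4 : v * D.γ0 = ∑ j : Fin L, v * (ch A.Cᶜ ((j : ℕ) : ℤ) *
        ((p (((j : ℕ) : ℤ) + A.N) (((j : ℕ) : ℤ) + A.N)).re - (p ((j : ℕ) : ℤ) ((j : ℕ) : ℤ)).re)
          + 2 * ch A.E0 ((j : ℕ) : ℤ)) := by
      simp only [Tst.γ0, D, dsum, compl_fz, sum_fz, card_fz, de, wnd, add_zero]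
      rw [← Finset.mul_sum, Finset.sum_add_distrib, ← Finset.mul_sum, ← Finset.sum_sub_distrib]
      simp only [mul_sub]
    have e5 : D.γT = ∑ j : Fin L, ∑ τ, A.ω τ * (ch (A.S τ) ((j : ℕ) : ℤ) *
        ((p ((j : ℕ) : ℤ) ((j : ℕ) : ℤ)).re -
          (p (((j : ℕ) : ℤ) - A.n τ) (((j : ℕ) : ℤ) - A.n τ)).re)
          + 2 * ch (A.E τ) ((j : ℕ) : ℤ)) := by
      rw [Finset.sum_comm]
      simp only [Tst.γT, D, dsum, sum_fz, card_fz, de, wnd, add_zero]
      refine Finset.sum_congr rfl fun τ _ => ?_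
      rw [← Finset.mul_sum, Finset.sum_add_distrib, ← Finset.mul_sum, ← Finset.sum_sub_distrib]
      simp only [mul_sub, sub_eq_add_neg (_ : ℤ)]
    have e6 : ∑ j ∈ fz L A.C, |D.Pi j - Pb| =
        ∑ j : Fin L, ch A.C ((j : ℕ) : ℤ) * |A.Pi ((j : ℕ) : ℤ) - Pb| := by
      simp only [sum_fz, hPi]
    have e7 : (∑ j, (D.Pi j - Pb) ^ 2) / v = ∑ j : Fin L, (A.Pi ((j : ℕ) : ℤ) - Pb) ^ 2 / v := by
      simp only [hPi, Finset.sum_div]
    change ((fz L A.Mg).card : ℝ) + (fz L A.C \ B.K).card + (B.K \ fz L A.G).card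
      + (∑ j ∈ fz L A.C, |D.Pi j - Pb|) + (∑ j, (D.Pi j - Pb) ^ 2) / v + v * D.γ0 + D.γT
      + Fintype.card (Fin L) / Q + Th Q ^ 2 * dif (fun j : Fin L => (j : ℕ) / A.D0) (wnd p L 0) ≤ _
    rw [sm_eq, e4, e5, e6, e7, card_fz, Fintype.card_fin]
    simp only [ZS.er, Finset.sum_add_distrib]
    linarith

end Crest.Agent.R113
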