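import Crest.Agent.R113.Core
import Crest.Agent.R113.FinA

set_option autoImplicit false
open Matrix
open scoped ComplexOrder

namespace Crest.Agent.R113

/-- The deterministic inequality on a window. -/
theorem finThm {Q κm W v η : ℝ} (hκ : 0 < κm) (hW : 0 ≤ W) (hv : 1 ≤ v) (hη : 0 < η) :
    ∃ Cb : ℝ, 0 ≤ Cb ∧ ∀ (T : Type) [Fintype T] (A : ZS T) (p : ℤ → ℤ → ℂ) (w : ℤ → ℝ)
      (c Pb t ξ : ℝ) (n L : ℕ), Ker p w → A.OK w Q κm c → ∑ τ, A.ω τ ≤ W → 0 ≤ Pb → Pb ≤ W →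
      0 ≤ t → t ≤ 1 → 0 < ξ → ξ ≤ 1 → 1 ≤ n →
      t * (1 - t) * sm L (ch A.K) ≤ (ξ + (3 + 4 * n) / A.N) * sm L (ch A.K)
        + 2 * sm L (dev (fun j => (p j j).re) t n)
        + 1000 / (ξ * c) * (sm L (A.er (fun j => (p j j).re) v Pb) + L / Q
            + Th Q ^ 2 * dcol p L A.D0 + η * L
            + Cb * (dfc (wnd p L 0) + dfc (wnd p L A.N) + 1)) := by
  obtain ⟨Cb, hCb, H⟩ := core (Q := Q) hκ hW hv hη
  refine ⟨Cb + 4 * |Q|, by positivity,
    fun T _ A p w c Pb t ξ n L hp hA hω hPb hPbW ht0 ht1 hξ0 hξ1 hn => ?_⟩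
  obtain ⟨nb, S, st, hS, e1, e2, e3, e4, k1, k2, k3⟩ := exists_sit A hp hA L
  have hπ : ∀ j : ℤ, 0 ≤ (p j j).re ∧ (p j j).re ≤ 1 := fun j => by
    have a1 := de_nonneg (hp.ctr 1 j).1 0
    have a2 := (hp.ctr 1 j).de_le_one 0
    simp only [de, wnd, Fin.val_zero, Nat.cast_zero, zero_add] at a1 a2
    exact ⟨a1, a2⟩
  have hdev : ∀ j, 0 ≤ dev (fun j => (p j j).re) t n j := fun j => abs_nonneg _
  have seg : ∀ b, ∀ μ ≤ A.N, |∑ l ∈ Finset.Ico (A.N - μ) A.N, de S.P (S.B.site b l) - t * μ| ≤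
      ∑ j ∈ S.B.bl b, dev (fun j => (p j j).re) t n ((j : ℕ) : ℤ) + 2 * n := by
    intro b μ hμ
    have a1 := stepE _ hπ ⟨ht0, ht1⟩ hn ((st b + (A.N - μ) : ℕ) : ℤ) μ
    have a2 : ∀ F : ℤ → ℝ, ∑ l ∈ Finset.Ico (A.N - μ) A.N, F ((S.B.site b l : ℕ) : ℤ) =
        ∑ i ∈ Finset.range μ, F (((st b + (A.N - μ) : ℕ) : ℤ) + i) := fun F => by
      rw [Finset.sum_Ico_eq_sum_range, Nat.sub_sub_self hμ]
      refine Finset.sum_congr rfl fun i hi => ?_
      have := Finset.mem_range.1 hi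
      rw [e4 b _ (by omega), ← add_assoc, Nat.cast_add]
    rw [← a2 fun j => (p j j).re, ← a2] at a1
    rw [S.B.sum_bl]
    simp only [e1, de, wnd, add_zero]
    refine a1.trans (add_le_add_left (Finset.sum_le_sum_of_subset_of_nonneg (fun l hl => ?_)
      fun _ _ _ => hdev _) _)
    exact Finset.mem_range.2 (Finset.mem_Ico.1 hl).2
  have tot : ∑ b, (∑ j ∈ S.B.bl b, dev (fun j => (p j j).re) t n ((j : ℕ) : ℤ) + 2 * n) ≤
      sm L (dev (fun j => (p j j).re) t n) + 2 * n * nb := by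
    rw [Finset.sum_add_distrib, ← S.B.sum_K, Finset.sum_const, Finset.card_univ, Fintype.card_fin,
      nsmul_eq_mul, mul_comm, sm,
      ← Fin.sum_univ_eq_sum_range (fun j : ℕ => dev (fun j => (p j j).re) t n (j : ℤ))]
    exact add_le_add_left (Finset.sum_le_sum_of_subset_of_nonneg (Finset.subset_univ _)
      fun _ _ _ => hdev _) _
  have hsm : 0 ≤ sm L (dev (fun j => (p j j).re) t n) := Finset.sum_nonneg fun _ _ => hdev _
  have hk : (S.B.K.card : ℝ) = A.N * nb := by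
    rw [S.B.card_K, Fintype.card_fin, Nat.cast_mul]
  have h1 := H (Fin L) (Fin nb) T A.N S c Pb t ξ
    (sm L (dev (fun j => (p j j).re) t n) + 2 * n * nb) hS (by rw [e3]; exact hω) hPb hPbW ht0 ht1
    hξ0 hξ1 (by positivity) (fun μ hμ => by
      refine le_trans ?_ (add_le_add_right tot _)
      rw [Finset.mul_sum, ← Finset.sum_add_distrib]
      exact Finset.sum_le_sum fun b _ => by linarith [(abs_le.1 (seg b (μ b) (hμ b))).2]) (by
      have a1 : ∑ b : Fin nb, t * (A.N : ℝ) ≤ ∑ b, (∑ j ∈ S.B.bl b, de S.P j +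
          (∑ j ∈ S.B.bl b, dev (fun j => (p j j).re) t n ((j : ℕ) : ℤ) + 2 * n)) :=
        Finset.sum_le_sum fun b _ => by
          have := (abs_le.1 (seg b A.N le_rfl)).1
          rw [Nat.sub_self, ← Finset.range_eq_Ico, ← S.B.sum_bl b (de S.P)] at this
          linarith
      rw [Finset.sum_add_distrib, ← S.B.sum_K, Finset.sum_const, Finset.card_univ,
        Fintype.card_fin, nsmul_eq_mul] at a1
      rw [dsum, hk]
      linarith)
  rw [e1, e2, Fintype.card_fin, Fintype.card_fin] at h1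
  have hX : 0 ≤ dfc (wnd p L 0) + dfc (wnd p L A.N) :=
    add_nonneg (hp.ctr L 0).dfc_nonneg (hp.ctr L A.N).dfc_nonneg
  have hN : (0 : ℝ) < A.N := by exact_mod_cast hA.N_pos
  have hM : 1 ≤ 1000 / (ξ * c) := by
    rw [one_le_div (mul_pos hξ0 hA.c_pos)]
    nlinarith [mul_le_one₀ hξ1 hA.c_pos.le hA.c_le]
  have hQ := hA.N_le.trans (le_abs_self Q)
  have b1 := k3 v Pb
  generalize 1000 / (ξ * c) = M at h1 hM ⊢
  generalize dfc (wnd p L 0) + dfc (wnd p L A.N) = X at h1 hX ⊢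
  have b2 := mul_le_mul_of_nonneg_left b1 (zero_le_one.trans hM)
  have b3 : t * (1 - t) * sm L (ch A.K) ≤ t * (1 - t) * S.B.K.card + 2 * A.N := by
    have c1 : 0 ≤ t * (1 - t) := mul_nonneg ht0 (by linarith)
    have c2 : t * (1 - t) ≤ 1 := by nlinarith
    have c3 := mul_le_mul_of_nonneg_left k2 c1
    nlinarith
  have b4 := mul_le_mul_of_nonneg_left k1 hξ0.le
  have b5 : (3 + 4 * n : ℝ) * nb ≤ (3 + 4 * n) / A.N * sm L (ch A.K) := by
    rw [div_mul_eq_mul_div, mul_div_assoc]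
    refine mul_le_mul_of_nonneg_left ?_ (by positivity)
    rw [le_div_iff₀ hN]
    linarith
  have b6 : 2 * (A.N : ℝ) ≤ M * (2 * A.N) := le_mul_of_one_le_left (by positivity) hM
  have b7 : M * (4 * A.N) ≤ M * (4 * |Q| * (X + 1)) := by
    refine mul_le_mul_of_nonneg_left ?_ (zero_le_one.trans hM)
    nlinarith [mul_nonneg (abs_nonneg Q) hX]
  linarith

end Crest.Agent.R113
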