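import Crest.Agent.R113.ML
import Crest.Agent.R113.BlkB

set_option autoImplicit false
open Matrix
open scoped ComplexOrder

namespace Crest.Agent.R113
variable {ι : Type*} [Fintype ι] [DecidableEq ι]
variable {β : Type*} [Fintype β] [DecidableEq β] {N : ℕ}

namespace FixX

theorem cont_Ra {X : Type*} [TopologicalSpace X] {P : Matrix ι ι ℂ} (hP : P.PosSemidef) {ε : ℝ}
    (hε : 0 < ε) {a : X → ι → ℝ} (ha : ∀ j, Continuous fun x => a x j) :
    Continuous fun x => Ra ε P (a x) := by
  have hd : Continuous fun x => dg (a x) := by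
    unfold dg
    exact Continuous.matrix_diagonal
      (continuous_pi fun j => Complex.continuous_ofReal.comp (ha j))
  have hK : Continuous fun x => dg (a x) * P * dg (a x) + (ε : ℂ) • (1 : Matrix ι ι ℂ) :=
    ((hd.matrix_mul continuous_const).matrix_mul hd).add continuous_const
  have hinv : Continuous fun x => (dg (a x) * P * dg (a x) + (ε : ℂ) • (1 : Matrix ι ι ℂ))⁻¹ := by
    refine continuous_iff_continuousAt.2 fun x => ?_
    refine ContinuousAt.comp (f := fun x => dg (a x) * P * dg (a x) + (ε : ℂ) • (1 : Matrix ι ι ℂ))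
      (g := Inv.inv) ?_ hK.continuousAt
    refine continuousAt_matrix_inv _ ?_
    have hu := (posDef_add_eps (dg_psd hP (a x)) hε).isUnit
    rw [Matrix.isUnit_iff_isUnit_det] at hu
    rw [Ring.inverse_eq_inv']
    exact continuousAt_inv₀ hu.ne_zero
  unfold Ra Rs Ph
  exact continuous_const.sub (hinv.const_smul (ε : ℂ))

theorem cont_dsum {X : Type*} [TopologicalSpace X] (S : Finset ι) {M : X → Matrix ι ι ℂ}
    (hM : Continuous M) : Continuous fun x => dsum S (M x) := by
  unfold dsum de
  exact continuous_finsetSum _ fun j _ => Complex.continuous_re.comp (hM.matrix_elem j j)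

theorem dsum_bl (B : Blk ι β N) {M : Matrix ι ι ℂ} (hM : Ctr M) (b : β) :
    0 ≤ dsum (B.bl b) M ∧ dsum (B.bl b) M ≤ N := by
  refine ⟨Finset.sum_nonneg fun j _ => de_nonneg hM.1 j, ?_⟩
  calc dsum (B.bl b) M ≤ ∑ _j ∈ B.bl b, (1 : ℝ) := Finset.sum_le_sum fun j _ => hM.de_le_one j
    _ = N := by rw [Finset.sum_const, B.card_bl, nsmul_eq_mul, mul_one]

theorem cont_mv (B : Blk ι β N) (j : ι) : Continuous fun m : β → ℝ => B.mv m j := by
  unfold Blk.mv
  cases B.blk j with
  | none => exact continuous_const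
  | some b => exact continuous_apply b

theorem cont_f (B : Blk ι β N) {P : Matrix ι ι ℂ} (hP : P.PosSemidef) {ε : ℝ} (hε : 0 < ε)
    (s : ℝ) (base : ι → ℝ) (b : β) :
    Continuous fun m : β → ℝ => dsum (B.bl b) (Ra ε P (B.av base s m)) := by
  refine cont_dsum _ (cont_Ra hP hε fun j => ?_)
  unfold Blk.av
  exact Real.continuous_exp.comp
    (continuous_const.add (continuous_const.mul (continuous_const.sub (cont_mv B j))))

end FixX

open FixX in
theorem fixB (B : Blk ι β N) {P : Matrix ι ι ℂ} (hP : P.PosSemidef) {ε s : ℝ} (hε : 0 < ε)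
    (hs0 : 0 ≤ s) (base : ι → ℝ) :
    ∃ m : β → ℝ, ∀ b, 0 ≤ m b ∧ m b ≤ N ∧ dsum (B.bl b) (Ra ε P (B.av base s m)) = m b := by
  set f : β → (β → ℝ) → ℝ := fun b m => dsum (B.bl b) (Ra ε P (B.av base s m)) with hf
  have hc : ∀ b, Continuous (f b) := fun b => cont_f B hP hε s base b
  have hb : ∀ b m, 0 ≤ f b m ∧ f b m ≤ N := fun b m => dsum_bl B (Ra_ctr hP hε _) b
  set C : Set (β → ℝ) := Set.Icc (fun _ => 0) (fun _ => N) ∩ ⋂ b, {m | f b m ≤ m b} with hC
  have hcomp : IsCompact C :=
    isCompact_Icc.inter_right (isClosed_iInter fun b => isClosed_le (hc b) (continuous_apply b))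
  have hne : C.Nonempty := ⟨fun _ => N, ⟨fun _ => Nat.cast_nonneg N, le_rfl⟩,
    Set.mem_iInter.2 fun b => (hb b _).2⟩
  have hsc : Continuous fun m : β → ℝ => ∑ b, m b :=
    continuous_finsetSum _ fun b _ => continuous_apply b
  obtain ⟨m, hm, hmin⟩ := hcomp.exists_isMinOn hne hsc.continuousOn
  have hm1 : ∀ b, f b m ≤ m b := fun b => Set.mem_iInter.1 hm.2 b
  refine ⟨m, fun b => ⟨hm.1.1 b, hm.1.2 b, le_antisymm (hm1 b) ?_⟩⟩
  by_contra hlt
  have hlt : f b m < m b := not_le.1 hlt
  have hg : Continuous fun t : ℝ => f b (Function.update m b t) :=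
    (hc b).comp (continuous_const.update b continuous_id)
  have hev : ∀ᶠ t in nhds (m b), f b (Function.update m b t) < t := by
    refine ContinuousAt.eventually_lt hg.continuousAt continuousAt_id ?_
    simpa using hlt
  obtain ⟨t, ht1, ht2⟩ : ∃ t, t < m b ∧ f b (Function.update m b t) < t := by
    have h2 : ∀ᶠ t in nhdsWithin (m b) (Set.Iio (m b)), f b (Function.update m b t) < t :=
      hev.filter_mono nhdsWithin_le_nhds
    obtain ⟨t, h3, h4⟩ := (h2.and self_mem_nhdsWithin).exists
    exact ⟨t, h4, h3⟩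
  have ht0 : 0 ≤ t := ((hb b _).1.trans ht2.le)
  have hle : ∀ b', Function.update m b t b' ≤ m b' := fun b' => by
    by_cases h : b' = b
    · subst h; simpa using ht1.le
    · simp [Function.update_of_ne h]
  have hmem : Function.update m b t ∈ C := by
    refine ⟨⟨fun b' => ?_, fun b' => (hle b').trans (hm.1.2 b')⟩, Set.mem_iInter.2 fun b' => ?_⟩
    · by_cases h : b' = b
      · subst h; simpa using ht0
      · simpa [Function.update_of_ne h] using hm.1.1 b'
    · by_cases h : b' = b
      · subst h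
        show f b' _ ≤ _
        simpa using ht2.le
      · show f b' _ ≤ _
        rw [Function.update_of_ne h]
        refine le_trans ?_ (hm1 b')
        refine Ra_anti hP hε (fun j => Real.exp_pos _) _ (fun j hj => ?_) (fun j => ?_)
        · have := (B.mem_bl b' j).1 hj
          simp [Blk.av, Blk.mv, this, Function.update_of_ne h]
        · unfold Blk.av
          refine Real.exp_le_exp.2 (add_le_add le_rfl (mul_le_mul_of_nonneg_left ?_ hs0))
          refine sub_le_sub le_rfl ?_
          unfold Blk.mv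
          cases B.blk j with
          | none => exact le_rfl
          | some b'' => exact hle b''
  have h1 : ∑ b', m b' ≤ ∑ b', Function.update m b t b' := hmin hmem
  have h2 : ∑ b', Function.update m b t b' < ∑ b', m b' :=
    Finset.sum_lt_sum (fun b' _ => hle b') ⟨b, Finset.mem_univ b, by simpa using ht1⟩
  linarith

end Crest.Agent.R113
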