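import Crest.Agent.R113.Ph

set_option autoImplicit false
open MeasureTheory
open scoped InnerProductSpace ComplexOrder

namespace Crest.Agent.R113

namespace InstX

theorem ch_mem {α : Type*} {S : Set α} {x : α} (h : x ∈ S) : ch S x = 1 := by
  simp [ch, h]

theorem ch_not {α : Type*} {S : Set α} {x : α} (h : x ∉ S) : ch S x = 0 := by
  simp [ch, h]

theorem ch_congr {α β : Type*} {S : Set α} {T : Set β} {x : α} {y : β} (h : x ∈ S ↔ y ∈ T) :
    ch S x = ch T y := by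
  by_cases hx : x ∈ S
  · rw [ch_mem hx, ch_mem (h.1 hx)]
  · rw [ch_not hx, ch_not fun hy => hx (h.2 hy)]

theorem fr0 {u : ℝ} (h0 : 0 ≤ u) (h1 : u < 1) : Int.fract u = u := Int.fract_eq_self.2 ⟨h0, h1⟩

theorem fr1 {u : ℝ} (h0 : 1 ≤ u) (h1 : u < 2) : Int.fract u = u - 1 := by
  rw [Int.fract_eq_iff]
  exact ⟨by linarith, by linarith, 1, by simp⟩

theorem sum_lev (A : Par) (g : ℕ → ℝ) :
    ∑ a : Fin (A.M0 + 1), g (A.I + a) = ∑ l ∈ Finset.Icc A.I A.M, g l := by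
  rw [Fin.sum_univ_eq_sum_range (fun a => g (A.I + a)), ← Finset.Ico_add_one_right_eq_Icc,
    Finset.sum_Ico_eq_sum_range]
  congr 2
  unfold Par.M
  omega

theorem Th_pos (Q : ℝ) : 0 < Th Q := by unfold Th Om; positivity

end InstX

open InstX

namespace Par
variable {A : Par} {ρ lam : ℝ} {J : ℕ}

theorem zs_K (A : Par) (x : X) : (A.zs x).K = {j | orb A.θ x j ∈ A.cK} := by
  ext j
  simp only [ZS.K, zs, cK, Set.mem_setOf_eq, orb_orb]
  constructor
  · rintro ⟨s, hs, h1, h2⟩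
    refine ⟨(j - s).toNat, by omega, ?_⟩
    have : j + -(((j - s).toNat : ℕ) : ℤ) = s := by omega
    rwa [this]
  · rintro ⟨l, hl, h⟩
    exact ⟨j + -(l : ℤ), h, by omega, by omega⟩

theorem zs_er (A : Par) (π : X → ℝ) (v : ℝ) (x : X) (j : ℤ) :
    (A.zs x).er (fun k => π (orb A.θ x k)) v A.Pb j = A.er π v (orb A.θ x j) := by
  have hPi : (A.zs x).Pi j = A.Pi (orb A.θ x j) :=
    Finset.sum_congr rfl fun τ _ => congrArg (A.ω τ * ·) (ch_congr Iff.rfl)
  unfold ZS.er Par.er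
  rw [hPi, zs_K, orb_orb]
  have e1 : ch (A.zs x).Mg j = ch A.cMg (orb A.θ x j) := ch_congr Iff.rfl
  have e2 : ch ((A.zs x).C \ {j | orb A.θ x j ∈ A.cK}) j = ch (A.cC \ A.cK) (orb A.θ x j) :=
    ch_congr Iff.rfl
  have e3 : ch ({j | orb A.θ x j ∈ A.cK} \ (A.zs x).G) j = ch (A.cK \ A.cG) (orb A.θ x j) :=
    ch_congr Iff.rfl
  have e4 : ch (A.zs x).C j = ch A.cC (orb A.θ x j) := ch_congr Iff.rfl
  have e5 : ch (A.zs x).Cᶜ j = ch A.cCᶜ (orb A.θ x j) := ch_congr Iff.rfl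
  have e6 : ch (A.zs x).E0 j = ch A.cE0 (orb A.θ x j) := ch_congr Iff.rfl
  rw [e1, e2, e3, e4, e5, e6]
  congr 1
  refine Finset.sum_congr rfl fun τ _ => ?_
  have e7 : ch ((A.zs x).S τ) j = ch (A.cS τ) (orb A.θ x j) := ch_congr Iff.rfl
  have e8 : ch ((A.zs x).E τ) j = ch (A.cE τ) (orb A.θ x j) := ch_congr Iff.rfl
  rw [e7, e8, orb_orb, sub_eq_add_neg j]
  rfl

theorem OK.v_pos (h : A.OK ρ lam J) (i : ℕ) : 0 < A.v i := h.spd.vt_pos i

theorem OK.v_anti (h : A.OK ρ lam J) {ν i : ℕ} (hi : ν ≤ i) : A.v i ≤ A.v ν :=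
  (h.spd.vt_le hi).trans (mul_le_of_le_one_right (h.v_pos ν).le
    (pow_le_one₀ (by norm_num) (by norm_num)))

theorem OK.I_lt_h (h : A.OK ρ lam J) : A.I + 1 ≤ A.h := by
  have := h.chain.h_ge
  have := h.J_pos
  omega

theorem OK.ell_bounds (h : A.OK ρ lam J) : 0 < A.ell ∧ A.ell ≤ 1 / 256 := by
  have hN : (1 : ℝ) ≤ A.N := by exact_mod_cast h.N_pos
  have h1 : A.v A.h ≤ A.v A.I / 64 := (h.v_anti h.I_lt_h).trans (h.spd.ratio A.I)
  have h2 := h.N_le
  have h3 := h.v_pos A.h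
  unfold ell
  refine ⟨by positivity, ?_⟩
  have := mul_le_mul_of_nonneg_left h1 (show (0 : ℝ) ≤ A.N by linarith)
  linarith

theorem wl_nonneg (A : Par) (ν : ℕ) : 0 ≤ A.wl ν :=
  Finset.sum_nonneg fun k _ => by split_ifs <;> positivity

theorem OK.ω_nonneg (h : A.OK ρ lam J) (τ : A.T) : 0 ≤ A.ω τ :=
  div_nonneg (A.wl_nonneg _) (Nat.cast_nonneg _)

theorem OK.wl_of_mem (h : A.OK ρ lam J) {ν k : ℕ} (hk : k < A.kmax) (hν : ν ∈ A.G k) :
    A.wl ν = 1 / (A.G k).card := by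
  unfold wl
  rw [Finset.sum_eq_single k, if_pos hν]
  · intro k' _ hk'
    exact if_neg fun h' => Finset.disjoint_left.1 (h.chain.disj k' k hk') h' hν
  · intro hk'
    exact absurd (Finset.mem_range.2 hk) hk'

theorem wl_of_not (A : Par) {ν : ℕ} (hν : ∀ k, k < A.kmax → ν ∉ A.G k) : A.wl ν = 0 :=
  Finset.sum_eq_zero fun k hk => if_neg (hν k (Finset.mem_range.1 hk))

theorem OK.card_pos (h : A.OK ρ lam J) (k : ℕ) : (1 : ℝ) ≤ (A.G k).card := by
  exact_mod_cast (h.chain.ne k).card_pos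

theorem OK.wl_le (h : A.OK ρ lam J) (ν : ℕ) : 0 ≤ A.wl ν ∧ A.wl ν ≤ 1 := by
  refine ⟨A.wl_nonneg ν, ?_⟩
  by_cases hν : ∃ k, k < A.kmax ∧ ν ∈ A.G k
  · obtain ⟨k, hk, hν⟩ := hν
    rw [h.wl_of_mem hk hν]
    have := h.card_pos k
    rw [div_le_one (by linarith)]
    exact this
  · rw [A.wl_of_not fun k hk h' => hν ⟨k, hk, h'⟩]
    norm_num

theorem OK.wl_eq_zero (h : A.OK ρ lam J) {ν : ℕ} (hν : ν = A.h ∨ A.M0 < ν) : A.wl ν = 0 := by
  refine A.wl_of_not fun k hk h' => ?_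
  rcases hν with hν | hν
  · exact (h.chain.mem k ν h').2 hν
  · exact absurd (h.G_le k hk ν h') (by omega)

theorem OK.lw_eq (h : A.OK ρ lam J) {l : ℕ} (hl : l ∈ Finset.Icc A.I A.M) :
    lw A.lev A.ω l = A.wl l := by
  have hm : (0 : ℝ) < A.m0 := by exact_mod_cast h.m0_pos
  unfold lw
  rw [Fintype.sum_prod_type]
  have e : ∀ a : Fin (A.M0 + 1), ∑ q : Fin A.m0, (if A.lev (a, q) = l then A.ω (a, q) else 0) =
      (fun l' => if l' = l then A.wl l' else 0) (A.I + a) := fun a => by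
    simp only [lev, ω]
    split_ifs
    · rw [Finset.sum_const, Finset.card_univ, Fintype.card_fin, nsmul_eq_mul]
      field_simp
    · simp
  rw [Finset.sum_congr rfl fun a _ => e a, sum_lev A fun l' => if l' = l then A.wl l' else 0,
    Finset.sum_ite_eq' , if_pos hl]

theorem OK.G_sub (h : A.OK ρ lam J) {k : ℕ} (hk : k < A.kmax) : A.G k ⊆ Finset.Icc A.I A.M :=
  fun i hi => Finset.mem_Icc.2 ⟨(h.chain.mem k i hi).1, (h.G_le k hk i hi).trans (Nat.le_add_right _ _)⟩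

theorem OK.sum_G (h : A.OK ρ lam J) {k : ℕ} (hk : k < A.kmax) (c : ℝ) :
    ∑ l ∈ Finset.Icc A.I A.M, (if l ∈ A.G k then c else 0) = (A.G k).card * c := by
  rw [← Finset.sum_filter, Finset.filter_mem_eq_inter, Finset.inter_eq_right.2 (h.G_sub hk),
    Finset.sum_const, nsmul_eq_mul]

theorem OK.sum_wl_sq (h : A.OK ρ lam J) : ∑ l ∈ Finset.Icc A.I A.M, A.wl l ^ 2 ≤ 2 / J := by
  have e : ∀ l, A.wl l ^ 2 = ∑ k ∈ Finset.range A.kmax,
      if l ∈ A.G k then ((1 : ℝ) / (A.G k).card) ^ 2 else 0 := fun l => by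
    rw [sq]
    conv_lhs => enter [1]; unfold wl
    rw [Finset.sum_mul]
    refine Finset.sum_congr rfl fun k hk => ?_
    split_ifs with h'
    · rw [h.wl_of_mem (Finset.mem_range.1 hk) h', sq]
    · simp
  rw [Finset.sum_congr rfl fun l _ => e l, Finset.sum_comm]
  refine le_trans (le_of_eq ?_) (h.chain.sizes A.kmax)
  refine Finset.sum_congr rfl fun k hk => ?_
  rw [h.sum_G (Finset.mem_range.1 hk)]
  have := h.card_pos k
  field_simp

theorem OK.sum_ω (h : A.OK ρ lam J) : ∑ τ, A.ω τ = A.kmax := by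
  have hm : (0 : ℝ) < A.m0 := by exact_mod_cast h.m0_pos
  rw [Fintype.sum_prod_type]
  have e : ∀ a : Fin (A.M0 + 1), ∑ q : Fin A.m0, A.ω (a, q) = A.wl (A.I + a) := fun a => by
    simp only [lev, ω]
    rw [Finset.sum_const, Finset.card_univ, Fintype.card_fin, nsmul_eq_mul]
    field_simp
  rw [Finset.sum_congr rfl fun a _ => e a, sum_lev A A.wl]
  unfold wl
  rw [Finset.sum_comm]
  have e2 : ∀ k ∈ Finset.range A.kmax,
      ∑ l ∈ Finset.Icc A.I A.M, (if l ∈ A.G k then (1 : ℝ) / (A.G k).card else 0) = 1 := by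
    intro k hk
    rw [h.sum_G (Finset.mem_range.1 hk)]
    have := h.card_pos k
    field_simp
  rw [Finset.sum_congr rfl e2]
  simp

theorem OK.n_le (h : A.OK ρ lam J) (τ : A.T) : A.n τ ≤ nb A.θ A.m (A.lev τ) := by
  have hm : (0 : ℝ) < A.m0 := by exact_mod_cast h.m0_pos
  have hv := h.v_pos (A.lev τ)
  have hq : ((τ.2 : ℕ) : ℝ) ≤ A.m0 := by exact_mod_cast τ.2.2.le
  refine Nat.ceil_mono ?_
  rw [div_le_div_iff₀ (by positivity) hv]
  nlinarith

theorem lev_mem (A : Par) (τ : A.T) : A.I ≤ A.lev τ ∧ A.lev τ ≤ A.M := by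
  have := τ.1.2
  unfold lev M
  omega

theorem y_orb (A : Par) (i : ℕ) (x : X) (j d : ℤ) :
    A.y i (orb A.θ x (j + d)) = Int.fract (A.y i (orb A.θ x j) + d * A.v i) := by
  rw [← orb_orb]; exact yy_orb _ _ _ _ _

theorem OK.cK_sub (h : A.OK ρ lam J) : A.cK ⊆ A.cC := by
  rintro x ⟨l, hl, h1, h2, -⟩
  have e := A.y_orb A.h x (-(l : ℤ)) l
  rw [neg_add_cancel, orb_zero] at e
  have hv := h.v_pos A.h
  have hl' : (l : ℝ) + 1 ≤ A.N := by exact_mod_cast hl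
  have hb := h.ell_bounds
  have h3 : 0 ≤ (l : ℝ) * A.v A.h := by positivity
  have h4 : ((l : ℝ) + 1) * A.v A.h ≤ A.ell := mul_le_mul_of_nonneg_right hl' hv.le
  show 1 - A.ell ≤ A.y A.h x
  rw [e, Int.cast_natCast, fr0 (by linarith) (by linarith)]
  linarith

/-- lower bound for the `n`-step weight ending at `j` -/
theorem OK.lo' (h : A.OK ρ lam J) (x : X) (j : ℤ) {ν n : ℕ} (hT : orb A.θ x j ∉ A.Tb ν)
    (hn : n ≤ nb A.θ A.m ν)
    (hy : ∀ l, ν ≤ l → n * A.v l + A.η l ≤ A.y l (orb A.θ x j)) :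
    A.κ ν ≤ gw (fun j => A.w (orb A.θ x j)) n (j - n) := by
  rw [sub_eq_add_neg, ← gw_orb]
  refine h.wt.lo ν _ n _ hT hn (by omega) (by omega) fun i hi l hl => ?_
  have h1 := hy l hl
  have hv := h.v_pos l
  have hη := h.spd.et_pos l
  have h2 := yy_lt_one A.m l (orb A.θ x j)
  have hi' : (i : ℝ) ≤ n := by exact_mod_cast hi.le
  have h3 : 0 ≤ (i : ℝ) * A.v l := by positivity
  have h4 : (i : ℝ) * A.v l ≤ n * A.v l := mul_le_mul_of_nonneg_right hi' hv.le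
  rw [yy_orb]
  push_cast
  rw [fr0 (by nlinarith) (by nlinarith)]
  nlinarith

/-- upper bound for the `n`-step weight ending at `j` -/
theorem OK.hi' (h : A.OK ρ lam J) (x : X) (j : ℤ) {ν l n : ℕ} (h1 : A.I ≤ ν) (h2 : ν ≤ l)
    (h3 : A.η l ≤ A.y l (orb A.θ x j)) (h4 : A.y l (orb A.θ x j) ≤ n * A.v l) :
    gw (fun j => A.w (orb A.θ x j)) n (j - n) ≤ A.κ ν / Th A.Q := by
  rw [sub_eq_add_neg, ← gw_orb]
  exact h.wt.hi A.I ν l _ n h1 h2 h3 h4

theorem OK.κ_le_one (h : A.OK ρ lam J) (ν : ℕ) : A.κ ν ≤ 1 / 64 :=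
  (h.wt.κ_le ν).trans ((h.v_anti (Nat.zero_le ν)).trans h.spd.vt_zero)

theorem OK.st_far (h : A.OK ρ lam J) (x : X) {s s' : ℤ} (hs : orb A.θ x s ∈ A.cSt)
    (hs' : orb A.θ x s' ∈ A.cSt) (hlt : s < s') : 1 - A.v A.h < ((s' - s : ℤ) : ℝ) * A.v A.h := by
  have e := A.y_orb A.h x s (s' - s)
  rw [add_sub_cancel] at e
  have hv := h.v_pos A.h
  have hd : (1 : ℝ) ≤ ((s' - s : ℤ) : ℝ) := by exact_mod_cast (by omega : (1 : ℤ) ≤ s' - s)
  have h1 := hs.1
  have h2 := hs.2.1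
  have h3 := hs'.1
  have h4 := hs'.2.1
  have h5 : A.v A.h ≤ ((s' - s : ℤ) : ℝ) * A.v A.h := le_mul_of_one_le_left hv.le hd
  rw [← Int.self_sub_floor] at e
  set z := ⌊A.y A.h (orb A.θ x s) + ((s' - s : ℤ) : ℝ) * A.v A.h⌋
  have h6 : (0 : ℝ) < z := by linarith
  have h7 : (1 : ℝ) ≤ z := by exact_mod_cast (by exact_mod_cast h6 : (0 : ℤ) < z)
  linarith

theorem OK.sep_one (h : A.OK ρ lam J) {i : ℕ} (hi : i ∈ Finset.Icc A.I A.M) {z z' : X}
    (hz' : z' ∈ A.cH i) (hd : A.y i z + ρ ≤ A.y i z') (a : Fin (A.M0 + 1)) (ha : A.I + a = i) :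
    ∃ q : Fin A.m0, z ∉ A.cS (a, q) ∧ z' ∈ A.cS (a, q) := by
  have hm : (0 : ℝ) < A.m0 := by exact_mod_cast h.m0_pos
  have hρ := h.spd.ρ_pos
  have hv := h.v_pos i
  have hv2 : A.v i ≤ ρ / 2 := (h.v_anti (Finset.mem_Icc.1 hi).1).trans h.vI_le
  have hy0 : 0 ≤ A.y i z := yy_nonneg _ _ _
  have hy1 : A.y i z' < 1 := yy_lt_one _ _ _
  have hmρ : 2 ≤ A.m0 * ρ := by have := h.m0_ge; rwa [div_le_iff₀ hρ] at this
  set q : ℕ := ⌊A.m0 * A.y i z⌋₊ + 1 with hq
  have q1 : A.m0 * A.y i z < q := by rw [hq]; push_cast; exact Nat.lt_floor_add_one _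
  have q2 : (q : ℝ) ≤ A.m0 * A.y i z + 1 := by
    rw [hq]; push_cast; linarith [Nat.floor_le (show 0 ≤ A.m0 * A.y i z by positivity)]
  have q3 : (q : ℝ) < A.m0 := by nlinarith
  have q4 : q < A.m0 := by exact_mod_cast q3
  have hlev : A.lev (a, ⟨q, q4⟩) = i := ha
  have hn : A.n (a, ⟨q, q4⟩) = ⌈(q : ℝ) / (A.m0 * A.v i)⌉₊ := by unfold n; rw [hlev]
  have n1 : (q : ℝ) / (A.m0 * A.v i) ≤ A.n (a, ⟨q, q4⟩) := by rw [hn]; exact Nat.le_ceil _
  have n2 : (A.n (a, ⟨q, q4⟩) : ℝ) < (q : ℝ) / (A.m0 * A.v i) + 1 := by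
    rw [hn]; exact Nat.ceil_lt_add_one (by positivity)
  have hnl := h.n_le (a, ⟨q, q4⟩)
  rw [hlev] at hnl
  have hS : ∀ u, u ∈ A.cS (a, ⟨q, q4⟩) ↔
      ∀ l ∈ Finset.Icc i A.M, A.n (a, ⟨q, q4⟩) * A.v l ≤ A.y l u := fun u => by
    unfold cS; rw [hlev]; rfl
  generalize A.n (a, ⟨q, q4⟩) = n at n1 n2 hnl hS
  rw [div_le_iff₀ (by positivity)] at n1
  rw [div_add_one (by positivity), lt_div_iff₀ (by positivity)] at n2
  refine ⟨⟨q, q4⟩, fun hz => ?_, (hS z').2 fun l hl => ?_⟩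
  · have := (hS z).1 hz i (Finset.mem_Icc.2 ⟨le_rfl, (Finset.mem_Icc.1 hi).2⟩)
    nlinarith
  · rcases (Finset.mem_Icc.1 hl).1.eq_or_lt with rfl | hlt
    · have e : A.m0 * (n * A.v i) ≤ A.m0 * A.y i z' := by nlinarith
      exact le_of_mul_le_mul_left e hm
    · have h1 := hz' l (Finset.mem_Icc.2 ⟨hlt, (Finset.mem_Icc.1 hl).2⟩)
      have h2 : (n : ℝ) ≤ nb A.θ A.m i := by exact_mod_cast hnl
      exact (mul_le_mul_of_nonneg_right h2 (h.v_pos l).le).trans h1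

theorem OK.code_lt (h : A.OK ρ lam J) (x : X) {j k : ℤ} {D : ℕ} (hD : k = j + D)
    (hD1 : 1 / (4 * A.v A.h) ≤ D) (hD2 : D < A.D0) (hj : orb A.θ x j ∈ A.cG)
    (hk : orb A.θ x k ∈ A.cG) :
    1 / (4 * (A.m0 : ℝ)) ≤
      ∑ τ, A.ω τ * |ch (A.cS τ) (orb A.θ x j) - ch (A.cS τ) (orb A.θ x k)| := by
  classical
  have hm : (0 : ℝ) < A.m0 := by exact_mod_cast h.m0_pos
  obtain ⟨k0, hk0, hc⟩ := h.code D hD1 hD2
  have hcard := h.card_pos k0
  set z := orb A.θ x j with hz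
  set z' := orb A.θ x k with hz'
  set P : ℕ → Prop := fun i => ρ ≤ |D * A.v i - round (D * A.v i)| with hP
  set Good := (A.G k0).filter fun i => P i ∧ z ∈ A.cH i ∧ z' ∈ A.cH i with hGood
  have g1 : ((A.G k0).card : ℝ) ≤ 4 * Good.card := by
    have a1 : (((A.G k0).filter P).card : ℝ) ≤ Good.card + ∑ ν ∈ A.G k0, ch (A.cH ν)ᶜ z +
        ∑ ν ∈ A.G k0, ch (A.cH ν)ᶜ z' := by
      rw [hGood, Finset.card_filter, Finset.card_filter]
      push_cast
      rw [← Finset.sum_add_distrib, ← Finset.sum_add_distrib]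
      refine Finset.sum_le_sum fun i _ => ?_
      have b1 := ch_bounds (A.cH i)ᶜ z
      have b2 := ch_bounds (A.cH i)ᶜ z'
      by_cases c1 : z ∈ A.cH i
      · by_cases c2 : z' ∈ A.cH i
        · simp only [c1, c2, and_true]; linarith [b1.1, b2.1]
        · rw [ch_mem (S := (A.cH i)ᶜ) c2]; split_ifs <;> linarith [b1.1]
      · rw [ch_mem (S := (A.cH i)ᶜ) c1]; split_ifs <;> linarith [b2.1]
    have a2 := hj k0 hk0
    have a3 := hk k0 hk0
    have a4 : ((A.G k0).card : ℝ) ≤ 2 * (((A.G k0).filter P).card : ℝ) := by exact_mod_cast hc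
    linarith
  have hsub : Good ⊆ Finset.Icc A.I A.M := (Finset.filter_subset _ _).trans (h.G_sub hk0)
  have g2 : ∀ a : Fin (A.M0 + 1),
      (fun l => if l ∈ Good then 1 / (((A.G k0).card : ℝ) * A.m0) else 0) (A.I + a) ≤
        ∑ q : Fin A.m0, A.ω (a, q) * |ch (A.cS (a, q)) z - ch (A.cS (a, q)) z'| := by
    intro a
    have nn : ∀ q : Fin A.m0, 0 ≤ A.ω (a, q) * |ch (A.cS (a, q)) z - ch (A.cS (a, q)) z'| :=
      fun q => mul_nonneg (h.ω_nonneg _) (abs_nonneg _)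
    simp only
    split_ifs with hg
    · obtain ⟨m1, m2, m3, m4⟩ := Finset.mem_filter.1 hg
      have e := A.y_orb (A.I + a) x j D
      rw [← hD, ← hz, ← hz', ← Int.self_sub_floor, Int.cast_natCast] at e
      have r1 := round_le ((D : ℝ) * A.v (A.I + a))
        ⌊A.y (A.I + a) z + (D : ℝ) * A.v (A.I + a)⌋
      have r2 : ρ ≤ |A.y (A.I + a) z' - A.y (A.I + a) z| := by
        refine (le_trans m2 r1).trans (le_of_eq ?_)
        rw [e]; congr 1; ring
      obtain ⟨q, hq⟩ : ∃ q : Fin A.m0, |ch (A.cS (a, q)) z - ch (A.cS (a, q)) z'| = 1 := by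
        rcases le_abs.1 r2 with r | r
        · obtain ⟨q, c1, c2⟩ := h.sep_one (hsub hg) (z := z) m4 (by linarith) a rfl
          exact ⟨q, by rw [ch_not c1, ch_mem c2]; simp⟩
        · obtain ⟨q, c1, c2⟩ := h.sep_one (hsub hg) (z := z') m3 (by linarith) a rfl
          exact ⟨q, by rw [ch_not c1, ch_mem c2]; simp⟩
      refine le_trans (le_of_eq ?_) (Finset.single_le_sum (fun q _ => nn q) (Finset.mem_univ q))
      rw [hq, mul_one]
      show _ = A.wl (A.I + a) / A.m0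
      rw [h.wl_of_mem hk0 m1, div_div]
    · exact Finset.sum_nonneg fun q _ => nn q
  rw [Fintype.sum_prod_type]
  refine le_trans ?_ (Finset.sum_le_sum fun a _ => g2 a)
  rw [sum_lev A fun l => if l ∈ Good then 1 / (((A.G k0).card : ℝ) * A.m0) else 0,
    ← Finset.sum_filter, Finset.filter_mem_eq_inter, Finset.inter_eq_right.2 hsub,
    Finset.sum_const, nsmul_eq_mul, mul_one_div, div_le_div_iff₀ (by positivity) (by positivity)]
  nlinarith

theorem OK.code_st (h : A.OK ρ lam J) (x : X) {s s' j k : ℤ} (hs : orb A.θ x s ∈ A.cSt)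
    (hs' : orb A.θ x s' ∈ A.cSt) (hlt : s < s') (h2 : j < s + A.N) (h3 : s' ≤ k)
    (hj : orb A.θ x j ∈ A.cG) (hk : orb A.θ x k ∈ A.cG) (hD : |j - k| < A.D0) :
    1 / (4 * (A.m0 : ℝ)) ≤
      ∑ τ, A.ω τ * |ch (A.cS τ) (orb A.θ x j) - ch (A.cS τ) (orb A.θ x k)| := by
  have hv := h.v_pos A.h
  have hb := h.ell_bounds
  have f := h.st_far x hs hs' hlt
  have c1 : ((s' - s : ℤ) : ℝ) + 1 - A.N ≤ ((k - j : ℤ) : ℝ) := by
    exact_mod_cast (by omega : s' - s + 1 - A.N ≤ k - j)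
  have c2 := mul_le_mul_of_nonneg_right c1 hv.le
  have c3 : 1 / 4 ≤ ((k - j : ℤ) : ℝ) * A.v A.h := by
    have : A.ell = A.N * A.v A.h := rfl
    nlinarith
  have c4 : (0 : ℝ) < ((k - j : ℤ) : ℝ) := by
    by_contra hn
    nlinarith [mul_nonneg (neg_nonneg.2 (not_lt.1 hn)) hv.le]
  have c5 : 0 < k - j := by exact_mod_cast c4
  have c6 : (((k - j).toNat : ℕ) : ℤ) = k - j := Int.toNat_of_nonneg c5.le
  refine h.code_lt x (D := (k - j).toNat) (by omega) ?_ ?_ hj hk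
  · have : (((k - j).toNat : ℕ) : ℝ) = ((k - j : ℤ) : ℝ) := by exact_mod_cast c6
    rw [this, div_le_iff₀ (by positivity)]
    linarith
  · rw [abs_sub_comm, abs_of_pos c5] at hD
    omega

theorem OK.zs_ok (h : A.OK ρ lam J) (x : X) :
    (A.zs x).OK (fun j => A.w (orb A.θ x j)) A.Q (A.κ A.M) (1 / (4 * A.m0)) := by
  have hm : (1 : ℝ) ≤ A.m0 := by exact_mod_cast h.m0_pos
  have hκI := h.wt.κ_pos A.I
  have hv := h.v_pos A.h
  have hb := h.ell_bounds
  have hell : A.ell = A.N * A.v A.h := rfl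
  have hN : (1 : ℝ) ≤ A.N := by exact_mod_cast h.N_pos
  have hIh : A.I ≤ A.h := by have := h.I_lt_h; omega
  refine
    { Q_ge := ?_, N_pos := h.N_pos, N_le := ?_, c_pos := by positivity, c_le := ?_,
      D0_pos := h.D0_pos, κm_pos := h.wt.κ_pos _, κm_le := by linarith [h.κ_le_one A.M],
      κ0_ge := h.wt.κ_anti (h.h_le.trans (Nat.le_add_right _ _)),
      κ_ge := fun τ => h.wt.κ_anti (A.lev_mem τ).2, ω_nonneg := h.ω_nonneg, St_sep := ?_,
      K_sub := ?_, light := ?_, heavy := ?_, f_out := ?_, f_in := ?_, b_in := ?_, b_out := ?_,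
      code := ?_ }
  · unfold Q
    rw [le_div_iff₀ hκI]
    linarith [h.κ_le_one A.I]
  · show (A.N : ℝ) ≤ 1 / A.κ A.I
    rw [le_div_iff₀ hκI]
    have := mul_le_mul_of_nonneg_left (h.wt.κ_le A.I) (show (0 : ℝ) ≤ A.N by linarith)
    linarith [h.N_le]
  · rw [div_le_one (by positivity)]; linarith
  · intro s hs s' hs' hlt
    have f := h.st_far x hs hs' hlt
    by_contra hn
    have c1 : ((s' - s : ℤ) : ℝ) + 1 ≤ 2 * A.N := by
      have : s' - s + 1 ≤ 2 * (A.N : ℤ) := by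
        have : ¬ s + 2 * (A.N : ℤ) ≤ s' := hn
        omega
      exact_mod_cast this
    have c2 := mul_le_mul_of_nonneg_right c1 hv.le
    nlinarith
  · rw [zs_K]
    exact fun j hj => h.cK_sub hj
  · intro s hs
    have := (show orb A.θ x s ∈ A.cSt from hs).2.2
    rwa [gw_orb, add_zero] at this
  · intro s hs j n h1 h2 h3 h4 h5
    have h2' : j < s + A.N := h2
    have h3' : n < A.N := h3
    have h4' : s + A.N ≤ j + n := h4
    have hs1 := (show orb A.θ x s ∈ A.cSt from hs).1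
    have hs2 := (show orb A.θ x s ∈ A.cSt from hs).2.1
    have e := A.y_orb A.h x s (j + n - s)
    rw [add_sub_cancel] at e
    have c1 : (A.N : ℝ) ≤ ((j + n - s : ℤ) : ℝ) := by
      exact_mod_cast (by omega : (A.N : ℤ) ≤ j + n - s)
    have c2 : ((j + n - s : ℤ) : ℝ) + 1 ≤ A.N + n := by
      exact_mod_cast (by omega : j + n - s + 1 ≤ (A.N : ℤ) + n)
    have c3 : (n : ℝ) ≤ A.N := by exact_mod_cast h3'.le
    have d1 := mul_le_mul_of_nonneg_right c1 hv.le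
    have d2 := mul_le_mul_of_nonneg_right c2 hv.le
    have d3 := mul_le_mul_of_nonneg_right c3 hv.le
    rw [fr1 (by linarith) (by nlinarith)] at e
    have := h.hi' x (j + n) (n := n) le_rfl hIh (not_lt.1 h5) (by rw [e]; nlinarith)
    rw [add_sub_cancel_right] at this
    refine this.trans (div_le_div_of_nonneg_right ?_ (Th_pos _).le)
    linarith [h.κ_le_one A.I]
  · intro j hC hE
    have hC' : A.y A.h (orb A.θ x j) < 1 - A.ell := not_le.1 hC
    have hE' : orb A.θ x (j + A.N) ∉ A.cE1 := by rw [← orb_orb]; exact hE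
    simp only [cE1, Set.mem_setOf_eq, not_or, not_exists, not_and, not_lt] at hE'
    obtain ⟨e1, e2, e3, e4⟩ := hE'
    have e := A.y_orb A.h x j A.N
    have hy0 : 0 ≤ A.y A.h (orb A.θ x j) := yy_nonneg _ _ _
    rw [Int.cast_natCast, fr0 (by linarith) (by linarith)] at e
    have hnb : A.N ≤ nb A.θ A.m A.h := by
      have : (A.N : ℝ) ≤ (nb A.θ A.m A.h : ℝ) := by
        refine le_trans ?_ (Nat.le_ceil _)
        rw [le_div_iff₀ hv]; linarith
      exact_mod_cast this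
    have := h.lo' x (j + A.N) e1 hnb fun l hl => by
      rcases hl.eq_or_lt with rfl | hlt
      · exact e3 (by linarith)
      · exact e4 l hlt
    rwa [add_sub_cancel_right] at this
  · intro j hC hE
    have hC' : 1 - A.ell ≤ A.y A.h (orb A.θ x j) := hC
    have hE' : orb A.θ x (j + A.N) ∉ A.cE1 := by rw [← orb_orb]; exact hE
    simp only [cE1, Set.mem_setOf_eq, not_or, not_exists, not_and, not_lt] at hE'
    obtain ⟨e1, e2, e3, e4⟩ := hE'
    have e := A.y_orb A.h x j A.N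
    have hy1 : A.y A.h (orb A.θ x j) < 1 := yy_lt_one _ _ _
    rw [Int.cast_natCast, fr1 (by linarith) (by linarith)] at e
    have := h.hi' x (j + A.N) (n := A.N) hIh le_rfl e2 (by linarith)
    rwa [add_sub_cancel_right] at this
  · intro τ j hS hE
    have hS' : orb A.θ x j ∈ A.cS τ := hS
    have hE' : orb A.θ x j ∉ A.cE τ := hE
    simp only [cE, Set.mem_setOf_eq, not_or, not_exists, not_and, not_lt] at hE'
    obtain ⟨e1, e2, e3⟩ := hE'
    refine h.lo' x j e1 (h.n_le τ) fun l hl => ?_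
    rcases le_or_gt l A.M with hM | hM
    · have hl' := Finset.mem_Icc.2 ⟨hl, hM⟩
      exact (e2 l hl').2 (hS' l hl')
    · exact e3 l hM
  · intro τ j hS hE
    have hS' : orb A.θ x j ∉ A.cS τ := hS
    have hE' : orb A.θ x j ∉ A.cE τ := hE
    simp only [cE, Set.mem_setOf_eq, not_or, not_exists, not_and, not_lt] at hE'
    simp only [cS, Set.mem_setOf_eq, not_forall, not_le] at hS'
    obtain ⟨l, hl, hlt⟩ := hS'
    exact h.hi' x j (A.lev_mem τ).1 (Finset.mem_Icc.1 hl).1 (hE'.2.1 l hl).1 hlt.le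
  · intro s hs s' hs' hne j k h1 h2 h3 h4 hj hk hD
    have e : (A.zs x).sep j k =
        ∑ τ, A.ω τ * |ch (A.cS τ) (orb A.θ x j) - ch (A.cS τ) (orb A.θ x k)| := by
      refine Finset.sum_congr rfl fun τ _ => ?_
      rw [show ch ((A.zs x).S τ) j = ch (A.cS τ) (orb A.θ x j) from ch_congr Iff.rfl,
        show ch ((A.zs x).S τ) k = ch (A.cS τ) (orb A.θ x k) from ch_congr Iff.rfl]
      rfl
    rw [e]
    rcases lt_or_gt_of_ne hne with hlt | hlt
    · exact h.code_st x hs hs' hlt h2 h3 hj hk hD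
    · have := h.code_st x hs' hs hlt h4 h1 hk hj (by rw [abs_sub_comm]; exact hD)
      simpa only [abs_sub_comm] using this

end Par

end Crest.Agent.R113
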