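import Crest.Agent.R113.Inst
import Crest.Agent.R113.Dig

set_option autoImplicit false
set_option linter.unusedVariables false
open MeasureTheory
open scoped InnerProductSpace ComplexOrder

namespace Crest.Agent.R113

namespace IntAX

theorem ms_lt (m : ℕ → ℕ) (i : ℕ) (c : ℝ) : MeasurableSet {x | yy m i x < c} :=
  measurableSet_lt (measurable_yy m i) measurable_const

theorem ms_le (m : ℕ → ℕ) (i : ℕ) (c : ℝ) : MeasurableSet {x | c ≤ yy m i x} :=
  measurableSet_le measurable_const (measurable_yy m i)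

theorem mp_lt (m : ℕ → ℕ) (i : ℕ) (c : ℝ) : Measurable fun x => yy m i x < c :=
  measurableSet_setOfPred.1 (ms_lt m i c)

theorem mp_le (m : ℕ → ℕ) (i : ℕ) (c : ℝ) : Measurable fun x => c ≤ yy m i x :=
  measurableSet_setOfPred.1 (ms_le m i c)

theorem mp_mem {S : Set X} (hS : MeasurableSet S) : Measurable fun x => x ∈ S :=
  measurableSet_setOfPred.1 hS

/-- countable union bound -/
theorem geo2 {S : ℕ → Set X} {a b : ℝ}
    (h : ∀ k, mu.real (S k) ≤ a * (1 / 4) ^ k + b * (1 / 2) ^ k) :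
    mu.real (⋃ k, S k) ≤ 4 / 3 * a + 2 * b := by
  have h0 : ∀ k, 0 ≤ a * (1 / 4 : ℝ) ^ k + b * (1 / 2) ^ k := fun k => measureReal_nonneg.trans (h k)
  have hs : HasSum (fun k : ℕ => a * (1 / 4 : ℝ) ^ k + b * (1 / 2) ^ k) (4 / 3 * a + 2 * b) := by
    have h1 := (hasSum_geometric_of_lt_one (r := (1 / 4 : ℝ)) (by norm_num) (by norm_num)).mul_left a
    have h2 := (hasSum_geometric_of_lt_one (r := (1 / 2 : ℝ)) (by norm_num) (by norm_num)).mul_left b
    have e : 4 / 3 * a + 2 * b = a * (1 - 1 / 4)⁻¹ + b * (1 - 1 / 2)⁻¹ := by ring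
    rw [e]
    exact h1.add h2
  have h1 : mu (⋃ k, S k) ≤ ENNReal.ofReal (4 / 3 * a + 2 * b) := by
    rw [← hs.tsum_eq, ENNReal.ofReal_tsum_of_nonneg h0 hs.summable]
    refine (measure_iUnion_le S).trans (ENNReal.tsum_le_tsum fun k => ?_)
    rw [← ofReal_measureReal]
    exact ENNReal.ofReal_le_ofReal (h k)
  exact ENNReal.toReal_le_of_le_ofReal (hs.nonneg h0) h1

theorem half_anti {i j : ℕ} (h : i ≤ j) : (1 / 2 : ℝ) ^ j ≤ (1 / 2) ^ i :=
  pow_le_pow_of_le_one (by norm_num) (by norm_num) h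

theorem q64 (k : ℕ) : (1 / 64 : ℝ) ^ k ≤ (1 / 4) ^ k :=
  pow_le_pow_left₀ (by norm_num) (by norm_num) k

theorem q4 (k : ℕ) : (1 / 4 : ℝ) ^ k ≤ (1 / 2) ^ k :=
  pow_le_pow_left₀ (by norm_num) (by norm_num) k

theorem sum_lev (I K : ℕ) :
    ∑ a ∈ Finset.range K, (if I + a < K then (1 / 2 : ℝ) ^ (K - a) else 0) ≤ (1 / 2) ^ I := by
  rw [← Finset.sum_range_reflect]
  have h1 : ∑ j ∈ Finset.range K, (if I + (K - 1 - j) < K then (1 / 2 : ℝ) ^ (K - (K - 1 - j)) else 0)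
      = ∑ j ∈ Finset.Ico I K, (1 / 2 : ℝ) ^ j / 2 := by
    have h2 : Finset.Ico I K = (Finset.range K).filter fun j => I ≤ j := by
      ext l
      simp only [Finset.mem_Ico, Finset.mem_filter, Finset.mem_range]
      exact and_comm
    rw [h2, Finset.sum_filter]
    refine Finset.sum_congr rfl fun j hj => ?_
    have hj' := Finset.mem_range.1 hj
    have e : K - (K - 1 - j) = j + 1 := by omega
    have e2 : I + (K - 1 - j) < K ↔ I ≤ j := by omega
    simp only [e, e2, pow_succ]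
    split_ifs <;> ring
  rw [h1, ← Finset.sum_div]
  have := geom_sum_Ico_le_of_lt_one (x := (1 / 2 : ℝ)) (m := I) (n := K) (by norm_num) (by norm_num)
  have e : (1 / 2 : ℝ) ^ I / (1 - 1 / 2) = 2 * (1 / 2) ^ I := by ring
  linarith

end IntAX

open IntAX

namespace Par
variable {A : Par} {ρ lam : ℝ} {J : ℕ}

theorem OK.meas_cC (h : A.OK ρ lam J) : MeasurableSet A.cC := ms_le _ _ _

theorem OK.iaMeasSt (h : A.OK ρ lam J) : MeasurableSet A.cSt := by
  refine measurableSet_setOfPred.2 ((mp_le _ _ _).and ((mp_lt _ _ _).and ?_))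
  refine measurableSet_setOfPred.1 (measurableSet_le measurable_const ?_)
  exact Finset.measurable_prod _ fun i _ => h.wt.meas.comp (continuous_orb _ _).measurable

theorem OK.meas_cK (h : A.OK ρ lam J) : MeasurableSet A.cK :=
  measurableSet_setOfPred.2 (Measurable.exists fun _ => measurable_const.and
    ((mp_mem h.iaMeasSt).comp (continuous_orb _ _).measurable))

theorem OK.meas_cMg (h : A.OK ρ lam J) : MeasurableSet A.cMg := ms_lt _ _ _

theorem OK.iaMeasE1 (h : A.OK ρ lam J) : MeasurableSet A.cE1 :=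
  measurableSet_setOfPred.2 ((mp_mem (h.wt.Tb_meas _)).or ((mp_lt _ _ _).or
    (((mp_le _ _ _).and (mp_lt _ _ _)).or
      (Measurable.exists fun _ => measurable_const.and (mp_lt _ _ _)))))

theorem OK.meas_cE0 (h : A.OK ρ lam J) : MeasurableSet A.cE0 :=
  (continuous_orb A.θ A.N).measurable h.iaMeasE1

theorem OK.meas_cS (h : A.OK ρ lam J) (τ : A.T) : MeasurableSet (A.cS τ) :=
  measurableSet_setOfPred.2 (Measurable.forall fun _ => measurable_const.imp (mp_le _ _ _))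

theorem OK.meas_cE (h : A.OK ρ lam J) (τ : A.T) : MeasurableSet (A.cE τ) :=
  measurableSet_setOfPred.2 ((mp_mem (h.wt.Tb_meas _)).or
    ((Measurable.exists fun _ => measurable_const.and
      ((mp_lt _ _ _).or ((mp_le _ _ _).and (mp_lt _ _ _)))).or
      (Measurable.exists fun _ => measurable_const.and (mp_lt _ _ _))))

theorem OK.meas_cH (h : A.OK ρ lam J) (ν : ℕ) : MeasurableSet (A.cH ν) :=
  measurableSet_setOfPred.2 (Measurable.forall fun _ => measurable_const.imp (mp_le _ _ _))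

theorem OK.meas_cG (h : A.OK ρ lam J) : MeasurableSet A.cG := by
  refine measurableSet_setOfPred.2 (Measurable.forall fun k => measurable_const.imp ?_)
  refine measurableSet_setOfPred.1 (measurableSet_le ?_ measurable_const)
  exact (Finset.measurable_sum _ fun ν _ => measurable_ch (h.meas_cH ν).compl).const_mul 8

theorem OK.meas_Pi (h : A.OK ρ lam J) : Measurable A.Pi :=
  Finset.measurable_sum _ fun τ _ => (measurable_ch (h.meas_cS τ)).const_mul _

theorem OK.Pi_bounds (h : A.OK ρ lam J) (x : X) : 0 ≤ A.Pi x ∧ A.Pi x ≤ A.kmax := by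
  refine ⟨Finset.sum_nonneg fun τ _ => mul_nonneg (h.ω_nonneg τ) (ch_bounds _ x).1, ?_⟩
  rw [← h.sum_ω]
  exact Finset.sum_le_sum fun τ _ => mul_le_of_le_one_right (h.ω_nonneg τ) (ch_bounds _ x).2

theorem OK.Pb_bounds (h : A.OK ρ lam J) : 0 ≤ A.Pb ∧ A.Pb ≤ A.kmax := by
  refine ⟨integral_nonneg fun x => (h.Pi_bounds x).1, ?_⟩
  have := integral_mono_of_nonneg (μ := mu) (f := A.Pi) (g := fun _ => (A.kmax : ℝ))
    (Filter.Eventually.of_forall fun x => (h.Pi_bounds x).1) (integrable_const _)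
    (Filter.Eventually.of_forall fun x => (h.Pi_bounds x).2)
  simpa [Pb] using this

theorem OK.cC_eq (h : A.OK ρ lam J) : A.cC = {z | A.m A.h • z ∈ arc (-A.ell) A.ell} := by
  ext z
  exact (mem_arc_neg h.ell_bounds.1.le (by linarith [h.ell_bounds.2]) _).symm

theorem OK.mu_cC (h : A.OK ρ lam J) : mu.real A.cC = A.ell := by
  rw [h.cC_eq]
  exact ((mp_nsmul (h.spd.mult.pos A.h)).measureReal_preimage
    (measurableSet_arc (-A.ell) A.ell).nullMeasurableSet).trans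
    (mu_arc _ h.ell_bounds.1.le (by linarith [h.ell_bounds.2]))

theorem OK.iaIle (h : A.OK ρ lam J) : A.I ≤ A.h := le_trans (Nat.le_add_right _ _) h.chain.h_ge

theorem OK.mu_cMg (h : A.OK ρ lam J) : mu.real A.cMg ≤ (1 / 2) ^ A.I := by
  have h1 := mu_yy_lt (h.spd.mult.pos A.h) (h.spd.et_pos A.h).le
  have h2 := h.spd.et_le A.h
  have h3 := half_anti h.iaIle
  have h4 : (0 : ℝ) ≤ (1 / 2) ^ A.h := by positivity
  exact h1.trans (by linarith)

theorem OK.iaMemK (h : A.OK ρ lam J) {x : X} (hx : x ∈ A.cC) (hT : x ∉ A.Tb A.I)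
    (ha : ∀ i, A.I ≤ i → i ≠ A.h →
      A.m i • x ∉ arc (-(A.N * A.v i)) (2 * (A.N * A.v i) + A.η i)) : x ∈ A.cK := by
  have hv := h.spd.vt_pos
  have hy1 := yy_lt_one A.m A.h x
  have hx' : 1 - A.ell ≤ yy A.m A.h x := hx
  obtain ⟨hl0, hl1⟩ := h.ell_bounds
  have hell : A.ell = A.N * vt A.θ A.m A.h := rfl
  set l : ℕ := ⌊(yy A.m A.h x - (1 - A.ell)) / vt A.θ A.m A.h⌋₊ with hl
  have hq0 : 0 ≤ (yy A.m A.h x - (1 - A.ell)) / vt A.θ A.m A.h := div_nonneg (by linarith) (hv _).le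
  have l1 : (l : ℝ) * vt A.θ A.m A.h ≤ yy A.m A.h x - (1 - A.ell) :=
    (le_div_iff₀ (hv _)).1 (Nat.floor_le hq0)
  have l2 : yy A.m A.h x - (1 - A.ell) < (l + 1) * vt A.θ A.m A.h :=
    (div_lt_iff₀ (hv _)).1 (Nat.lt_floor_add_one _)
  have lN : l < A.N := by
    have : (l : ℝ) * vt A.θ A.m A.h < A.N * vt A.θ A.m A.h := by linarith
    exact_mod_cast lt_of_mul_lt_mul_right this (hv _).le
  have key : ∀ i : ℕ, i < A.N → yy A.m A.h (orb A.θ x (-(l : ℤ) + i)) =
      yy A.m A.h x + (-(l : ℝ) + i) * vt A.θ A.m A.h := by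
    intro i hi
    have hi' : (i : ℝ) + 1 ≤ A.N := by exact_mod_cast hi
    have := mul_le_mul_of_nonneg_right hi' (hv A.h).le
    have := mul_nonneg (Nat.cast_nonneg (α := ℝ) i) (hv A.h).le
    rw [yy_orb, Int.fract_eq_self.2]
    · push_cast
      ring
    · push_cast
      constructor <;> nlinarith
  have hNb : A.N ≤ nb A.θ A.m A.I := by
    have h1 : (A.N : ℝ) ≤ 1 / vt A.θ A.m A.I := by
      rw [le_div_iff₀ (hv _)]
      linarith [h.N_le]
    exact_mod_cast h1.trans (Nat.le_ceil _)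
  have k0 := key 0 h.N_pos
  simp only [Nat.cast_zero, add_zero] at k0
  refine ⟨l, lN, ?_, ?_, ?_⟩
  · change 1 - A.ell ≤ yy A.m A.h _
    rw [k0]
    linarith
  · change yy A.m A.h _ < 1 - A.ell + vt A.θ A.m A.h
    rw [k0]
    linarith
  · rw [gw_orb, add_zero, Q, one_div_one_div]
    refine h.wt.lo A.I x A.N (-(l : ℤ)) hT hNb (by omega) (by omega) fun i hi j hj => ?_
    by_cases hjh : j = A.h
    · subst hjh
      rw [key i hi]
      have h1 := h.spd.et_le A.h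
      have h2 : (1 / 2 : ℝ) ^ A.h ≤ 1 := pow_le_one₀ (by norm_num) (by norm_num)
      have := mul_nonneg (Nat.cast_nonneg (α := ℝ) i) (hv A.h).le
      nlinarith
    · have h1 := ha j hj hjh
      simp only [arc, Set.mem_ofPred_eq, not_lt] at h1
      set u := ph (A.m j • x - ((-(A.N * vt A.θ A.m j) : ℝ) : X)) with hu
      have hu1 : u < 1 := ph_lt_one _
      have e : yy A.m j (orb A.θ x (-(l : ℤ) + i)) =
          Int.fract (u + (-(l : ℝ) + i - A.N) * vt A.θ A.m j) := by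
        rw [yy, nsmul_orb, ← ph_coe]
        congr 1
        rw [AddCircle.coe_add, hu, coe_ph, sub_eq_add_neg, ← AddCircle.coe_neg, add_assoc,
          ← AddCircle.coe_add]
        congr 2
        push_cast
        ring
      have hi' : (i : ℝ) ≤ A.N := by exact_mod_cast hi.le
      have hl' : (l : ℝ) ≤ A.N := by exact_mod_cast lN.le
      have hi0 : (0 : ℝ) ≤ i := Nat.cast_nonneg _
      have hl0' : (0 : ℝ) ≤ l := Nat.cast_nonneg _
      have p1 : (-(l : ℝ) + i - A.N) * vt A.θ A.m j ≤ 0 :=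
        mul_nonpos_of_nonpos_of_nonneg (by linarith) (hv j).le
      have p2 : (-(2 * A.N : ℝ)) * vt A.θ A.m j ≤ (-(l : ℝ) + i - A.N) * vt A.θ A.m j :=
        mul_le_mul_of_nonneg_right (by linarith) (hv j).le
      have p3 := h.spd.et_pos j
      have h1' : 2 * (A.N * vt A.θ A.m j) + et A.θ A.m j ≤ u := h1
      rw [e, Int.fract_eq_self.2 ⟨by linarith, by linarith⟩]
      linarith

theorem OK.mu_cC_diff (h : A.OK ρ lam J) : mu.real (A.cC \ A.cK) ≤ (1 / 2) ^ A.I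
    + (A.ell + 2 * (1 / 2) ^ A.I) * (3 * (A.N * A.v A.I) + 4 * (1 / 2) ^ A.I) := by
  classical
  have hv := h.spd.vt_pos
  obtain ⟨hl0, hl1⟩ := h.ell_bounds
  set S : ℕ → Set X := fun k => if A.I + k = A.h then ∅ else
    {z | A.m A.h • z ∈ arc (-A.ell) A.ell} ∩ {x | A.m (A.I + k) • x ∈
      arc (-(A.N * A.v (A.I + k))) (2 * (A.N * A.v (A.I + k)) + A.η (A.I + k))} with hS
  have hsub : A.cC \ A.cK ⊆ A.Tb A.I ∪ ⋃ k, S k := by
    rintro x ⟨hx, hK⟩
    by_contra hc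
    rw [Set.mem_union, not_or, Set.mem_iUnion, not_exists] at hc
    refine hK (h.iaMemK hx hc.1 fun i hi hih hm => ?_)
    obtain ⟨k, rfl⟩ := Nat.exists_eq_add_of_le hi
    refine hc.2 k ?_
    rw [hS]
    simp only [if_neg hih]
    exact ⟨h.cC_eq ▸ hx, hm⟩
  set P : ℝ := (1 / 2) ^ A.I with hP
  have hP0 : 0 < P := by positivity
  have hNv : 0 ≤ (A.N : ℝ) * A.v A.I := mul_nonneg (Nat.cast_nonneg _) (hv _).le
  have hc0 : 0 ≤ A.ell + 2 * P := by positivity
  have hU := geo2 (S := S) (a := (A.ell + 2 * P) * (2 * (A.N * A.v A.I) + 2 * P))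
    (b := (A.ell + 2 * P) * (P / 8)) (fun k => by
      rw [hS]
      simp only []
      split_ifs with hk
      · rw [measureReal_empty]
        positivity
      · have hη := h.spd.et_pos (A.I + k)
        have hNv' : 0 ≤ (A.N : ℝ) * A.v (A.I + k) := mul_nonneg (Nat.cast_nonneg _) (hv _).le
        refine (pairArc h.spd.mult (Ne.symm hk) _ _ hl0.le (by positivity)).trans ?_
        rw [mul_assoc (A.ell + 2 * P), mul_assoc (A.ell + 2 * P), ← mul_add]
        refine mul_le_mul ?_ ?_ (by positivity) hc0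
        · linarith [q4 A.h, half_anti h.iaIle]
        · have a1 := h.spd.vt_le (Nat.le_add_right A.I k)
          rw [Nat.add_sub_cancel_left] at a1
          have a2 : (A.N : ℝ) * A.v (A.I + k) ≤ A.N * A.v A.I * (1 / 4) ^ k := by
            rw [mul_assoc]
            exact mul_le_mul_of_nonneg_left
              (a1.trans (mul_le_mul_of_nonneg_left (q64 k) (hv _).le)) (Nat.cast_nonneg _)
          have a3 := h.spd.et_le (A.I + k)
          rw [pow_add, ← hP] at a3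
          have a4 : (1 / 4 : ℝ) ^ (A.I + k) ≤ P * (1 / 4) ^ k := by
            rw [pow_add]
            exact mul_le_mul_of_nonneg_right (q4 _) (by positivity)
          have a3' : A.η (A.I + k) ≤ P * (1 / 2) ^ k / 8 := a3
          linarith)
  refine (measureReal_mono hsub).trans ((measureReal_union_le _ _).trans ?_)
  have h1 := h.wt.Tb_le A.I
  have h2 : 4 / 3 * ((A.ell + 2 * P) * (2 * (A.N * A.v A.I) + 2 * P)) + 2 * ((A.ell + 2 * P) * (P / 8))
      ≤ (A.ell + 2 * P) * (3 * (A.N * A.v A.I) + 4 * P) := by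
    have : 4 / 3 * ((A.ell + 2 * P) * (2 * (A.N * A.v A.I) + 2 * P)) + 2 * ((A.ell + 2 * P) * (P / 8))
      = (A.ell + 2 * P) * (8 / 3 * (A.N * A.v A.I) + 35 / 12 * P) := by ring
    rw [this]
    exact mul_le_mul_of_nonneg_left (by linarith) hc0
  linarith

theorem OK.mu_cE0 (h : A.OK ρ lam J) :
    mu.real A.cE0 ≤ 2 * (1 / 2) ^ A.I + 2 * A.ell ^ 2 / (A.N * A.v A.I) := by
  have hv := h.spd.vt_pos
  have hN : (0 : ℝ) < A.N := by exact_mod_cast h.N_pos
  have e0 : mu.real A.cE0 = mu.real A.cE1 :=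
    (mp_orb A.θ A.N).measureReal_preimage h.iaMeasE1.nullMeasurableSet
  set S : ℕ → Set X := fun k =>
    {z | yy A.m (A.h + 1 + k) z < A.N * A.v (A.h + 1 + k) + A.η (A.h + 1 + k)} with hS
  have hsub : A.cE1 ⊆ A.Tb A.h ∪ {z | yy A.m A.h z < A.η A.h} ∪
      {z | A.ell ≤ yy A.m A.h z ∧ yy A.m A.h z < A.ell + A.η A.h} ∪ ⋃ k, S k := by
    rintro z (hz | hz | hz | ⟨i, hi, hz⟩)
    · exact Or.inl (Or.inl (Or.inl hz))
    · exact Or.inl (Or.inl (Or.inr hz))
    · exact Or.inl (Or.inr hz)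
    · obtain ⟨k, rfl⟩ := Nat.exists_eq_add_of_le (Nat.succ_le_of_lt hi)
      exact Or.inr (Set.mem_iUnion.2 ⟨k, hz⟩)
  set P : ℝ := (1 / 2) ^ A.I with hP
  have hP0 : 0 < P := by positivity
  have hh : (1 / 2 : ℝ) ^ A.h ≤ P := half_anti h.iaIle
  have hU := geo2 (S := S) (a := A.N * A.v (A.h + 1)) (b := P / 8) (fun k => by
    have hη := h.spd.et_pos (A.h + 1 + k)
    have hNv' : 0 ≤ (A.N : ℝ) * A.v (A.h + 1 + k) := mul_nonneg hN.le (hv _).le
    refine (mu_yy_lt (h.spd.mult.pos _) (by positivity)).trans ?_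
    have a1 := h.spd.vt_le (Nat.le_add_right (A.h + 1) k)
    rw [Nat.add_sub_cancel_left] at a1
    have a2 : (A.N : ℝ) * A.v (A.h + 1 + k) ≤ A.N * A.v (A.h + 1) * (1 / 4) ^ k := by
      rw [mul_assoc]
      exact mul_le_mul_of_nonneg_left
        (a1.trans (mul_le_mul_of_nonneg_left (q64 k) (hv _).le)) hN.le
    have a3 : A.η (A.h + 1 + k) ≤ (1 / 2) ^ (A.h + 1 + k) / 8 := h.spd.et_le _
    have a4 : (1 / 2 : ℝ) ^ (A.h + 1 + k) ≤ P * (1 / 2) ^ k := by
      rw [pow_add]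
      exact mul_le_mul_of_nonneg_right (half_anti (by linarith [h.iaIle])) (by positivity)
    linarith)
  have b1 := h.wt.Tb_le A.h
  have b2 := mu_yy_lt (h.spd.mult.pos A.h) (h.spd.et_pos A.h).le
  have b3 := mu_yy_Ico (h.spd.mult.pos A.h) A.ell (h.spd.et_pos A.h).le
  have b4 := h.spd.et_le A.h
  have b5 : (A.N : ℝ) * A.v (A.h + 1) ≤ A.ell ^ 2 / (A.N * A.v A.I) := by
    refine (mul_le_mul_of_nonneg_left h.chain.jump hN.le).trans (le_of_eq ?_)
    have := (hv A.I).ne'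
    rw [ell]
    field_simp
  have b6 : 0 ≤ (A.N : ℝ) * A.v (A.h + 1) := mul_nonneg hN.le (hv _).le
  have c1 := measureReal_union_le (μ := mu) (A.Tb A.h ∪ {z | yy A.m A.h z < A.η A.h} ∪
      {z | A.ell ≤ yy A.m A.h z ∧ yy A.m A.h z < A.ell + A.η A.h}) (⋃ k, S k)
  have c2 := measureReal_union_le (μ := mu) (A.Tb A.h ∪ {z | yy A.m A.h z < A.η A.h})
      {z | A.ell ≤ yy A.m A.h z ∧ yy A.m A.h z < A.ell + A.η A.h}
  have c3 := measureReal_union_le (μ := mu) (A.Tb A.h) {z | yy A.m A.h z < A.η A.h}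
  have c4 := measureReal_mono (μ := mu) hsub
  rw [e0, mul_div_assoc]
  linarith

theorem OK.iaMuE (h : A.OK ρ lam J) (τ : A.T) :
    mu.real (A.cE τ) ≤ 7 / 4 * (1 / 2) ^ A.lev τ + 8 / 3 * (1 / 2) ^ (A.M + 1 - A.lev τ) := by
  have hv := h.spd.vt_pos
  set ν := A.lev τ with hν
  have hνM : ν ≤ A.M := (lev_mem A τ).2
  set S₁ : ℕ → Set X := fun k => {x | yy A.m (ν + k) x < A.η (ν + k)} ∪
    {x | A.n τ * A.v (ν + k) ≤ yy A.m (ν + k) x ∧ yy A.m (ν + k) x < A.n τ * A.v (ν + k) + A.η (ν + k)}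
    with hS₁
  set S₂ : ℕ → Set X := fun k =>
    {x | yy A.m (A.M + 1 + k) x < A.n τ * A.v (A.M + 1 + k) + A.η (A.M + 1 + k)} with hS₂
  have hsub : A.cE τ ⊆ A.Tb ν ∪ (⋃ k, S₁ k) ∪ ⋃ k, S₂ k := by
    rintro z (hz | ⟨i, hi, hz⟩ | ⟨i, hi, hz⟩)
    · exact Or.inl (Or.inl hz)
    · obtain ⟨k, rfl⟩ := Nat.exists_eq_add_of_le (Finset.mem_Icc.1 hi).1
      exact Or.inl (Or.inr (Set.mem_iUnion.2 ⟨k, hz⟩))
    · obtain ⟨k, rfl⟩ := Nat.exists_eq_add_of_le (Nat.succ_le_of_lt hi)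
      exact Or.inr (Set.mem_iUnion.2 ⟨k, hz⟩)
  set P : ℝ := (1 / 2) ^ ν with hP
  have hP0 : 0 < P := by positivity
  have hU₁ := geo2 (S := S₁) (a := 0) (b := P / 4) (fun k => by
    have a1 := mu_yy_lt (h.spd.mult.pos (ν + k)) (h.spd.et_pos (ν + k)).le
    have a2 := mu_yy_Ico (h.spd.mult.pos (ν + k)) (A.n τ * A.v (ν + k)) (h.spd.et_pos (ν + k)).le
    have a3 := h.spd.et_le (ν + k)
    rw [pow_add, ← hP] at a3
    refine (measureReal_union_le _ _).trans ?_
    linarith)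
  have hU₂ := geo2 (S := S₂) (a := 2 * (1 / 2) ^ (A.M + 1 - ν)) (b := P / 8) (fun k => by
    have hη := h.spd.et_pos (A.M + 1 + k)
    have hNv' : 0 ≤ (A.n τ : ℝ) * A.v (A.M + 1 + k) := mul_nonneg (Nat.cast_nonneg _) (hv _).le
    refine (mu_yy_lt (h.spd.mult.pos _) (by positivity)).trans ?_
    have a1 := h.spd.nb_mul_le (ν := ν) (i := A.M + 1 + k) (by omega)
    have a2 : (A.n τ : ℝ) * A.v (A.M + 1 + k) ≤ nb A.θ A.m ν * vt A.θ A.m (A.M + 1 + k) :=
      mul_le_mul_of_nonneg_right (by exact_mod_cast h.n_le τ) (hv _).le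
    have a5 : (1 / 64 : ℝ) ^ (A.M + 1 + k - ν) ≤ (1 / 2) ^ (A.M + 1 - ν) * (1 / 4) ^ k := by
      rw [show A.M + 1 + k - ν = (A.M + 1 - ν) + k by omega, pow_add]
      exact mul_le_mul ((q64 _).trans (q4 _)) (q64 k) (by positivity) (by positivity)
    have a3 : A.η (A.M + 1 + k) ≤ (1 / 2) ^ (A.M + 1 + k) / 8 := h.spd.et_le _
    have a4 : (1 / 2 : ℝ) ^ (A.M + 1 + k) ≤ P * (1 / 2) ^ k := by
      rw [pow_add]
      exact mul_le_mul_of_nonneg_right (half_anti (by omega)) (by positivity)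
    linarith)
  have b1 := h.wt.Tb_le ν
  have c1 := measureReal_union_le (μ := mu) (A.Tb ν ∪ (⋃ k, S₁ k)) (⋃ k, S₂ k)
  have c2 := measureReal_union_le (μ := mu) (A.Tb ν) (⋃ k, S₁ k)
  have c4 := measureReal_mono (μ := mu) hsub
  linarith

theorem OK.mu_cE (h : A.OK ρ lam J) : ∑ τ, A.ω τ * mu.real (A.cE τ) ≤ 8 * (1 / 2) ^ A.I := by
  have hm0 : (0 : ℝ) < A.m0 := by exact_mod_cast h.m0_pos
  set F : ℕ → ℝ := fun a => 7 / 4 * ((1 / 2) ^ A.I * (1 / 2) ^ a)
    + 8 / 3 * (if A.I + a < A.M0 + 1 then (1 / 2 : ℝ) ^ (A.M0 + 1 - a) else 0) with hF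
  have h1 : ∀ τ : A.T, A.ω τ * mu.real (A.cE τ) ≤ F τ.1 / A.m0 := by
    intro τ
    have hF0 : 0 ≤ F τ.1 := by
      rw [hF]
      simp only []
      split_ifs <;> positivity
    by_cases hτ : A.I + τ.1 < A.M0 + 1
    · have a1 := h.iaMuE τ
      have e : A.M + 1 - A.lev τ = A.M0 + 1 - τ.1 := by
        simp only [M, lev]
        omega
      rw [e, lev, pow_add] at a1
      have a2 : mu.real (A.cE τ) ≤ F τ.1 := by
        rw [hF]
        simp only [if_pos hτ]
        exact a1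
      rw [ω, div_mul_eq_mul_div]
      refine div_le_div_of_nonneg_right ?_ hm0.le
      exact (mul_le_of_le_one_left measureReal_nonneg (h.wl_le _).2).trans a2
    · rw [ω, h.wl_eq_zero (Or.inr (by simp only [lev]; omega)), zero_div, zero_mul]
      positivity
  refine (Finset.sum_le_sum fun τ _ => h1 τ).trans ?_
  rw [Fintype.sum_prod_type]
  simp only [Finset.sum_const, Finset.card_univ, Fintype.card_fin, nsmul_eq_mul]
  have e : ∀ a : Fin (A.M0 + 1), (A.m0 : ℝ) * (F a / A.m0) = F a := fun a => by field_simp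
  simp only [e]
  rw [Fin.sum_univ_eq_sum_range F, hF]
  simp only [Finset.sum_add_distrib, ← Finset.mul_sum]
  have b1 := sum_lev A.I (A.M0 + 1)
  have b2 : ∑ a ∈ Finset.range (A.M0 + 1), (1 / 2 : ℝ) ^ a ≤ 2 := sum_geometric_two_le _
  have b3 : (0 : ℝ) < (1 / 2) ^ A.I := by positivity
  nlinarith

end Par

end Crest.Agent.R113
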