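import Crest.Agent.R113.Ph

set_option autoImplicit false
open MeasureTheory
open scoped InnerProductSpace ComplexOrder

namespace Crest.Agent.R113

/-- weighted count of avoided digit events -/
noncomputable def Fd {Ω T : Type*} [Fintype T] (d : ℕ → Ω → ℕ) (ν : T → ℕ) (ω : T → ℝ)
    (A : T → ℕ → Set ℕ) (M : ℕ) (x : Ω) : ℝ :=
  ∑ τ, ω τ * ch {z | ∀ i ∈ Finset.Icc (ν τ) M, d i z ∉ A τ i} x

namespace VarD

theorem geo (s : Finset ℕ) (f : ℕ → ℕ) (hf : Set.InjOn f s) :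
    ∑ i ∈ s, (1 / 4 : ℝ) ^ f i ≤ 4 / 3 := by
  rw [← Finset.sum_image (f := fun k => (1 / 4 : ℝ) ^ k) hf]
  have h := summable_geometric_of_lt_one (r := (1 / 4 : ℝ)) (by norm_num) (by norm_num)
  refine (h.sum_le_tsum _ fun _ _ => by positivity).trans ?_
  rw [tsum_geometric_of_lt_one (by norm_num) (by norm_num)]
  norm_num

/-- one-sided kernel -/
noncomputable def K (a b : ℕ) : ℝ := if a ≤ b then (1 / 4) ^ (b - a) else 0

theorem K_nonneg (a b : ℕ) : 0 ≤ K a b := by unfold K; split_ifs <;> positivity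

theorem row (s : Finset ℕ) (a : ℕ) : ∑ b ∈ s, K a b ≤ 4 / 3 := by
  unfold K
  rw [← Finset.sum_filter]
  refine geo _ (fun b => b - a) fun x hx y hy h => ?_
  have := (Finset.mem_filter.1 hx).2
  have := (Finset.mem_filter.1 hy).2
  simp only at h
  omega

theorem col (s : Finset ℕ) (b : ℕ) : ∑ a ∈ s, K a b ≤ 4 / 3 := by
  unfold K
  rw [← Finset.sum_filter]
  refine geo _ (fun a => b - a) fun x hx y hy h => ?_
  have := (Finset.mem_filter.1 hx).2
  have := (Finset.mem_filter.1 hy).2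
  simp only at h
  omega

theorem quad (s : Finset ℕ) (W : ℕ → ℝ) :
    ∑ a ∈ s, ∑ b ∈ s, W a * W b * K a b ≤ 4 / 3 * ∑ a ∈ s, W a ^ 2 := by
  have h1 : ∑ a ∈ s, ∑ b ∈ s, W a ^ 2 * K a b ≤ 4 / 3 * ∑ a ∈ s, W a ^ 2 := by
    rw [Finset.mul_sum]
    refine Finset.sum_le_sum fun a _ => ?_
    rw [← Finset.mul_sum, mul_comm]
    exact mul_le_mul_of_nonneg_right (row s a) (sq_nonneg _)
  have h2 : ∑ a ∈ s, ∑ b ∈ s, W b ^ 2 * K a b ≤ 4 / 3 * ∑ a ∈ s, W a ^ 2 := by
    rw [Finset.sum_comm, Finset.mul_sum]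
    refine Finset.sum_le_sum fun a _ => ?_
    rw [← Finset.mul_sum, mul_comm]
    exact mul_le_mul_of_nonneg_right (col s a) (sq_nonneg _)
  have h3 : 2 * ∑ a ∈ s, ∑ b ∈ s, W a * W b * K a b ≤
      ∑ a ∈ s, ∑ b ∈ s, W a ^ 2 * K a b + ∑ a ∈ s, ∑ b ∈ s, W b ^ 2 * K a b := by
    rw [Finset.mul_sum, ← Finset.sum_add_distrib]
    refine Finset.sum_le_sum fun a _ => ?_
    rw [Finset.mul_sum, ← Finset.sum_add_distrib]
    refine Finset.sum_le_sum fun b _ => ?_
    nlinarith [mul_nonneg (K_nonneg a b) (sq_nonneg (W a - W b))]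
  linarith

theorem sum_lw {T : Type*} [Fintype T] (ν : T → ℕ) (ω : T → ℝ) (s : Finset ℕ) (hs : ∀ τ, ν τ ∈ s)
    (g : ℕ → ℝ) : ∑ τ, ω τ * g (ν τ) = ∑ l ∈ s, lw ν ω l * g l := by
  simp only [lw, Finset.sum_mul]
  rw [Finset.sum_comm]
  refine Finset.sum_congr rfl fun τ _ => ?_
  simp [ite_mul, hs τ]

variable {Ω : Type*} [MeasurableSpace Ω] (μ : Measure Ω) [IsProbabilityMeasure μ]

theorem int_ch {E : Set Ω} (hE : MeasurableSet E) :
    Integrable (ch E) μ ∧ ∫ x, ch E x ∂μ = μ.real E := by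
  refine ⟨(integrable_const (1 : ℝ)).indicator hE, ?_⟩
  unfold ch
  rw [integral_indicator hE]
  simp

theorem cov_eq {E F : Set Ω} (hE : MeasurableSet E) (hF : MeasurableSet F) :
    Integrable (fun x => (ch E x - μ.real E) * (ch F x - μ.real F)) μ ∧
      ∫ x, (ch E x - μ.real E) * (ch F x - μ.real F) ∂μ = μ.real (E ∩ F) - μ.real E * μ.real F := by
  have e : (fun x => (ch E x - μ.real E) * (ch F x - μ.real F)) = fun x =>
      ch (E ∩ F) x - μ.real F * ch E x - μ.real E * ch F x + μ.real E * μ.real F := by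
    funext x
    by_cases h1 : x ∈ E <;> by_cases h2 : x ∈ F <;> simp [ch, h1, h2] <;> ring
  obtain ⟨i1, j1⟩ := int_ch μ hE
  obtain ⟨i2, j2⟩ := int_ch μ hF
  obtain ⟨i3, j3⟩ := int_ch μ (hE.inter hF)
  have k1 : Integrable (fun x => ch (E ∩ F) x - μ.real F * ch E x) μ := i3.sub (i1.const_mul _)
  have k2 : Integrable (fun x => ch (E ∩ F) x - μ.real F * ch E x - μ.real E * ch F x) μ :=
    k1.sub (i2.const_mul _)
  rw [e]
  refine ⟨k2.add (integrable_const _), ?_⟩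
  rw [integral_add k2 (integrable_const _), integral_sub k1 (i2.const_mul _),
    integral_sub i3 (i1.const_mul _), integral_const_mul, integral_const_mul, j1, j2, j3]
  simp
  ring

variable {μ} {d : ℕ → Ω → ℕ}

theorem meas_ev (hd : ∀ i, Measurable (d i)) (s : Finset ℕ) (A : ℕ → Set ℕ) :
    MeasurableSet {z | ∀ i ∈ s, d i z ∉ A i} := by
  have : {z | ∀ i ∈ s, d i z ∉ A i} = ⋂ i ∈ s, d i ⁻¹' (A i)ᶜ := by ext z; simp
  rw [this]
  exact s.measurableSet_biInter fun i _ => hd i trivial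

omit [IsProbabilityMeasure μ] in
theorem prob_ev (hind : ProbabilityTheory.iIndepFun d μ) (s : Finset ℕ) (A : ℕ → Set ℕ) :
    μ.real {z | ∀ i ∈ s, d i z ∉ A i} = ∏ i ∈ s, μ.real (d i ⁻¹' (A i)ᶜ) := by
  have : {z | ∀ i ∈ s, d i z ∉ A i} = ⋂ i ∈ s, d i ⁻¹' (A i)ᶜ := by ext z; simp
  rw [this, Measure.real, hind.measure_inter_preimage_eq_mul s fun _ _ => trivial,
    ENNReal.toReal_prod]
  rfl

theorem cov_le (hind : ProbabilityTheory.iIndepFun d μ) {a b M : ℕ} (hab : a ≤ b) (hb : b ≤ M)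
    (A A' : ℕ → Set ℕ) (hA : ∀ i, a ≤ i → μ.real {x | d i x ∈ A i} ≤ 4 * (1 / 4) ^ (i - a)) :
    μ.real ({z | ∀ i ∈ Finset.Icc a M, d i z ∉ A i} ∩ {z | ∀ i ∈ Finset.Icc b M, d i z ∉ A' i}) -
      μ.real {z | ∀ i ∈ Finset.Icc a M, d i z ∉ A i} *
        μ.real {z | ∀ i ∈ Finset.Icc b M, d i z ∉ A' i} ≤ 16 / 3 * K a b := by
  set E := {z | ∀ i ∈ Finset.Icc a M, d i z ∉ A i}
  set F := {z | ∀ i ∈ Finset.Icc b M, d i z ∉ A' i} with hF
  set E' := {z | ∀ i ∈ Finset.Ico a b, d i z ∉ A i} with hE'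
  have h1 : μ.real (E ∩ F) ≤ μ.real E' * μ.real F := by
    have hdis : Disjoint (Finset.Ico a b) (Finset.Icc b M) := by
      rw [Finset.disjoint_left]; intro i h h'
      rw [Finset.mem_Ico] at h; rw [Finset.mem_Icc] at h'; omega
    have := prob_ev hind (Finset.Ico a b ∪ Finset.Icc b M) fun i => if i < b then A i else A' i
    rw [Finset.prod_union hdis,
      Finset.prod_congr rfl (fun i hi => by rw [if_pos (Finset.mem_Ico.1 hi).2]),
      Finset.prod_congr (s₁ := Finset.Icc b M) rfl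
        (fun i hi => by rw [if_neg (not_lt.2 (Finset.mem_Icc.1 hi).1)]),
      ← prob_ev hind, ← prob_ev hind] at this
    rw [← this]
    refine measureReal_mono fun z hz i hi => ?_
    rw [Finset.mem_union, Finset.mem_Ico, Finset.mem_Icc] at hi
    split_ifs with h
    · exact hz.1 i (Finset.mem_Icc.2 (by omega))
    · exact hz.2 i (Finset.mem_Icc.2 (by omega))
  have h2 : μ.real E' ≤ μ.real E + 16 / 3 * K a b := by
    have hsub : E' ⊆ E ∪ ⋃ i ∈ Finset.Icc b M, {x | d i x ∈ A i} := by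
      intro z hz
      by_contra hn
      simp only [Set.mem_union, Set.mem_iUnion, not_or, not_exists] at hn
      refine hn.1 fun i hi h => ?_
      rw [Finset.mem_Icc] at hi
      by_cases hib : i < b
      · exact hz i (Finset.mem_Ico.2 ⟨hi.1, hib⟩) h
      · exact hn.2 i (Finset.mem_Icc.2 ⟨not_lt.1 hib, hi.2⟩) h
    refine (measureReal_mono hsub).trans ((measureReal_union_le _ _).trans ?_)
    gcongr
    refine (measureReal_biUnion_finset_le _ _).trans ?_
    calc _ ≤ ∑ i ∈ Finset.Icc b M, 4 * K a b * K b i := Finset.sum_le_sum fun i hi => by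
          have hi' := (Finset.mem_Icc.1 hi).1
          refine (hA i (hab.trans hi')).trans (le_of_eq ?_)
          rw [K, K, if_pos hab, if_pos hi', mul_assoc, ← pow_add]
          congr 2
          omega
      _ ≤ 4 * K a b * (4 / 3) := by
          rw [← Finset.mul_sum]
          exact mul_le_mul_of_nonneg_left (row _ _) (by have := K_nonneg a b; positivity)
      _ = _ := by ring
  have h3 : μ.real F ≤ 1 := measureReal_le_one
  have h4 : 0 ≤ μ.real F := measureReal_nonneg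
  have h5 := K_nonneg a b
  nlinarith

end VarD

variable {Ω T : Type*} [MeasurableSpace Ω] [Fintype T]

theorem varD (μ : Measure Ω) [IsProbabilityMeasure μ] (d : ℕ → Ω → ℕ) (hd : ∀ i, Measurable (d i))
    (hind : ProbabilityTheory.iIndepFun d μ) (ν : T → ℕ) (ω : T → ℝ) (hω : ∀ τ, 0 ≤ ω τ)
    (A : T → ℕ → Set ℕ) (I M : ℕ) (hν : ∀ τ, I ≤ ν τ ∧ ν τ ≤ M)
    (hA : ∀ τ i, ν τ ≤ i → μ.real {x | d i x ∈ A τ i} ≤ 4 * (1 / 4) ^ (i - ν τ)) :
    ∫ x, (Fd d ν ω A M x - ∫ z, Fd d ν ω A M z ∂μ) ^ 2 ∂μ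
      ≤ 20 * ∑ l ∈ Finset.Icc I M, lw ν ω l ^ 2 := by
  set E : T → Set Ω := fun τ => {z | ∀ i ∈ Finset.Icc (ν τ) M, d i z ∉ A τ i} with hE
  have hm : ∀ τ, MeasurableSet (E τ) := fun τ => VarD.meas_ev hd _ _
  have hmean : ∫ z, Fd d ν ω A M z ∂μ = ∑ τ, ω τ * μ.real (E τ) := by
    unfold Fd
    rw [integral_finsetSum _ fun τ _ => (VarD.int_ch μ (hm τ)).1.const_mul _]
    exact Finset.sum_congr rfl fun τ _ => by rw [integral_const_mul, (VarD.int_ch μ (hm τ)).2]
  have e : ∀ x, (Fd d ν ω A M x - ∫ z, Fd d ν ω A M z ∂μ) ^ 2 = ∑ τ, ∑ τ', ω τ * ω τ' *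
      ((ch (E τ) x - μ.real (E τ)) * (ch (E τ') x - μ.real (E τ'))) := by
    intro x
    rw [hmean, Fd, ← Finset.sum_sub_distrib, sq, Finset.sum_mul_sum]
    exact Finset.sum_congr rfl fun τ _ => Finset.sum_congr rfl fun τ' _ => by simp only [hE]; ring
  simp only [e]
  rw [integral_finsetSum _ fun τ _ => integrable_finsetSum _ fun τ' _ =>
    (VarD.cov_eq μ (hm τ) (hm τ')).1.const_mul _]
  have hs : ∀ τ, ν τ ∈ Finset.Icc I M := fun τ => Finset.mem_Icc.2 (hν τ)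
  have q : ∑ τ, ∑ τ', ω τ * ω τ' * VarD.K (ν τ) (ν τ') ≤
      4 / 3 * ∑ l ∈ Finset.Icc I M, lw ν ω l ^ 2 := by
    refine le_trans (le_of_eq ?_) (VarD.quad _ _)
    simp only [mul_assoc, ← Finset.mul_sum]
    rw [VarD.sum_lw ν ω _ hs fun l => ∑ τ', ω τ' * VarD.K l (ν τ')]
    exact Finset.sum_congr rfl fun l _ => by rw [VarD.sum_lw ν ω _ hs fun l' => VarD.K l l']
  have q' : ∑ τ, ∑ τ', ω τ * ω τ' * VarD.K (ν τ') (ν τ) ≤
      4 / 3 * ∑ l ∈ Finset.Icc I M, lw ν ω l ^ 2 := by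
    rw [Finset.sum_comm]
    simpa only [mul_comm (ω _) (ω _)] using q
  have hpos : 0 ≤ ∑ l ∈ Finset.Icc I M, lw ν ω l ^ 2 := Finset.sum_nonneg fun _ _ => sq_nonneg _
  calc _ ≤ ∑ τ, ∑ τ', (16 / 3 * (ω τ * ω τ' * VarD.K (ν τ) (ν τ')) +
        16 / 3 * (ω τ * ω τ' * VarD.K (ν τ') (ν τ))) := by
        refine Finset.sum_le_sum fun τ _ => ?_
        rw [integral_finsetSum _ fun τ' _ => (VarD.cov_eq μ (hm τ) (hm τ')).1.const_mul _]
        refine Finset.sum_le_sum fun τ' _ => ?_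
        rw [integral_const_mul, (VarD.cov_eq μ (hm τ) (hm τ')).2]
        have hw := mul_nonneg (hω τ) (hω τ')
        have k1 := VarD.K_nonneg (ν τ) (ν τ')
        have k2 := VarD.K_nonneg (ν τ') (ν τ)
        have : μ.real (E τ ∩ E τ') - μ.real (E τ) * μ.real (E τ') ≤
            16 / 3 * VarD.K (ν τ) (ν τ') + 16 / 3 * VarD.K (ν τ') (ν τ) := by
          rcases le_total (ν τ) (ν τ') with h | h
          · have := VarD.cov_le hind h (hν τ').2 (A τ) (A τ') (hA τ)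
            linarith
          · have := VarD.cov_le hind h (hν τ).2 (A τ') (A τ) (hA τ')
            rw [Set.inter_comm, mul_comm] at this
            linarith
        calc _ ≤ ω τ * ω τ' * (16 / 3 * VarD.K (ν τ) (ν τ') + 16 / 3 * VarD.K (ν τ') (ν τ)) :=
              mul_le_mul_of_nonneg_left this hw
          _ = _ := by ring
    _ ≤ _ := by
        simp only [Finset.sum_add_distrib, ← Finset.mul_sum]
        linarith

theorem varD_cond (μ : Measure Ω) [IsProbabilityMeasure μ] (d : ℕ → Ω → ℕ)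
    (hd : ∀ i, Measurable (d i)) (hind : ProbabilityTheory.iIndepFun d μ) (ν : T → ℕ) (ω : T → ℝ)
    (A : T → ℕ → Set ℕ) (M h : ℕ) (hAh : ∀ τ, A τ h = ∅) (B : Set ℕ) (c : ℝ) :
    ∫ x, ch {z | d h z ∈ B} x * (Fd d ν ω A M x - c) ^ 2 ∂μ
      = μ.real {z | d h z ∈ B} * ∫ x, (Fd d ν ω A M x - c) ^ 2 ∂μ := by
  set S : Finset ℕ := (Finset.range (M + 1)).erase h with hS
  have hI := (hind.indepFun_finset {h} S (by simp [hS]) hd).comp
    (φ := fun y : ({h} : Finset ℕ) → ℕ => ch {y | y ⟨h, Finset.mem_singleton_self h⟩ ∈ B} y)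
    (ψ := fun y : S → ℕ => (∑ τ, ω τ * ch {y | ∀ i : S, ν τ ≤ i → y i ∉ A τ i} y - c) ^ 2)
    (measurable_of_countable _) (measurable_of_countable _)
  have e1 : ((fun y : ({h} : Finset ℕ) → ℕ => ch {y | y ⟨h, Finset.mem_singleton_self h⟩ ∈ B} y) ∘
      fun a (i : ({h} : Finset ℕ)) => d i a) = fun x => ch {z | d h z ∈ B} x := by
    funext x
    by_cases hx : d h x ∈ B <;> simp [ch, hx]
  have e2 : ((fun y : S → ℕ => (∑ τ, ω τ * ch {y | ∀ i : S, ν τ ≤ i → y i ∉ A τ i} y - c) ^ 2) ∘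
      fun a (i : S) => d i a) = fun x => (Fd d ν ω A M x - c) ^ 2 := by
    funext x
    simp only [Function.comp, Fd]
    congr 2
    refine Finset.sum_congr rfl fun τ _ => ?_
    have : (∀ i : S, ν τ ≤ i → d i x ∉ A τ i) ↔ ∀ i ∈ Finset.Icc (ν τ) M, d i x ∉ A τ i := by
      constructor
      · intro H i hi
        rw [Finset.mem_Icc] at hi
        by_cases hih : i = h
        · rw [hih, hAh]; exact Set.notMem_empty _
        · exact H ⟨i, by simp [hS, hih]; omega⟩ hi.1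
      · intro H i hi
        have := Finset.mem_range.1 (Finset.mem_of_mem_erase i.2)
        exact H i (Finset.mem_Icc.2 ⟨hi, by omega⟩)
    congr 1
    unfold ch
    by_cases hx : ∀ i ∈ Finset.Icc (ν τ) M, d i x ∉ A τ i
    · rw [Set.indicator_of_mem (by exact this.2 hx), Set.indicator_of_mem (by exact hx)]
    · rw [Set.indicator_of_notMem (by exact fun H => hx (this.1 H)),
        Set.indicator_of_notMem (by exact hx)]
  rw [e1, e2] at hI
  have hB : MeasurableSet {z | d h z ∈ B} := hd h (t := B) trivial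
  have hF : Measurable fun x => (Fd d ν ω A M x - c) ^ 2 := by
    refine (Measurable.sub_const ?_ c).pow_const 2
    exact Finset.measurable_sum _ fun τ _ =>
      ((measurable_const.indicator (VarD.meas_ev hd _ _))).const_mul _
  rw [hI.integral_fun_mul_eq_mul_integral (VarD.int_ch μ hB).1.aestronglyMeasurable
    hF.aestronglyMeasurable, (VarD.int_ch μ hB).2]

end Crest.Agent.R113
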