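import Crest.Agent.R113.Dig
import Crest.Agent.R113.VarD

set_option autoImplicit false
open MeasureTheory
open scoped InnerProductSpace ComplexOrder

namespace Crest.Agent.R113

/-- weighted count of avoided arc events -/
noncomputable def Fa {T : Type*} [Fintype T] (m : ℕ → ℕ) (ν : T → ℕ) (ω : T → ℝ)
    (α ℓ : T → ℕ → ℝ) (M : ℕ) (x : X) : ℝ :=
  ∑ τ, ω τ * ch (ev m (ν τ) M (α τ) (ℓ τ)) x

variable {T : Type*} [Fintype T] {m : ℕ → ℕ}

namespace VarArcX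

theorem meas_arc (m : ℕ → ℕ) (i : ℕ) (α ℓ : ℝ) : MeasurableSet {x : X | m i • x ∈ arc α ℓ} :=
  (continuous_nsmul (m i)).measurable (measurableSet_arc α ℓ)

theorem meas_dig (m : ℕ → ℕ) (i : ℕ) (B : Set ℕ) : MeasurableSet {x : X | dig m i x ∈ B} :=
  measurable_dig m i (MeasurableSet.of_discrete (s := B))

theorem meas_all {S : ℕ → Set X} (hS : ∀ i, MeasurableSet (S i)) (F : Finset ℕ) :
    MeasurableSet {x | ∀ i ∈ F, x ∉ S i} := by
  have : {x | ∀ i ∈ F, x ∉ S i} = ⋂ i ∈ F, (S i)ᶜ := by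
    ext x; simp
  rw [this]
  exact Finset.measurableSet_biInter F fun i _ => (hS i).compl

theorem ch_mem {α : Type*} {A : Set α} {x : α} (h : x ∈ A) : ch A x = 1 := Set.indicator_of_mem h _

theorem ch_not {α : Type*} {A : Set α} {x : α} (h : x ∉ A) : ch A x = 0 :=
  Set.indicator_of_notMem h _

theorem memLp_ch {A : Set X} (hA : MeasurableSet A) : MemLp (ch A) 2 mu :=
  MemLp.of_bound (measurable_ch hA).aestronglyMeasurable 1 (Filter.Eventually.of_forall fun x => by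
    rw [Real.norm_eq_abs, abs_of_nonneg (ch_bounds A x).1]
    exact (ch_bounds A x).2)

theorem memLp_sum (ω : T → ℝ) {E : T → Set X} (hE : ∀ τ, MeasurableSet (E τ)) :
    MemLp (fun x => ∑ τ, ω τ * ch (E τ) x) 2 mu :=
  memLp_finsetSum _ fun τ _ => (memLp_ch (hE τ)).const_mul (ω τ)

theorem integral_sum (ω : T → ℝ) {E : T → Set X} (hE : ∀ τ, MeasurableSet (E τ)) :
    ∫ x, ∑ τ, ω τ * ch (E τ) x ∂mu = ∑ τ, ω τ * mu.real (E τ) := by
  rw [integral_finsetSum _ fun τ _ =>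
    ((memLp_ch (hE τ)).integrable (by norm_num)).const_mul (ω τ)]
  exact Finset.sum_congr rfl fun τ _ => by rw [integral_const_mul, integral_ch (hE τ)]

theorem int_ch_mul {A : Set X} (hA : MeasurableSet A) {f : X → ℝ} (hf : Integrable f mu) :
    Integrable (fun x => ch A x * f x) mu := by
  refine (hf.indicator hA).congr (Filter.Eventually.of_forall fun x => ?_)
  by_cases h : x ∈ A
  · simp only [Set.indicator_of_mem h, ch_mem h, one_mul]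
  · simp only [Set.indicator_of_notMem h, ch_not h, zero_mul]

theorem sq_integral_le {f : X → ℝ} (hf : MemLp f 2 mu) :
    (∫ x, f x ∂mu) ^ 2 ≤ ∫ x, f x ^ 2 ∂mu := by
  have h := ProbabilityTheory.variance_nonneg f mu
  rw [ProbabilityTheory.variance_eq_sub hf] at h
  exact sub_nonneg.1 h

theorem mean_sq_le {f g : X → ℝ} (hf : MemLp f 2 mu) (hg : MemLp g 2 mu) :
    (∫ x, f x ∂mu - ∫ x, g x ∂mu) ^ 2 ≤ ∫ x, (f x - g x) ^ 2 ∂mu := by
  rw [← integral_sub (hf.integrable (by norm_num)) (hg.integrable (by norm_num))]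
  exact sq_integral_le (hf.sub hg)

theorem int_sq3 {f g : X → ℝ} (hf : MemLp f 2 mu) (hg : MemLp g 2 mu) (a c : ℝ) :
    ∫ x, (f x - c) ^ 2 ∂mu ≤
      3 * ∫ x, (f x - g x) ^ 2 ∂mu + 3 * ∫ x, (g x - a) ^ 2 ∂mu + 3 * (a - c) ^ 2 := by
  have i1 : Integrable (fun x => (f x - g x) ^ 2) mu := (hf.sub hg).integrable_sq
  have i2 : Integrable (fun x => (g x - a) ^ 2) mu := (hg.sub (memLp_const a)).integrable_sq
  have i3 : Integrable (fun x => (f x - c) ^ 2) mu := (hf.sub (memLp_const c)).integrable_sq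
  have i4 : Integrable (fun x => 3 * (f x - g x) ^ 2 + 3 * (g x - a) ^ 2) mu :=
    (i1.const_mul 3).add (i2.const_mul 3)
  calc ∫ x, (f x - c) ^ 2 ∂mu
      ≤ ∫ x, (3 * (f x - g x) ^ 2 + 3 * (g x - a) ^ 2 + 3 * (a - c) ^ 2) ∂mu := by
        refine integral_mono i3 (i4.add (integrable_const _)) fun x => ?_
        simp only
        nlinarith [sq_nonneg (f x - g x - (g x - a)), sq_nonneg (f x - g x - (a - c)),
          sq_nonneg (g x - a - (a - c))]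
    _ = _ := by
        rw [integral_add i4 (integrable_const _), integral_add (i1.const_mul 3) (i2.const_mul 3),
          integral_const_mul, integral_const_mul]
        simp

theorem level_sq (ν : T → ℕ) (ω : T → ℝ) {I M : ℕ} (hν : ∀ τ, I ≤ ν τ ∧ ν τ ≤ M) (φ : ℕ → ℝ) :
    (∑ τ, ω τ * φ (ν τ)) ^ 2 ≤
      (∑ l ∈ Finset.Icc I M, lw ν ω l ^ 2) * ∑ l ∈ Finset.Icc I M, φ l ^ 2 := by
  have h : ∑ τ, ω τ * φ (ν τ) = ∑ l ∈ Finset.Icc I M, lw ν ω l * φ l := by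
    simp only [lw, Finset.sum_mul, ite_mul, zero_mul]
    rw [Finset.sum_comm]
    refine Finset.sum_congr rfl fun τ _ => ?_
    rw [Finset.sum_ite_eq, if_pos (Finset.mem_Icc.2 (hν τ))]
  rw [h]
  exact Finset.sum_mul_sq_le_sq_mul_sq _ _ _

theorem geo (a M : ℕ) : ∑ i ∈ Finset.Icc a M, (1 / 4 : ℝ) ^ i ≤ 4 / 3 * (1 / 4) ^ a := by
  have h := geom_sum_Ico_le_of_lt_one (m := a) (n := M + 1) (x := (1 / 4 : ℝ)) (by norm_num)
    (by norm_num)
  rw [Finset.Ico_add_one_right_eq_Icc] at h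
  refine h.trans (le_of_eq ?_)
  ring

theorem geo' (I M h : ℕ) :
    ∑ l ∈ Finset.Icc I M, (if l ≤ h then 2 * (1 / 2 : ℝ) ^ (h - l) else 0) ^ 2 ≤ 6 := by
  have h1 : ∑ l ∈ Finset.Icc I M, (if l ≤ h then 2 * (1 / 2 : ℝ) ^ (h - l) else 0) ^ 2 ≤
      ∑ l ∈ Finset.range (h + 1), 4 * (1 / 4 : ℝ) ^ (h - l) := by
    have e : ∀ l, (if l ≤ h then 2 * (1 / 2 : ℝ) ^ (h - l) else 0) ^ 2 =
        if l ≤ h then 4 * (1 / 4 : ℝ) ^ (h - l) else 0 := fun l => by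
      split_ifs
      · rw [mul_pow, ← pow_mul, mul_comm (h - l), pow_mul]; norm_num
      · simp
    simp only [e]
    rw [← Finset.sum_filter]
    refine Finset.sum_le_sum_of_subset_of_nonneg (fun l hl => ?_) fun l _ _ => by positivity
    exact Finset.mem_range.2 (Nat.lt_succ_of_le (Finset.mem_filter.1 hl).2)
  rw [Finset.sum_flip (fun k => 4 * (1 / 4 : ℝ) ^ k), ← Finset.mul_sum, Finset.range_eq_Ico] at h1
  have h2 := geom_sum_Ico_le_of_lt_one (m := 0) (n := h + 1) (x := (1 / 4 : ℝ)) (by norm_num)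
    (by norm_num)
  norm_num at h1 h2 ⊢
  linarith

theorem arc_empty (α : ℝ) {ℓ : ℝ} (h : ℓ ≤ 0) (x : X) : x ∉ arc α ℓ := fun hx =>
  absurd (lt_of_lt_of_le hx h) (not_lt.2 (ph_nonneg _))

theorem outer' (hm : Mult m) (i : ℕ) (α ℓ : ℝ) :
    ∃ B : Set ℕ, (ℓ ≤ 0 → B = ∅) ∧ (∀ x, m i • x ∈ arc α ℓ → dig m i x ∈ B) ∧
      (0 ≤ ℓ → mu.real {x | dig m i x ∈ B} ≤ ℓ + 2 * (1 / 4) ^ i) ∧
      mu.real ({x | dig m i x ∈ B} \ {x | m i • x ∈ arc α ℓ}) ≤ 2 * (1 / 4) ^ i := by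
  by_cases h : ℓ ≤ 0
  · refine ⟨∅, fun _ => rfl, fun x hx => absurd hx (arc_empty α h _), fun h0 => ?_, ?_⟩
    · simp only [Set.mem_empty_iff_false, Set.ofPred_false, measureReal_empty]
      positivity
    · simp only [Set.mem_empty_iff_false, Set.ofPred_false, Set.empty_sdiff, measureReal_empty]
      positivity
  · obtain ⟨B, h1, h2, h3⟩ := exists_outer hm i α (not_le.1 h).le
    exact ⟨B, fun h' => absurd h' h, h1, fun _ => h2, h3⟩

end VarArcX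

open VarArcX

theorem measurableSet_ev (m : ℕ → ℕ) (ν M : ℕ) (α ℓ : ℕ → ℝ) : MeasurableSet (ev m ν M α ℓ) :=
  meas_all (fun i => meas_arc m i (α i) (ℓ i)) _

theorem measurable_Fa (m : ℕ → ℕ) (ν : T → ℕ) (ω : T → ℝ) (α ℓ : T → ℕ → ℝ) (M : ℕ) :
    Measurable (Fa m ν ω α ℓ M) :=
  Finset.measurable_sum _ fun _ _ => (measurable_ch (measurableSet_ev _ _ _ _ _)).const_mul _

namespace VarArcX

theorem memLp_Fa (m : ℕ → ℕ) (ν : T → ℕ) (ω : T → ℝ) (α ℓ : T → ℕ → ℝ) (M : ℕ) :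
    MemLp (Fa m ν ω α ℓ M) 2 mu := memLp_sum ω fun _ => measurableSet_ev _ _ _ _ _

theorem memLp_Fd (m : ℕ → ℕ) (ν : T → ℕ) (ω : T → ℝ) (A : T → ℕ → Set ℕ) (M : ℕ) :
    MemLp (Fd (dig m) ν ω A M) 2 mu :=
  memLp_sum ω fun τ => meas_all (fun i => meas_dig m i (A τ i)) _

theorem close (hm : Mult m) (ν : T → ℕ) (ω : T → ℝ) (hω : ∀ τ, 0 ≤ ω τ) (α ℓ : T → ℕ → ℝ)
    (I M : ℕ) (hν : ∀ τ, I ≤ ν τ ∧ ν τ ≤ M)
    (hℓ : ∀ τ i, ν τ ≤ i → 0 ≤ ℓ τ i ∧ ℓ τ i ≤ 2 * (1 / 64) ^ (i - ν τ)) :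
    ∃ A : T → ℕ → Set ℕ, (∀ τ i, ℓ τ i ≤ 0 → A τ i = ∅) ∧
      ∫ x, (Fd (dig m) ν ω A M x - ∫ z, Fd (dig m) ν ω A M z ∂mu) ^ 2 ∂mu
        ≤ 20 * ∑ l ∈ Finset.Icc I M, lw ν ω l ^ 2 ∧
      ∫ x, (Fa m ν ω α ℓ M x - Fd (dig m) ν ω A M x) ^ 2 ∂mu ≤
        4 * (1 / 4) ^ I * ∑ l ∈ Finset.Icc I M, lw ν ω l ^ 2 := by
  choose A h0 h1 h2 h3 using fun τ i => outer' hm i (α τ i) (ℓ τ i)
  refine ⟨A, h0, varD mu (dig m) (measurable_dig m) (indep_dig hm) ν ω hω A I M hν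
    fun τ i hi => ?_, ?_⟩
  · have a1 := h2 τ i (hℓ τ i hi).1
    have a2 := (hℓ τ i hi).2
    have a3 : (1 / 64 : ℝ) ^ (i - ν τ) ≤ (1 / 4) ^ (i - ν τ) :=
      pow_le_pow_left₀ (by norm_num) (by norm_num) _
    have a4 : (1 / 4 : ℝ) ^ i ≤ (1 / 4) ^ (i - ν τ) :=
      pow_le_pow_of_le_one (by norm_num) (by norm_num) (Nat.sub_le _ _)
    linarith
  let D : T → Set X := fun τ => {z | ∀ i ∈ Finset.Icc (ν τ) M, dig m i z ∉ A τ i}
  let E : T → Set X := fun τ => ev m (ν τ) M (α τ) (ℓ τ) \ D τ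
  have hE : ∀ τ, MeasurableSet (E τ) := fun τ =>
    (measurableSet_ev _ _ _ _ _).diff (meas_all (fun i => meas_dig m i (A τ i)) _)
  have hEle : ∀ τ, mu.real (E τ) ≤ 8 / 3 * (1 / 4) ^ ν τ := by
    intro τ
    have b1 : E τ ⊆ ⋃ i ∈ Finset.Icc (ν τ) M,
        ({x | dig m i x ∈ A τ i} \ {x | m i • x ∈ arc (α τ i) (ℓ τ i)}) := by
      rintro x ⟨hx, hx'⟩
      simp only [D, Set.mem_ofPred_eq, not_forall, not_not] at hx'
      obtain ⟨i, hi, hd⟩ := hx'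
      exact Set.mem_biUnion hi ⟨hd, hx i hi⟩
    refine (measureReal_mono b1 (measure_ne_top _ _)).trans ((measureReal_biUnion_finset_le _ _).trans ?_)
    refine (Finset.sum_le_sum fun i _ => h3 τ i).trans ?_
    rw [← Finset.mul_sum]
    have := geo (ν τ) M
    linarith
  have hdiff : ∀ x, Fa m ν ω α ℓ M x - Fd (dig m) ν ω A M x = ∑ τ, ω τ * ch (E τ) x := by
    intro x
    unfold Fa Fd
    rw [← Finset.sum_sub_distrib]
    refine Finset.sum_congr rfl fun τ _ => ?_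
    rw [← mul_sub]
    congr 1
    by_cases a : x ∈ D τ
    · have b : x ∈ ev m (ν τ) M (α τ) (ℓ τ) := fun i hi hx => a i hi (h1 τ i x hx)
      rw [ch_mem a, ch_mem b, ch_not (A := E τ) fun h => h.2 a, sub_self]
    · rw [ch_not a, sub_zero]
      by_cases b : x ∈ ev m (ν τ) M (α τ) (ℓ τ)
      · rw [ch_mem b, ch_mem (A := E τ) ⟨b, a⟩]
      · rw [ch_not b, ch_not (A := E τ) fun h => b h.1]
  set s := ∑ τ, ω τ * (1 / 2 : ℝ) ^ ν τ with hs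
  have hs0 : 0 ≤ s := Finset.sum_nonneg fun τ _ => mul_nonneg (hω τ) (by positivity)
  have hpt : ∀ x, (∑ τ, ω τ * ch (E τ) x) ^ 2 ≤ s * ∑ τ, (ω τ * 2 ^ ν τ) * ch (E τ) x := by
    intro x
    refine Finset.sum_sq_le_sum_mul_sum_of_sq_le_mul _
      (fun τ _ => mul_nonneg (hω τ) (by positivity))
      (fun τ _ => mul_nonneg (mul_nonneg (hω τ) (by positivity)) (ch_bounds _ _).1)
      fun τ _ => le_of_eq ?_
    have c1 : (1 / 2 : ℝ) ^ ν τ * 2 ^ ν τ = 1 := by rw [← mul_pow]; norm_num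
    by_cases a : x ∈ E τ
    · rw [ch_mem a]
      linear_combination (-(ω τ) ^ 2) * c1
    · rw [ch_not a]
      ring
  have hsq : s ^ 2 ≤ (∑ l ∈ Finset.Icc I M, lw ν ω l ^ 2) * (4 / 3 * (1 / 4) ^ I) := by
    refine (level_sq ν ω hν fun l => (1 / 2 : ℝ) ^ l).trans
      (mul_le_mul_of_nonneg_left ?_ (Finset.sum_nonneg fun _ _ => sq_nonneg _))
    refine le_trans (le_of_eq (Finset.sum_congr rfl fun l _ => ?_)) (geo I M)
    rw [← pow_mul, mul_comm, pow_mul]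
    norm_num
  simp only [hdiff]
  calc ∫ x, (∑ τ, ω τ * ch (E τ) x) ^ 2 ∂mu
      ≤ ∫ x, s * ∑ τ, (ω τ * 2 ^ ν τ) * ch (E τ) x ∂mu :=
        integral_mono (memLp_sum ω hE).integrable_sq
          (((memLp_sum _ hE).integrable (by norm_num)).const_mul s) hpt
    _ = s * ∑ τ, (ω τ * 2 ^ ν τ) * mu.real (E τ) := by
        rw [integral_const_mul, integral_sum _ hE]
    _ ≤ s * ∑ τ, 8 / 3 * (ω τ * (1 / 2 : ℝ) ^ ν τ) := by
        refine mul_le_mul_of_nonneg_left (Finset.sum_le_sum fun τ _ => ?_) hs0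
        refine (mul_le_mul_of_nonneg_left (hEle τ)
          (mul_nonneg (hω τ) (by positivity))).trans (le_of_eq ?_)
        have c1 : (2 : ℝ) ^ ν τ * (1 / 4) ^ ν τ = (1 / 2) ^ ν τ := by rw [← mul_pow]; norm_num
        linear_combination (8 / 3 * ω τ) * c1
    _ = 8 / 3 * s ^ 2 := by rw [← Finset.mul_sum, ← hs]; ring
    _ ≤ _ := by
        have : 0 ≤ (1 / 4 : ℝ) ^ I * ∑ l ∈ Finset.Icc I M, lw ν ω l ^ 2 :=
          mul_nonneg (by positivity) (Finset.sum_nonneg fun _ _ => sq_nonneg _)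
        linarith

end VarArcX

theorem varArc (hm : Mult m) (ν : T → ℕ) (ω : T → ℝ) (hω : ∀ τ, 0 ≤ ω τ) (α ℓ : T → ℕ → ℝ)
    (I M : ℕ) (hν : ∀ τ, I ≤ ν τ ∧ ν τ ≤ M)
    (hℓ : ∀ τ i, ν τ ≤ i → 0 ≤ ℓ τ i ∧ ℓ τ i ≤ 2 * (1 / 64) ^ (i - ν τ)) :
    ∫ x, (Fa m ν ω α ℓ M x - ∫ z, Fa m ν ω α ℓ M z ∂mu) ^ 2 ∂mu
      ≤ 100 * ∑ l ∈ Finset.Icc I M, lw ν ω l ^ 2 := by
  obtain ⟨A, -, h1, h2⟩ := close hm ν ω hω α ℓ I M hν hℓ
  have hS : 0 ≤ ∑ l ∈ Finset.Icc I M, lw ν ω l ^ 2 := Finset.sum_nonneg fun _ _ => sq_nonneg _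
  have h3 := int_sq3 (memLp_Fa m ν ω α ℓ M) (memLp_Fd m ν ω A M)
    (∫ z, Fd (dig m) ν ω A M z ∂mu) (∫ z, Fa m ν ω α ℓ M z ∂mu)
  have h4 := mean_sq_le (memLp_Fa m ν ω α ℓ M) (memLp_Fd m ν ω A M)
  rw [← neg_sq, neg_sub] at h4
  have h5 : (1 / 4 : ℝ) ^ I * ∑ l ∈ Finset.Icc I M, lw ν ω l ^ 2 ≤
      ∑ l ∈ Finset.Icc I M, lw ν ω l ^ 2 :=
    mul_le_of_le_one_left hS (pow_le_one₀ (by norm_num) (by norm_num))
  linarith

theorem varArc_cond (hm : Mult m) (ν : T → ℕ) (ω : T → ℝ) (hω : ∀ τ, 0 ≤ ω τ) (α ℓ : T → ℕ → ℝ)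
    (I M : ℕ) (hν : ∀ τ, I ≤ ν τ ∧ ν τ ≤ M)
    (hℓ : ∀ τ i, ν τ ≤ i → 0 ≤ ℓ τ i ∧ ℓ τ i ≤ 2 * (1 / 64) ^ (i - ν τ))
    {h : ℕ} (hI : I ≤ h) (α₀ : ℝ) {ℓ₀ : ℝ} (h0 : 0 ≤ ℓ₀)
    (hdis : ∀ τ, ω τ ≠ 0 → ν τ ≤ h → Disjoint (arc α₀ ℓ₀) (arc (α τ h) (ℓ τ h))) :
    ∫ x, ch {z | m h • z ∈ arc α₀ ℓ₀} x
        * (Fa m ν ω α ℓ M x - ∫ z, Fa m ν ω α ℓ M z ∂mu) ^ 2 ∂mu
      ≤ 1000 * (ℓ₀ + (1 / 4) ^ I) * ∑ l ∈ Finset.Icc I M, lw ν ω l ^ 2 := by
  let ℓ' : T → ℕ → ℝ := fun τ i => if i = h then 0 else ℓ τ i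
  have hℓ' : ∀ τ i, ν τ ≤ i → 0 ≤ ℓ' τ i ∧ ℓ' τ i ≤ 2 * (1 / 64) ^ (i - ν τ) := by
    intro τ i hi
    simp only [ℓ']
    split_ifs
    · exact ⟨le_rfl, by positivity⟩
    · exact hℓ τ i hi
  obtain ⟨A, hA, h1, h2⟩ := close hm ν ω hω α ℓ' I M hν hℓ'
  obtain ⟨B, hB1, hB2, -⟩ := exists_outer hm h α₀ h0
  set S := ∑ l ∈ Finset.Icc I M, lw ν ω l ^ 2 with hSdef
  have hS : 0 ≤ S := Finset.sum_nonneg fun _ _ => sq_nonneg _
  set c := ∫ z, Fa m ν ω α ℓ M z ∂mu with hc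
  have mA := memLp_Fa m ν ω α ℓ M
  have mA' := memLp_Fa m ν ω α ℓ' M
  have mD := memLp_Fd m ν ω A M
  have hsub : ∀ τ, ev m (ν τ) M (α τ) (ℓ τ) ⊆ ev m (ν τ) M (α τ) (ℓ' τ) := by
    intro τ x hx i hi
    simp only [ℓ']
    split_ifs
    · exact arc_empty _ le_rfl _
    · exact hx i hi
  have hU : ∀ x, m h • x ∈ arc α₀ ℓ₀ → Fa m ν ω α ℓ M x = Fa m ν ω α ℓ' M x := by
    intro x hx
    refine Finset.sum_congr rfl fun τ _ => ?_
    by_cases hw : ω τ = 0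
    · rw [hw, zero_mul, zero_mul]
    by_cases a : x ∈ ev m (ν τ) M (α τ) (ℓ τ)
    · rw [ch_mem a, ch_mem (hsub τ a)]
    · rw [ch_not a, ch_not fun b => a fun i hi => ?_]
      by_cases e : i = h
      · subst e
        exact Set.disjoint_left.1 (hdis τ hw (Finset.mem_Icc.1 hi).1) hx
      · have := b i hi
        simpa only [ℓ', if_neg e] using this
  -- the mean shift
  have hshift : (∫ z, Fa m ν ω α ℓ' M z ∂mu - c) ^ 2 ≤ S * 6 := by
    have e1 : ∫ z, Fa m ν ω α ℓ' M z ∂mu - c = ∑ τ, ω τ *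
        (mu.real (ev m (ν τ) M (α τ) (ℓ' τ)) - mu.real (ev m (ν τ) M (α τ) (ℓ τ))) := by
      rw [hc]
      unfold Fa
      rw [integral_sum ω fun τ => measurableSet_ev _ _ _ _ _,
        integral_sum ω fun τ => measurableSet_ev _ _ _ _ _, ← Finset.sum_sub_distrib]
      simp only [mul_sub]
    have e2 : 0 ≤ ∫ z, Fa m ν ω α ℓ' M z ∂mu - c := by
      rw [e1]
      exact Finset.sum_nonneg fun τ _ =>
        mul_nonneg (hω τ) (sub_nonneg.2 (measureReal_mono (hsub τ)))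
    have e3 : ∫ z, Fa m ν ω α ℓ' M z ∂mu - c ≤
        ∑ τ, ω τ * (if ν τ ≤ h then 2 * (1 / 2 : ℝ) ^ (h - ν τ) else 0) := by
      rw [e1]
      refine Finset.sum_le_sum fun τ _ => mul_le_mul_of_nonneg_left ?_ (hω τ)
      split_ifs with hh
      · have b1 : ev m (ν τ) M (α τ) (ℓ' τ) ⊆ ev m (ν τ) M (α τ) (ℓ τ) ∪
            (fun x : X => m h • x) ⁻¹' arc (α τ h) (ℓ τ h) := by
          intro x hx
          by_cases a : m h • x ∈ arc (α τ h) (ℓ τ h)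
          · exact Or.inr a
          · refine Or.inl fun i hi => ?_
            by_cases e : i = h
            · subst e
              exact a
            · have := hx i hi
              simpa only [ℓ', if_neg e] using this
        have b2 := (measureReal_mono (μ := mu) b1).trans (measureReal_union_le _ _)
        rw [(mp_nsmul (hm.pos h)).measureReal_preimage
          (measurableSet_arc _ _).nullMeasurableSet] at b2
        have b3 := mu_arc_le (α τ h) (hℓ τ h hh).1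
        have b4 := (hℓ τ h hh).2
        have b5 : (1 / 64 : ℝ) ^ (h - ν τ) ≤ (1 / 2) ^ (h - ν τ) :=
          pow_le_pow_left₀ (by norm_num) (by norm_num) _
        linarith
      · refine sub_nonpos.2 (measureReal_mono fun x hx i hi => ?_)
        have e : i ≠ h := fun e => hh (e ▸ (Finset.mem_Icc.1 hi).1)
        have := hx i hi
        simpa only [ℓ', if_neg e] using this
    refine (pow_le_pow_left₀ e2 e3 2).trans ?_
    exact (level_sq ν ω hν fun l => if l ≤ h then 2 * (1 / 2 : ℝ) ^ (h - l) else 0).trans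
      (mul_le_mul_of_nonneg_left (geo' I M h) hS)
  have h5 : (1 / 4 : ℝ) ^ I * S ≤ S :=
    mul_le_of_le_one_left hS (pow_le_one₀ (by norm_num) (by norm_num))
  have h4 := mean_sq_le mA' mD
  have h6 : (∫ z, Fd (dig m) ν ω A M z ∂mu - c) ^ 2 ≤ 20 * S := by
    nlinarith [sq_nonneg ((∫ z, Fa m ν ω α ℓ' M z ∂mu - c) +
      (∫ z, Fa m ν ω α ℓ' M z ∂mu - ∫ z, Fd (dig m) ν ω A M z ∂mu))]
  have h7 : ∫ x, (Fd (dig m) ν ω A M x - c) ^ 2 ∂mu ≤ 120 * S := by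
    have := int_sq3 mD mD (∫ z, Fd (dig m) ν ω A M z ∂mu) c
    simp only [sub_self, ne_eq, OfNat.ofNat_ne_zero, not_false_eq_true, zero_pow,
      integral_zero] at this
    linarith
  have h8 := varD_cond mu (dig m) (measurable_dig m) (indep_dig hm) ν ω A M h
    (fun τ => hA τ h (by simp [ℓ'])) B c
  have i1 : Integrable (fun x => (Fa m ν ω α ℓ' M x - Fd (dig m) ν ω A M x) ^ 2) mu :=
    (mA'.sub mD).integrable_sq
  have i2 : Integrable (fun x => ch {z | dig m h z ∈ B} x * (Fd (dig m) ν ω A M x - c) ^ 2) mu :=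
    int_ch_mul (meas_dig m h B) (mD.sub (memLp_const c)).integrable_sq
  have h9 : ∫ x, ch {z | m h • z ∈ arc α₀ ℓ₀} x * (Fa m ν ω α ℓ M x - c) ^ 2 ∂mu ≤
      ∫ x, (2 * (Fa m ν ω α ℓ' M x - Fd (dig m) ν ω A M x) ^ 2 +
        2 * (ch {z | dig m h z ∈ B} x * (Fd (dig m) ν ω A M x - c) ^ 2)) ∂mu := by
    refine integral_mono (int_ch_mul (meas_arc m h α₀ ℓ₀) (mA.sub (memLp_const c)).integrable_sq)
      ((i1.const_mul 2).add (i2.const_mul 2)) fun x => ?_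
    simp only
    by_cases a : m h • x ∈ arc α₀ ℓ₀
    · rw [ch_mem (A := {z | m h • z ∈ arc α₀ ℓ₀}) a,
        ch_mem (A := {z | dig m h z ∈ B}) (hB1 x a), hU x a]
      nlinarith [sq_nonneg (Fa m ν ω α ℓ' M x - Fd (dig m) ν ω A M x -
        (Fd (dig m) ν ω A M x - c))]
    · rw [ch_not (A := {z | m h • z ∈ arc α₀ ℓ₀}) a, zero_mul]
      have := (ch_bounds {z | dig m h z ∈ B} x).1
      positivity
  rw [integral_add (i1.const_mul 2) (i2.const_mul 2), integral_const_mul, integral_const_mul,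
    h8] at h9
  have h10 : (1 / 4 : ℝ) ^ h ≤ (1 / 4) ^ I := pow_le_pow_of_le_one (by norm_num) (by norm_num) hI
  have h11 : mu.real {z | dig m h z ∈ B} * ∫ x, (Fd (dig m) ν ω A M x - c) ^ 2 ∂mu ≤
      (ℓ₀ + 2 * (1 / 4) ^ I) * (120 * S) :=
    mul_le_mul (by linarith) h7 (integral_nonneg fun x => sq_nonneg _) (by positivity)
  have h12 : 0 ≤ ℓ₀ * S := mul_nonneg h0 hS
  have h13 : 0 ≤ (1 / 4 : ℝ) ^ I * S := by positivity
  nlinarith

end Crest.Agent.R113
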