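import Crest.Agent.R113.IntA
import Crest.Agent.R113.VarArc

set_option autoImplicit false
open MeasureTheory
open scoped InnerProductSpace ComplexOrder

namespace Crest.Agent.R113

namespace IntBX

theorem ch_congr {α β : Type*} {S : Set α} {S' : Set β} {x : α} {y : β} (h : x ∈ S ↔ y ∈ S') :
    ch S x = ch S' y := by
  unfold ch
  by_cases hx : x ∈ S
  · rw [Set.indicator_of_mem hx, Set.indicator_of_mem (h.1 hx)]
  · rw [Set.indicator_of_notMem hx, Set.indicator_of_notMem (fun h' => hx (h.2 h'))]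

theorem ch_mem {α : Type*} {S : Set α} {x : α} (h : x ∈ S) : ch S x = 1 := by
  unfold ch; rw [Set.indicator_of_mem h]

theorem ch_not {α : Type*} {S : Set α} {x : α} (h : x ∉ S) : ch S x = 0 := by
  unfold ch; rw [Set.indicator_of_notMem h]

theorem ch_compl {α : Type*} (S : Set α) (x : α) : ch Sᶜ x = 1 - ch S x := by
  by_cases hx : x ∈ S
  · rw [ch_mem hx, ch_not (by simpa using hx)]; ring
  · rw [ch_not hx, ch_mem (by simpa using hx)]; ring

theorem int_bdd {F : X → ℝ} (hF : Measurable F) {C : ℝ} (hC : ∀ x, |F x| ≤ C) :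
    Integrable F mu :=
  Integrable.of_bound hF.aestronglyMeasurable C
    (Filter.Eventually.of_forall fun x => by simpa [Real.norm_eq_abs] using hC x)

theorem q4 (k : ℕ) : (1 / 4 : ℝ) ^ k ≤ (1 / 2) ^ k :=
  pow_le_pow_left₀ (by norm_num) (by norm_num) k

theorem geo64 (ν M : ℕ) : ∑ i ∈ Finset.Icc (ν + 1) M, 2 * (1 / 64 : ℝ) ^ (i - ν) ≤ 2 / 63 := by
  have key : ∀ K : ℕ, ∑ i ∈ Finset.Icc (ν + 1) (ν + K), 2 * (1 / 64 : ℝ) ^ (i - ν)
      = 2 / 63 * (1 - (1 / 64) ^ K) := by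
    intro K
    induction K with
    | zero => simp
    | succ K ih =>
      rw [← add_assoc, Finset.sum_Icc_succ_top (by omega), ih,
        show ν + K + 1 - ν = K + 1 by omega]
      ring
  rcases le_or_gt ν M with h | h
  · obtain ⟨K, rfl⟩ := Nat.exists_eq_add_of_le h
    rw [key]
    have : (0 : ℝ) ≤ (1 / 64) ^ K := by positivity
    linarith
  · rw [Finset.Icc_eq_empty (by omega)]; norm_num

end IntBX

namespace Par
variable {A : Par} {ρ lam : ℝ} {J : ℕ}
open IntBX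

theorem OK.ibL (h : A.OK ρ lam J) (τ : A.T) (i : ℕ) (hi : A.lev τ ≤ i) :
    0 ≤ (A.n τ : ℝ) * A.v i ∧ (A.n τ : ℝ) * A.v i ≤ 2 * (1 / 64) ^ (i - A.lev τ) := by
  have hv := (h.spd.vt_pos i).le
  refine ⟨by positivity, le_trans ?_ (h.spd.nb_mul_le hi)⟩
  exact mul_le_mul_of_nonneg_right (by exact_mod_cast h.n_le τ) hv

theorem ibPi (A : Par) :
    A.Pi = Fa A.m A.lev A.ω (fun _ _ => 0) (fun τ i => A.n τ * A.v i) A.M := by
  funext x
  refine Finset.sum_congr rfl fun τ _ => ?_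
  congr 1
  refine ch_congr ?_
  simp only [cS, ev, Set.mem_ofPred_eq, mem_arc_zero, not_lt]
  rfl

theorem ibPi' (A : Par) : (fun x => ∑ τ, A.ω τ * ch (A.cS τ) (orb A.θ x (A.n τ)))
    = Fa A.m A.lev A.ω (fun τ i => 0 - ((A.n τ : ℤ) : ℝ) * A.v i) (fun τ i => A.n τ * A.v i) A.M := by
  funext x
  refine Finset.sum_congr rfl fun τ _ => ?_
  congr 1
  refine ch_congr ?_
  simp only [cS, ev, Set.mem_ofPred_eq, ← add_mem_arc, ← nsmul_orb, mem_arc_zero, not_lt]
  rfl

theorem OK.ibW (h : A.OK ρ lam J) :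
    ∑ l ∈ Finset.Icc A.I A.M, lw A.lev A.ω l ^ 2 ≤ 2 / J := by
  rw [Finset.sum_congr rfl fun l hl => by rw [h.lw_eq hl]]
  exact h.sum_wl_sq

theorem OK.var_Pi (h : A.OK ρ lam J) : ∫ x, (A.Pi x - A.Pb) ^ 2 ∂mu ≤ 200 / J := by
  have := varArc h.spd.mult A.lev A.ω h.ω_nonneg (fun _ _ => 0) (fun τ i => A.n τ * A.v i) A.I A.M
    A.lev_mem h.ibL
  rw [← ibPi] at this
  have h2 := h.ibW
  unfold Pb
  calc _ ≤ _ := this
    _ ≤ 100 * (2 / J) := by linarith
    _ = 200 / J := by ring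

theorem OK.var_Pi' (h : A.OK ρ lam J) :
    ∫ x, ((∑ τ, A.ω τ * ch (A.cS τ) (orb A.θ x (A.n τ))) - A.Pb) ^ 2 ∂mu ≤ 200 / J := by
  have := varArc h.spd.mult A.lev A.ω h.ω_nonneg (fun τ i => 0 - ((A.n τ : ℤ) : ℝ) * A.v i)
    (fun τ i => A.n τ * A.v i) A.I A.M A.lev_mem h.ibL
  rw [← ibPi'] at this
  have hi : ∀ τ, Integrable (ch (A.cS τ)) mu := fun τ =>
    int_bdd (measurable_ch (h.meas_cS τ)) (C := 1) fun x => by
      have := ch_bounds (A.cS τ) x; rw [abs_le]; constructor <;> linarith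
  have hm : ∫ z, ∑ τ, A.ω τ * ch (A.cS τ) (orb A.θ z (A.n τ)) ∂mu = A.Pb := by
    unfold Pb Pi
    rw [integral_finsetSum _ fun τ _ => (hi τ).const_mul (A.ω τ),
      integral_finsetSum (f := fun τ z => A.ω τ * ch (A.cS τ) (orb A.θ z (A.n τ))) _ fun τ _ =>
        (((mp_orb A.θ (A.n τ)).integrable_comp_of_integrable (hi τ)).const_mul (A.ω τ))]
    refine Finset.sum_congr rfl fun τ _ => ?_
    rw [integral_const_mul, integral_const_mul, integral_orb]
  beta_reduce at this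
  rw [hm] at this
  have h2 := h.ibW
  calc _ ≤ _ := this
    _ ≤ 100 * (2 / J) := by linarith
    _ = 200 / J := by ring

theorem OK.ibDis (h : A.OK ρ lam J) {ℓ : ℝ} (hℓ : ℓ ≤ 2 / 64) :
    Disjoint (arc (-A.ell) A.ell) (arc 0 ℓ) := by
  have he := h.ell_bounds
  rw [Set.disjoint_left]
  intro x h1 h2
  rw [mem_arc_neg he.1.le (by linarith)] at h1
  rw [mem_arc_zero] at h2
  linarith

theorem pow64 {a b : ℕ} (h : a < b) : 2 * (1 / 64 : ℝ) ^ (b - a) ≤ 2 / 64 := by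
  have : (1 / 64 : ℝ) ^ (b - a) ≤ (1 / 64) ^ 1 :=
    pow_le_pow_of_le_one (by norm_num) (by norm_num) (by omega)
  linarith

theorem OK.dev_cC (h : A.OK ρ lam J) {ζ : ℝ} (hζ : 0 < ζ) :
    ∫ x, ch A.cC x * |A.Pi x - A.Pb| ∂mu
      ≤ ζ * A.ell + 2000 * (A.ell + (1 / 2) ^ A.I) / (J * ζ) := by
  have hI : A.I ≤ A.h := le_trans (Nat.le_add_right _ _) h.chain.h_ge
  have he := h.ell_bounds
  have hv := varArc_cond h.spd.mult A.lev A.ω h.ω_nonneg (fun _ _ => 0)
    (fun τ i => A.n τ * A.v i) A.I A.M A.lev_mem h.ibL hI (-A.ell) he.1.le (fun τ hω hle => by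
      have hne : A.lev τ ≠ A.h := fun e => hω (by simp [ω, h.wl_eq_zero (Or.inl e)])
      exact h.ibDis ((h.ibL τ A.h hle).2.trans (pow64 (lt_of_le_of_ne hle hne))))
  rw [← ibPi, ← h.cC_eq] at hv
  change ∫ x, ch A.cC x * (A.Pi x - A.Pb) ^ 2 ∂mu ≤ _ at hv
  have hJ : (0 : ℝ) < J := by exact_mod_cast h.J_pos
  have hc : Integrable (ch A.cC) mu := int_bdd (measurable_ch h.meas_cC) (C := 1) fun x => by
    have := ch_bounds A.cC x; rw [abs_le]; constructor <;> linarith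
  have hs : Integrable (fun x => ch A.cC x * (A.Pi x - A.Pb) ^ 2) mu :=
    int_bdd ((measurable_ch h.meas_cC).mul ((h.meas_Pi.sub_const _).pow_const 2))
      (C := A.kmax ^ 2) fun x => by
        have h1 := ch_bounds A.cC x
        have h2 := h.Pi_bounds x
        have h3 := h.Pb_bounds
        have h4 : (A.Pi x - A.Pb) ^ 2 ≤ A.kmax ^ 2 := by apply sq_le_sq' <;> linarith
        rw [abs_of_nonneg (mul_nonneg h1.1 (sq_nonneg _))]
        nlinarith [sq_nonneg (A.Pi x - A.Pb)]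
  have h2 := h.ibW
  have h4 := q4 A.I
  have h0 : (0 : ℝ) ≤ (1 / 4) ^ A.I := by positivity
  have hv2 : ∫ x, ch A.cC x * (A.Pi x - A.Pb) ^ 2 ∂mu ≤ 2000 * (A.ell + (1 / 2) ^ A.I) / J := by
    calc _ ≤ _ := hv
      _ ≤ 1000 * (A.ell + (1 / 2) ^ A.I) * (2 / J) := by
          apply mul_le_mul (by linarith) h2 (Finset.sum_nonneg fun _ _ => sq_nonneg _)
          linarith
      _ = _ := by ring
  calc ∫ x, ch A.cC x * |A.Pi x - A.Pb| ∂mu
      ≤ ∫ x, (ζ * ch A.cC x + ch A.cC x * (A.Pi x - A.Pb) ^ 2 / ζ) ∂mu := by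
        refine integral_mono_of_nonneg (Filter.Eventually.of_forall fun x =>
          mul_nonneg (ch_bounds _ _).1 (abs_nonneg _)) ((hc.const_mul ζ).add (hs.div_const ζ))
          (Filter.Eventually.of_forall fun x => ?_)
        have h1 := (ch_bounds A.cC x).1
        have h5 : |A.Pi x - A.Pb| ≤ ζ + (A.Pi x - A.Pb) ^ 2 / ζ := by
          rw [← sq_abs, ← sub_le_iff_le_add', le_div_iff₀ hζ]
          nlinarith [sq_nonneg (|A.Pi x - A.Pb| - ζ), abs_nonneg (A.Pi x - A.Pb)]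
        calc ch A.cC x * |A.Pi x - A.Pb| ≤ ch A.cC x * (ζ + (A.Pi x - A.Pb) ^ 2 / ζ) :=
              mul_le_mul_of_nonneg_left h5 h1
          _ = _ := by ring
    _ = ζ * A.ell + (∫ x, ch A.cC x * (A.Pi x - A.Pb) ^ 2 ∂mu) / ζ := by
        rw [integral_add (hc.const_mul ζ) (hs.div_const ζ), integral_const_mul, integral_div,
          integral_ch h.meas_cC, h.mu_cC]
    _ ≤ _ := by
        rw [← div_div]
        have := div_le_div_of_nonneg_right hv2 hζ.le
        linarith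

/-- one group -/
theorem OK.ibGroup (h : A.OK ρ lam J) {k : ℕ} (hk : k < A.kmax) :
    mu.real (A.cC ∩ {x | ((A.G k).card : ℝ) < 8 * ∑ ν ∈ A.G k, ch (A.cH ν)ᶜ x})
      ≤ 144000 * (A.ell + (1 / 2) ^ A.I) * (1 / (A.G k).card) := by
  classical
  have hI : A.I ≤ A.h := le_trans (Nat.le_add_right _ _) h.chain.h_ge
  have he := h.ell_bounds
  set g : ℝ := ((A.G k).card : ℝ) with hg
  have hg0 : 0 < g := by
    rw [hg]; exact_mod_cast (h.chain.ne k).card_pos
  set ℓ : A.G k → ℕ → ℝ := fun τ i => if i = τ.1 then 0 else nb A.θ A.m τ.1 * A.v i with hℓ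
  have hν : ∀ τ : A.G k, A.I ≤ τ.1 ∧ τ.1 ≤ A.M := fun τ =>
    ⟨(h.chain.mem k τ.1 τ.2).1, (h.G_le k hk τ.1 τ.2).trans (Nat.le_add_right _ _)⟩
  have hℓb : ∀ (τ : A.G k) i, τ.1 ≤ i → 0 ≤ ℓ τ i ∧ ℓ τ i ≤ 2 * (1 / 64) ^ (i - τ.1) := by
    intro τ i hi
    simp only [hℓ]
    split_ifs
    · exact ⟨le_rfl, by positivity⟩
    · exact ⟨mul_nonneg (Nat.cast_nonneg _) (h.spd.vt_pos i).le, h.spd.nb_mul_le hi⟩
  have hv := varArc_cond h.spd.mult (fun τ : A.G k => τ.1) (fun _ => 1 / g)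
    (fun _ => by positivity) (fun _ _ => 0) ℓ A.I A.M hν hℓb hI (-A.ell) he.1.le
    (fun τ _ hle => h.ibDis ((hℓb τ A.h hle).2.trans
      (pow64 (lt_of_le_of_ne hle (h.chain.mem k τ.1 τ.2).2))))
  rw [← h.cC_eq] at hv
  set F : X → ℝ := Fa A.m (fun τ : A.G k => τ.1) (fun _ => 1 / g) (fun _ _ => 0) ℓ A.M with hF
  have hFm : Measurable F := measurable_Fa _ _ _ _ _ _
  have hFe : ∀ x, F x = 1 - (∑ ν ∈ A.G k, ch (A.cH ν)ᶜ x) / g := by
    intro x
    have e1 : ∀ τ : A.G k, ch (ev A.m τ.1 A.M (fun _ => 0) (ℓ τ)) x = 1 - ch (A.cH τ.1)ᶜ x := by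
      intro τ
      rw [ch_compl, sub_sub_cancel]
      refine ch_congr ?_
      simp only [cH, ev, Set.mem_ofPred_eq, mem_arc_zero, not_lt, Finset.mem_Icc, hℓ]
      constructor
      · intro H i hi
        have := H i ⟨by omega, hi.2⟩
        rwa [if_neg (by omega)] at this
      · intro H i hi
        split_ifs with e
        · exact ph_nonneg _
        · exact H i ⟨by omega, hi.2⟩
    simp only [hF, Fa, e1]
    rw [Finset.sum_coe_sort (A.G k) (fun ν => 1 / g * (1 - ch (A.cH ν)ᶜ x)), ← Finset.mul_sum,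
      Finset.sum_sub_distrib, Finset.sum_const, nsmul_eq_mul, ← hg]
    field_simp
  have hW : ∑ l ∈ Finset.Icc A.I A.M, lw (fun τ : A.G k => τ.1) (fun _ => 1 / g) l ^ 2 ≤ 1 / g := by
    have e1 : ∀ l, lw (fun τ : A.G k => τ.1) (fun _ => 1 / g) l = if l ∈ A.G k then 1 / g else 0 := by
      intro l
      unfold lw
      rw [Finset.sum_coe_sort (A.G k) (fun ν => if ν = l then 1 / g else 0), Finset.sum_ite_eq']
    simp only [e1]
    calc ∑ l ∈ Finset.Icc A.I A.M, (if l ∈ A.G k then 1 / g else 0) ^ 2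
        = ∑ l ∈ (Finset.Icc A.I A.M).filter (· ∈ A.G k), (1 / g) ^ 2 := by
          rw [Finset.sum_filter]
          refine Finset.sum_congr rfl fun l _ => ?_
          split_ifs <;> simp
      _ ≤ ∑ l ∈ A.G k, (1 / g) ^ 2 :=
          Finset.sum_le_sum_of_subset_of_nonneg (fun l hl => (Finset.mem_filter.1 hl).2)
            fun _ _ _ => sq_nonneg _
      _ = 1 / g := by rw [Finset.sum_const, nsmul_eq_mul, ← hg]; field_simp
  have hHi : ∀ ν, Integrable (ch (A.cH ν)ᶜ) mu := fun ν =>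
    int_bdd (measurable_ch (h.meas_cH ν).compl) (C := 1) fun x => by
      have := ch_bounds (A.cH ν)ᶜ x; rw [abs_le]; constructor <;> linarith
  have hH : ∀ ν, mu.real (A.cH ν)ᶜ ≤ 2 / 63 := by
    intro ν
    have hsub : (A.cH ν)ᶜ ⊆ ⋃ i ∈ Finset.Icc (ν + 1) A.M, {x | yy A.m i x < nb A.θ A.m ν * A.v i} := by
      intro x hx
      simp only [cH, Set.mem_compl_iff, Set.mem_ofPred_eq, not_forall, not_le] at hx
      obtain ⟨i, hi, hlt⟩ := hx
      exact Set.mem_biUnion hi hlt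
    refine (measureReal_mono hsub (measure_ne_top _ _)).trans ((measureReal_biUnion_finset_le _ _).trans ?_)
    refine le_trans (Finset.sum_le_sum fun i hi => ?_) (geo64 ν A.M)
    exact (mu_yy_lt (h.spd.mult.pos i) (mul_nonneg (Nat.cast_nonneg _) (h.spd.vt_pos i).le)).trans
      (h.spd.nb_mul_le (by have := (Finset.mem_Icc.1 hi).1; omega))
  have hmean : 1 - 2 / 63 ≤ ∫ z, F z ∂mu := by
    have : ∫ z, F z ∂mu = 1 - (∑ ν ∈ A.G k, mu.real (A.cH ν)ᶜ) / g := by
      simp only [hFe]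
      rw [integral_sub (integrable_const _)
        ((integrable_finsetSum _ fun ν _ => hHi ν).div_const g), integral_div,
        integral_finsetSum _ fun ν _ => hHi ν]
      simp [integral_ch (h.meas_cH _).compl]
    rw [this]
    have h2 : ∑ ν ∈ A.G k, mu.real (A.cH ν)ᶜ ≤ g * (2 / 63) := by
      refine (Finset.sum_le_sum fun ν _ => hH ν).trans ?_
      rw [Finset.sum_const, nsmul_eq_mul]
    have := (div_le_iff₀' hg0).2 h2
    linarith
  have hFb : ∀ x, 0 ≤ F x ∧ F x ≤ 1 := by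
    intro x
    rw [hFe]
    have h1 : 0 ≤ ∑ ν ∈ A.G k, ch (A.cH ν)ᶜ x := Finset.sum_nonneg fun ν _ => (ch_bounds _ _).1
    have h2 : ∑ ν ∈ A.G k, ch (A.cH ν)ᶜ x ≤ g := by
      refine (Finset.sum_le_sum fun ν _ => (ch_bounds (A.cH ν)ᶜ x).2).trans ?_
      rw [Finset.sum_const, nsmul_eq_mul, mul_one]
    have h3 := div_nonneg h1 hg0.le
    have h4 := (div_le_one hg0).2 h2
    constructor <;> linarith
  have hm1 : ∫ z, F z ∂mu ≤ 1 := by
    calc ∫ z, F z ∂mu ≤ ∫ _ : X, (1 : ℝ) ∂mu :=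
          integral_mono_of_nonneg (Filter.Eventually.of_forall fun x => (hFb x).1)
            (integrable_const _) (Filter.Eventually.of_forall fun x => (hFb x).2)
      _ = 1 := by simp
  set Bd : Set X := {x | g < 8 * ∑ ν ∈ A.G k, ch (A.cH ν)ᶜ x} with hBd
  have hBm : MeasurableSet Bd := measurableSet_lt measurable_const
    ((Finset.measurable_sum _ fun ν _ => measurable_ch (h.meas_cH ν).compl).const_mul 8)
  have hs : Integrable (fun x => ch A.cC x * (F x - ∫ z, F z ∂mu) ^ 2) mu :=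
    int_bdd ((measurable_ch h.meas_cC).mul ((hFm.sub_const _).pow_const 2)) (C := 1) fun x => by
      have h1 := ch_bounds A.cC x
      have h2 := hFb x
      have h4 : (F x - ∫ z, F z ∂mu) ^ 2 ≤ 1 ^ 2 := by apply sq_le_sq' <;> linarith
      rw [abs_of_nonneg (mul_nonneg h1.1 (sq_nonneg _))]
      nlinarith [sq_nonneg (F x - ∫ z, F z ∂mu)]
  have h4 := q4 A.I
  have h0 : (0 : ℝ) ≤ (1 / 4) ^ A.I := by positivity
  calc mu.real (A.cC ∩ Bd) = ∫ x, ch (A.cC ∩ Bd) x ∂mu := (integral_ch (h.meas_cC.inter hBm)).symm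
    _ ≤ ∫ x, 144 * (ch A.cC x * (F x - ∫ z, F z ∂mu) ^ 2) ∂mu := by
        refine integral_mono_of_nonneg (Filter.Eventually.of_forall fun x => (ch_bounds _ _).1)
          (hs.const_mul 144) (Filter.Eventually.of_forall fun x => ?_)
        by_cases hx : x ∈ A.cC ∩ Bd
        · have h5 : 1 / 8 < (∑ ν ∈ A.G k, ch (A.cH ν)ᶜ x) / g := by
            rw [lt_div_iff₀ hg0]
            have := hx.2
            simp only [hBd, Set.mem_ofPred_eq] at this
            linarith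
          have h6 := hFe x
          beta_reduce
          rw [ch_mem hx, ch_mem hx.1]
          nlinarith
        · beta_reduce
          rw [ch_not hx]
          have := (ch_bounds A.cC x).1
          positivity
    _ ≤ 144 * (1000 * (A.ell + (1 / 2) ^ A.I) * (1 / g)) := by
        rw [integral_const_mul]
        refine mul_le_mul_of_nonneg_left (hv.trans ?_) (by norm_num)
        apply mul_le_mul (by linarith) hW (Finset.sum_nonneg fun _ _ => sq_nonneg _)
        linarith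
    _ = _ := by ring

theorem OK.mu_bad (h : A.OK ρ lam J) :
    mu.real (A.cK \ A.cG) ≤ 300000 * (A.ell + (1 / 2) ^ A.I) / J := by
  have he := h.ell_bounds
  have hsub : A.cK \ A.cG ⊆ ⋃ k ∈ Finset.range A.kmax,
      A.cC ∩ {x | ((A.G k).card : ℝ) < 8 * ∑ ν ∈ A.G k, ch (A.cH ν)ᶜ x} := by
    intro x hx
    have h2 := hx.2
    simp only [cG, Set.mem_ofPred_eq, not_forall, not_le] at h2
    obtain ⟨k, hk, hlt⟩ := h2
    exact Set.mem_biUnion (Finset.mem_coe.2 (Finset.mem_range.2 hk)) ⟨h.cK_sub hx.1, hlt⟩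
  refine (measureReal_mono hsub (measure_ne_top _ _)).trans ((measureReal_biUnion_finset_le _ _).trans ?_)
  refine (Finset.sum_le_sum fun k hk => h.ibGroup (Finset.mem_range.1 hk)).trans ?_
  rw [← Finset.mul_sum]
  have h0 : (0 : ℝ) ≤ A.ell + (1 / 2) ^ A.I := by have := he.1; positivity
  have hJ : (0 : ℝ) < J := by exact_mod_cast h.J_pos
  calc _ ≤ 144000 * (A.ell + (1 / 2) ^ A.I) * (2 / J) :=
        mul_le_mul_of_nonneg_left (h.chain.sizes _) (by positivity)
    _ = 288000 * (A.ell + (1 / 2) ^ A.I) / J := by ring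
    _ ≤ _ := div_le_div_of_nonneg_right (by linarith) hJ.le

end Par

end Crest.Agent.R113
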