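import Crest.Agent.R113.IntB

set_option autoImplicit false
open MeasureTheory
open scoped InnerProductSpace ComplexOrder

namespace Crest.Agent.R113

namespace IntCX

theorem int_bdd {F : X → ℝ} (hF : Measurable F) {C : ℝ} (hC : ∀ᵐ x ∂mu, |F x| ≤ C) :
    Integrable F mu :=
  Integrable.of_bound hF.aestronglyMeasurable C (by simpa [Real.norm_eq_abs] using hC)

theorem int_ch {S : Set X} (hS : MeasurableSet S) : Integrable (ch S) mu :=
  int_bdd (measurable_ch hS) (C := 1) (Filter.Eventually.of_forall fun x => by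
    have := ch_bounds S x; rw [abs_le]; constructor <;> linarith)

theorem iadd {F G : X → ℝ} (hF : Integrable F mu) (hG : Integrable G mu) :
    Integrable (fun x => F x + G x) mu := hF.add hG

theorem isub {F G : X → ℝ} (hF : Integrable F mu) (hG : Integrable G mu) :
    Integrable (fun x => F x - G x) mu := hF.sub hG

theorem int_orb (θ : ℝ) (j : ℤ) {F : X → ℝ} (hF : Integrable F mu) :
    Integrable (fun x => F (orb θ x j)) mu :=
  (mp_orb θ j).integrable_comp_of_integrable hF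

theorem int_ch_mul {S : Set X} (hS : MeasurableSet S) {F : X → ℝ} (hF : Integrable F mu) :
    Integrable (fun x => ch S x * F x) mu :=
  hF.bdd_mul (c := 1) (measurable_ch hS).aestronglyMeasurable
    (Filter.Eventually.of_forall fun x => by
      have := ch_bounds S x; rw [Real.norm_eq_abs, abs_le]; constructor <;> linarith)

/-- moving the shift from `π` to the indicator -/
theorem shift (θ : ℝ) (j : ℤ) (S : Set X) (π : X → ℝ) :
    ∫ x, ch S x * π (orb θ x j) ∂mu = ∫ x, ch S (orb θ x (-j)) * π x ∂mu := by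
  rw [← integral_orb θ j (fun x => ch S (orb θ x (-j)) * π x)]
  simp [orb_orb, orb_zero]

theorem orb_add (θ : ℝ) (x u : X) (j : ℤ) : orb θ (x + u) j = orb θ x j + u := by
  unfold orb; abel

end IntCX

namespace Par
variable {A : Par} {ρ lam : ℝ} {J : ℕ}
open IntCX

theorem OK.icY (h : A.OK ρ lam J) {i : ℕ} (hi : A.I ≤ i) (x : X) :
    A.y i (x + ((1 / (A.m A.I : ℝ) : ℝ) : X)) = A.y i x := by
  unfold Par.y yy
  rw [h.spd.mult.nsmul_add_inv hi]

theorem OK.icC (h : A.OK ρ lam J) (x : X) :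
    ch A.cCᶜ (x + ((1 / (A.m A.I : ℝ) : ℝ) : X)) = ch A.cCᶜ x := by
  have hI : A.I ≤ A.h := le_trans (Nat.le_add_right _ _) h.chain.h_ge
  have : (x + ((1 / (A.m A.I : ℝ) : ℝ) : X) ∈ A.cCᶜ) ↔ x ∈ A.cCᶜ := by
    simp only [Set.mem_compl_iff, cC, Set.mem_ofPred_eq, h.icY hI]
  unfold ch
  by_cases hx : x ∈ A.cCᶜ
  · rw [Set.indicator_of_mem hx, Set.indicator_of_mem (this.2 hx)]
  · rw [Set.indicator_of_notMem hx, Set.indicator_of_notMem (fun h' => hx (this.1 h'))]

theorem OK.icS (h : A.OK ρ lam J) (τ : A.T) (x : X) :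
    ch (A.cS τ) (x + ((1 / (A.m A.I : ℝ) : ℝ) : X)) = ch (A.cS τ) x := by
  have : (x + ((1 / (A.m A.I : ℝ) : ℝ) : X) ∈ A.cS τ) ↔ x ∈ A.cS τ := by
    simp only [cS, Set.mem_ofPred_eq]
    refine forall₂_congr fun i hi => ?_
    rw [h.icY ((A.lev_mem τ).1.trans (Finset.mem_Icc.1 hi).1)]
  unfold ch
  by_cases hx : x ∈ A.cS τ
  · rw [Set.indicator_of_mem hx, Set.indicator_of_mem (this.2 hx)]
  · rw [Set.indicator_of_notMem hx, Set.indicator_of_notMem (fun h' => hx (this.1 h'))]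

theorem OK.icPi (h : A.OK ρ lam J) : Integrable A.Pi mu :=
  int_bdd h.meas_Pi (C := A.kmax) (Filter.Eventually.of_forall fun x => by
    have := h.Pi_bounds x; rw [abs_le]; constructor <;> linarith)

theorem OK.icSq (h : A.OK ρ lam J) : Integrable (fun x => (A.Pi x - A.Pb) ^ 2) mu :=
  int_bdd ((h.meas_Pi.sub_const _).pow_const 2) (C := A.kmax ^ 2)
    (Filter.Eventually.of_forall fun x => by
      have := h.Pi_bounds x
      have := h.Pb_bounds
      rw [abs_of_nonneg (sq_nonneg _)]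
      apply sq_le_sq' <;> linarith)

theorem OK.integrable_er (h : A.OK ρ lam J) {π : X → ℝ} (hπ : Measurable π)
    (hb : ∀ᵐ x ∂mu, 0 ≤ π x ∧ π x ≤ 1) (v : ℝ) : Integrable (A.er π v) mu := by
  have hπi : Integrable π mu := int_bdd hπ (C := 1) (by
    filter_upwards [hb] with x hx; rw [abs_le]; constructor <;> linarith)
  unfold er
  refine ((((((int_ch h.meas_cMg).add (int_ch (h.meas_cC.diff h.meas_cK))).add
    (int_ch (h.meas_cK.diff h.meas_cG))).add
    (int_ch_mul h.meas_cC (h.icPi.sub (integrable_const _)).abs)).add (h.icSq.div_const v)).add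
    (((int_ch_mul h.meas_cC.compl ((int_orb _ _ hπi).sub hπi)).add
      ((int_ch h.meas_cE0).const_mul 2)).const_mul v)).add ?_
  exact integrable_finsetSum _ fun τ _ =>
    ((int_ch_mul (h.meas_cS τ) (hπi.sub (int_orb _ _ hπi))).add
      ((int_ch (h.meas_cE τ)).const_mul 2)).const_mul _

theorem OK.icF (h : A.OK ρ lam J) {π : X → ℝ} (hπi : Integrable π mu) {ε : ℝ} (hε : 0 ≤ ε)
    (hper : ∀ G : X → ℝ, Measurable G → (∃ C : ℝ, ∀ x, |G x| ≤ C) →
      (∀ x, G (x + ((1 / (A.m A.I : ℝ) : ℝ) : X)) = G x) →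
      |∫ x, (π x - ∫ z, π z ∂mu) * G x ∂mu| ≤ ε * (1 + ∫ x, G x ^ 2 ∂mu)) :
    ∫ x, ch A.cCᶜ x * (π (orb A.θ x A.N) - π x) ∂mu ≤ 2 * ε := by
  have hS := h.meas_cC.compl
  set G : X → ℝ := fun x => ch A.cCᶜ (orb A.θ x (-(A.N : ℤ))) - ch A.cCᶜ x with hG
  have hm1 : Measurable fun x => ch A.cCᶜ (orb A.θ x (-(A.N : ℤ))) :=
    (measurable_ch hS).comp (continuous_orb _ _).measurable
  have hGm : Measurable G := hm1.sub (measurable_ch hS)
  have hGb : ∀ x, |G x| ≤ 1 := fun x => by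
    have := ch_bounds A.cCᶜ (orb A.θ x (-(A.N : ℤ)))
    have := ch_bounds A.cCᶜ x
    rw [abs_le]; constructor <;> simp only [hG] <;> linarith
  have hp := hper G hGm ⟨1, hGb⟩ (fun x => by simp only [hG, orb_add, h.icC])
  have hG2 : ∫ x, G x ^ 2 ∂mu ≤ 1 := by
    calc ∫ x, G x ^ 2 ∂mu ≤ ∫ _ : X, (1 : ℝ) ∂mu := by
          refine integral_mono_of_nonneg (Filter.Eventually.of_forall fun x => sq_nonneg _)
            (integrable_const _) (Filter.Eventually.of_forall fun x => ?_)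
          exact (sq_le_one_iff_abs_le_one _).2 (hGb x)
      _ = 1 := by simp
  have hGi : Integrable G mu := int_bdd hGm (Filter.Eventually.of_forall hGb)
  have hG0 : ∫ x, G x ∂mu = 0 := by
    simp only [hG]
    rw [integral_sub (int_orb _ _ (int_ch hS)) (int_ch hS), integral_orb, sub_self]
  have i1 : Integrable (fun x => ch A.cCᶜ (orb A.θ x (-(A.N : ℤ))) * π x) mu :=
    hπi.bdd_mul (c := 1) hm1.aestronglyMeasurable (Filter.Eventually.of_forall fun x => by
      have := ch_bounds A.cCᶜ (orb A.θ x (-(A.N : ℤ)))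
      rw [Real.norm_eq_abs, abs_le]; constructor <;> linarith)
  have e : ∫ x, ch A.cCᶜ x * (π (orb A.θ x A.N) - π x) ∂mu
      = ∫ x, (π x - ∫ z, π z ∂mu) * G x ∂mu := by
    have e1 : (fun x => (π x - ∫ z, π z ∂mu) * G x) = fun x =>
        (ch A.cCᶜ (orb A.θ x (-(A.N : ℤ))) * π x - ch A.cCᶜ x * π x) - (∫ z, π z ∂mu) * G x := by
      funext x; simp only [hG]; ring
    rw [e1, integral_sub (isub i1 (int_ch_mul hS hπi)) (hGi.const_mul _), integral_const_mul, hG0,
      integral_sub i1 (int_ch_mul hS hπi), ← shift]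
    simp only [mul_sub]
    rw [integral_sub (int_ch_mul hS (int_orb _ _ hπi)) (int_ch_mul hS hπi)]
    ring
  rw [e]
  have := (le_abs_self _).trans hp
  nlinarith

theorem OK.icG (h : A.OK ρ lam J) {π : X → ℝ} (hπi : Integrable π mu) {ε : ℝ} (hε : 0 ≤ ε)
    (hper : ∀ G : X → ℝ, Measurable G → (∃ C : ℝ, ∀ x, |G x| ≤ C) →
      (∀ x, G (x + ((1 / (A.m A.I : ℝ) : ℝ) : X)) = G x) →
      |∫ x, (π x - ∫ z, π z ∂mu) * G x ∂mu| ≤ ε * (1 + ∫ x, G x ^ 2 ∂mu)) :
    ∑ τ, A.ω τ * ∫ x, ch (A.cS τ) x * (π x - π (orb A.θ x (-(A.n τ : ℤ)))) ∂mu ≤ 801 * ε := by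
  set P' : X → ℝ := fun x => ∑ τ, A.ω τ * ch (A.cS τ) (orb A.θ x (A.n τ)) with hP'
  have hm1 : ∀ τ, Measurable fun x => ch (A.cS τ) (orb A.θ x (A.n τ)) := fun τ =>
    (measurable_ch (h.meas_cS τ)).comp (continuous_orb _ _).measurable
  have hP'm : Measurable P' := Finset.measurable_sum _ fun τ _ => (hm1 τ).const_mul _
  have hP'b : ∀ x, 0 ≤ P' x ∧ P' x ≤ A.kmax := fun x => by
    constructor
    · exact Finset.sum_nonneg fun τ _ => mul_nonneg (h.ω_nonneg τ) (ch_bounds _ _).1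
    · rw [← h.sum_ω]
      exact Finset.sum_le_sum fun τ _ => mul_le_of_le_one_right (h.ω_nonneg τ) (ch_bounds _ _).2
  set G : X → ℝ := fun x => A.Pi x - P' x with hG
  have hGm : Measurable G := h.meas_Pi.sub hP'm
  have hGb : ∀ x, |G x| ≤ A.kmax := fun x => by
    have := h.Pi_bounds x
    have := hP'b x
    rw [abs_le]; constructor <;> simp only [hG] <;> linarith
  have hp := hper G hGm ⟨_, hGb⟩ (fun x => by simp only [hG, hP', Pi, orb_add, h.icS])
  have hGi : Integrable G mu := int_bdd hGm (Filter.Eventually.of_forall hGb)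
  have hsq' : Integrable (fun x => (P' x - A.Pb) ^ 2) mu :=
    int_bdd ((hP'm.sub_const _).pow_const 2) (C := A.kmax ^ 2)
      (Filter.Eventually.of_forall fun x => by
        have := hP'b x
        have := h.Pb_bounds
        rw [abs_of_nonneg (sq_nonneg _)]
        apply sq_le_sq' <;> linarith)
  have hJ : (1 : ℝ) ≤ J := by exact_mod_cast h.J_pos
  have h200 : (200 : ℝ) / J ≤ 200 := div_le_self (by norm_num) hJ
  have hG2 : ∫ x, G x ^ 2 ∂mu ≤ 800 := by
    calc ∫ x, G x ^ 2 ∂mu ≤ ∫ x, (2 * (A.Pi x - A.Pb) ^ 2 + 2 * (P' x - A.Pb) ^ 2) ∂mu := by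
          refine integral_mono_of_nonneg (Filter.Eventually.of_forall fun x => sq_nonneg _)
            ((h.icSq.const_mul 2).add (hsq'.const_mul 2)) (Filter.Eventually.of_forall fun x => ?_)
          simp only [hG]
          nlinarith [sq_nonneg (A.Pi x + P' x - 2 * A.Pb)]
      _ = 2 * ∫ x, (A.Pi x - A.Pb) ^ 2 ∂mu + 2 * ∫ x, (P' x - A.Pb) ^ 2 ∂mu := by
          rw [integral_add (h.icSq.const_mul 2) (hsq'.const_mul 2), integral_const_mul,
            integral_const_mul]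
      _ ≤ 800 := by
          have := h.var_Pi
          have := h.var_Pi'
          linarith
  have i1 : ∀ τ, Integrable (fun x => ch (A.cS τ) (orb A.θ x (A.n τ)) * π x) mu := fun τ =>
    hπi.bdd_mul (c := 1) (hm1 τ).aestronglyMeasurable (Filter.Eventually.of_forall fun x => by
      have := ch_bounds (A.cS τ) (orb A.θ x (A.n τ))
      rw [Real.norm_eq_abs, abs_le]; constructor <;> linarith)
  have hG0 : ∫ x, G x ∂mu = 0 := by
    have e : G = fun x => ∑ τ, A.ω τ * (ch (A.cS τ) x - ch (A.cS τ) (orb A.θ x (A.n τ))) := by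
      funext x; simp only [hG, hP', Pi, mul_sub, Finset.sum_sub_distrib]
    rw [e]
    beta_reduce
    rw [integral_finsetSum _ fun τ _ =>
      (isub (int_ch (h.meas_cS τ)) (int_orb A.θ (A.n τ) (int_ch (h.meas_cS τ)))).const_mul (A.ω τ)]
    refine Finset.sum_eq_zero fun τ _ => ?_
    rw [integral_const_mul, integral_sub (int_ch (h.meas_cS τ)) (int_orb _ _ (int_ch (h.meas_cS τ))),
      integral_orb, sub_self, mul_zero]
  have e : ∑ τ, A.ω τ * ∫ x, ch (A.cS τ) x * (π x - π (orb A.θ x (-(A.n τ : ℤ)))) ∂mu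
      = ∫ x, (π x - ∫ z, π z ∂mu) * G x ∂mu := by
    have e1 : (fun x => (π x - ∫ z, π z ∂mu) * G x) = fun x =>
        (∑ τ, A.ω τ * (ch (A.cS τ) x * π x - ch (A.cS τ) (orb A.θ x (A.n τ)) * π x))
          - (∫ z, π z ∂mu) * G x := by
      funext x
      have : ∑ τ, A.ω τ * (ch (A.cS τ) x * π x - ch (A.cS τ) (orb A.θ x (A.n τ)) * π x)
          = G x * π x := by
        simp only [hG, hP', Pi, sub_mul, Finset.sum_mul, mul_sub, Finset.sum_sub_distrib, mul_assoc]
      rw [this]; ring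
    have i2 : ∀ τ, Integrable (fun x => A.ω τ *
        (ch (A.cS τ) x * π x - ch (A.cS τ) (orb A.θ x (A.n τ)) * π x)) mu := fun τ =>
      ((int_ch_mul (h.meas_cS τ) hπi).sub (i1 τ)).const_mul _
    rw [e1, integral_sub (integrable_finsetSum _ fun τ _ => i2 τ) (hGi.const_mul _),
      integral_const_mul, hG0, mul_zero, sub_zero, integral_finsetSum _ fun τ _ => i2 τ]
    refine Finset.sum_congr rfl fun τ _ => ?_
    rw [integral_const_mul, integral_sub (int_ch_mul (h.meas_cS τ) hπi) (i1 τ)]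
    simp only [mul_sub]
    rw [integral_sub (int_ch_mul (h.meas_cS τ) hπi) (int_ch_mul (h.meas_cS τ) (int_orb _ _ hπi)),
      shift, neg_neg]
    ring
  rw [e]
  have := (le_abs_self _).trans hp
  nlinarith

theorem OK.integral_er (h : A.OK ρ lam J) {π : X → ℝ} (hπ : Measurable π)
    (hb : ∀ᵐ x ∂mu, 0 ≤ π x ∧ π x ≤ 1) {v ε ζ : ℝ} (hv : 0 < v) (hζ : 0 < ζ) (hε : 0 ≤ ε)
    (hper : ∀ G : X → ℝ, Measurable G → (∃ C : ℝ, ∀ x, |G x| ≤ C) →
      (∀ x, G (x + ((1 / (A.m A.I : ℝ) : ℝ) : X)) = G x) →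
      |∫ x, (π x - ∫ z, π z ∂mu) * G x ∂mu| ≤ ε * (1 + ∫ x, G x ^ 2 ∂mu)) :
    ∫ x, A.er π v x ∂mu ≤ 18 * (1 / 2) ^ A.I
      + (A.ell + 2 * (1 / 2) ^ A.I) * (3 * (A.N * A.v A.I) + 4 * (1 / 2) ^ A.I)
      + 300000 * (A.ell + (1 / 2) ^ A.I) / J
      + (ζ * A.ell + 2000 * (A.ell + (1 / 2) ^ A.I) / (J * ζ)) + 200 / (J * v)
      + v * (2 * ε + 4 * (1 / 2) ^ A.I + 4 * A.ell ^ 2 / (A.N * A.v A.I)) + 801 * ε := by
  have hπi : Integrable π mu := int_bdd hπ (C := 1) (by
    filter_upwards [hb] with x hx; rw [abs_le]; constructor <;> linarith)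
  have a1 := int_ch h.meas_cMg
  have a2 := int_ch (h.meas_cC.diff h.meas_cK)
  have a3 := int_ch (h.meas_cK.diff h.meas_cG)
  have a4 : Integrable (fun x => ch A.cC x * |A.Pi x - A.Pb|) mu :=
    int_ch_mul h.meas_cC (h.icPi.sub (integrable_const _)).abs
  have a5 := h.icSq.div_const v
  have a6a : Integrable (fun x => ch A.cCᶜ x * (π (orb A.θ x A.N) - π x)) mu :=
    int_ch_mul h.meas_cC.compl ((int_orb _ _ hπi).sub hπi)
  have a6b := (int_ch h.meas_cE0).const_mul 2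
  have a6 : Integrable (fun x => v * (ch A.cCᶜ x * (π (orb A.θ x A.N) - π x)
      + 2 * ch A.cE0 x)) mu := (a6a.add a6b).const_mul v
  have a7a : ∀ τ, Integrable (fun x => ch (A.cS τ) x * (π x - π (orb A.θ x (-(A.n τ : ℤ))))) mu :=
    fun τ => int_ch_mul (h.meas_cS τ) (hπi.sub (int_orb _ _ hπi))
  have a7b : ∀ τ, Integrable (fun x => 2 * ch (A.cE τ) x) mu := fun τ =>
    (int_ch (h.meas_cE τ)).const_mul 2
  have a7 : ∀ τ, Integrable (fun x => A.ω τ * (ch (A.cS τ) x * (π x - π (orb A.θ x (-(A.n τ : ℤ))))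
      + 2 * ch (A.cE τ) x)) mu := fun τ => ((a7a τ).add (a7b τ)).const_mul _
  have e : ∫ x, A.er π v x ∂mu = mu.real A.cMg + mu.real (A.cC \ A.cK) + mu.real (A.cK \ A.cG)
      + ∫ x, ch A.cC x * |A.Pi x - A.Pb| ∂mu + (∫ x, (A.Pi x - A.Pb) ^ 2 ∂mu) / v
      + v * (∫ x, ch A.cCᶜ x * (π (orb A.θ x A.N) - π x) ∂mu + 2 * mu.real A.cE0)
      + (∑ τ, A.ω τ * ∫ x, ch (A.cS τ) x * (π x - π (orb A.θ x (-(A.n τ : ℤ)))) ∂mu
        + 2 * ∑ τ, A.ω τ * mu.real (A.cE τ)) := by
    unfold er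
    rw [integral_add (iadd (iadd (iadd (iadd (iadd a1 a2) a3) a4) a5) a6)
        (integrable_finsetSum _ fun τ _ => a7 τ),
      integral_add (iadd (iadd (iadd (iadd a1 a2) a3) a4) a5) a6,
      integral_add (iadd (iadd (iadd a1 a2) a3) a4) a5, integral_add (iadd (iadd a1 a2) a3) a4,
      integral_add (iadd a1 a2) a3, integral_add a1 a2, integral_ch h.meas_cMg,
      integral_ch (h.meas_cC.diff h.meas_cK), integral_ch (h.meas_cK.diff h.meas_cG),
      integral_div, integral_const_mul, integral_add a6a a6b, integral_const_mul,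
      integral_ch h.meas_cE0, integral_finsetSum _ fun τ _ => a7 τ, Finset.mul_sum,
      ← Finset.sum_add_distrib]
    congr 1
    refine Finset.sum_congr rfl fun τ _ => ?_
    rw [integral_const_mul, integral_add (a7a τ) (a7b τ), integral_const_mul,
      integral_ch (h.meas_cE τ)]
    ring
  rw [e]
  have b1 := h.mu_cMg
  have b2 := h.mu_cC_diff
  have b3 := h.mu_bad
  have b4 := h.dev_cC hζ
  have b5 : (∫ x, (A.Pi x - A.Pb) ^ 2 ∂mu) / v ≤ 200 / (J * v) := by
    rw [← div_div]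
    exact div_le_div_of_nonneg_right h.var_Pi hv.le
  have b6 : v * (∫ x, ch A.cCᶜ x * (π (orb A.θ x A.N) - π x) ∂mu + 2 * mu.real A.cE0)
      ≤ v * (2 * ε + 4 * (1 / 2) ^ A.I + 4 * A.ell ^ 2 / (A.N * A.v A.I)) := by
    refine mul_le_mul_of_nonneg_left ?_ hv.le
    have := h.icF hπi hε hper
    have := h.mu_cE0
    have e2 : 4 * A.ell ^ 2 / (A.N * A.v A.I) = 2 * (2 * A.ell ^ 2 / (A.N * A.v A.I)) := by ring
    linarith
  have b7 := h.icG hπi hε hper
  have b8 := h.mu_cE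
  linarith

end Par

end Crest.Agent.R113
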