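import Crest.Agent.R113.IntC
import Crest.Agent.R113.Erg3
import Crest.Agent.R113.FinB

set_option autoImplicit false
open MeasureTheory
open scoped InnerProductSpace ComplexOrder

namespace Crest.Agent.R113

namespace IntDX

theorem int_orb {F : X → ℝ} (hF : Integrable F mu) (θ : ℝ) (j : ℤ) :
    Integrable (fun x => F (orb θ x j)) mu :=
  (mp_orb θ j).integrable_comp_of_integrable hF

theorem int_sm {F : X → ℝ} (hF : Integrable F mu) (θ : ℝ) (L : ℕ) :
    Integrable (fun x => sm L fun j => F (orb θ x j)) mu :=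
  integrable_finsetSum _ fun j _ => int_orb hF θ j

theorem integral_sm {F : X → ℝ} (hF : Integrable F mu) (θ : ℝ) (L : ℕ) :
    ∫ x, (sm L fun j => F (orb θ x j)) ∂mu = L * ∫ x, F x ∂mu := by
  unfold sm
  beta_reduce
  rw [integral_finsetSum _ fun (j : ℕ) _ => int_orb hF θ (j : ℤ)]
  simp only [integral_orb, Finset.sum_const, Finset.card_range, nsmul_eq_mul]

theorem nonpos_of_mul_le {a K : ℝ} (h : ∀ L : ℕ, L * a ≤ K) : a ≤ 0 := by
  by_contra c
  have c' : 0 < a := not_le.1 c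
  obtain ⟨L, hL⟩ := exists_nat_gt (K / a)
  rw [div_lt_iff₀ c'] at hL
  linarith [h L]

theorem dev_orb (θ : ℝ) (π : X → ℝ) (t : ℝ) (n : ℕ) (x : X) (j : ℤ) :
    dev (fun k => π (orb θ x k)) t n j = dev (fun k => π (orb θ (orb θ x j) k)) t n 0 := by
  simp only [dev, orb_orb, zero_add]

/-- integration of a pointwise affine inequality -/
theorem integ {f1 f2 f3 f4 f5 f6 : X → ℝ} (i1 : Integrable f1 mu) (i2 : Integrable f2 mu)
    (i3 : Integrable f3 mu) (i4 : Integrable f4 mu) (i5 : Integrable f5 mu) (i6 : Integrable f6 mu)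
    {a b C u Θ e Cb : ℝ}
    (h : ∀ᵐ x ∂mu, a * f1 x ≤ b * f1 x + 2 * f2 x +
      C * (f3 x + u + Θ * f4 x + e + Cb * (f5 x + f6 x + 1))) :
    a * ∫ x, f1 x ∂mu ≤ b * ∫ x, f1 x ∂mu + 2 * ∫ x, f2 x ∂mu +
      C * (∫ x, f3 x ∂mu + u + Θ * ∫ x, f4 x ∂mu + e +
        Cb * (∫ x, f5 x ∂mu + ∫ x, f6 x ∂mu + 1)) := by
  have j1 : Integrable (fun x => (b - a) * f1 x) mu := i1.const_mul _
  have j2 : Integrable (fun x => 2 * f2 x) mu := i2.const_mul _
  have j3 : Integrable (fun x => C * f3 x) mu := i3.const_mul _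
  have j4 : Integrable (fun x => C * Θ * f4 x) mu := i4.const_mul _
  have j5 : Integrable (fun x => C * Cb * f5 x) mu := i5.const_mul _
  have j6 : Integrable (fun x => C * Cb * f6 x) mu := i6.const_mul _
  have j7 : Integrable (fun _ : X => C * (u + e + Cb)) mu := integrable_const _
  have k2 : Integrable (fun x => (b - a) * f1 x + 2 * f2 x) mu := j1.add j2
  have k3 : Integrable (fun x => (b - a) * f1 x + 2 * f2 x + C * f3 x) mu := k2.add j3
  have k4 : Integrable (fun x => (b - a) * f1 x + 2 * f2 x + C * f3 x + C * Θ * f4 x) mu :=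
    k3.add j4
  have k5 : Integrable (fun x => (b - a) * f1 x + 2 * f2 x + C * f3 x + C * Θ * f4 x
      + C * Cb * f5 x) mu := k4.add j5
  have k6 : Integrable (fun x => (b - a) * f1 x + 2 * f2 x + C * f3 x + C * Θ * f4 x
      + C * Cb * f5 x + C * Cb * f6 x) mu := k5.add j6
  have h0 : 0 ≤ ∫ x, ((b - a) * f1 x + 2 * f2 x + C * f3 x + C * Θ * f4 x
      + C * Cb * f5 x + C * Cb * f6 x + C * (u + e + Cb)) ∂mu := by
    refine integral_nonneg_of_ae ?_
    filter_upwards [h] with x hx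
    simp only [Pi.zero_apply]
    linarith
  rw [integral_add k6 j7, integral_add k5 j6, integral_add k4 j5, integral_add k3 j4,
    integral_add k2 j3, integral_add j1 j2] at h0
  simp only [integral_const_mul, integral_const, probReal_univ, smul_eq_mul, one_mul] at h0
  linarith

end IntDX

namespace Par
variable {A : Par} {ρ lam : ℝ} {J : ℕ}

open IntDX in
theorem OK.int_fin (h : A.OK ρ lam J) {q : ℤ → X → ℂ} {t : ℝ} (hF : Fib A.θ A.w q t)
    {ξ v ε₃ : ℝ} {n D₁ : ℕ} (hξ : 0 < ξ) (hξ1 : ξ ≤ 1) (hv : 1 ≤ v) (hn : 1 ≤ n)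
    (hD : ∀ L : ℕ, ∫ x, dcol (kq A.θ q x) L A.D0 ∂mu ≤ ε₃ * L + 2 * D₁ * (L / A.D0 + 1)) :
    t * (1 - t) * mu.real A.cK ≤ (ξ + (3 + 4 * n) / A.N) * mu.real A.cK
      + 2 * ∫ x, dev (fun j => (q 0 (orb A.θ x j)).re) t n 0 ∂mu
      + 1000 / (ξ * (1 / (4 * A.m0))) * ((∫ x, A.er (fun z => (q 0 z).re) v x ∂mu) + 1 / A.Q
          + Th A.Q ^ 2 * (ε₃ + 2 * D₁ / A.D0)) := by
  have hπm : Measurable fun z => (q 0 z).re := Complex.measurable_re.comp (hF.meas 0)
  have hπb := hF.pi_bounds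
  have hπ : Integrable (fun z => (q 0 z).re) mu := by
    refine Integrable.of_bound hπm.aestronglyMeasurable 1 ?_
    filter_upwards [hπb] with x hx
    rw [Real.norm_eq_abs, abs_of_nonneg hx.1]
    exact hx.2
  have i1 : Integrable (ch A.cK) mu := by
    refine Integrable.of_bound (measurable_ch h.meas_cK).aestronglyMeasurable 1 ?_
    filter_upwards with x
    rw [Real.norm_eq_abs, abs_of_nonneg (ch_bounds _ x).1]
    exact (ch_bounds _ x).2
  have i2 : Integrable (fun x => dev (fun j => (q 0 (orb A.θ x j)).re) t n 0) mu := by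
    unfold dev
    exact (((integrable_finsetSum _ fun i _ => int_orb hπ A.θ _).div_const _).sub
      (integrable_const t)).abs
  have i3 : Integrable (A.er (fun z => (q 0 z).re) v) mu := h.integrable_er hπm hπb v
  have hm0 : (0 : ℝ) < A.m0 := by exact_mod_cast h.m0_pos
  set C : ℝ := 1000 / (ξ * (1 / (4 * A.m0))) with hC
  have hC0 : 0 < C := by positivity
  refine le_of_forall_pos_le_add fun δ hδ => ?_
  have hη : 0 < δ / (3 * C) := by positivity
  set η := δ / (3 * C) with hηdef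
  obtain ⟨Cb, hCb, H⟩ := finThm (Q := A.Q) (κm := A.κ A.M) (W := A.kmax) (v := v) (η := η)
    (h.wt.κ_pos _) (Nat.cast_nonneg _) hv hη
  have hε : 0 < η / (Cb + 1) := by positivity
  obtain ⟨D₂, -, hD₂⟩ := hF.defect_le hε
  have key : ∀ L : ℕ, t * (1 - t) * (L * mu.real A.cK) ≤
      (ξ + (3 + 4 * n) / A.N) * (L * mu.real A.cK)
      + 2 * (L * ∫ x, dev (fun j => (q 0 (orb A.θ x j)).re) t n 0 ∂mu)
      + C * (L * (∫ x, A.er (fun z => (q 0 z).re) v x ∂mu) + L / A.Q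
        + Th A.Q ^ 2 * ∫ x, dcol (kq A.θ q x) L A.D0 ∂mu + η * L
        + Cb * (∫ x, dfc (wnd (kq A.θ q x) L 0) ∂mu + ∫ x, dfc (wnd (kq A.θ q x) L A.N) ∂mu + 1)) := by
    intro L
    rw [← integral_ch h.meas_cK, ← integral_sm i1 A.θ L, ← integral_sm i2 A.θ L,
      ← integral_sm i3 A.θ L]
    refine integ (int_sm i1 A.θ L) (int_sm i2 A.θ L) (int_sm i3 A.θ L) (hF.integrable_dcol L A.D0)
      (hF.integrable_dfc L 0) (hF.integrable_dfc L A.N) ?_
    filter_upwards [hF.ker] with x hx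
    have h1 := H A.T (A.zs x) (kq A.θ q x) _ (1 / (4 * A.m0)) A.Pb t ξ n L hx (h.zs_ok x)
      h.sum_ω.le h.Pb_bounds.1 h.Pb_bounds.2 hF.t_bounds.1 hF.t_bounds.2 hξ hξ1 hn
    have e1 : (fun j => (kq A.θ q x j j).re) = fun j => (q 0 (orb A.θ x j)).re := by
      funext j
      simp only [kq, sub_self]
    have e2 : ch (A.zs x).K = fun j => ch A.cK (orb A.θ x j) := by
      rw [zs_K]
      rfl
    have e3 : (A.zs x).er (fun j => (q 0 (orb A.θ x j)).re) v A.Pb =
        fun j => A.er (fun z => (q 0 z).re) v (orb A.θ x j) :=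
      funext fun j => zs_er A (fun z => (q 0 z).re) v x j
    have e4 : dev (fun j => (q 0 (orb A.θ x j)).re) t n =
        fun j => dev (fun k => (q 0 (orb A.θ (orb A.θ x j) k)).re) t n 0 :=
      funext fun j => dev_orb A.θ (fun z => (q 0 z).re) t n x j
    rw [e1, e2, e3, e4] at h1
    exact h1
  have hT : 0 ≤ Th A.Q ^ 2 := sq_nonneg _
  have h2 : η / (Cb + 1) * Cb ≤ η := by
    rw [div_mul_eq_mul_div, div_le_iff₀ (by positivity)]
    nlinarith
  have h3 : C * (3 * η) = δ := by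
    rw [hηdef]
    field_simp
  have fin := nonpos_of_mul_le (K := C * (Th A.Q ^ 2 * (2 * D₁) + Cb * (4 * D₂ + 1)))
    (a := t * (1 - t) * mu.real A.cK - ((ξ + (3 + 4 * n) / A.N) * mu.real A.cK
      + 2 * ∫ x, dev (fun j => (q 0 (orb A.θ x j)).re) t n 0 ∂mu
      + C * ((∫ x, A.er (fun z => (q 0 z).re) v x ∂mu) + 1 / A.Q
          + Th A.Q ^ 2 * (ε₃ + 2 * D₁ / A.D0)) + C * (3 * η))) fun L => by
    have a1 := key L
    have a2 := mul_le_mul_of_nonneg_left (hD L) hT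
    have a3 := mul_le_mul_of_nonneg_left (add_le_add (hD₂ L 0) (hD₂ L A.N)) hCb
    have a4 := mul_le_mul_of_nonneg_right h2 (Nat.cast_nonneg (α := ℝ) L)
    have a5 : L * (∫ x, A.er (fun z => (q 0 z).re) v x ∂mu) + L / A.Q
        + Th A.Q ^ 2 * ∫ x, dcol (kq A.θ q x) L A.D0 ∂mu + η * L
        + Cb * (∫ x, dfc (wnd (kq A.θ q x) L 0) ∂mu + ∫ x, dfc (wnd (kq A.θ q x) L A.N) ∂mu + 1)
        ≤ L * ((∫ x, A.er (fun z => (q 0 z).re) v x ∂mu) + 1 / A.Q
          + Th A.Q ^ 2 * (ε₃ + 2 * D₁ / A.D0) + 3 * η)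
          + (Th A.Q ^ 2 * (2 * D₁) + Cb * (4 * D₂ + 1)) := by
      have b1 : (L : ℝ) / A.Q = L * (1 / A.Q) := by ring
      have b2 : Th A.Q ^ 2 * (ε₃ * L + 2 * D₁ * (L / A.D0 + 1)) =
          L * (Th A.Q ^ 2 * (ε₃ + 2 * D₁ / A.D0)) + Th A.Q ^ 2 * (2 * D₁) := by ring
      rw [b2] at a2
      rw [b1]
      nlinarith
    have a6 := mul_le_mul_of_nonneg_left a5 hC0.le
    nlinarith
  linarith

end Par

end Crest.Agent.R113
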