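import Crest.Agent.R113.Basic2

set_option autoImplicit false
open Matrix
open scoped ComplexOrder

namespace Crest.Agent.R113
variable {ι : Type*} [Fintype ι] [DecidableEq ι]
variable {T : Type*} [Fintype T]

namespace MLX

theorem pd {K : Matrix ι ι ℂ} (hK : K.PosSemidef) {d : ι → ℝ} (hd : ∀ j, 0 < d j) :
    (K + dg d).PosDef :=
  PosDef.posSemidef_add hK (PosDef.diagonal fun j => Complex.zero_lt_real.2 (hd j))

theorem anti {K : Matrix ι ι ℂ} (hK : K.PosSemidef) {d d' : ι → ℝ} (hd : ∀ j, 0 < d j)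
    (h : ∀ j, d j ≤ d' j) : ((K + dg d)⁻¹ - (K + dg d')⁻¹).PosSemidef := by
  refine inv_anti (pd hK hd) ?_
  rw [add_sub_add_left_eq_sub, dg, dg, diagonal_sub]
  refine PosSemidef.diagonal fun j => ?_
  simp only [Pi.zero_apply, ← Complex.ofReal_sub, Complex.zero_le_real]
  linarith [h j]

theorem de_le {A B : Matrix ι ι ℂ} (h : (B - A).PosSemidef) (j : ι) : de A j ≤ de B j := by
  have := de_nonneg h j
  simp only [de, Matrix.sub_apply, Complex.sub_re] at this ⊢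
  linarith

theorem tr {K : Matrix ι ι ℂ} (hK : K.PosSemidef) {d : ι → ℝ} (hd : ∀ j, 0 < d j) :
    ∑ j, d j * de (K + dg d)⁻¹ j = Fintype.card ι - (trace (K * (K + dg d)⁻¹)).re := by
  have h := congrArg (fun M => (trace M).re)
    (mul_nonsing_inv _ ((isUnit_iff_isUnit_det _).1 (pd hK hd).isUnit))
  simp only [Matrix.add_mul, trace_add, trace_one, Complex.add_re, Complex.natCast_re] at h
  rw [← h, add_sub_cancel_left]
  generalize (K + dg d)⁻¹ = G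
  simp only [de, dg, Matrix.trace, Matrix.diag_apply, diagonal_mul, Complex.re_sum,
    Complex.re_ofReal_mul]

theorem core {K : Matrix ι ι ℂ} (hK : K.PosSemidef) {d : ι → ℝ} (hd : ∀ j, 0 < d j) {η : ℝ}
    (hη : 0 < η) (S : Finset ι) (h1 : ∀ j ∈ S, d j ≤ η) (h2 : ∀ j, j ∉ S → η ≤ d j) :
    ∑ j ∈ S, d j * de (K + dg d)⁻¹ j ≤ ∑ j ∈ S, η * de (K + dg fun _ => η)⁻¹ j := by
  have hd' : ∀ j, 0 < if j ∈ S then d j else η := fun j => by split_ifs; exacts [hd j, hη]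
  have a1 := anti hK hd' (d' := d) fun j => by split_ifs with h; exacts [le_rfl, h2 j h]
  have a2 := anti hK hd' (d' := fun _ => η) fun j => by split_ifs with h; exacts [h1 j h, le_rfl]
  have t1 := tr hK hd'
  have t2 := tr hK (d := fun _ => η) fun _ => hη
  have t3 := trace_mul_re_nonneg hK a2
  rw [Matrix.mul_sub, trace_sub, Complex.sub_re] at t3
  rw [← Finset.sum_add_sum_compl S] at t1 t2
  generalize (K + dg fun j => if j ∈ S then d j else η)⁻¹ = G' at *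
  have b1 : ∑ j ∈ S, d j * de (K + dg d)⁻¹ j ≤ ∑ j ∈ S, (if j ∈ S then d j else η) * de G' j :=
    Finset.sum_le_sum fun j hj => by
      rw [if_pos hj]; exact mul_le_mul_of_nonneg_left (de_le a1 j) (hd j).le
  have b2 : ∑ j ∈ Sᶜ, η * de (K + dg fun _ => η)⁻¹ j ≤
      ∑ j ∈ Sᶜ, (if j ∈ S then d j else η) * de G' j :=
    Finset.sum_le_sum fun j hj => by
      rw [if_neg (Finset.mem_compl.1 hj)]; exact mul_le_mul_of_nonneg_left (de_le a2 j) hη.le
  linarith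

theorem smul_one (η : ℝ) : (η : ℂ) • (1 : Matrix ι ι ℂ) = dg fun _ => η := by
  rw [smul_one_eq_diagonal, dg]

theorem de_Rs (η : ℝ) (K : Matrix ι ι ℂ) (j : ι) :
    de (Rs η K) j = 1 - η * de (K + dg fun _ => η)⁻¹ j := by
  simp only [de, Rs, Ph, smul_one, Matrix.sub_apply, Matrix.smul_apply, one_apply_eq, smul_eq_mul,
    Complex.sub_re, Complex.one_re, Complex.re_ofReal_mul]

theorem de_Ra (ε : ℝ) (K : Matrix ι ι ℂ) {b : ι → ℝ} (hb : ∀ j, 0 < b j) (j : ι) :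
    de (Ra ε K b) j = 1 - ε / b j ^ 2 * de (K + dg fun j => ε / b j ^ 2)⁻¹ j := by
  have e1 : dg b * K * dg b + dg (fun _ => ε) = dg b * (K + dg fun j => ε / b j ^ 2) * dg b := by
    rw [Matrix.mul_add, Matrix.add_mul, dg_mul_dg, dg_mul_dg]
    congr 2
    funext j
    have := hb j
    field_simp
  have e2 : (dg b)⁻¹ = dg fun j => (b j)⁻¹ := by
    refine inv_eq_right_inv ?_
    rw [dg_mul_dg, ← dg_one]
    congr 1
    funext j
    exact mul_inv_cancel₀ (hb j).ne'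
  rw [Ra, de_Rs, e1, Matrix.mul_inv_rev, Matrix.mul_inv_rev, e2]
  generalize (K + dg fun j => ε / b j ^ 2)⁻¹ = G
  simp only [de, dg, diagonal_mul, mul_diagonal, Complex.re_ofReal_mul, Complex.re_mul_ofReal]
  ring

theorem dsum_le {M : Matrix ι ι ℂ} (hM : Ctr M) {S S' E : Finset ι} (h : S ⊆ S' ∪ E) :
    dsum S M ≤ dsum S' M + E.card := by
  have a1 : dsum S M ≤ dsum (S' ∪ E) M :=
    Finset.sum_le_sum_of_subset_of_nonneg h fun j _ _ => de_nonneg hM.1 j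
  have a2 : dsum (S' ∪ E) M + dsum (S' ∩ E) M = dsum S' M + dsum E M := Finset.sum_union_inter
  have a3 : 0 ≤ dsum (S' ∩ E) M := Finset.sum_nonneg fun j _ => de_nonneg hM.1 j
  have a4 : dsum E M ≤ E.card := by
    have := Finset.sum_le_card_nsmul E (de M) 1 fun j _ => hM.de_le_one j
    rwa [nsmul_eq_mul, mul_one] at this
  linarith

theorem Ra_Ra (ε : ℝ) (P : Matrix ι ι ℂ) {a b c : ι → ℝ} (h : ∀ j, b j * a j = c j) :
    Ra ε (dg a * P * dg a) b = Ra ε P c := by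
  rw [Ra, dg_conj, funext h, Ra]

end MLX

/-- Monotone likelihood: a scaling that favours `S` increases the soft mass on `S`. -/
theorem ml {K : Matrix ι ι ℂ} (hK : K.PosSemidef) {ε κ : ℝ} (hε : 0 < ε) (hκ : 0 < κ) {b : ι → ℝ}
    (hb : ∀ j, 0 < b j) (S E : Finset ι) (h1 : ∀ j ∈ S, j ∉ E → κ ≤ b j)
    (h2 : ∀ j, j ∉ S → j ∉ E → b j ≤ κ) :
    dsum S (Rs (ε / κ ^ 2) K) - 2 * E.card ≤ dsum S (Ra ε K b) := by
  have hη : 0 < ε / κ ^ 2 := by positivity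
  have a1 := MLX.dsum_le (Rs_ctr hK hη) (S := S) (S' := S \ E ∪ E.filter fun j => κ ≤ b j) (E := E)
    fun j hj => by by_cases h : j ∈ E <;> simp [h, hj]
  have a2 := MLX.dsum_le (Ra_ctr hK hε b) (S := S \ E ∪ E.filter fun j => κ ≤ b j) (S' := S)
    (E := E) fun j hj => by
      simp only [Finset.mem_union, Finset.mem_sdiff, Finset.mem_filter] at hj ⊢
      tauto
  have a3 := MLX.core hK (d := fun j => ε / b j ^ 2) (fun j => by have := hb j; positivity) hη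
    (S \ E ∪ E.filter fun j => κ ≤ b j) (fun j hj => ?_) fun j hj => ?_
  · have a4 : dsum (S \ E ∪ E.filter fun j => κ ≤ b j) (Rs (ε / κ ^ 2) K) ≤
        dsum (S \ E ∪ E.filter fun j => κ ≤ b j) (Ra ε K b) := by
      simp only [dsum, MLX.de_Rs, MLX.de_Ra ε K hb, Finset.sum_sub_distrib]
      linarith
    linarith
  · have : κ ≤ b j := by
      simp only [Finset.mem_union, Finset.mem_sdiff, Finset.mem_filter] at hj
      exact hj.elim (fun h => h1 j h.1 h.2) fun h => h.2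
    gcongr
  · have : b j ≤ κ := by
      simp only [Finset.mem_union, Finset.mem_sdiff, Finset.mem_filter, not_or, not_and,
        not_not, not_le] at hj
      by_cases h : j ∈ E
      · exact (hj.2 h).le
      · exact h2 j (fun c => h (hj.1 c)) h
    have := hb j
    gcongr

theorem lowB {P : Matrix ι ι ℂ} (hP : Ctr P) {ε σ : ℝ} (hε : 0 < ε) (hσ : 1 ≤ σ) {a : ι → ℝ}
    (ha : ∀ j, 0 < a j) (S : Finset ι) (h1 : ∀ j ∈ S, σ ≤ a j) (h2 : ∀ j, j ∉ S → a j ≤ σ) :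
    dsum S P - ε * Fintype.card ι ≤ dsum S (Ra ε P a) := by
  have σ0 : 0 < σ := by linarith
  have a1 := ml hP.1 hε σ0 ha S ∅ (fun j hj _ => h1 j hj) fun j hj _ => h2 j hj
  have a2 := dsum_Rs_ge hP (η := ε / σ ^ 2) (by positivity) S
  have a3 : ε / σ ^ 2 * Fintype.card ι ≤ ε * Fintype.card ι :=
    mul_le_mul_of_nonneg_right (div_le_self hε.le (one_le_pow₀ hσ)) (Nat.cast_nonneg _)
  simp only [Finset.card_empty, Nat.cast_zero, mul_zero, sub_zero] at a1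
  linarith

theorem upB {P : Matrix ι ι ℂ} (hP : Ctr P) {ε thr : ℝ} (hε : 0 < ε) (hthr : 0 < thr) {a : ι → ℝ}
    (ha : ∀ j, 0 < a j) (S E : Finset ι) (h1 : ∀ j ∈ S, j ∉ E → a j ≤ thr)
    (h2 : ∀ j, j ∉ S → j ∉ E → thr ≤ a j) :
    dsum S (Ra ε P a) ≤ dsum S P + 2 * E.card + thr ^ 2 * dfc P / ε := by
  have a1 := ml (dg_psd hP.1 a) (ε := ε / thr ^ 2) (κ := thr⁻¹) (by positivity) (by positivity)
    (b := fun j => (a j)⁻¹) (fun j => inv_pos.2 (ha j)) S E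
    (fun j a1 a2 => inv_anti₀ (ha j) (h1 j a1 a2)) fun j a1 a2 => inv_anti₀ hthr (h2 j a1 a2)
  have a2 := dsum_Rs_le hP (η := ε / thr ^ 2) (by positivity) S
  rw [MLX.Ra_Ra _ _ (c := fun _ => 1) fun j => inv_mul_cancel₀ (ha j).ne', Ra, dg_one,
    Matrix.one_mul, Matrix.mul_one, show ε / thr ^ 2 / thr⁻¹ ^ 2 = ε by field_simp] at a1
  rw [show dfc P / (ε / thr ^ 2) = thr ^ 2 * dfc P / ε by field_simp] at a2
  unfold Ra
  linarith

/-- raising `a` off `S` lowers the mass on `S` (exact) -/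
theorem Ra_anti {P : Matrix ι ι ℂ} (hP : P.PosSemidef) {ε : ℝ} (hε : 0 < ε) {a a' : ι → ℝ}
    (ha : ∀ j, 0 < a j) (S : Finset ι) (h1 : ∀ j ∈ S, a' j = a j) (h2 : ∀ j, a j ≤ a' j) :
    dsum S (Ra ε P a') ≤ dsum S (Ra ε P a) := by
  have ha' : ∀ j, 0 < a' j := fun j => (ha j).trans_le (h2 j)
  have a1 := ml (dg_psd hP a') hε one_pos (b := fun j => a j / a' j)
    (fun j => div_pos (ha j) (ha' j)) S ∅
    (fun j hj _ => by rw [h1 j hj, div_self (ha j).ne']) fun j _ _ => (div_le_one (ha' j)).2 (h2 j)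
  rw [MLX.Ra_Ra _ _ (c := a) fun j => div_mul_cancel₀ _ (ha' j).ne'] at a1
  simpa [Ra] using a1

theorem Tst.OK.fwdB {D : Tst ι T} {Θ κm : ℝ} (h : D.OK Θ κm) {ε σ : ℝ} (hε : 0 < ε) (hσ : σ ≤ Θ)
    {a : ι → ℝ} (ha : ∀ j, 1 ≤ a j ∧ a j ≤ σ) (hσ1 : 1 ≤ σ) (O : Finset ι) (hO : D.Cᶜ ⊆ O) :
    dsum O (Ra ε D.P a) ≤ dsum O D.Pp + 2 * D.E0.card + 2 * (D.C ∩ O).card
      + dfc D.Pp * σ ^ 2 / (ε * κm ^ 2) := by
  have σ0 : 0 < σ := by linarith
  have km := h.κm_pos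
  have k0 : 0 < D.κ0 := km.trans_le h.κ0_ge
  have a0 : ∀ j, 0 < a j := fun j => by linarith [(ha j).1]
  have e0 : 0 < ε * (D.κ0 / σ) ^ 2 := by positivity
  have a1 := ml (dg_psd h.hP.1 a) e0 (κ := D.κ0 / σ) (by positivity)
    (b := fun j => D.g0 j / a j) (fun j => div_pos (h.g0_pos j) (a0 j)) O (D.E0 ∪ D.C ∩ O)
    (fun j a1 a2 => ?_) fun j a1 a2 => ?_
  · rw [MLX.Ra_Ra _ _ (c := D.g0) fun j => div_mul_cancel₀ _ (a0 j).ne',
      mul_div_cancel_right₀ _ (by positivity)] at a1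
    have a2 := dsum_mono (Rs_mono (dg_psd h.hP.1 D.g0) h.fwd e0) O
    have a3 := dsum_Rs_le h.hPp e0 O
    have a4 : ((D.E0 ∪ D.C ∩ O).card : ℝ) ≤ D.E0.card + (D.C ∩ O).card := by
      exact_mod_cast Finset.card_union_le _ _
    have a5 : dfc D.Pp / (ε * (D.κ0 / σ) ^ 2) ≤ dfc D.Pp * σ ^ 2 / (ε * κm ^ 2) := by
      have := h.hPp.dfc_nonneg
      have := h.κ0_ge
      rw [show dfc D.Pp / (ε * (D.κ0 / σ) ^ 2) = dfc D.Pp * σ ^ 2 / (ε * D.κ0 ^ 2) by field_simp]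
      gcongr
    unfold Ra at a1 ⊢
    linarith
  · simp only [Finset.mem_union, Finset.mem_inter, not_or, not_and] at a2
    exact div_le_div₀ (h.g0_pos j).le (h.f_out j (fun c => a2.2 c a1) a2.1) (a0 j) (ha j).2
  · simp only [Finset.mem_union, not_or] at a2
    have b1 := h.f_in j (by_contra fun c => a1 (hO (Finset.mem_compl.2 c))) a2.1
    exact (div_le_self (h.g0_pos j).le (ha j).1).trans
      (b1.trans (div_le_div_of_nonneg_left k0.le σ0 hσ))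

theorem Tst.OK.bwdB {D : Tst ι T} {Θ κm : ℝ} (h : D.OK Θ κm) {ε σ : ℝ} (hε : 0 < ε)
    (hσ : 2 * σ ≤ Θ) {a : ι → ℝ} (ha : ∀ j, 1 ≤ a j ∧ a j ≤ σ) (hσ1 : 1 ≤ σ) (τ : T) :
    dsum (D.S τ) (D.Pm τ) - 2 * (D.E τ).card - 4 * ε * Fintype.card ι / κm ^ 2
      ≤ dsum (D.S τ) (Ra ε D.P (sc (D.S τ) (1 / 2) a)) := by
  have σ0 : 0 < σ := by linarith
  have km := h.κm_pos
  have k0 : 0 < D.κ τ := km.trans_le (h.κ_ge τ)
  have a0 : ∀ j, 0 < sc (D.S τ) (1 / 2) a j := fun j => by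
    have := (ha j).1
    unfold sc; split_ifs <;> linarith
  have a1 := ml (h.hPm τ).1 hε (κ := D.κ τ / 2) (by positivity)
    (b := fun j => sc (D.S τ) (1 / 2) a j * D.g τ j) (fun j => mul_pos (a0 j) (h.g_pos τ j))
    (D.S τ) (D.E τ) (fun j a1 a2 => ?_) fun j a1 a2 => ?_
  · have a2 := dg_psd (h.bwd τ) (sc (D.S τ) (1 / 2) a)
    rw [Matrix.mul_sub, Matrix.sub_mul, dg_conj] at a2
    have a3 := dsum_mono (Rs_mono (dg_psd (h.hPm τ).1 _) a2 hε) (D.S τ)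
    have a4 := dsum_Rs_ge (h.hPm τ) (η := ε / (D.κ τ / 2) ^ 2) (by positivity) (D.S τ)
    have a5 : ε / (D.κ τ / 2) ^ 2 * Fintype.card ι ≤ 4 * ε * Fintype.card ι / κm ^ 2 := by
      have := h.κ_ge τ
      rw [show ε / (D.κ τ / 2) ^ 2 * Fintype.card ι = 4 * ε * Fintype.card ι / D.κ τ ^ 2 by
        field_simp; ring]
      gcongr
    unfold Ra at a1 ⊢
    linarith
  · have b1 := h.b_in τ j a1 a2
    have b2 := mul_le_mul_of_nonneg_right (ha j).1 (h.g_pos τ j).le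
    simp only [sc, if_pos a1]
    linarith
  · have b1 := (h.b_out τ j a1 a2).trans (div_le_div_of_nonneg_left k0.le (by positivity) hσ)
    have b2 := mul_le_mul (ha j).2 b1 (h.g_pos τ j).le σ0.le
    rw [show σ * (D.κ τ / (2 * σ)) = D.κ τ / 2 by field_simp] at b2
    simp only [sc, if_neg a1]
    exact b2

end Crest.Agent.R113
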