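import Crest.Agent.R113.IntD
import Crest.Agent.R113.Erg

set_option autoImplicit false
open MeasureTheory
open scoped InnerProductSpace ComplexOrder

namespace Crest.Agent.R113

namespace MainX

theorem diff_le {ζ l p u : ℝ} (ζ0 : 0 < ζ) (ζ1 : ζ ≤ 1 / 100) (l0 : 0 < l) (l1 : l ≤ ζ ^ 2)
    (p0 : 0 ≤ p) (hp : p ≤ ζ * l) (u0 : ζ ≤ u) (u1 : u ≤ 2 * ζ) :
    (l + 2 * p) * (3 * u + 4 * p) ≤ 30 * (ζ * l) := by
  have a1 : ζ * l ≤ 1 * l := mul_le_mul_of_nonneg_right (by linarith) l0.le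
  have a2 : l ≤ 1 := by nlinarith
  have a3 : ζ * l ≤ ζ * 1 := mul_le_mul_of_nonneg_left a2 ζ0.le
  have a4 := mul_le_mul (show l + 2 * p ≤ 3 * l by linarith) (show 3 * u + 4 * p ≤ 10 * ζ by linarith)
    (by linarith) (by linarith)
  linarith

theorem er_le {ζ l p u J W ε : ℝ} (ζ0 : 0 < ζ) (ζ1 : ζ ≤ 1 / 100) (l0 : 0 < l) (l1 : l ≤ ζ ^ 2)
    (p0 : 0 ≤ p) (hp : p * W ≤ ζ * l) (u0 : ζ ≤ u) (u1 : u ≤ 2 * ζ) (hJ : 600000 / ζ ^ 3 ≤ J)
    (W1 : 1 ≤ W) (hW : ζ ^ 2 / l ≤ W) (ε0 : 0 ≤ ε) (hε : ε * W ≤ ζ * l) :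
    18 * p + (l + 2 * p) * (3 * u + 4 * p) + 300000 * (l + p) / J
      + (ζ * l + 2000 * (l + p) / (J * ζ)) + 200 / (J * (ζ ^ 2 / l))
      + ζ ^ 2 / l * (2 * ε + 4 * p + 4 * l ^ 2 / u) + 801 * ε ≤ 863 * (ζ * l) := by
  have J0 : 0 < J := lt_of_lt_of_le (by positivity) hJ
  have hJ' : 600000 ≤ J * ζ ^ 3 := (div_le_iff₀ (by positivity)).1 hJ
  have z2 : J * ζ ^ 3 ≤ J * ζ ^ 2 :=
    mul_le_mul_of_nonneg_left (pow_le_pow_of_le_one ζ0.le (by linarith) (by norm_num)) J0.le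
  have z1 : J * ζ ^ 3 ≤ J * ζ ^ 1 :=
    mul_le_mul_of_nonneg_left (pow_le_pow_of_le_one ζ0.le (by linarith) (by norm_num)) J0.le
  have p1 : p ≤ ζ * l := (le_mul_of_one_le_right p0 W1).trans hp
  have ε1 : ε ≤ ζ * l := (le_mul_of_one_le_right ε0 W1).trans hε
  have a0 : ζ * l ≤ 1 * l := mul_le_mul_of_nonneg_right (by linarith) l0.le
  have a1 := diff_le ζ0 ζ1 l0 l1 p0 p1 u0 u1
  have a2 : 300000 * (l + p) / J ≤ ζ * l := by
    rw [div_le_iff₀ J0]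
    have := mul_le_mul_of_nonneg_left (hJ'.trans z1) l0.le
    linarith
  have a3 : 2000 * (l + p) / (J * ζ) ≤ ζ * l := by
    rw [div_le_iff₀ (by positivity)]
    have := mul_le_mul_of_nonneg_left (hJ'.trans z2) l0.le
    linarith
  have a4 : 200 / (J * (ζ ^ 2 / l)) ≤ ζ * l := by
    rw [div_le_iff₀ (by positivity), show ζ * l * (J * (ζ ^ 2 / l)) = J * ζ ^ 3 by field_simp]
    linarith
  have a5 := mul_le_mul_of_nonneg_left hW ε0
  have a6 := mul_le_mul_of_nonneg_left hW p0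
  have a7 : ζ ^ 2 / l * (4 * l ^ 2 / u) ≤ 4 * (ζ * l) := by
    have u2 : 0 < u := by linarith
    rw [show ζ ^ 2 / l * (4 * l ^ 2 / u) = 4 * (ζ * l) * (ζ / u) by field_simp]
    exact mul_le_of_le_one_right (by positivity) ((div_le_one u2).2 u0)
  linarith

end MainX

theorem main {θ ρ t : ℝ} {m : ℕ → ℕ} {w : X → ℝ} {κ : ℕ → ℝ} {Tb : ℕ → Set X} {q : ℤ → X → ℂ}
    (hθ : Irrational θ) (hs : Spd θ m ρ) (hw : Wt θ m w κ Tb) (hF : Fib θ w q t) :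
    t = 0 ∨ t = 1 := by
  by_contra hcon
  rw [not_or] at hcon
  obtain ⟨t0, t1⟩ := hF.t_bounds
  obtain ⟨τ, hτ⟩ : ∃ τ, τ = t * (1 - t) := ⟨_, rfl⟩
  have τ0 : 0 < τ := hτ ▸ mul_pos (t0.lt_of_ne' hcon.1) (sub_pos.2 (t1.lt_of_ne hcon.2))
  have τ1 : τ ≤ 1 := by nlinarith
  have ρ0 := hs.ρ_pos
  obtain ⟨m0, m1, m2⟩ : ∃ m0 : ℕ, 1 ≤ m0 ∧ 2 / ρ ≤ m0 :=
    ⟨⌈2 / ρ⌉₊ + 1, by omega, by push_cast; linarith [Nat.le_ceil (2 / ρ)]⟩
  obtain ⟨Cs, hCs⟩ : ∃ Cs : ℝ, Cs = 1000 / (τ / 4 * (1 / (4 * m0))) := ⟨_, rfl⟩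
  have Cs0 : 0 < Cs := by rw [hCs]; positivity
  obtain ⟨ζ, ζ0, ζ1, ζ2⟩ : ∃ ζ : ℝ, 0 < ζ ∧ ζ ≤ 1 / 100 ∧ Cs * ζ ≤ τ / 20000 :=
    ⟨min (1 / 100) (τ / 20000 / Cs), by positivity, min_le_left _ _,
      (le_div_iff₀' Cs0).1 (min_le_right _ _)⟩
  obtain ⟨J, hJ, J1, lam, lam0, hch⟩ := hs.chain ⌈600000 / ζ ^ 3⌉₊
  have hJ' : 600000 / ζ ^ 3 ≤ J := (Nat.le_ceil _).trans (Nat.cast_le.2 hJ)
  have hπ : Measurable fun z => (q 0 z).re := Complex.measurable_re.comp (hF.meas 0)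
  obtain ⟨n, n1, hn⟩ := erg_avg hθ hπ hF.pi_bounds (ε := τ * (ζ * lam) / 40) (by positivity)
  rw [hF.int0] at hn
  obtain ⟨W, W1, hW⟩ : ∃ W : ℝ, 1 ≤ W ∧ ζ / lam ≤ W :=
    ⟨1 + ζ / lam, le_add_of_nonneg_right (by positivity), by linarith⟩
  have W0 : 0 < W := by linarith
  have ε0 : 0 < ζ * (ζ * lam) / W := by positivity
  obtain ⟨k0, hk0⟩ := erg_per hπ hF.pi_bounds ε0
  obtain ⟨I0, hI0⟩ := exists_pow_lt_of_lt_one (y := (1 / 2 : ℝ)) (x := min (min ζ (ρ / 2))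
    (min (ζ * (ζ * lam) / W) (ζ * (τ / 4 / (3 + 4 * n))))) (by positivity) (by norm_num)
  obtain ⟨I, h, G, hI, hc⟩ := hch (max I0 k0)
  have hp := (pow_le_pow_of_le_one (by norm_num) (by norm_num : (1 / 2 : ℝ) ≤ 1)
    ((le_max_left _ _).trans hI)).trans hI0.le
  simp only [le_min_iff] at hp
  obtain ⟨⟨p1, p2⟩, p3, p4⟩ := hp
  have v0 := hs.vt_pos I
  have v1 : vt θ m I ≤ (1 / 2) ^ I := (hs.vt_le_pow I).trans
    ((pow_le_pow_of_le_one (by norm_num) (by norm_num) (Nat.le_succ I)).trans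
      (pow_le_pow_left₀ (by norm_num) (by norm_num) I))
  obtain ⟨N, N1, N2⟩ : ∃ N : ℕ, ζ ≤ N * vt θ m I ∧ N * vt θ m I ≤ 2 * ζ := by
    refine ⟨⌈ζ / vt θ m I⌉₊, (div_le_iff₀ v0).1 (Nat.le_ceil _), ?_⟩
    have := mul_le_mul_of_nonneg_right (Nat.ceil_lt_add_one (div_pos ζ0 v0).le).le v0.le
    rw [add_mul, div_mul_cancel₀ _ v0.ne'] at this
    linarith
  have N0 : 1 ≤ N := Nat.pos_of_ne_zero (by rintro rfl; simp at N1; linarith)
  have N0' : (0 : ℝ) < N := by exact_mod_cast N0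
  have l0 : ζ * lam ≤ N * vt θ m h := by
    have a1 := mul_le_mul_of_nonneg_left hc.low N0'.le
    have a2 := mul_le_mul_of_nonneg_right N1 lam0.le
    linarith
  have l1 : N * vt θ m h ≤ ζ ^ 2 := by
    have a0 := hc.h_ge
    have a1 : (1 / 64 : ℝ) ^ (h - I) ≤ (1 / 64) ^ J :=
      pow_le_pow_of_le_one (by norm_num) (by norm_num) (by omega)
    have J0 : (0 : ℝ) < J := by exact_mod_cast J1
    have a2 : (1 / 64 : ℝ) ^ J ≤ 1 / J := by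
      rw [one_div_pow]
      refine one_div_le_one_div_of_le J0 ?_
      exact_mod_cast (Nat.lt_pow_self (by norm_num : 1 < 64)).le
    have a3 : 1 / (J : ℝ) ≤ ζ / 2 := by
      have b1 := (div_le_iff₀ (by positivity)).1 hJ'
      have b2 : J * ζ ^ 3 ≤ J * ζ ^ 1 :=
        mul_le_mul_of_nonneg_left (pow_le_pow_of_le_one ζ0.le (by linarith) (by norm_num)) J0.le
      rw [div_le_iff₀ J0]
      linarith
    have a4 := mul_le_mul_of_nonneg_left ((hs.vt_le (show I ≤ h by omega)).trans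
      (mul_le_mul_of_nonneg_left (a1.trans (a2.trans a3)) v0.le)) N0'.le
    have a5 := mul_le_mul_of_nonneg_right N2 ζ0.le
    linarith
  have T0 : 0 < Th (1 / κ I) ^ 2 := by unfold Th Om; positivity
  obtain ⟨D1, hD1, -⟩ := hF.defect_le (ε := ζ * (ζ * lam) / Th (1 / κ I) ^ 2) (by positivity)
  obtain ⟨D0, D01, hD0⟩ : ∃ D0 : ℕ, 1 ≤ D0 ∧
      Th (1 / κ I) ^ 2 * (2 * D1 / D0) ≤ ζ * (ζ * lam) := by
    refine ⟨⌈Th (1 / κ I) ^ 2 * (2 * D1) / (ζ * (ζ * lam))⌉₊ + 1, by omega, ?_⟩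
    have := (div_le_iff₀' (by positivity)).1
      (Nat.le_ceil (Th (1 / κ I) ^ 2 * (2 * D1) / (ζ * (ζ * lam))))
    rw [← mul_div_assoc, div_le_iff₀ (by positivity)]
    refine this.trans (mul_le_mul_of_nonneg_left (by push_cast; linarith) (by positivity))
  choose! kk hkk using hc.code
  let A : Par :=
    { θ := θ, m := m, w := w, κ := κ, Tb := Tb, I := I, h := h, N := N, m0 := m0, D0 := D0, G := G
      kmax := (Finset.range D0).sup kk + 1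
      M0 := max h ((Finset.range ((Finset.range D0).sup kk + 1)).sup fun k => (G k).sup id) }
  have hA : A.OK ρ lam J :=
    { spd := hs, wt := hw, chain := hc, J_pos := J1, h_le := le_max_left _ _
      G_le := fun k hk i hi => le_max_of_le_right ((Finset.le_sup (f := id) hi).trans
        (Finset.le_sup (f := fun k => (G k).sup id) (Finset.mem_range.2 hk)))
      N_pos := N0, N_le := N2.trans (by linarith), m0_pos := m1, m0_ge := m2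
      vI_le := v1.trans p2, D0_pos := D01
      code := fun D h1 h2 => ⟨kk D, Nat.lt_succ_of_le (Finset.le_sup (Finset.mem_range.2 h2)),
        hkk D h1⟩ }
  have ℓ0 : 0 < N * vt θ m h := lt_of_lt_of_le (by positivity) l0
  have e1 := hA.int_fin hF (ξ := τ / 4) (v := ζ ^ 2 / (N * vt θ m h)) (by positivity) (by linarith)
    ((one_le_div ℓ0).2 l1) n1 fun L => hD1 L D0 D01
  have e2 := hA.integral_er hπ hF.pi_bounds (v := ζ ^ 2 / (N * vt θ m h)) (by positivity) ζ0 ε0.le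
    (hk0 _ (((le_max_right _ _).trans hI).trans (hs.mult.self_le I)))
  have e3 := hA.mu_cC
  have e4 := hA.mu_cC_diff
  have e5 : mu.real A.cC ≤ mu.real A.cK + mu.real (A.cC \ A.cK) :=
    (measureReal_mono fun x hx => (em (x ∈ A.cK)).imp id fun h' => ⟨hx, h'⟩).trans
      (measureReal_union_le _ _)
  have zl : ζ * (ζ * lam) ≤ ζ * (N * vt θ m h) := mul_le_mul_of_nonneg_left l0 ζ0.le
  have pW : (1 / 2) ^ I * W ≤ ζ * (N * vt θ m h) := ((le_div_iff₀ W0).1 p3).trans zl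
  have p0 : (0 : ℝ) ≤ (1 / 2) ^ I := by positivity
  have p5 := (le_mul_of_one_le_right p0 W1).trans pW
  have hvW : ζ ^ 2 / (N * vt θ m h) ≤ W :=
    le_trans (by rw [div_le_div_iff₀ ℓ0 lam0]; linarith) hW
  have e6 : ∫ x, A.er (fun z => (q 0 z).re) (ζ ^ 2 / (N * vt θ m h)) x ∂mu ≤
      863 * (ζ * (N * vt θ m h)) :=
    e2.trans (MainX.er_le (l := N * vt θ m h) ζ0 ζ1 ℓ0 l1 p0 pW N1 N2 hJ' W1 hvW ε0.le
      (by rw [div_mul_cancel₀ _ W0.ne']; exact zl))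
  have e7 := MainX.diff_le ζ0 ζ1 ℓ0 l1 p0 p5 N1 N2
  have e8 : (3 + 4 * n) / (N : ℝ) ≤ τ / 4 := by
    have a1 := N1.trans (mul_le_mul_of_nonneg_left (v1.trans p4) N0'.le)
    rw [mul_left_comm, le_mul_iff_one_le_right ζ0, ← mul_div_assoc,
      one_le_div (by positivity)] at a1
    rw [div_le_iff₀' N0']
    exact a1
  have e9 : 1 / A.Q ≤ ζ * (N * vt θ m h) := by
    change 1 / (1 / κ I) ≤ _
    rw [one_div_one_div]
    exact (hw.κ_le I).trans (v1.trans p5)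
  have e10 : Th A.Q ^ 2 * (ζ * (ζ * lam) / Th (1 / κ I) ^ 2 + 2 * D1 / D0) ≤
      2 * (ζ * (N * vt θ m h)) := by
    change Th (1 / κ I) ^ 2 * _ ≤ _
    rw [mul_add, mul_div_cancel₀ _ T0.ne']
    linarith
  change _ = N * vt θ m h at e3
  change _ ≤ (1 / 2) ^ I + (N * vt θ m h + 2 * (1 / 2) ^ I) * (3 * (N * vt θ m I) + 4 * (1 / 2) ^ I)
    at e4
  change _ ≤ (τ / 4 + (3 + 4 * n) / (N : ℝ)) * _ + 2 * ∫ x, dev (fun j => (q 0 (orb θ x j)).re) t n 0 ∂mu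
    + 1000 / (τ / 4 * (1 / (4 * m0))) * (_ + _ + Th A.Q ^ 2 * (_ + 2 * D1 / D0)) at e1
  rw [← hτ, ← hCs] at e1
  have K0 : 0 ≤ mu.real A.cK := measureReal_nonneg
  have f1 := mul_le_mul_of_nonneg_right e8 K0
  have f2 := mul_le_mul_of_nonneg_left (add_le_add (add_le_add e6 e9) e10) Cs0.le
  have f3 := mul_le_mul_of_nonneg_right ζ2 ℓ0.le
  have f4 := mul_le_mul_of_nonneg_left l0 τ0.le
  have f5 := mul_le_mul_of_nonneg_right ζ1 ℓ0.le
  have f6 : N * vt θ m h / 2 ≤ mu.real A.cK := by linarith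
  have f7 := mul_le_mul_of_nonneg_left f6 τ0.le
  have f8 := mul_pos τ0 ℓ0
  linarith

end Crest.Agent.R113
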