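import Crest.Agent.R113.Defs2

set_option autoImplicit false
open MeasureTheory
open scoped InnerProductSpace ComplexOrder

namespace Crest.Agent.R113

theorem ph_nonneg (x : X) : 0 ≤ ph x := by exact (AddCircle.equivIco (1 : ℝ) 0 x).2.1
theorem ph_lt_one (x : X) : ph x < 1 := by
  exact (AddCircle.equivIco (1 : ℝ) 0 x).2.2.trans_eq (zero_add _)
theorem coe_ph (x : X) : ((ph x : ℝ) : X) = x := by exact AddCircle.coe_equivIco
theorem ph_coe (u : ℝ) : ph (u : X) = Int.fract u := by simp [ph]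
theorem measurable_ph : Measurable ph := by exact measurable_subtype_coe.comp (AddCircle.measurableEquivIco (1 : ℝ) 0).measurable
theorem measurable_yy (m : ℕ → ℕ) (i : ℕ) : Measurable (yy m i) := by
  exact measurable_ph.comp (continuous_nsmul (m i)).measurable
theorem yy_nonneg (m : ℕ → ℕ) (i : ℕ) (x : X) : 0 ≤ yy m i x := by exact ph_nonneg _
theorem yy_lt_one (m : ℕ → ℕ) (i : ℕ) (x : X) : yy m i x < 1 := by exact ph_lt_one _
theorem orb_zero (θ : ℝ) (x : X) : orb θ x 0 = x := by simp [orb]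
theorem orb_orb (θ : ℝ) (x : X) (j k : ℤ) : orb θ (orb θ x j) k = orb θ x (j + k) := by
  simp only [orb, add_assoc, ← AddCircle.coe_add, Int.cast_add, add_mul]
theorem continuous_orb (θ : ℝ) (j : ℤ) : Continuous fun x => orb θ x j := by
  exact continuous_id.add continuous_const
theorem nsmul_orb (θ : ℝ) (m : ℕ → ℕ) (i : ℕ) (x : X) (d : ℤ) :
    m i • orb θ x d = m i • x + (((d : ℝ) * vt θ m i : ℝ) : X) := by
  rw [orb, smul_add, ← AddCircle.coe_nsmul, vt, ← zsmul_eq_mul (Int.fract _) d, AddCircle.coe_zsmul,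
    AddCircle.coe_fract, ← AddCircle.coe_zsmul, nsmul_eq_mul, zsmul_eq_mul, mul_left_comm]
theorem yy_orb (θ : ℝ) (m : ℕ → ℕ) (i : ℕ) (x : X) (d : ℤ) :
    yy m i (orb θ x d) = Int.fract (yy m i x + d * vt θ m i) := by
  rw [yy, nsmul_orb, ← ph_coe, AddCircle.coe_add, yy, coe_ph]
theorem gw_orb (θ : ℝ) (w : X → ℝ) (x : X) (n : ℕ) (j o : ℤ) :
    gw (fun k => w (orb θ (orb θ x j) k)) n o = gw (fun k => w (orb θ x k)) n (j + o) := by
  simp only [gw, orb_orb, add_assoc]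
theorem measurableSet_arc (α ℓ : ℝ) : MeasurableSet (arc α ℓ) := by
  exact measurableSet_lt (measurable_ph.comp (measurable_id.sub_const _)) measurable_const

theorem PhX.mp_ph : MeasurePreserving ph mu (volume.restrict (Set.Ico 0 1)) := by
  have h := UnitAddCircle.measurePreserving_mk 0
  rw [AddCircle.volume_eq_smul_haarAddCircle, ENNReal.ofReal_one, one_smul, zero_add,
    ← Measure.restrict_congr_set Ico_ae_eq_Ioc] at h
  refine ⟨measurable_ph, ?_⟩
  rw [mu, ← h.map_eq, Measure.map_map measurable_ph h.measurable, Measure.map_congr (g := id),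
    Measure.map_id]
  filter_upwards [ae_restrict_mem measurableSet_Ico] with u hu
  exact (ph_coe u).trans (Int.fract_eq_self.2 hu)

theorem PhX.arc_eq (α ℓ : ℝ) : mu.real (arc α ℓ) = volume.real (Set.Iio ℓ ∩ Set.Ico 0 1) := by
  have e : arc α ℓ = (ph ∘ fun x => x - (α : X)) ⁻¹' Set.Iio ℓ := rfl
  rw [← measureReal_restrict_apply measurableSet_Iio, e]
  exact (PhX.mp_ph.comp (measurePreserving_sub_right mu (α : X))).measureReal_preimage
    measurableSet_Iio.nullMeasurableSet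

theorem mu_arc {ℓ : ℝ} (α : ℝ) (h0 : 0 ≤ ℓ) (h1 : ℓ ≤ 1) : mu.real (arc α ℓ) = ℓ := by
  rw [PhX.arc_eq, Set.inter_comm, Set.Ico_inter_Iio, min_eq_right h1, Real.volume_real_Ico_of_le h0,
    sub_zero]
theorem mu_arc_le {ℓ : ℝ} (α : ℝ) (h0 : 0 ≤ ℓ) : mu.real (arc α ℓ) ≤ ℓ := by
  rw [PhX.arc_eq, Set.inter_comm, Set.Ico_inter_Iio, Real.volume_real_Ico_of_le
    (le_min zero_le_one h0), sub_zero]
  exact min_le_right _ _
theorem mem_arc_zero (ℓ : ℝ) (x : X) : x ∈ arc 0 ℓ ↔ ph x < ℓ := by simp [arc]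
theorem mem_arc_neg {ℓ : ℝ} (h0 : 0 ≤ ℓ) (h1 : ℓ ≤ 1) (x : X) :
    x ∈ arc (-ℓ) ℓ ↔ 1 - ℓ ≤ ph x := by
  have a := ph_nonneg x
  have b := ph_lt_one x
  have e : x - ((-ℓ : ℝ) : X) = ((ph x + ℓ : ℝ) : X) := by
    rw [AddCircle.coe_add, coe_ph, AddCircle.coe_neg, sub_neg_eq_add]
  rw [arc, Set.mem_ofPred_eq, e, ph_coe]
  rcases lt_or_ge (ph x + ℓ) 1 with c | c
  · rw [Int.fract_eq_self.2 ⟨by linarith, c⟩]
    constructor <;> intro <;> linarith
  · rw [← Int.fract_sub_one, Int.fract_eq_self.2 ⟨by linarith, by linarith⟩]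
    constructor <;> intro <;> linarith
theorem add_mem_arc (α ℓ u : ℝ) (x : X) : x + (u : X) ∈ arc α ℓ ↔ x ∈ arc (α - u) ℓ := by
  simp only [arc, Set.mem_ofPred_eq, AddCircle.coe_sub, sub_sub_eq_add_sub]
theorem mp_nsmul {k : ℕ} (hk : 0 < k) : MeasurePreserving (fun x : X => k • x) mu mu := by
  simpa using Measure.measurePreserving_zsmul mu (n := (k : ℤ)) (by exact_mod_cast hk.ne')
theorem mp_orb (θ : ℝ) (j : ℤ) : MeasurePreserving (fun x => orb θ x j) mu mu := by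
  exact measurePreserving_add_right mu _
theorem integral_orb (θ : ℝ) (j : ℤ) (F : X → ℝ) : ∫ x, F (orb θ x j) ∂mu = ∫ x, F x ∂mu := by
  exact integral_add_right_eq_self F _

theorem PhX.yy_eq {m : ℕ → ℕ} {i : ℕ} (hm : 0 < m i) {s : Set ℝ} (hs : MeasurableSet s) :
    mu.real (yy m i ⁻¹' s) = volume.real (s ∩ Set.Ico 0 1) := by
  rw [← measureReal_restrict_apply hs]
  exact (PhX.mp_ph.comp (mp_nsmul hm)).measureReal_preimage hs.nullMeasurableSet

theorem mu_yy_Ico {m : ℕ → ℕ} {i : ℕ} (hm : 0 < m i) (a : ℝ) {ℓ : ℝ} (h0 : 0 ≤ ℓ) :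
    mu.real {x | a ≤ yy m i x ∧ yy m i x < a + ℓ} ≤ ℓ := by
  refine le_trans (PhX.yy_eq hm (measurableSet_Ico (a := a) (b := a + ℓ))).le ?_
  refine (measureReal_mono Set.inter_subset_left measure_Ico_lt_top.ne).trans_eq ?_
  rw [Real.volume_real_Ico_of_le (by linarith), add_sub_cancel_left]
theorem mu_yy_lt {m : ℕ → ℕ} {i : ℕ} (hm : 0 < m i) {ℓ : ℝ} (h0 : 0 ≤ ℓ) :
    mu.real {x | yy m i x < ℓ} ≤ ℓ := by
  simpa [yy_nonneg] using mu_yy_Ico hm 0 h0
theorem measurable_ch {α : Type*} [MeasurableSpace α] {A : Set α} (hA : MeasurableSet A) :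
    Measurable (ch A) := by
  exact measurable_const.indicator hA
theorem ch_bounds {α : Type*} (A : Set α) (x : α) : 0 ≤ ch A x ∧ ch A x ≤ 1 := by
  by_cases h : x ∈ A <;> simp [ch, h]
theorem integral_ch {A : Set X} (hA : MeasurableSet A) : ∫ x, ch A x ∂mu = mu.real A := by
  exact integral_indicator_one hA
theorem Mult.dvd_of_le {m : ℕ → ℕ} (h : Mult m) {i j : ℕ} (hij : i ≤ j) : m i ∣ m j := by
  induction j, hij using Nat.le_induction with
  | base => rfl
  | succ j _ ih => exact ih.trans ((dvd_mul_right _ _).trans (h.dvd j))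
theorem Mult.self_le {m : ℕ → ℕ} (h : Mult m) (i : ℕ) : i ≤ m i := by
  rcases i with _ | i
  · exact Nat.zero_le _
  · exact (Nat.lt_pow_self (by norm_num : 1 < 4)).trans_le
      (Nat.le_of_dvd (h.pos _) ((dvd_mul_left _ _).trans (h.dvd i)))
theorem Mult.nsmul_add_inv {m : ℕ → ℕ} (h : Mult m) {i j : ℕ} (hij : i ≤ j) (x : X) :
    m j • (x + ((1 / (m i : ℝ) : ℝ) : X)) = m j • x := by
  obtain ⟨c, hc⟩ := h.dvd_of_le hij
  have : (m i : ℝ) ≠ 0 := by exact_mod_cast (h.pos i).ne'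
  rw [smul_add, add_eq_left, hc, mul_nsmul, ← AddCircle.coe_nsmul (n := m i), nsmul_eq_mul,
    mul_one_div_cancel this, AddCircle.coe_period, smul_zero]

variable {θ ρ : ℝ} {m : ℕ → ℕ}
theorem Spd.vt_le (h : Spd θ m ρ) {ν i : ℕ} (hi : ν ≤ i) :
    vt θ m i ≤ vt θ m ν * (1 / 64) ^ (i - ν) := by
  induction i, hi using Nat.le_induction with
  | base => simp
  | succ j hj ih =>
    have := h.ratio j
    rw [Nat.succ_sub hj, pow_succ, ← mul_assoc]
    linarith
theorem Spd.vt_le_pow (h : Spd θ m ρ) (i : ℕ) : vt θ m i ≤ (1 / 64) ^ (i + 1) := by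
  refine (h.vt_le (Nat.zero_le i)).trans ?_
  rw [pow_succ', Nat.sub_zero]
  exact mul_le_mul_of_nonneg_right h.vt_zero (by positivity)
theorem Spd.et_pos (h : Spd θ m ρ) (i : ℕ) : 0 < et θ m i := by
  have := h.vt_pos i
  unfold et
  positivity
theorem Spd.et_le (h : Spd θ m ρ) (i : ℕ) : et θ m i ≤ (1 / 2) ^ i / 8 := by
  have h1 : (1 : ℝ) ≤ 2 ^ i := one_le_pow₀ one_le_two
  have h2 : (2 : ℝ) ^ i * (1 / 64) ^ i ≤ (1 / 2) ^ i := by
    rw [← mul_pow]
    exact pow_le_pow_left₀ (by norm_num) (by norm_num) i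
  have h3 : et θ m i ≤ 6 * 2 ^ i * (1 / 64) ^ (i + 1) :=
    mul_le_mul (by linarith) (h.vt_le_pow i) (h.vt_pos i).le (by positivity)
  have h4 : (0 : ℝ) ≤ (1 / 2) ^ i := by positivity
  rw [pow_succ] at h3
  linarith
theorem Spd.nb_mul_le (h : Spd θ m ρ) {ν i : ℕ} (hi : ν ≤ i) :
    nb θ m ν * vt θ m i ≤ 2 * (1 / 64) ^ (i - ν) := by
  have h0 := h.vt_pos ν
  have h1 : (nb θ m ν : ℝ) * vt θ m ν ≤ 2 := by
    have a := mul_le_mul_of_nonneg_right
      (Nat.ceil_lt_add_one (one_div_pos.2 h0).le).le h0.le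
    have b : vt θ m ν < 1 := Int.fract_lt_one _
    rw [add_mul, one_div_mul_cancel h0.ne'] at a
    exact a.trans (by linarith)
  refine (mul_le_mul_of_nonneg_left (h.vt_le hi) (Nat.cast_nonneg _)).trans ?_
  rw [← mul_assoc]
  exact mul_le_mul_of_nonneg_right h1 (by positivity)

end Crest.Agent.R113
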