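import Crest.Agent.R113.Code

set_option autoImplicit false
open MeasureTheory
open scoped InnerProductSpace ComplexOrder

namespace Crest.Agent.R113

namespace SpeedsX

/-- next state `(stage, group, position)` -/
def nx (s : ℕ × ℕ × ℕ) : ℕ × ℕ × ℕ :=
  if s.2.2 < 4 * 2 ^ s.2.1 then (s.1, s.2.1, s.2.2 + 1)
  else if s.2.1 < s.1 then (s.1, s.2.1 + 1, 0) else (s.1 + 1, 0, 0)

/-- state of a level -/
def st : ℕ → ℕ × ℕ × ℕ
  | 0 => (0, 0, 0)
  | i + 1 => nx (st i)

/-- exponent of a state -/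
def ex (s : ℕ × ℕ × ℕ) : ℕ := 32 * 2 ^ s.1 + 16 * 2 ^ s.2.1 + s.2.2

theorem st_inv (i : ℕ) : (st i).2.1 ≤ (st i).1 ∧ (st i).2.2 ≤ 4 * 2 ^ (st i).2.1 ∧ (st i).1 ≤ i := by
  induction i with
  | zero => simp [st]
  | succ i ih =>
    rw [st, nx]
    split_ifs <;> dsimp only <;> omega

theorem ex_succ (i : ℕ) : ex (st i) + 1 ≤ ex (st (i + 1)) ∧
    ((st i).2.2 = 4 * 2 ^ (st i).2.1 → ex (st i) + 4 * 2 ^ (st i).2.1 + 1 ≤ ex (st (i + 1))) := by
  obtain ⟨h1, h2, -⟩ := st_inv i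
  have h3 := Nat.pow_le_pow_right (show 0 < 2 by norm_num) h1
  have h4 := Nat.two_pow_pos (st i).2.1
  rw [st, nx]
  split_ifs <;> simp only [ex, pow_succ, pow_zero] <;> omega

theorem ex_mono : StrictMono fun i => ex (st i) :=
  strictMono_nat_of_lt_succ fun i => (ex_succ i).1

theorem st_add {a k l : ℕ} (h : st a = (k, l, 0)) {r : ℕ} (hr : r ≤ 4 * 2 ^ l) :
    st (a + r) = (k, l, r) := by
  induction r with
  | zero => exact h
  | succ r ih => rw [← add_assoc, st, ih (by omega), nx, if_pos (by simpa using hr)]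

theorem exists_start (k : ℕ) : ∀ l ≤ k, ∃ a, st a = (k, l, 0) := by
  have step : ∀ k, (∃ a, st a = (k, 0, 0)) → ∀ l ≤ k, ∃ a, st a = (k, l, 0) := by
    intro k h l
    induction l with
    | zero => exact fun _ => h
    | succ l ih =>
      intro hl
      obtain ⟨a, ha⟩ := ih (by omega)
      exact ⟨a + 4 * 2 ^ l + 1, by
        rw [st, st_add ha le_rfl, nx, if_neg (lt_irrefl _), if_pos (by simpa using hl)]⟩
  induction k with
  | zero => exact step 0 ⟨0, rfl⟩
  | succ k ih =>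
    obtain ⟨a, ha⟩ := ih k le_rfl
    exact step _ ⟨a + 4 * 2 ^ k + 1, by
      rw [st, st_add ha le_rfl, nx, if_neg (lt_irrefl _), if_neg (lt_irrefl _)]⟩

theorem exists_m {θ : ℝ} (hθ : Irrational θ) (a δ : ℕ → ℝ) (ha : ∀ i, 0 < a i ∧ a i < 1)
    (hδ : ∀ i, 0 < δ i) : ∃ m, Mult m ∧ ∀ i, |vt θ m i - a i| < δ i := by
  choose! f f1 f2 f3 using fun i M (hM : 0 < M) => exists_mul_fract hθ hM (ha i).1 (ha i).2 (hδ i)
  let m : ℕ → ℕ := fun i => Nat.rec (f 0 1) (fun i mi => f (i + 1) (mi * 4 ^ i)) i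
  have hp : ∀ i, 0 < m i := fun i => by
    induction i with
    | zero => exact f1 0 1 one_pos
    | succ i ih => exact f1 _ _ (by positivity)
  have hq : ∀ i, 0 < m i * 4 ^ i := fun i => mul_pos (hp i) (by positivity)
  refine ⟨m, ⟨hp, fun i => f2 _ _ (hq i)⟩, fun i => ?_⟩
  rcases i with _ | i
  · exact f3 0 1 one_pos
  · exact f3 _ _ (hq i)

theorem exists_between (top : ℕ → ℕ) (h : ∀ c, c ≤ top c) {D : ℝ} (hD : 128 ^ top 0 ≤ D) :
    ∃ c, 128 ^ top c ≤ D ∧ D ≤ 128 ^ top (c + 1) := by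
  by_contra hc
  have a1 : ∀ c, 128 ^ top c ≤ D := fun c => by
    induction c with
    | zero => exact hD
    | succ c ih => exact (not_le.1 fun hh => hc ⟨c, ih, hh⟩).le
  obtain ⟨c, a2⟩ := pow_unbounded_of_one_lt D (show (1 : ℝ) < 128 by norm_num)
  exact absurd ((pow_le_pow_right₀ (by norm_num) (h c)).trans (a1 c)) (not_le.2 a2)

end SpeedsX

open SpeedsX in
theorem exists_spd {θ : ℝ} (hθ : Irrational θ) : ∃ (m : ℕ → ℕ) (ρ : ℝ), Spd θ m ρ := by
  obtain ⟨ρ, hρ, hc⟩ := exists_code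
  choose! u u1 u2 using hc
  have h4 : ∀ l, 4 ≤ 4 * 2 ^ l := fun l => by have := Nat.two_pow_pos l; omega
  have he : ∀ s, 1 ≤ ex s := fun s => by have := Nat.two_pow_pos s.1; unfold ex; omega
  have he' : ∀ s, (128 : ℝ) ≤ 128 ^ ex s := fun s => le_self_pow₀ (by norm_num) (by have := he s; omega)
  obtain ⟨m, hm, hv⟩ := exists_m hθ
    (fun i => u (4 * 2 ^ (st i).2.1) (4 * 2 ^ (st i).2.1 - 1 - (st i).2.2) / 128 ^ ex (st i))
    (fun i => min (1 / 4) ρ / 128 ^ (32 * 2 ^ (st i).1 + 76 * 2 ^ (st i).2.1))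
    (fun i => by
      obtain ⟨a1, a2⟩ := u1 _ (h4 (st i).2.1) (4 * 2 ^ (st i).2.1 - 1 - (st i).2.2)
      have := he' (st i)
      exact ⟨div_pos (by linarith) (by positivity), (div_lt_one (by positivity)).2 (by linarith)⟩)
    (fun i => by positivity)
  have hb : ∀ i, 1 ≤ vt θ m i * 128 ^ ex (st i) ∧ vt θ m i * 128 ^ ex (st i) ≤ 2 := fun i => by
    obtain ⟨a1, a2⟩ := u1 _ (h4 (st i).2.1) (4 * 2 ^ (st i).2.1 - 1 - (st i).2.2)
    have a3 : min (1 / 4) ρ / 128 ^ (32 * 2 ^ (st i).1 + 76 * 2 ^ (st i).2.1) ≤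
        (1 / 4 : ℝ) / 128 ^ ex (st i) := by
      have := (st_inv i).2.1
      gcongr
      · exact min_le_left _ _
      · norm_num
      · unfold ex; omega
    obtain ⟨a4, a5⟩ := abs_le.1 ((hv i).le.trans a3)
    have a6 : (0 : ℝ) < 128 ^ ex (st i) := by positivity
    rw [← div_le_iff₀ a6, ← le_div_iff₀ a6]
    rw [le_sub_iff_add_le, ← neg_div, ← add_div] at a4
    rw [sub_le_iff_le_add, ← add_div] at a5
    exact ⟨le_trans (by gcongr; linarith) a4, a5.trans (by gcongr; linarith)⟩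
  have hpos : ∀ i, 0 < vt θ m i := fun i =>
    (mul_pos_iff_of_pos_right (by positivity)).1 (zero_lt_one.trans_le (hb i).1)
  have cmp : ∀ i i' d, ex (st i) + d ≤ ex (st i') → vt θ m i' * 128 ^ d ≤ 2 * vt θ m i :=
    fun i i' d h => by
      have a1 : vt θ m i' * 128 ^ (ex (st i) + d) ≤ 2 := le_trans (mul_le_mul_of_nonneg_left
        (pow_le_pow_right₀ (by norm_num) h) (hpos i').le) (hb i').2
      refine le_of_mul_le_mul_right ?_ (show (0 : ℝ) < 128 ^ ex (st i) by positivity)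
      rw [pow_add] at a1
      linarith [(hb i).1]
  have cmp' : ∀ i i' d, ex (st i') ≤ ex (st i) + d → vt θ m i ≤ 2 * vt θ m i' * 128 ^ d :=
    fun i i' d h => by
      have a1 : 1 ≤ vt θ m i' * 128 ^ (ex (st i) + d) := (hb i').1.trans (mul_le_mul_of_nonneg_left
        (pow_le_pow_right₀ (by norm_num) h) (hpos i').le)
      refine le_of_mul_le_mul_right ?_ (show (0 : ℝ) < 128 ^ ex (st i) by positivity)
      rw [pow_add] at a1
      linarith [(hb i).2]
  refine ⟨m, ρ, hm, hρ, hpos, ?_, fun i => ?_, fun j => ⟨4 * 2 ^ j, ?_, ?_, (2 * 128 ^ (4 * 2 ^ j))⁻¹,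
    by positivity, fun I₀ => ?_⟩⟩
  · have := mul_le_mul_of_nonneg_left (he' (st 0)) (hpos 0).le
    linarith [(hb 0).2]
  · have := cmp i (i + 1) 1 (ex_succ i).1
    linarith
  · have := @Nat.lt_two_pow_self j
    omega
  · have := h4 j
    omega
  obtain ⟨k, hk1, hk2⟩ : ∃ k, j ≤ k ∧ I₀ ≤ k := ⟨max j I₀, le_max_left _ _, le_max_right _ _⟩
  choose a ha using fun c => exists_start (max k (j + c)) (j + c) (le_max_right _ _)
  have ha0 : st (a 0) = (k, j, 0) := by rw [ha 0, add_zero, max_eq_left hk1]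
  have hh : st (a 0 + 4 * 2 ^ j) = (k, j, 4 * 2 ^ j) := st_add ha0 le_rfl
  have hG : ∀ c, ∀ i ∈ Finset.Ico (a c) (a c + 4 * 2 ^ (j + c)),
      ∃ r < 4 * 2 ^ (j + c), st i = (max k (j + c), j + c, r) := fun c i hi => by
    obtain ⟨a1, a2⟩ := Finset.mem_Ico.1 hi
    obtain ⟨r, rfl⟩ := Nat.exists_eq_add_of_le a1
    exact ⟨r, by omega, st_add (ha c) (by omega)⟩
  refine ⟨a 0, a 0 + 4 * 2 ^ j, fun c => Finset.Ico (a c) (a c + 4 * 2 ^ (j + c)), ?_, le_rfl, ?_, ?_,
    fun c i hi => ⟨?_, fun e => ?_⟩, fun c c' hcc => ?_, fun c => ?_, fun N => ?_, fun D hD => ?_⟩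
  · have := (st_inv (a 0)).2.2
    rw [ha0] at this
    exact hk2.trans this
  · have := cmp' (a 0) (a 0 + 4 * 2 ^ j) (4 * 2 ^ j) (by rw [ha0, hh]; simp [ex])
    rw [inv_mul_le_iff₀ (by positivity)]
    linarith
  · have a1 := cmp' (a 0) (a 0 + 4 * 2 ^ j) (4 * 2 ^ j) (by rw [ha0, hh]; simp [ex])
    have a2 := (ex_succ (a 0 + 4 * 2 ^ j)).2 (by rw [hh])
    have a3 := cmp (a 0 + 4 * 2 ^ j) (a 0 + 4 * 2 ^ j + 1) (4 * 2 ^ j + 1)
      (by rw [hh] at a2 ⊢; exact a2)
    rw [le_div_iff₀ (hpos _)]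
    have a4 := mul_le_mul_of_nonneg_left a1 (hpos (a 0 + 4 * 2 ^ j + 1)).le
    have a5 := mul_le_mul_of_nonneg_left a3 (hpos (a 0 + 4 * 2 ^ j)).le
    rw [pow_succ] at a5
    nlinarith [sq_nonneg (vt θ m (a 0 + 4 * 2 ^ j))]
  · obtain ⟨r, -, hr⟩ := hG c i hi
    refine ex_mono.le_iff_le.1 ?_
    have a1 := Nat.pow_le_pow_right (show 0 < 2 by norm_num) (le_max_left k (j + c))
    have a2 := Nat.pow_le_pow_right (show 0 < 2 by norm_num) (Nat.le_add_right j c)
    simp only [ha0, hr, ex]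
    omega
  · obtain ⟨r, h1, hr⟩ := hG c i hi
    rw [e, hh] at hr
    simp only [Prod.mk.injEq] at hr
    rw [← hr.2.1] at h1
    omega
  · refine Finset.disjoint_left.2 fun i h1 h2 => hcc ?_
    obtain ⟨r, -, hr⟩ := hG c i h1
    obtain ⟨r', -, hr'⟩ := hG c' i h2
    rw [hr] at hr'
    simp only [Prod.mk.injEq] at hr'
    omega
  · exact Finset.nonempty_Ico.2 (by have := h4 (j + c); omega)
  · have := mul_le_mul_of_nonneg_right (sum_geometric_two_le N)
      (show (0 : ℝ) ≤ (4 * 2 ^ j)⁻¹ by positivity)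
    rw [Finset.sum_mul] at this
    refine le_of_eq_of_le (Finset.sum_congr rfl fun c _ => ?_) (this.trans_eq ?_)
    · rw [Nat.card_Ico, Nat.add_sub_cancel_left]
      push_cast
      rw [pow_add, one_div_pow]
      field_simp
    · push_cast
      rw [div_eq_mul_inv]
  · obtain ⟨c, c1, c2⟩ := exists_between
      (fun c => 32 * 2 ^ max k (j + c) + 20 * 2 ^ (j + c) - 1) (fun c => by
        have := @Nat.lt_two_pow_self (j + c)
        omega) (D := D) (by
        refine le_trans ?_ hD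
        have a1 := (hb (a 0 + 4 * 2 ^ j)).2
        have a2 : ex (st (a 0 + 4 * 2 ^ j)) = 32 * 2 ^ max k (j + 0) + 20 * 2 ^ (j + 0) - 1 + 1 := by
          have := h4 j
          rw [hh, add_zero, max_eq_left hk1]
          simp only [ex]
          omega
        rw [a2, pow_succ] at a1
        rw [le_div_iff₀ (mul_pos four_pos (hpos _))]
        linarith)
    refine ⟨c, ?_⟩
    have hn := h4 (j + c)
    have c3 : 32 * 2 ^ max k (j + (c + 1)) + 20 * 2 ^ (j + (c + 1)) - 1 ≤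
        32 * 2 ^ max k (j + c) + 20 * 2 ^ (j + c) - 1 + 14 * (4 * 2 ^ (j + c)) := by
      rw [← add_assoc]
      rcases le_or_gt k (j + c) with h | h
      · rw [max_eq_right h, max_eq_right (by omega), pow_succ]
        omega
      · rw [max_eq_left h.le, max_eq_left (by omega), pow_succ]
        omega
    have c4 := c2.trans (pow_le_pow_right₀ (by norm_num) c3)
    generalize htop : 32 * 2 ^ max k (j + c) + 20 * 2 ^ (j + c) - 1 = top at c1 c4
    have hp : (0 : ℝ) < 128 ^ top := by positivity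
    have c5 := u2 _ hn (D / 128 ^ top) ((one_le_div hp).2 c1) (by
      rw [div_le_iff₀ hp, mul_comm, ← pow_add]; exact c4)
    rw [Nat.card_Ico, Nat.add_sub_cancel_left]
    refine c5.trans (Nat.mul_le_mul_left 2 (Finset.card_le_card_of_injOn
      (fun i => a c + (4 * 2 ^ (j + c) - 1 - i)) (fun i hi => ?_) fun i hi i' hi' e => ?_))
    · obtain ⟨b1, b2⟩ := Finset.mem_filter.1 (Finset.mem_coe.1 hi)
      rw [Finset.mem_range] at b1
      dsimp only
      refine Finset.mem_coe.2 (Finset.mem_filter.2 ⟨Finset.mem_Ico.2 ⟨by omega, by omega⟩, ?_⟩)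
      have b3 := hv (a c + (4 * 2 ^ (j + c) - 1 - i))
      rw [st_add (ha c) (by omega)] at b3
      dsimp only at b3
      rw [show 4 * 2 ^ (j + c) - 1 - (4 * 2 ^ (j + c) - 1 - i) = i by omega] at b3
      have b4 : top = ex (max k (j + c), j + c, 4 * 2 ^ (j + c) - 1 - i) + i := by
        simp only [ex]
        omega
      have b5 : (D : ℝ) ≤ 128 ^ (32 * 2 ^ max k (j + c) + 76 * 2 ^ (j + c)) :=
        c4.trans (pow_le_pow_right₀ (by norm_num) (by omega))
      generalize ex (max k (j + c), j + c, 4 * 2 ^ (j + c) - 1 - i) = e at b3 b4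
      generalize vt θ m (a c + (4 * 2 ^ (j + c) - 1 - i)) = x at b3 ⊢
      have b6 : (D : ℝ) / 128 ^ top * 128 ^ i * u (4 * 2 ^ (j + c)) i =
          D * (u (4 * 2 ^ (j + c)) i / 128 ^ e) := by
        rw [b4, pow_add]
        field_simp
      rw [b6] at b2
      generalize u (4 * 2 ^ (j + c)) i / 128 ^ e = y at b2 b3
      have b7 : |(D : ℝ) * y - D * x| ≤ ρ := by
        rw [← mul_sub, abs_mul, abs_sub_comm, Nat.abs_cast]
        refine (mul_le_mul b5 b3.le (abs_nonneg _) (by positivity)).trans ?_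
        rw [mul_div_cancel₀ _ (by positivity)]
        exact min_le_right _ _
      have b8 := round_le ((D : ℝ) * y) (round ((D : ℝ) * x))
      have b9 := abs_sub_le ((D : ℝ) * y) (D * x) (round ((D : ℝ) * x))
      linarith
    · have b1 := Finset.mem_range.1 (Finset.mem_filter.1 (Finset.mem_coe.1 hi)).1
      have b2 := Finset.mem_range.1 (Finset.mem_filter.1 (Finset.mem_coe.1 hi')).1
      dsimp only at e
      omega

end Crest.Agent.R113
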