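import Crest.Agent.R113.Ph

set_option autoImplicit false
open MeasureTheory
open scoped InnerProductSpace ComplexOrder

namespace Crest.Agent.R113

namespace WtAX

theorem norm_le_one (x : X) : ‖x‖ ≤ 1 := by
  have := AddCircle.norm_le_half_period (1 : ℝ) (x := x) one_ne_zero
  rw [abs_one] at this
  linarith

theorem exists_delta {θ : ℝ} (hθ : Irrational θ) {ε : ℝ} (hε : 0 < ε) :
    ∃ Δ : ℕ, ∀ x : X, ∃ d : ℕ, d < Δ ∧ ‖orb θ x d‖ ≤ ε := by
  have hd : DenseRange (fun n : ℤ => n • (θ : X)) := by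
    rw [AddCircle.denseRange_zsmul_coe_iff]
    simpa using hθ
  have hd' : DenseRange (fun n : ℕ => n • (θ : X)) := denseRange_zsmul_iff_nsmul.mp hd
  let U : ℕ → Set X := fun d => {x | ‖orb θ x d‖ < ε}
  have hU : ∀ d, IsOpen (U d) := fun d =>
    isOpen_lt (continuous_orb θ d).norm continuous_const
  have hcov : (Set.univ : Set X) ⊆ ⋃ d, U d := by
    intro x _
    obtain ⟨d, hd⟩ := hd'.exists_dist_lt (-x) hε
    refine Set.mem_iUnion.mpr ⟨d, ?_⟩
    show ‖orb θ x d‖ < ε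
    have : orb θ x d = d • (θ : X) - (-x) := by
      unfold orb
      rw [Int.cast_natCast, ← nsmul_eq_mul, AddCircle.coe_nsmul]
      abel
    rw [this, ← dist_eq_norm, dist_comm]
    exact hd
  obtain ⟨t, ht⟩ := isCompact_univ.elim_finite_subcover U hU hcov
  refine ⟨t.sup id + 1, fun x => ?_⟩
  obtain ⟨d, hdt, hx⟩ := Set.mem_iUnion₂.mp (ht (Set.mem_univ x))
  exact ⟨d, Nat.lt_succ_of_le (Finset.le_sup (f := id) hdt), le_of_lt hx⟩

/-- clamp to `[0,1]` -/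
noncomputable def cl (t : ℝ) : ℝ := max 0 (min 1 t)

theorem cl_nonneg (t : ℝ) : 0 ≤ cl t := le_max_left _ _
theorem cl_le (t : ℝ) : cl t ≤ 1 := max_le zero_le_one (min_le_left _ _)
theorem cl_one {t : ℝ} (h : 1 ≤ t) : cl t = 1 := by
  unfold cl; rw [min_eq_left h, max_eq_right zero_le_one]
theorem cl_zero {t : ℝ} (h : t ≤ 0) : cl t = 0 := by
  unfold cl; exact max_eq_left ((min_le_right _ _).trans h)
theorem cl_cont : Continuous cl := continuous_const.max (continuous_const.min continuous_id)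

/-- the bump of level `l` -/
noncomputable def bp (θ : ℝ) (m : ℕ → ℕ) (r : ℕ → ℝ) (l : ℕ) (x : X) : ℝ :=
  cl (2 - ‖x‖ / r l) * cl (2 - 6 * ‖m l • x - ((et θ m l / 2 : ℝ) : X)‖ / et θ m l)

variable {θ ρ : ℝ} {m : ℕ → ℕ} {r : ℕ → ℝ}

theorem bp_nonneg (l : ℕ) (x : X) : 0 ≤ bp θ m r l x := mul_nonneg (cl_nonneg _) (cl_nonneg _)
theorem bp_le (l : ℕ) (x : X) : bp θ m r l x ≤ 1 :=
  mul_le_one₀ (cl_le _) (cl_nonneg _) (cl_le _)
theorem bp_cont (l : ℕ) : Continuous (bp θ m r l) := by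
  unfold bp
  refine (cl_cont.comp ?_).mul (cl_cont.comp ?_)
  · exact continuous_const.sub (continuous_norm.div_const _)
  · refine continuous_const.sub (Continuous.div_const (continuous_const.mul ?_) _)
    exact ((continuous_nsmul (m l)).sub continuous_const).norm

theorem bp_far {l : ℕ} (hr : 0 < r l) {x : X} (hx : 2 * r l ≤ ‖x‖) : bp θ m r l x = 0 := by
  unfold bp
  rw [cl_zero (t := 2 - ‖x‖ / r l), zero_mul]
  rw [sub_nonpos, le_div_iff₀ hr]
  exact hx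

theorem nsmul_sub_eq (l : ℕ) (x : X) :
    m l • x - ((et θ m l / 2 : ℝ) : X) = ((yy m l x - et θ m l / 2 : ℝ) : X) := by
  rw [AddCircle.coe_sub]
  unfold yy
  rw [coe_ph]

theorem bp_out (h : Spd θ m ρ) {l : ℕ} {x : X} (hx : et θ m l ≤ yy m l x) :
    bp θ m r l x = 0 := by
  unfold bp
  have he := h.et_pos l
  have hy := yy_lt_one m l x
  rw [cl_zero (t := 2 - 6 * ‖m l • x - ((et θ m l / 2 : ℝ) : X)‖ / et θ m l), mul_zero]
  rw [sub_nonpos, le_div_iff₀ he, nsmul_sub_eq, UnitAddCircle.norm_eq]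
  set u := yy m l x - et θ m l / 2 with hu
  have : et θ m l / 2 ≤ |u - round u| := by
    rcases le_or_gt (round u) 0 with h0 | h0
    · have : ((round u : ℤ) : ℝ) ≤ 0 := by exact_mod_cast h0
      exact le_trans (by linarith) (le_abs_self _)
    · have : (1 : ℝ) ≤ ((round u : ℤ) : ℝ) := by exact_mod_cast h0
      exact le_trans (by linarith) (neg_le_abs _)
  linarith

theorem bp_one (h : Spd θ m ρ) {l : ℕ} (hr : 0 < r l) {x : X} (hx : ‖x‖ ≤ r l)
    (h1 : et θ m l / 3 ≤ yy m l x) (h2 : yy m l x ≤ 2 * et θ m l / 3) : bp θ m r l x = 1 := by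
  unfold bp
  have he := h.et_pos l
  rw [cl_one (t := 2 - ‖x‖ / r l), cl_one, mul_one]
  · have : 6 * ‖m l • x - ((et θ m l / 2 : ℝ) : X)‖ / et θ m l ≤ 1 := by
      rw [div_le_one he, nsmul_sub_eq]
      have h3 : ‖((yy m l x - et θ m l / 2 : ℝ) : X)‖ ≤ |yy m l x - et θ m l / 2| := by
        rw [UnitAddCircle.norm_eq]
        simpa using round_le (yy m l x - et θ m l / 2) 0
      have h4 : |yy m l x - et θ m l / 2| ≤ et θ m l / 6 := by
        rw [abs_le]; constructor <;> linarith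
      linarith
    linarith
  · have : ‖x‖ / r l ≤ 1 := (div_le_one hr).mpr hx
    linarith

theorem et_lt (h : Spd θ m ρ) (l : ℕ) : et θ m l < 1 := by
  have h1 := h.et_le l
  have h2 : ((1 : ℝ) / 2) ^ l ≤ 1 := pow_le_one₀ (by norm_num) (by norm_num)
  linarith

theorem key (h : Spd θ m ρ) (hr : ∀ l, 0 < r l)
    (hv : ∀ (l : ℕ) (x : X), ∃ d : ℕ, d < 2 ^ l ∧ ‖orb θ x d‖ ≤ r l) {l : ℕ} {z : X}
    (h1 : et θ m l / 3 ≤ yy m l z) (h2 : yy m l z ≤ et θ m l / 3 + vt θ m l) :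
    ∃ d : ℕ, d < 2 ^ l ∧ bp θ m r l (orb θ z d) = 1 := by
  obtain ⟨d, hd, hn⟩ := hv l z
  have hvp := h.vt_pos l
  have he := et_lt h l
  have he0 := h.et_pos l
  have hd' : (d : ℝ) + 1 ≤ 2 ^ l := by exact_mod_cast hd
  have hd0 : (0 : ℝ) ≤ d := Nat.cast_nonneg d
  have hE : et θ m l = 3 * (2 ^ l + 1) * vt θ m l := rfl
  have hA : (d : ℝ) * vt θ m l + vt θ m l ≤ 2 ^ l * vt θ m l := by nlinarith
  have hB : 0 ≤ (d : ℝ) * vt θ m l := mul_nonneg hd0 hvp.le
  have hup : yy m l z + d * vt θ m l ≤ 2 * et θ m l / 3 := by nlinarith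
  have hy : yy m l (orb θ z d) = yy m l z + d * vt θ m l := by
    rw [yy_orb, Int.cast_natCast, Int.fract_eq_self]
    constructor <;> linarith
  refine ⟨d, hd, bp_one h (hr l) hn ?_ ?_⟩
  · rw [hy]; linarith
  · rw [hy]; exact hup

theorem integral_bp_pos (h : Spd θ m ρ) (hr : ∀ l, 0 < r l)
    (hv : ∀ (l : ℕ) (x : X), ∃ d : ℕ, d < 2 ^ l ∧ ‖orb θ x d‖ ≤ r l) (l : ℕ) :
    0 < ∫ x, bp θ m r l x ∂mu := by
  have he := et_lt h l
  have he0 := h.et_pos l
  have hm : (0 : ℝ) < m l := by exact_mod_cast h.mult.pos l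
  have hz : yy m l ((et θ m l / 3 / m l : ℝ) : X) = et θ m l / 3 := by
    unfold yy
    rw [← AddCircle.coe_nsmul, nsmul_eq_mul, mul_div_cancel₀ _ hm.ne', ph_coe, Int.fract_eq_self]
    constructor <;> linarith
  obtain ⟨d, -, hd⟩ := key h hr hv (l := l) (z := ((et θ m l / 3 / m l : ℝ) : X)) hz.ge
    (by rw [hz]; linarith [h.vt_pos l])
  exact (bp_cont l).integral_pos_of_hasCompactSupport_nonneg_nonzero
    (HasCompactSupport.of_compactSpace _) (fun x => bp_nonneg l x) (by rw [hd]; exact one_ne_zero)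

theorem Th_pos (Q : ℝ) : 0 < Th Q := pow_pos (Real.exp_pos _) _

theorem Th_mono {a b : ℝ} (ha : 0 ≤ a) (hab : a ≤ b) : Th a ≤ Th b := by
  unfold Th Om
  exact pow_le_pow_left₀ (Real.exp_pos _).le
    (Real.exp_le_exp.mpr (pow_le_pow_left₀ ha hab 5)) 7

theorem exists_seq (A B ζ : ℕ → ℝ) (k : ℕ → ℕ) (hA : ∀ ν, 0 < A ν) (hζ : ∀ ν, 0 < ζ ν) :
    ∃ c κ : ℕ → ℝ, (∀ ν, 0 < κ ν) ∧ Antitone κ ∧ (∀ ν, κ ν ≤ A ν) ∧
      (∀ ν, κ ν ≤ (ζ ν * Real.exp (-∑ i ∈ Finset.range ν, c i)) ^ k ν) ∧ (∀ ν, B ν ≤ c ν) ∧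
      ∀ ν, Real.exp (-c ν) ≤ κ ν / Th (1 / κ ν) := by
  let F : ℕ → ℝ → ℝ → ℝ := fun ν C κ' => min κ' (min (A ν) ((ζ ν * Real.exp (-C)) ^ k ν))
  let cf : ℕ → ℝ → ℝ := fun ν κ => max (-Real.log (κ / Th (1 / κ))) (B ν)
  let P : ℕ → ℝ × ℝ := fun ν => Nat.rec ((0 : ℝ), F 0 0 1)
    (fun ν p => (p.1 + cf ν p.2, F (ν + 1) (p.1 + cf ν p.2) p.2)) ν
  have P0 : P 0 = (0, F 0 0 1) := rfl
  have PS : ∀ ν, P (ν + 1) = ((P ν).1 + cf ν (P ν).2,
      F (ν + 1) ((P ν).1 + cf ν (P ν).2) (P ν).2) := fun ν => rfl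
  have hF : ∀ ν C κ', 0 < κ' → 0 < F ν C κ' := fun ν C κ' hκ =>
    lt_min hκ (lt_min (hA ν) (pow_pos (mul_pos (hζ ν) (Real.exp_pos _)) _))
  have hpos : ∀ ν, 0 < (P ν).2 := by
    intro ν
    induction ν with
    | zero => rw [P0]; exact hF _ _ _ one_pos
    | succ ν ih => rw [PS]; exact hF _ _ _ ih
  have hsum : ∀ ν, (P ν).1 = ∑ i ∈ Finset.range ν, cf i (P i).2 := by
    intro ν
    induction ν with
    | zero => rw [P0]; simp
    | succ ν ih => rw [Finset.sum_range_succ, ← ih, PS]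
  have hform : ∀ ν, ∃ κ', (P ν).2 = F ν (P ν).1 κ' := by
    intro ν
    cases ν with
    | zero => exact ⟨1, rfl⟩
    | succ ν => exact ⟨(P ν).2, rfl⟩
  refine ⟨fun ν => cf ν (P ν).2, fun ν => (P ν).2, hpos, ?_, ?_, ?_, ?_, ?_⟩
  · refine antitone_nat_of_succ_le fun ν => ?_
    rw [PS]
    exact min_le_left _ _
  · intro ν
    obtain ⟨κ', hκ⟩ := hform ν
    show (P ν).2 ≤ _
    rw [hκ]
    exact (min_le_right _ _).trans (min_le_left _ _)
  · intro ν
    obtain ⟨κ', hκ⟩ := hform ν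
    show (P ν).2 ≤ (ζ ν * Real.exp (-∑ i ∈ Finset.range ν, cf i (P i).2)) ^ k ν
    rw [← hsum]
    conv_lhs => rw [hκ]
    exact (min_le_right _ _).trans (min_le_right _ _)
  · intro ν
    exact le_max_right _ _
  · intro ν
    have hp : 0 < (P ν).2 / Th (1 / (P ν).2) := div_pos (hpos ν) (Th_pos _)
    show Real.exp (-cf ν (P ν).2) ≤ (P ν).2 / Th (1 / (P ν).2)
    rw [← Real.exp_log hp]
    refine Real.exp_le_exp.mpr ?_
    have : -Real.log ((P ν).2 / Th (1 / (P ν).2)) ≤ cf ν (P ν).2 := le_max_left _ _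
    linarith

/-- the exponent -/
noncomputable def ex (θ : ℝ) (m : ℕ → ℕ) (r c : ℕ → ℝ) (x : X) : ℝ := ∑' l, c l * bp θ m r l x
/-- the weight -/
noncomputable def wt (θ : ℝ) (m : ℕ → ℕ) (r c : ℕ → ℝ) (x : X) : ℝ :=
  ‖x‖ * Real.exp (-ex θ m r c x)

variable {c : ℕ → ℝ}

theorem ex_nonneg (hc : ∀ l, 0 ≤ c l) (x : X) : 0 ≤ ex θ m r c x :=
  tsum_nonneg fun l => mul_nonneg (hc l) (bp_nonneg l x)

theorem wt_nonneg (x : X) : 0 ≤ wt θ m r c x := mul_nonneg (norm_nonneg _) (Real.exp_pos _).le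

theorem wt_le_norm (hc : ∀ l, 0 ≤ c l) (x : X) : wt θ m r c x ≤ ‖x‖ := by
  unfold wt
  refine mul_le_of_le_one_right (norm_nonneg _) ?_
  rw [Real.exp_le_one_iff]
  linarith [ex_nonneg (θ := θ) (m := m) (r := r) hc x]

theorem exists_cut (hr : ∀ l, 0 < r l) (ht : Filter.Tendsto r Filter.atTop (nhds 0)) {δ : ℝ}
    (hδ : 0 < δ) : ∃ N : ℕ, ∀ l, N ≤ l → ∀ x : X, δ ≤ ‖x‖ → bp θ m r l x = 0 := by
  have : ∀ᶠ l in Filter.atTop, r l < δ / 2 := ht.eventually (gt_mem_nhds (by linarith))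
  obtain ⟨N, hN⟩ := Filter.eventually_atTop.mp this
  refine ⟨N, fun l hl x hx => bp_far (hr l) ?_⟩
  linarith [hN l hl]

theorem ex_eq {N : ℕ} {x : X} (hN : ∀ l, N ≤ l → bp θ m r l x = 0) :
    ex θ m r c x = ∑ l ∈ Finset.range N, c l * bp θ m r l x := by
  unfold ex
  refine tsum_eq_sum fun l hl => ?_
  rw [hN l (by simpa using hl), mul_zero]

theorem summable_ex (hr : ∀ l, 0 < r l) (ht : Filter.Tendsto r Filter.atTop (nhds 0)) {x : X}
    (hx : x ≠ 0) : Summable fun l => c l * bp θ m r l x := by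
  obtain ⟨N, hN⟩ := exists_cut (θ := θ) (m := m) hr ht (norm_pos_iff.mpr hx)
  refine summable_of_ne_finset_zero (s := Finset.range N) fun l hl => ?_
  rw [hN l (by simpa using hl) x le_rfl, mul_zero]

theorem wt_cont (hr : ∀ l, 0 < r l) (ht : Filter.Tendsto r Filter.atTop (nhds 0))
    (hc : ∀ l, 0 ≤ c l) : Continuous (wt θ m r c) := by
  rw [continuous_iff_continuousAt]
  intro x0
  by_cases hx : x0 = 0
  · subst hx
    have h0 : wt θ m r c 0 = 0 := by simp [wt]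
    unfold ContinuousAt
    rw [h0]
    refine squeeze_zero (fun x => wt_nonneg x) (fun x => wt_le_norm hc x) ?_
    simpa using (continuous_norm (E := X)).tendsto 0
  · have hp : 0 < ‖x0‖ := norm_pos_iff.mpr hx
    obtain ⟨N, hN⟩ := exists_cut (θ := θ) (m := m) hr ht (half_pos hp)
    have hc' : Continuous fun x : X =>
        ‖x‖ * Real.exp (-∑ l ∈ Finset.range N, c l * bp θ m r l x) := by
      refine continuous_norm.mul (Real.continuous_exp.comp (Continuous.neg ?_))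
      exact continuous_finsetSum _ fun l _ => continuous_const.mul (bp_cont l)
    refine hc'.continuousAt.congr ?_
    have : ∀ᶠ x : X in nhds x0, ‖x0‖ / 2 < ‖x‖ :=
      (continuous_norm.tendsto x0).eventually (lt_mem_nhds (half_lt_self hp))
    filter_upwards [this] with x hx'
    unfold wt
    rw [ex_eq (N := N) fun l hl => hN l hl x hx'.le]

theorem wt_le_exp (hr : ∀ l, 0 < r l) (ht : Filter.Tendsto r Filter.atTop (nhds 0))
    (hc : ∀ l, 0 ≤ c l) {l : ℕ} {x : X} (hx : bp θ m r l x = 1) :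
    wt θ m r c x ≤ Real.exp (-c l) := by
  by_cases h0 : x = 0
  · subst h0
    simp only [wt, norm_zero, zero_mul]
    exact (Real.exp_pos _).le
  · have h1 : c l * bp θ m r l x ≤ ex θ m r c x :=
      (summable_ex hr ht h0).le_tsum l fun j _ => mul_nonneg (hc j) (bp_nonneg j x)
    rw [hx, mul_one] at h1
    unfold wt
    calc ‖x‖ * Real.exp (-ex θ m r c x) ≤ 1 * Real.exp (-c l) :=
          mul_le_mul (norm_le_one x) (Real.exp_le_exp.mpr (by linarith)) (Real.exp_pos _).le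
            zero_le_one
      _ = _ := one_mul _

theorem mu_eq : mu = (volume : Measure X) := by
  rw [AddCircle.volume_eq_smul_haarAddCircle]
  simp

theorem mu_ball {ζ : ℝ} (hζ : 0 ≤ ζ) : mu.real {x : X | ‖x‖ < ζ} ≤ 2 * ζ := by
  have h1 : {x : X | ‖x‖ < ζ} ⊆ Metric.closedBall 0 ζ := by
    intro x hx
    rw [mem_closedBall_zero_iff]
    exact le_of_lt hx
  refine (measureReal_mono h1).trans ?_
  rw [mu_eq, Measure.real, AddCircle.volume_closedBall,
    ENNReal.toReal_ofReal (le_min zero_le_one (by linarith))]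
  exact min_le_right _ _

theorem ae_ne_zero : ∀ᵐ x ∂mu, x ≠ (0 : X) := by
  have h1 : mu ({0} : Set X) = 0 := by
    rw [mu_eq, ← Metric.closedBall_zero, AddCircle.volume_closedBall]
    simp
  rw [ae_iff]
  simpa using h1

theorem lint_top (hr : ∀ l, 0 < r l) (ht : Filter.Tendsto r Filter.atTop (nhds 0))
    (hc : ∀ l, 0 ≤ c l) (hi : ∀ l, 1 ≤ c l * ∫ x, bp θ m r l x ∂mu) :
    ∫⁻ x, ENNReal.ofReal (-Real.log (wt θ m r c x)) ∂mu = ⊤ := by
  refine ENNReal.eq_top_of_forall_nnreal_le fun a => ?_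
  obtain ⟨n, hn⟩ := exists_nat_ge (a : ℝ)
  have hint : ∀ l, Integrable (fun x => c l * bp θ m r l x) mu := fun l =>
    (continuous_const.mul (bp_cont l)).integrable_of_hasCompactSupport
      (HasCompactSupport.of_compactSpace _)
  have h1 : (n : ℝ) ≤ ∫ x, ∑ l ∈ Finset.range n, c l * bp θ m r l x ∂mu := by
    rw [integral_finsetSum _ fun l _ => hint l]
    calc (n : ℝ) = ∑ _l ∈ Finset.range n, (1 : ℝ) := by simp
      _ ≤ _ := Finset.sum_le_sum fun l _ => by rw [integral_const_mul]; exact hi l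
  calc (a : ENNReal) = ENNReal.ofReal a := by simp
    _ ≤ ENNReal.ofReal (∫ x, ∑ l ∈ Finset.range n, c l * bp θ m r l x ∂mu) :=
        ENNReal.ofReal_le_ofReal (hn.trans h1)
    _ = ∫⁻ x, ENNReal.ofReal (∑ l ∈ Finset.range n, c l * bp θ m r l x) ∂mu :=
        ofReal_integral_eq_lintegral_ofReal (integrable_finsetSum _ fun l _ => hint l)
          (Filter.Eventually.of_forall fun x =>
            Finset.sum_nonneg fun l _ => mul_nonneg (hc l) (bp_nonneg l x))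
    _ ≤ _ := by
        refine lintegral_mono_ae ?_
        filter_upwards [ae_ne_zero] with x hx
        refine ENNReal.ofReal_le_ofReal ?_
        have hp : 0 < ‖x‖ := norm_pos_iff.mpr hx
        have h2 : ∑ l ∈ Finset.range n, c l * bp θ m r l x ≤ ex θ m r c x :=
          (summable_ex hr ht hx).sum_le_tsum _ fun j _ => mul_nonneg (hc j) (bp_nonneg j x)
        have h3 : Real.log ‖x‖ ≤ 0 := Real.log_nonpos hp.le (norm_le_one x)
        unfold wt
        rw [Real.log_mul hp.ne' (Real.exp_pos _).ne', Real.log_exp]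
        linarith

/-- the exceptional tube -/
def tube (θ : ℝ) (k : ℕ) (ζ : ℝ) : Set X :=
  ⋃ d ∈ Finset.Icc (-(k : ℤ)) k, {x | ‖orb θ x d‖ < ζ}

theorem tube_meas (θ : ℝ) (k : ℕ) (ζ : ℝ) : MeasurableSet (tube θ k ζ) :=
  Finset.measurableSet_biUnion _ fun d _ =>
    (isOpen_lt (continuous_orb θ d).norm continuous_const).measurableSet

theorem tube_le (θ : ℝ) (k : ℕ) {ζ : ℝ} (hζ : 0 ≤ ζ) :
    mu.real (tube θ k ζ) ≤ (2 * k + 1) * (2 * ζ) := by
  unfold tube
  refine (measureReal_biUnion_finset_le _ _).trans ?_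
  have h1 : ∀ d : ℤ, mu.real {x | ‖orb θ x d‖ < ζ} ≤ 2 * ζ := by
    intro d
    have h2 := (mp_orb θ d).measureReal_preimage (s := {x : X | ‖x‖ < ζ})
      (isOpen_lt continuous_norm continuous_const).measurableSet.nullMeasurableSet
    exact (le_of_eq h2).trans (mu_ball hζ)
  refine (Finset.sum_le_sum fun d _ => h1 d).trans ?_
  rw [Finset.sum_const, Int.card_Icc, nsmul_eq_mul]
  have : ((k : ℤ) + 1 - -(k : ℤ)).toNat = 2 * k + 1 := by omega
  rw [this]
  push_cast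
  exact le_rfl

end WtAX

/-- uniform visiting times -/
theorem exists_radii {θ : ℝ} (hθ : Irrational θ) : ∃ r : ℕ → ℝ, (∀ l, 0 < r l) ∧
    Filter.Tendsto r Filter.atTop (nhds 0) ∧
    ∀ (l : ℕ) (x : X), ∃ d : ℕ, d < 2 ^ l ∧ ‖orb θ x d‖ ≤ r l := by
  classical
  have hΔ : ∀ k : ℕ, ∃ Δ : ℕ, ∀ x : X, ∃ d : ℕ, d < Δ ∧ ‖orb θ x d‖ ≤ 1 / ((k : ℝ) + 1) :=
    fun k => WtAX.exists_delta hθ (by positivity)
  choose Δ hΔ using hΔ
  let K : ℕ → ℕ := fun l => Nat.findGreatest (fun k => Δ k ≤ 2 ^ l) l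
  refine ⟨fun l => 1 / ((K l : ℝ) + 1), fun l => by positivity, ?_, fun l x => ?_⟩
  · have hK : Filter.Tendsto K Filter.atTop Filter.atTop := by
      refine Filter.tendsto_atTop_atTop.mpr fun k => ⟨max k (Δ k), fun l hl => ?_⟩
      refine Nat.le_findGreatest (P := fun k => Δ k ≤ 2 ^ l) (le_of_max_le_left hl) ?_
      exact (le_of_max_le_right hl).trans Nat.lt_two_pow_self.le
    exact tendsto_one_div_add_atTop_nhds_zero_nat.comp hK
  · by_cases h0 : K l = 0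
    · refine ⟨0, by positivity, ?_⟩
      simp only [h0, Nat.cast_zero, zero_add, div_one]
      exact WtAX.norm_le_one _
    · have h1 : Δ (K l) ≤ 2 ^ l :=
        Nat.findGreatest_of_ne_zero (P := fun k => Δ k ≤ 2 ^ l) rfl h0
      obtain ⟨d, hd, hn⟩ := hΔ (K l) x
      exact ⟨d, lt_of_lt_of_le hd h1, hn⟩

open WtAX in
theorem exists_wtA {θ ρ : ℝ} {m : ℕ → ℕ} (hθ : Irrational θ) (h : Spd θ m ρ) :
    ∃ (w : X → ℝ) (κ : ℕ → ℝ) (Tb : ℕ → Set X), Continuous w ∧ (∀ x, w x = 0 ↔ x = 0) ∧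
      ∫⁻ x, ENNReal.ofReal (-Real.log (w x)) ∂mu = ⊤ ∧ Wt θ m w κ Tb := by
  obtain ⟨r, hr, ht, hv⟩ := exists_radii hθ
  let ζ : ℕ → ℝ := fun ν => (1 / 2) ^ ν / (2 * (2 * (nb θ m ν : ℝ) + 1))
  have hζ : ∀ ν, 0 < ζ ν := fun ν => by positivity
  have hζ1 : ∀ ν, ζ ν ≤ 1 := by
    intro ν
    have h2 : ((1 : ℝ) / 2) ^ ν ≤ 1 := pow_le_one₀ (by norm_num) (by norm_num)
    have h3 : (0 : ℝ) ≤ nb θ m ν := Nat.cast_nonneg _
    exact (div_le_one (by positivity)).mpr (by linarith)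
  have hI := integral_bp_pos h hr hv
  obtain ⟨c, κ, hκ0, hκa, hκv, hκz, hcB, hce⟩ := exists_seq (vt θ m)
    (fun l => 1 / ∫ x, bp θ m r l x ∂mu) ζ (nb θ m) h.vt_pos hζ
  have hc : ∀ l, 0 ≤ c l := fun l => le_trans (one_div_pos.mpr (hI l)).le (hcB l)
  have hcont := wt_cont (θ := θ) (m := m) hr ht hc
  have hw1 : ∀ x, wt θ m r c x ≤ 1 := fun x => (wt_le_norm hc x).trans (norm_le_one x)
  refine ⟨wt θ m r c, κ, fun ν => tube θ (nb θ m ν) (ζ ν), hcont, fun x => ?_, ?_, ?_⟩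
  · unfold wt
    rw [mul_eq_zero, norm_eq_zero]
    exact ⟨fun h' => h'.resolve_right (Real.exp_pos _).ne', Or.inl⟩
  · exact lint_top hr ht hc fun l => (div_le_iff₀ (hI l)).mp (hcB l)
  refine ⟨hcont.measurable, wt_nonneg, hw1, fun ν => tube_meas _ _ _, fun ν => ?_, hκ0, hκa, hκv,
    ?_, ?_⟩
  · refine (tube_le θ _ (hζ ν).le).trans (le_of_eq ?_)
    simp only [ζ]
    field_simp
  · intro ν x n o hx hn ho hon hy
    set b := ζ ν * Real.exp (-∑ i ∈ Finset.range ν, c i) with hb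
    have hb0 : 0 ≤ b := mul_nonneg (hζ ν).le (Real.exp_pos _).le
    have hb1 : b ≤ 1 := by
      refine mul_le_one₀ (hζ1 ν) (Real.exp_pos _).le ?_
      rw [Real.exp_le_one_iff]
      linarith [Finset.sum_nonneg fun i (_ : i ∈ Finset.range ν) => hc i]
    have hfac : ∀ i ∈ Finset.range n, b ≤ wt θ m r c (orb θ x (o + i)) := by
      intro i hi
      have hi' := Finset.mem_range.mp hi
      have h1 : ζ ν ≤ ‖orb θ x (o + i)‖ := by
        by_contra hlt
        rw [not_le] at hlt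
        refine hx (Set.mem_iUnion₂.mpr ⟨o + i, ?_, hlt⟩)
        rw [Finset.mem_Icc]
        omega
      have h2 : ex θ m r c (orb θ x (o + i)) ≤ ∑ i ∈ Finset.range ν, c i := by
        rw [ex_eq (N := ν) fun l hl => bp_out h (hy i hi' l hl)]
        exact Finset.sum_le_sum fun l _ => mul_le_of_le_one_right (hc l) (bp_le l _)
      exact mul_le_mul h1 (Real.exp_le_exp.mpr (by linarith)) (Real.exp_pos _).le (norm_nonneg _)
    calc κ ν ≤ b ^ nb θ m ν := hκz ν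
      _ ≤ b ^ n := pow_le_pow_of_le_one hb0 hb1 hn
      _ = ∏ _i ∈ Finset.range n, b := by simp
      _ ≤ _ := Finset.prod_le_prod (fun _ _ => hb0) hfac
  · intro I ν l x n hIν hνl h1 h2
    have hvp := h.vt_pos l
    have he0 := h.et_pos l
    have hy1 := yy_lt_one m l x
    have hE : et θ m l = 3 * (2 ^ l + 1) * vt θ m l := rfl
    set d1 := ⌊(yy m l x - et θ m l / 3) / vt θ m l⌋₊ with hd1
    have hq0 : 0 ≤ (yy m l x - et θ m l / 3) / vt θ m l := div_nonneg (by linarith) hvp.le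
    have ha : (d1 : ℝ) * vt θ m l ≤ yy m l x - et θ m l / 3 :=
      (le_div_iff₀ hvp).mp (Nat.floor_le hq0)
    have hb : yy m l x - et θ m l / 3 < ((d1 : ℝ) + 1) * vt θ m l :=
      (div_lt_iff₀ hvp).mp (Nat.lt_floor_add_one _)
    have hd0 : (0 : ℝ) ≤ (d1 : ℝ) * vt θ m l := mul_nonneg (Nat.cast_nonneg _) hvp.le
    have hlo : 2 ^ l ≤ d1 := by
      refine Nat.le_floor ?_
      rw [le_div_iff₀ hvp]
      push_cast
      have : (0 : ℝ) < 2 ^ l * vt θ m l := by positivity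
      nlinarith
    have hup : d1 ≤ n := by
      have : (d1 : ℝ) * vt θ m l ≤ n * vt θ m l := by linarith
      exact_mod_cast le_of_mul_le_mul_right this hvp
    have hz : yy m l (orb θ x (-(d1 : ℤ))) = yy m l x - d1 * vt θ m l := by
      rw [yy_orb]
      push_cast
      rw [neg_mul, ← sub_eq_add_neg, Int.fract_eq_self]
      constructor <;> linarith
    obtain ⟨d, hd, hone⟩ := key h hr hv (l := l) (z := orb θ x (-(d1 : ℤ)))
      (by rw [hz]; linarith) (by rw [hz]; linarith)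
    rw [orb_orb] at hone
    have hmem : n - d1 + d ∈ Finset.range n := by
      rw [Finset.mem_range]
      omega
    have hidx : -(n : ℤ) + ((n - d1 + d : ℕ) : ℤ) = -(d1 : ℤ) + d := by omega
    have hprod : gw (fun j => wt θ m r c (orb θ x j)) n (-(n : ℤ)) ≤
        wt θ m r c (orb θ x (-(d1 : ℤ) + d)) := by
      unfold gw
      rw [← Finset.mul_prod_erase _ _ hmem, hidx]
      exact mul_le_of_le_one_right (wt_nonneg _)
        (Finset.prod_le_one (fun _ _ => wt_nonneg _) fun _ _ => hw1 _)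
    refine hprod.trans ((wt_le_exp hr ht hc hone).trans ((hce l).trans ?_))
    have h3 : Th (1 / κ I) ≤ Th (1 / κ l) :=
      Th_mono (one_div_pos.mpr (hκ0 I)).le
        (one_div_le_one_div_of_le (hκ0 l) (hκa (hIν.trans hνl)))
    exact div_le_div₀ (hκ0 ν).le (hκa hνl) (Th_pos _) h3

end Crest.Agent.R113
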