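import Crest.Agent.R113.Ph

set_option autoImplicit false
open MeasureTheory
open scoped InnerProductSpace ComplexOrder

namespace Crest.Agent.R113

theorem exists_ext {w : X → ℝ} (hw : Continuous w) (h01 : ∀ x, 0 ≤ w x ∧ w x ≤ 1)
    (hz : ∀ x, w x = 0 ↔ x = 0) (hlog : ∫⁻ x, ENNReal.ofReal (-Real.log (w x)) ∂mu = ⊤) :
    ∃ f : ℂ → ℝ, Continuous f ∧ (∀ x, f (ec x) = w x) ∧
      (∀ z : ℂ, ‖z‖ = 1 → 0 ≤ f z ∧ f z ≤ 1) ∧ (∀ z : ℂ, ‖z‖ = 1 → (f z = 0 ↔ z = 1)) ∧
      ∫⁻ t in Set.Ioc (0 : ℝ) (2 * Real.pi),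
          ENNReal.ofReal (- Real.log (f (Complex.exp ((t : ℂ) * Complex.I)))) = ⊤ := by
  have hc : Continuous ec := continuous_subtype_val.comp AddCircle.continuous_toCircle
  have hi : Function.Injective ec :=
    Subtype.val_injective.comp (AddCircle.injective_toCircle one_ne_zero)
  obtain ⟨f, hf⟩ := ContinuousMap.exists_extension' (hc.isClosedEmbedding hi) ⟨w, hw⟩
  have hf' : ∀ x, f (ec x) = w x := fun x => congrFun hf x
  have he : ∀ u : ℝ, ec (u : X) = Complex.exp (((2 * Real.pi * u : ℝ) : ℂ) * Complex.I) := fun u => by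
    rw [ec, AddCircle.toCircle_apply_mk, Circle.coe_exp, div_one]
  have hs : ∀ z : ℂ, ‖z‖ = 1 → ∃ x, ec x = z := fun z hz => by
    refine ⟨((z.arg / (2 * Real.pi) : ℝ) : X), ?_⟩
    rw [he, mul_div_cancel₀ _ (by positivity)]
    simpa [hz] using Complex.norm_mul_exp_arg_mul_I z
  have h0 : ec 0 = 1 := by simp [ec]
  refine ⟨f, f.continuous, hf', fun z hz => ?_, fun z hz' => ?_, ?_⟩
  · obtain ⟨x, rfl⟩ := hs z hz
    rw [hf']
    exact h01 x
  · obtain ⟨x, rfl⟩ := hs z hz'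
    rw [hf', hz, ← h0, hi.eq_iff]
  · have h1 := lintegral_image_eq_lintegral_abs_deriv_mul (s := Set.Ioc (0 : ℝ) 1)
      (f := fun u => 2 * Real.pi * u) (f' := fun _ => 2 * Real.pi) measurableSet_Ioc
      (fun u _ => by simpa using ((hasDerivAt_id u).const_mul (2 * Real.pi)).hasDerivWithinAt)
      (fun u _ v _ h => mul_left_cancel₀ (by positivity) h)
      fun t => ENNReal.ofReal (- Real.log (f (Complex.exp ((t : ℂ) * Complex.I))))
    rw [Set.image_mul_left_Ioc (by positivity), mul_zero, mul_one] at h1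
    have h2 := UnitAddCircle.lintegral_preimage 0 fun x => ENNReal.ofReal (-Real.log (w x))
    rw [zero_add, AddCircle.volume_eq_smul_haarAddCircle, ENNReal.ofReal_one, one_smul, hlog] at h2
    rw [h1, lintegral_const_mul' _ _ ENNReal.ofReal_ne_top]
    simp only [← he, hf', h2]
    exact ENNReal.mul_top (by simp [Real.pi_ne_zero])

end Crest.Agent.R113
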